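import Vale.Agent.P227.AlgA

/-! The algebraic inequality (checked numerically). -/

namespace Vale.Agent.P227

open scoped ContDiff Matrix RealInnerProductSpace Topology
open MeasureTheory Filter

variable {n : ℕ}

namespace AlgX

/-- contraction of the index slot with `B` -/
noncomputable def LL (B : Mat n) (X : Fin n → Mat n) (c : Fin n) : Mat n := ∑ k, B k c • X k

theorem contr {B : Mat n} (hB : B.IsSymm) (Q : Mat n) (f g : Fin n → Mat n) :
    ∑ k, ∑ l, (B * Q * B) k l * (f k * g l).trace =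
      ∑ c, ∑ d, Q c d * (LL B f c * LL B g d).trace := by
  simp only [LL, Finset.sum_mul, Finset.mul_sum, Matrix.trace_sum, Matrix.smul_mul,
    Matrix.mul_smul, Matrix.trace_smul, smul_eq_mul, Matrix.mul_apply]
  calc _ = ∑ k, ∑ l, ∑ c, ∑ d, Q c d * (B l d * (B k c * (f k * g l).trace)) := by
        refine Finset.sum_congr rfl fun k _ => Finset.sum_congr rfl fun l _ => ?_
        rw [Finset.sum_comm]
        refine Finset.sum_congr rfl fun c _ => Finset.sum_congr rfl fun d _ => ?_
        rw [hB.apply l d]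
        ring
    _ = ∑ k, ∑ c, ∑ d, ∑ l, Q c d * (B l d * (B k c * (f k * g l).trace)) := by
        refine Finset.sum_congr rfl fun k _ => ?_
        rw [Finset.sum_comm]
        exact Finset.sum_congr rfl fun c _ => Finset.sum_comm
    _ = _ := by
        rw [Finset.sum_comm]
        refine Finset.sum_congr rfl fun c _ => ?_
        rw [Finset.sum_comm]
        exact Finset.sum_congr rfl fun d _ => Finset.sum_comm

theorem entry {B : Mat n} (hB : B.IsSymm) (X : Fin n → Mat n) (c i j : Fin n) :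
    (B * LL B X c * B) i j = ∑ k, ∑ a, ∑ b, B k c * B a i * B b j * X k a b := by
  simp only [LL, Matrix.mul_apply, Matrix.sum_apply, Matrix.smul_apply, smul_eq_mul,
    Finset.sum_mul, Finset.mul_sum]
  rw [Finset.sum_comm]
  refine Finset.sum_congr rfl fun k _ => ?_
  rw [Finset.sum_comm]
  refine Finset.sum_congr rfl fun a _ => Finset.sum_congr rfl fun b _ => ?_
  rw [hB.apply a i]
  ring

theorem sym {B : Mat n} (hB : B.IsSymm) {X : Fin n → Mat n} (hX : Sym3 fun k i j => X k i j) :
    Sym3 fun k i j => (B * LL B X k * B) i j := by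
  refine ⟨fun c i j => ?_, fun c i j => ?_⟩
  · simp only [entry hB]
    rw [Finset.sum_comm]
    refine Finset.sum_congr rfl fun a _ => Finset.sum_congr rfl fun k _ =>
      Finset.sum_congr rfl fun b _ => ?_
    rw [show X k a b = X a k b from hX.1 k a b]
    ring
  · simp only [entry hB]
    refine Finset.sum_congr rfl fun k _ => ?_
    rw [Finset.sum_comm]
    refine Finset.sum_congr rfl fun b _ => Finset.sum_congr rfl fun a _ => ?_
    rw [show X k a b = X k b a from hX.2 k a b]
    ring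

theorem LL_conj (B A C : Mat n) (X : Fin n → Mat n) (c : Fin n) :
    LL B (fun k => A * X k * C) c = A * LL B X c * C := by
  simp only [LL, Finset.sum_mul, Finset.mul_sum, Matrix.smul_mul, Matrix.mul_smul]

theorem LL_dS (B τ P : Mat n) (T Ψ : Fin n → Mat n) (c : Fin n) :
    LL B (fun k => dS τ P (T k) (Ψ k)) c = dS τ P (LL B T c) (LL B Ψ c) := by
  simp only [LL, dS, Finset.sum_mul, Finset.mul_sum, Matrix.smul_mul, Matrix.mul_smul, smul_sub,
    Finset.sum_sub_distrib]

theorem LL_dM (B τ P : Mat n) (T Ψ : Fin n → Mat n) (c : Fin n) :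
    LL B (fun k => dM τ P (T k) (Ψ k)) c = dM τ P (LL B T c) (LL B Ψ c) := by
  simp only [LL, dM, Finset.sum_mul, Finset.mul_sum, Matrix.smul_mul, Matrix.mul_smul, smul_sub,
    smul_add, Finset.sum_sub_distrib, Finset.sum_add_distrib]

theorem tr_conj (B X Y : Mat n) : (B * X * B * Y).trace = (X * (B * Y * B)).trace := by
  rw [Matrix.mul_assoc, Matrix.mul_assoc, Matrix.trace_mul_comm]
  simp only [Matrix.mul_assoc]

theorem dS_conj (B P T Ψ : Mat n) :
    dS (B * B) P T Ψ = B * dS 1 (B * P * B) (B * T * B) (B * Ψ * B) * B := by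
  simp only [dS]
  noncomm_ring

theorem dM_conj (B P T Ψ : Mat n) :
    dM (B * B) P T Ψ = B * dM 1 (B * P * B) (B * T * B) (B * Ψ * B) * B := by
  simp only [dM]
  noncomm_ring

theorem kB_eq {B : Mat n} (hB : B.IsSymm) (P : Mat n) (T Ψ : Fin n → Mat n) :
    kB (B * B) P T Ψ =
      kB 1 (B * P * B) (fun c => B * LL B T c * B) fun c => B * LL B Ψ c * B := by
  have h1 := contr hB 1 (fun k => dS (B * B) P (T k) (Ψ k)) Ψ
  have h2 := contr hB (B * P * B) Ψ fun k => B * B * T k * (B * B)
  rw [Matrix.mul_one] at h1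
  rw [show B * (B * P * B) * B = B * B * P * (B * B) by noncomm_ring] at h2
  simp only [Matrix.trace_mul_comm (Ψ _)] at h2
  unfold kB
  rw [h1, h2]
  refine congrArg₂ _ (Finset.sum_congr rfl fun c _ => Finset.sum_congr rfl fun d _ => ?_)
    (Finset.sum_congr rfl fun c _ => Finset.sum_congr rfl fun d _ => ?_)
  · rw [LL_dS, dS_conj, tr_conj]
  · rw [LL_conj, Matrix.trace_mul_comm, Matrix.one_mul, Matrix.mul_one, Matrix.one_mul,
      Matrix.mul_one, ← tr_conj B (B * LL B T d * B)]
    simp only [Matrix.mul_assoc]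

theorem kC_eq {B : Mat n} (hB : B.IsSymm) (P : Mat n) (T Ψ : Fin n → Mat n) :
    kC (B * B) P T Ψ =
      kC 1 (B * P * B) (fun c => B * LL B T c * B) fun c => B * LL B Ψ c * B := by
  have h1 := contr hB 1 (fun k => dM (B * B) P (T k) (Ψ k)) T
  have h2 := contr hB (B * P * B * (B * P * B)) (fun k => B * B * T k * (B * B)) T
  rw [Matrix.mul_one] at h1
  rw [show B * (B * P * B * (B * P * B)) * B = B * B * P * (B * B) * P * (B * B) by
    noncomm_ring] at h2
  unfold kC
  rw [h1, h2]
  refine congrArg₂ _ (Finset.sum_congr rfl fun c _ => Finset.sum_congr rfl fun d _ => ?_)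
    (Finset.sum_congr rfl fun c _ => Finset.sum_congr rfl fun d _ => ?_)
  · rw [LL_dM, dM_conj, tr_conj]
  · rw [LL_conj]
    simp only [Matrix.one_mul, Matrix.mul_one]
    rw [← tr_conj B (B * LL B T c * B)]
    simp only [Matrix.mul_assoc]

end AlgX

/-- `τ = B B`, `B` symmetric: `kB τ P T Ψ = kB 1 P' T' Ψ'` and the same for `kC`, where
`P' = B P B`, `T' c = B (∑ k, B k c • T k) B`, `Ψ' c = B (∑ k, B k c • Ψ k) B` (bilinearity of each
trace in its two indexed slots, cyclicity of the trace); `T'`, `Ψ'` are again `Sym3`. -/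
theorem alg {τ P : Mat n} {T Ψ : Fin n → Mat n} (hτ : τ.PosSemidef) (hP : P.IsSymm)
    (hT : Sym3 fun k i j => T k i j) (hΨ : Sym3 fun k i j => Ψ k i j) :
    kC τ P T Ψ ≤ 2 * kB τ P T Ψ := by
  obtain ⟨B, hB, rfl⟩ := exists_sqrt hτ
  rw [AlgX.kB_eq hB, AlgX.kC_eq hB]
  refine alg_one ?_ (AlgX.sym hB hT) (AlgX.sym hB hΨ)
  rw [Matrix.IsSymm, Matrix.transpose_mul, Matrix.transpose_mul, hB.eq, hP.eq, Matrix.mul_assoc]

end Vale.Agent.P227
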