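import Vale.Agent.P227.MatA

/-! The algebraic inequality in an orthonormal frame. -/

namespace Vale.Agent.P227

open scoped ContDiff Matrix RealInnerProductSpace Topology
open MeasureTheory Filter

variable {n : ℕ}

namespace AlgA

theorem symm_of {T : Fin n → Mat n} (hT : Sym3 fun k i j => T k i j) (k : Fin n) :
    (T k).IsSymm := Matrix.IsSymm.ext fun i j => hT.2 k j i

/-- the contraction of two symmetric tensors through a matrix, in two ways -/
theorem cross (Q : Mat n) {T Ψ : Fin n → Mat n} (hT : Sym3 fun k i j => T k i j)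
    (hΨ : Sym3 fun k i j => Ψ k i j) :
    ∑ i, ∑ j, Q i j * (T j * Ψ i).trace = ∑ k, (Ψ k * (Q * T k)).trace := by
  have h1 : ∀ i j, Q i j * (T j * Ψ i).trace = ∑ k, ∑ a, Ψ k a i * (Q i j * T k j a) := by
    intro i j
    simp only [Matrix.trace, Matrix.diag_apply, Matrix.mul_apply, Finset.mul_sum]
    refine Finset.sum_congr rfl fun k _ => Finset.sum_congr rfl fun a _ => ?_
    have e1 : T j k a = T k j a := hT.1 j k a
    have e2 : Ψ i a k = Ψ a i k := hΨ.1 i a k
    have e3 : Ψ a i k = Ψ a k i := hΨ.2 a i k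
    have e4 : Ψ a k i = Ψ k a i := hΨ.1 a k i
    rw [e1, e2, e3, e4]
    ring
  have h2 : ∀ k, (Ψ k * (Q * T k)).trace = ∑ a, ∑ i, ∑ j, Ψ k a i * (Q i j * T k j a) := by
    intro k
    simp only [Matrix.trace, Matrix.diag_apply, Matrix.mul_apply, Finset.mul_sum]
  simp only [h1, h2]
  calc ∑ i, ∑ j, ∑ k, ∑ a, Ψ k a i * (Q i j * T k j a)
      = ∑ i, ∑ k, ∑ a, ∑ j, Ψ k a i * (Q i j * T k j a) :=
        Finset.sum_congr rfl fun i _ => by
          rw [Finset.sum_comm]
          exact Finset.sum_congr rfl fun k _ => Finset.sum_comm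
    _ = ∑ k, ∑ a, ∑ i, ∑ j, Ψ k a i * (Q i j * T k j a) := by
        rw [Finset.sum_comm]
        exact Finset.sum_congr rfl fun k _ => Finset.sum_comm

/-- the inequality for one slice: it is `0 ≤ 2 |S - (T P + P T) / 2|²` -/
theorem slice {P T S : Mat n} (hP : P.IsSymm) (hT : T.IsSymm) (hS : S.IsSymm) :
    (dM 1 P T S * T).trace + (T * (P * P * T)).trace ≤
      2 * ((dS 1 P T S * S).trace + (S * (P * T)).trace) := by
  have hM : (S - (1 / 2 : ℝ) • (T * P + P * T)).IsSymm := by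
    refine hS.sub (Matrix.IsSymm.smul ?_ _)
    show (T * P + P * T)ᵀ = _
    rw [Matrix.transpose_add, Matrix.transpose_mul, Matrix.transpose_mul, hP.eq, hT.eq, add_comm]
  have h0 := trace_sq_nonneg Matrix.PosSemidef.one hM
  have e1 : (T * (P * S)).trace = (S * (P * T)).trace := by
    rw [← Matrix.trace_transpose, Matrix.transpose_mul, Matrix.transpose_mul, hP.eq, hT.eq, hS.eq,
      Matrix.mul_assoc]
  have e2 : (P * (T * S)).trace = (S * (P * T)).trace := by
    rw [← Matrix.mul_assoc, Matrix.trace_mul_comm]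
  have e3 : (P * (S * T)).trace = (S * (P * T)).trace := by
    rw [← e1, ← Matrix.mul_assoc, Matrix.trace_mul_comm]
  have e4 : (S * (T * P)).trace = (S * (P * T)).trace := by
    rw [← e3, ← Matrix.mul_assoc, Matrix.trace_mul_comm]
  have e5 : (P * (P * (T * T))).trace = (T * (P * (P * T))).trace := by
    rw [Matrix.trace_mul_comm T]
    simp only [Matrix.mul_assoc]
  have e6 : (P * (T * (T * P))).trace = (T * (P * (P * T))).trace := by
    rw [← e5, Matrix.trace_mul_comm P (P * (T * T))]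
    simp only [Matrix.mul_assoc]
  have e7 : (T * (P * (T * P))).trace = (P * (T * (P * T))).trace := by
    rw [Matrix.trace_mul_comm P]
    simp only [Matrix.mul_assoc]
  simp only [dM, dS, Matrix.one_mul, Matrix.mul_one, Matrix.sub_mul, Matrix.mul_sub,
    Matrix.add_mul, Matrix.mul_add, Matrix.smul_mul, Matrix.mul_smul, Matrix.trace_sub,
    Matrix.trace_add, Matrix.trace_smul, smul_eq_mul, Matrix.mul_assoc, smul_add] at h0 ⊢
  linarith

end AlgA

/-- Case `τ = 1`. With `t a b k = T k a b`, `ψ a b k = Ψ k a b`, `U a b k = ∑ j, t a b j * P j k`,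
`X = ⟨ψ, U⟩`, `Z = |U|²`, `Y = ∑ U a b k * U b k a`: `kB = |ψ|² - X`, `kC = 2X - Z - Y`, and
`2|ψ|² - 4X + Z + Y = 2 |ψ - (U_{abk} + U_{bka} + U_{kab})/3|² + (1/6) |U_{abk} - U_{bka}|²`. -/
theorem alg_one {P : Mat n} {T Ψ : Fin n → Mat n} (hP : P.IsSymm)
    (hT : Sym3 fun k i j => T k i j) (hΨ : Sym3 fun k i j => Ψ k i j) :
    kC 1 P T Ψ ≤ 2 * kB 1 P T Ψ := by
  have hB : kB 1 P T Ψ = ∑ k, ((dS 1 P (T k) (Ψ k) * Ψ k).trace + (Ψ k * (P * T k)).trace) := by
    rw [Finset.sum_add_distrib, ← AlgA.cross P hT hΨ]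
    simp [kB, Matrix.one_apply]
  have hC : kC 1 P T Ψ =
      ∑ k, ((dM 1 P (T k) (Ψ k) * T k).trace + (T k * (P * P * T k)).trace) := by
    rw [Finset.sum_add_distrib, ← AlgA.cross (P * P) hT hT]
    simp only [Matrix.trace_mul_comm (T _) (T _)]
    simp [kC, Matrix.one_apply]
  rw [hB, hC, Finset.mul_sum]
  exact Finset.sum_le_sum fun k _ => AlgA.slice hP (AlgA.symm_of hT k) (AlgA.symm_of hΨ k)

end Vale.Agent.P227
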