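import Vale.Agent.P227.Ident

/-! Pointwise identities for a moment potential, part 2 (all checked numerically). -/

namespace Vale.Agent.P227

open scoped ContDiff Matrix RealInnerProductSpace Topology
open MeasureTheory Filter

variable {n : ℕ}

variable {Θ W : E n → ℝ}

namespace Ident2Aux

theorem cyc (A B C F : Mat n) : (A * B * C * F).trace = (C * F * A * B).trace := by
  rw [mul_assoc (A * B), Matrix.trace_mul_comm, mul_assoc (C * F)]

theorem cubic {τ A B C : Mat n} (hτ : τ.IsSymm) (hA : A.IsSymm) (hB : B.IsSymm) (hC : C.IsSymm) :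
    (τ * B * τ * A * τ * C).trace = (τ * A * τ * B * τ * C).trace := by
  rw [← Matrix.trace_transpose]
  simp only [Matrix.transpose_mul, hτ.eq, hA.eq, hB.eq, hC.eq]
  rw [Matrix.trace_mul_comm]
  simp only [mul_assoc]

theorem sumQ {τ : Mat n} {T : Fin n → Mat n} (hτ : τ.IsSymm) (hT : Sym3 fun k i j => T k i j) :
    ∑ k, ∑ l, τ k l • (T k * τ * T l) = Matrix.of fun a b => (τ * T a * τ * T b).trace := by
  ext a b
  have h1 : ∀ k a p, T k a p = T a k p := hT.1
  have h2 : ∀ l q b, T l q b = T b q l := fun l q b =>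
    (hT.1 l q b).trans ((hT.2 q l b).trans (hT.1 q b l))
  simp only [Matrix.sum_apply, Matrix.smul_apply, Matrix.of_apply, Matrix.trace, Matrix.diag,
    Matrix.mul_apply, smul_eq_mul, Finset.sum_mul, Finset.mul_sum]
  rw [Finset.sum_comm]
  refine Finset.sum_congr rfl fun l _ => ?_
  rw [Finset.sum_comm]
  refine Finset.sum_congr rfl fun q _ => ?_
  rw [Finset.sum_comm]
  refine Finset.sum_congr rfl fun p _ => Finset.sum_congr rfl fun k _ => ?_
  rw [h1 k a p, h2 l q b, hτ.apply l k]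
  ring

end Ident2Aux

open Ident2Aux

/-- with `τ = B B`, `qf Q ξ = tr (τ T_ξ τ T_ξ)` where `T_ξ = ∑ ξ a • T a` -/
theorem LPot.Q_psd (h : LPot Θ W) (x : E n) : (Qm Θ x).PosSemidef := by
  refine psd_of_qf (Matrix.IsSymm.ext fun a b => cyc _ _ _ _) fun ξ => ?_
  have h1 : (∑ a, ξ a • hess (D a Θ) x).IsSymm := by
    rw [Matrix.IsSymm, Matrix.transpose_sum]
    exact Finset.sum_congr rfl fun a _ => by
      rw [Matrix.transpose_smul, (hess_symm (smo_D a h.sT) x).eq]
  refine (trace_sq_nonneg (h.tau_posDef x).posSemidef h1).trans_eq ?_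
  simp only [qf, Qm, Matrix.of_apply, Finset.mul_sum, Finset.sum_mul, Matrix.trace_sum,
    Matrix.mul_smul, Matrix.smul_mul, Matrix.trace_smul, smul_eq_mul]
  rw [Finset.sum_comm]
  exact Finset.sum_congr rfl fun a _ => Finset.sum_congr rfl fun b _ => by ring
/-- Apply `Lop` to `∑_b τ_{ib} h_{bc} = δ_{ic}` (`Lop_sum`, `Lop_mul`, `L_hess`, `MD_tau`):
`(Lτ) h + τ (Lh) - 2 ∑_{pq} τ^{pq} τ T_p τ T_q = 0`, and `∑_{pq} τ^{pq} T_p τ T_q = Q` by the
symmetry of `t`. Multiply by `τ` on the right. -/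
theorem LPot.L_tau (h : LPot Θ W) (x : E n) :
    (Matrix.of fun i j => Lop (tau Θ) (ent (tau Θ) i j) x) =
      tau Θ x * hess W x * tau Θ x - tau Θ x + tau Θ x * Qm Θ x * tau Θ x := by
  set Λ : Mat n := Matrix.of fun i j => Lop (tau Θ) (ent (tau Θ) i j) x with hΛ
  have hQ : ∑ k, ∑ l, tau Θ x k l • (hess (D k Θ) x * tau Θ x * hess (D l Θ) x) = Qm Θ x :=
    sumQ (h.tau_symm x) (hessD_sym h.sT x)
  have key : tau Θ x * (hess Θ x - hess W x + Qm Θ x) + Λ * hess Θ x +
      (2 : ℝ) • ∑ k, ∑ l, tau Θ x k l • (MD k (tau Θ) x * MD l (hess Θ) x) = 0 := by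
    ext i c
    have e1 : (fun y => ∑ b, ent (tau Θ) i b y * ent (hess Θ) b c y) =
        fun _ => (1 : Mat n) i c := by
      funext y
      rw [← h.tau_mul y, Matrix.mul_apply]
      rfl
    have e2 := congrFun (Lop_sum (tau Θ) Finset.univ
      fun b _ => (h.msmo i b).mul (msmo_hess h.sT b c)) x
    rw [e1, Lop_const] at e2
    simp only [Lop_mul (h.tau_symm x) (h.msmo i _) (msmo_hess h.sT _ c)] at e2
    simp only [ent_hess, h.L_hess] at e2
    rw [Matrix.zero_apply, e2]
    simp only [Matrix.add_apply, Matrix.mul_apply, Matrix.smul_apply, Matrix.sum_apply,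
      Matrix.sub_apply, hΛ, Matrix.of_apply, smul_eq_mul, Finset.sum_add_distrib, Gam, MD_apply,
      ent_hess, hess_apply, ← Finset.mul_sum]
    congr 1
    · congr 1
      exact Finset.sum_congr rfl fun b _ => mul_comm _ _
    · congr 1
      rw [Finset.sum_comm (f := fun b k => ∑ l, tau Θ x k l * D k (ent (tau Θ) i b) x *
        D l (D b (D c Θ)) x)]
      refine Finset.sum_congr rfl fun k _ => ?_
      rw [Finset.sum_comm (f := fun b l => tau Θ x k l * D k (ent (tau Θ) i b) x *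
        D l (D b (D c Θ)) x)]
      refine Finset.sum_congr rfl fun l _ => ?_
      rw [Finset.mul_sum]
      exact Finset.sum_congr rfl fun b _ => by ring
  have e3 : ∑ k, ∑ l, tau Θ x k l • (MD k (tau Θ) x * MD l (hess Θ) x) = -(tau Θ x * Qm Θ x) := by
    rw [← hQ]
    simp only [h.MD_tau, MD_hess _ h.sT, Finset.mul_sum, Matrix.mul_smul, neg_mul, smul_neg,
      Finset.sum_neg_distrib, mul_assoc]
  rw [e3, two_smul] at key
  have e4 := congrArg (· * tau Θ x) key
  simp only [add_mul, mul_add, mul_sub, sub_mul, neg_mul, zero_mul, mul_assoc Λ, h.mul_tau,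
    h.tau_mul, mul_one, one_mul] at e4
  rw [← sub_eq_zero, ← e4]
  abel
/-- apply `D i` to `L_hess j k`, use `D_L`, `D_trace`, `MD_mul`, `MD_tau`; the two cubic traces
agree by transposition -/
theorem LPot.L_d3 (h : LPot Θ W) (i j k : Fin n) (x : E n) :
    Lop (tau Θ) (D i (D j (D k Θ))) x = 2 * d3 Θ x i j k - d3 W x i j k
      + (tau Θ x * hess (D i Θ) x * tau Θ x * hess (D j (D k Θ)) x).trace
      + (tau Θ x * hess (D j Θ) x * tau Θ x * hess (D i (D k Θ)) x).trace
      + (tau Θ x * hess (D k Θ) x * tau Θ x * hess (D i (D j Θ)) x).trace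
      - 2 * (tau Θ x * hess (D i Θ) x * tau Θ x * hess (D j Θ) x * tau Θ x *
          hess (D k Θ) x).trace := by
  have s1 := smo_D j (smo_D k h.sT)
  have s2 := smo_D j (smo_D k h.sW)
  have m1 := msmo_hess (smo_D j h.sT)
  have m2 := msmo_hess (smo_D k h.sT)
  have m3 := h.msmo.mul m1
  have m4 := m3.mul h.msmo
  have m5 := m4.mul m2
  have e1 := congrFun (h.D_L s1 i) x
  have e2 : (fun x => hess Θ x j k - hess W x j k + Qm Θ x j k) = fun x =>
      (D j (D k Θ) x - D j (D k W) x) +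
        (tau Θ x * hess (D j Θ) x * tau Θ x * hess (D k Θ) x).trace := rfl
  rw [h.L_hess, e2, D_add i (smo_diff (s1.sub s2)) (smo_diff m5.trace),
    D_sub i (smo_diff s1) (smo_diff s2), D_trace i m5] at e1
  simp only at e1
  rw [MD_mul i m4 m2, MD_mul i m3 h.msmo, MD_mul i h.msmo m1, h.MD_tau, MD_hess i (smo_D j h.sT),
    MD_hess i (smo_D k h.sT)] at e1
  have e3 := cubic (h.tau_symm x) (hess_symm (smo_D i h.sT) x) (hess_symm (smo_D j h.sT) x)
    (hess_symm (smo_D k h.sT) x)
  have e4 := cyc (tau Θ x) (hess (D i (D j Θ)) x) (tau Θ x) (hess (D k Θ) x)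
  simp only [add_mul, neg_mul, mul_neg, Matrix.trace_add, Matrix.trace_neg, ← mul_assoc] at e1
  unfold d3
  linarith

end Vale.Agent.P227
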