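import Vale.Agent.P227.Barr
import Vale.Agent.P227.Ident2

/-! Second order a priori bounds for the moment potential. -/

namespace Vale.Agent.P227

open scoped ContDiff Matrix RealInnerProductSpace Topology
open MeasureTheory Filter

variable {n : ℕ}

namespace Apri1

variable {Θ W : E n → ℝ}

/-- differential inequality for the Hessian -/
theorem Lh (h : LPot Θ W) (ξ x : E n) {a : ℝ} (ha : qf (hess W x) ξ ≤ a) :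
    qf (hess Θ x) ξ - a ≤ Lop (tau Θ) (fun y => qf (hess Θ y) ξ) x := by
  have e : (Matrix.of fun i j => Lop (tau Θ) (ent (hess Θ) i j) x) =
      hess Θ x - hess W x + Qm Θ x := by
    ext i j
    simp only [Matrix.of_apply, ent_hess, h.L_hess, Matrix.add_apply, Matrix.sub_apply]
  rw [Lop_qf _ (msmo_hess h.sT), e, qf_add, qf_sub]
  linarith [qf_nonneg (h.Q_psd x) ξ]

/-- differential inequality for the inverse Hessian -/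
theorem Lt (h : LPot Θ W) (ξ x : E n) {a : ℝ} (ha : 0 < a)
    (hW : ∀ ζ : E n, a * ‖ζ‖ ^ 2 ≤ qf (hess W x) ζ) :
    qf (tau Θ x) ξ - 1 / a * ‖ξ‖ ^ 2 ≤ Lop (tau Θ) (fun y => qf (tau Θ y) ξ) x := by
  have hs : (tau Θ x)ᵀ = tau Θ x := h.tau_symm x
  have e : ∀ A : Mat n, qf (tau Θ x * A * tau Θ x) ξ = qf A (lin (tau Θ x) ξ) := by
    intro A
    rw [← qf_conj, hs]
  rw [Lop_qf _ h.msmo, h.L_tau, qf_add, qf_sub, e, e]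
  have h1 := qf_nonneg (h.Q_psd x) (lin (tau Θ x) ξ)
  have h2 := hW (lin (tau Θ x) ξ)
  have h3 : qf (tau Θ x) ξ ≤ ‖lin (tau Θ x) ξ‖ * ‖ξ‖ := by
    refine le_of_sq_le_sq ?_ (by positivity)
    rw [mul_pow]
    exact qf_sq_le _ _
  have h4 : 2 * (‖lin (tau Θ x) ξ‖ * ‖ξ‖) ≤ a * ‖lin (tau Θ x) ξ‖ ^ 2 + 1 / a * ‖ξ‖ ^ 2 := by
    have e2 : a * ‖lin (tau Θ x) ξ‖ ^ 2 + 1 / a * ‖ξ‖ ^ 2 - 2 * (‖lin (tau Θ x) ξ‖ * ‖ξ‖) =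
        1 / a * (a * ‖lin (tau Θ x) ξ‖ - ‖ξ‖) ^ 2 := by
      field_simp
      ring
    have : 0 ≤ 1 / a * (a * ‖lin (tau Θ x) ξ‖ - ‖ξ‖) ^ 2 := by positivity
    linarith
  linarith

theorem bd_hess (h : Pot Θ W) (ξ : E n) : ∃ M, ∀ x, qf (hess Θ x) ξ ≤ M := by
  obtain ⟨M, hM⟩ := h.mT.2 0
  exact ⟨n * M * ‖ξ‖ ^ 2, fun x => (le_abs_self _).trans
    (abs_qf_le (A := hess Θ x) (fun i j => (hM i j).2.1 x) ξ)⟩

theorem qf_le_of_unit {A : Mat n} {c : ℝ} (h : ∀ ξ : E n, ‖ξ‖ = 1 → qf A ξ ≤ c) (ξ : E n) :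
    qf A ξ ≤ c * ‖ξ‖ ^ 2 := by
  by_cases h0 : ξ = 0
  · subst h0
    simp [qf]
  have hn : 0 < ‖ξ‖ := norm_pos_iff.2 h0
  have e : ξ = ‖ξ‖ • (‖ξ‖⁻¹ • ξ) := by rw [smul_smul, mul_inv_cancel₀ hn.ne', one_smul]
  have h1 : ‖‖ξ‖⁻¹ • ξ‖ = 1 := by
    rw [norm_smul, norm_inv, norm_norm, inv_mul_cancel₀ hn.ne']
  calc qf A ξ = qf A (‖ξ‖ • (‖ξ‖⁻¹ • ξ)) := by rw [← e]
    _ = ‖ξ‖ ^ 2 * qf A (‖ξ‖⁻¹ • ξ) := qf_smul_vec _ _ _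
    _ ≤ ‖ξ‖ ^ 2 * c := mul_le_mul_of_nonneg_left (h _ h1) (sq_nonneg _)
    _ = c * ‖ξ‖ ^ 2 := mul_comm _ _

end Apri1

open Apri1

/-- Upper bounds by `maxp` (qualitative bounds from `Pot.ell`, `Sm`): for `v = qf (hess Θ ·) ξ`,
`L v ≥ v - K |ξ|²` (`Lop_qf`, `L_hess`, `Q_psd`); for `v = qf (tau Θ ·) ξ`, `ξ ≠ 0`,
`L v ≥ - v + κ |τ ξ|² ≥ - v + κ v² / |ξ|² ≥ v - |ξ|² / κ` (`L_tau`, `qf_conj`, `qf_sq_le`). Lower
bounds from `qf_inv_lower`. -/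
theorem ap_ell {Θ W : E n → ℝ} {κ K : ℝ} (h : Pot Θ W) (hκ : 0 < κ) (hK : 0 < K)
    (hW : Ell κ K (hess W)) : Ell (1 / K) (1 / κ) (tau Θ) ∧ Ell κ K (hess Θ) := by
  obtain ⟨c, C, -, -, hE⟩ := h.ell
  have hl := h.toLPot
  have hp : ∀ x, (tau Θ x).PosSemidef := fun x => (hl.tau_posDef x).posSemidef
  have ht : ∀ x, (tau Θ x).trace ≤ n * C := fun x => trace_le_of_qf fun ξ => ((hE x).2 ξ).2
  have u1 : ∀ x ξ, qf (hess Θ x) ξ ≤ K * ‖ξ‖ ^ 2 := fun x ξ =>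
    maxp hp ht ((msmo_hess hl.sT).qf ξ) (bd_hess h ξ) one_pos
      (fun y => Or.inr (by rw [one_mul]; exact Lh hl ξ y ((hW y).2 ξ).2)) x
  have u2 : ∀ x ξ, qf (tau Θ x) ξ ≤ 1 / κ * ‖ξ‖ ^ 2 := fun x ξ =>
    maxp hp ht (hl.msmo.qf ξ) ⟨C * ‖ξ‖ ^ 2, fun y => ((hE y).2 ξ).2⟩ one_pos
      (fun y => Or.inr (by rw [one_mul]; exact Lt hl ξ y hκ fun ζ => ((hW y).2 ζ).1)) x
  refine ⟨fun x => ⟨hl.tau_symm x, fun ξ => ⟨qf_inv_lower (hl.pos x) hK (u1 x) ξ, u2 x ξ⟩⟩,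
    fun x => ⟨hess_symm hl.sT x, fun ξ => ⟨?_, u1 x ξ⟩⟩⟩
  have := qf_inv_lower (hl.tau_posDef x) (one_div_pos.2 hκ) (u2 x) ξ
  rwa [one_div_one_div, tau, Matrix.nonsing_inv_nonsing_inv _ (hl.unit x)] at this

/-- Same two functions for unit `ξ`, now with `barrier`: outside the ball
`1 - nη ≤ W'' ≤ 1 + nη` (`abs_qf_le`). This gives `h ≤ 1 + nη + om'` and
`τ ≤ 1/(1 - nη) + om'` far out, hence `|qf (τ - 1) ξ| ≤ om |ξ|²`, and `abs_entry_le`. -/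
theorem ap_far (n : ℕ) {κ K om : ℝ} (hκ : 0 < κ) (hK : 0 < K) (hom : 0 < om) :
    ∃ η : ℝ, 0 < η ∧ ∀ R₀ : ℝ, ∃ R : ℝ, ∀ Θ W : E n → ℝ, Pot Θ W → Ell κ K (hess W) →
      Far η R₀ (hess W) → Far om R (tau Θ) := by
  obtain ⟨δ, hδ, hδ1, hδ2⟩ : ∃ δ : ℝ, 0 < δ ∧ δ ≤ om / 4 ∧ δ ≤ 1 / 2 :=
    ⟨min (om / 4) (1 / 2), by positivity, min_le_left _ _, min_le_right _ _⟩
  have hn : (0 : ℝ) ≤ n := Nat.cast_nonneg n
  have hκ' : 0 < 1 / κ := one_div_pos.2 hκ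
  refine ⟨δ / (n + 1), by positivity, fun R₀ => ?_⟩
  obtain ⟨R, hR⟩ := barrier n (C := 1 / κ) (R₀ := R₀) (K := K + 1 / κ) (om := om / 2) hκ'.le
    (by positivity) (by positivity)
  refine ⟨R, fun Θ W h hW hF x hx => ?_⟩
  have hl := h.toLPot
  obtain ⟨hE, -⟩ := ap_ell h hκ hK hW
  have hp : ∀ x, (tau Θ x).PosSemidef := fun x => (hl.tau_posDef x).posSemidef
  have hη : n * (δ / (n + 1)) ≤ δ := by
    rw [← mul_div_assoc, div_le_iff₀ (by positivity)]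
    nlinarith
  have hq : ∀ y, R₀ ≤ ‖y‖ → ∀ ζ : E n, (1 - δ) * ‖ζ‖ ^ 2 ≤ qf (hess W y) ζ ∧
      qf (hess W y) ζ ≤ (1 + δ) * ‖ζ‖ ^ 2 := by
    intro y hy ζ
    have h1 := abs_qf_le (A := hess W y - 1) (fun i j => hF y hy i j) ζ
    rw [qf_sub, qf_one] at h1
    have h2 := mul_le_mul_of_nonneg_right hη (sq_nonneg ‖ζ‖)
    obtain ⟨h3, h4⟩ := abs_le.1 h1
    constructor <;> linarith
  have u1 : ∀ ξ : E n, qf (hess Θ x) ξ ≤ (1 + δ + om / 2) * ‖ξ‖ ^ 2 := by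
    refine qf_le_of_unit fun ξ hξ => ?_
    refine hR (tau Θ) (fun y => qf (hess Θ y) ξ) (1 + δ) hp (fun y ζ => ((hE y).2 ζ).2)
      ((msmo_hess hl.sT).qf ξ) (bd_hess h ξ) (fun y => ?_) (fun y hy => ?_) x hx
    · have := Lh hl ξ y ((hW y).2 ξ).2
      rw [hξ] at this
      linarith
    · have := Lh hl ξ y (hq y hy ξ).2
      rw [hξ] at this
      linarith
  have u2 : ∀ ξ : E n, qf (tau Θ x) ξ ≤ (1 + 2 * δ + om / 2) * ‖ξ‖ ^ 2 := by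
    refine qf_le_of_unit fun ξ hξ => ?_
    refine hR (tau Θ) (fun y => qf (tau Θ y) ξ) (1 + 2 * δ) hp (fun y ζ => ((hE y).2 ζ).2)
      (hl.msmo.qf ξ) ⟨_, fun y => ((hE y).2 ξ).2⟩ (fun y => ?_) (fun y hy => ?_) x hx
    · have := Lt hl ξ y hκ fun ζ => ((hW y).2 ζ).1
      rw [hξ] at this
      linarith
    · have := Lt hl ξ y (a := 1 - δ) (by linarith) fun ζ => (hq y hy ζ).1
      rw [hξ] at this
      have h2 : 1 / (1 - δ) ≤ 1 + 2 * δ := by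
        rw [div_le_iff₀ (by linarith)]
        nlinarith
      linarith
  have hs : (tau Θ x - 1).IsSymm := (hl.tau_symm x).sub Matrix.isSymm_one
  refine abs_entry_le (A := tau Θ x - 1) hs fun ξ => ?_
  have l1 : 1 / (1 + δ + om / 2) * ‖ξ‖ ^ 2 ≤ qf (tau Θ x) ξ :=
    qf_inv_lower (hl.pos x) (by positivity) u1 ξ
  have l2 : 1 - om ≤ 1 / (1 + δ + om / 2) := by
    rw [le_div_iff₀ (by positivity)]
    nlinarith
  have l3 := mul_le_mul_of_nonneg_right l2 (sq_nonneg ‖ξ‖)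
  have l4 : (1 + 2 * δ + om / 2) * ‖ξ‖ ^ 2 ≤ (1 + om) * ‖ξ‖ ^ 2 :=
    mul_le_mul_of_nonneg_right (by linarith) (sq_nonneg _)
  rw [qf_sub, qf_one, abs_le]
  constructor <;> linarith [u2 ξ]

end Vale.Agent.P227
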