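import Vale.Agent.P227.MaxP

/-! Decay by a barrier. -/

namespace Vale.Agent.P227

open scoped ContDiff Matrix RealInnerProductSpace Topology
open MeasureTheory Filter

variable {n : ℕ}

namespace BarrX

/-- the radial profile of the barrier -/
noncomputable def ph (r s : ℝ) : ℝ := (r + s) ^ (-(1 / 4) : ℝ)

theorem ph_pos {r s : ℝ} (h : 0 < r + s) : 0 < ph r s := Real.rpow_pos_of_pos h _

theorem ph_d1 {r s : ℝ} (h : 0 < r + s) :
    HasDerivAt (ph r) (-(1 / 4) * (ph r s / (r + s))) s := by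
  have := ((hasDerivAt_id s).const_add r).rpow_const (p := -(1 / 4)) (Or.inl h.ne')
  simp only [id] at this
  rw [Real.rpow_sub_one h.ne'] at this
  refine this.congr_deriv ?_
  rw [ph]
  ring

theorem ph_d2 {r s : ℝ} (h : 0 < r + s) :
    HasDerivAt (fun t => -(1 / 4) * (ph r t / (r + t))) (5 / 16 * (ph r s / (r + s) ^ 2)) s := by
  have := ((ph_d1 h).div ((hasDerivAt_id s).const_add r) h.ne').const_mul (-(1 / 4))
  simp only [id] at this
  refine this.congr_deriv ?_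
  field_simp
  ring

theorem ph_anti {r s t : ℝ} (h : 0 < r + s) (hst : s ≤ t) : ph r t ≤ ph r s :=
  Real.rpow_le_rpow_of_nonpos h (by linarith) (by norm_num)

theorem ph_lim (r : ℝ) : Tendsto (ph r) atTop (𝓝 0) :=
  (tendsto_rpow_neg_atTop (y := 1 / 4) (by norm_num)).comp (tendsto_atTop_add_const_left _ r tendsto_id)

theorem ph_smo {r : ℝ} (hr : 0 < r) : ContDiff ℝ ∞ fun x : E n => ph r (‖x‖ ^ 2) :=
  (contDiff_const.add smo_normsq).rpow_const_of_ne fun x => by positivity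

theorem L_ph {C : ℝ} (hC : 0 ≤ C) {τ : E n → Mat n} {x : E n} (hτ : (τ x).PosSemidef)
    (h : qf (τ x) x ≤ C * ‖x‖ ^ 2) :
    Lop τ (fun y : E n => ph (5 * C + 1) (‖y‖ ^ 2)) x ≤ 3 / 4 * ph (5 * C + 1) (‖x‖ ^ 2) := by
  rw [Lop_radial τ (fun s hs => ph_d1 (by linarith)) (fun s hs => ph_d2 (by linarith))]
  have ht : 0 ≤ (τ x).trace := hτ.trace_nonneg
  set s := ‖x‖ ^ 2 with hs
  have hs0 : 0 ≤ s := by positivity
  have hu : 0 < 5 * C + 1 + s := by linarith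
  have hp := ph_pos hu
  set p := ph (5 * C + 1) s
  set u := 5 * C + 1 + s with hu'
  have h1 : s / u ≤ 1 := by rw [div_le_one hu]; linarith
  have h2 : 5 * qf (τ x) x / u ^ 2 ≤ 1 := by
    rw [div_le_one (by positivity)]
    nlinarith [mul_nonneg hC hs0]
  have h3 : 0 ≤ p / u * (τ x).trace := by positivity
  have e : 2 * (-(1 / 4) * (p / u)) * ((τ x).trace - s) + 4 * (5 / 16 * (p / u ^ 2)) * qf (τ x) x =
      -(1 / 2) * (p / u * (τ x).trace) + p * (1 / 2 * (s / u) + 1 / 4 * (5 * qf (τ x) x / u ^ 2)) := by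
    ring
  rw [e]
  nlinarith [mul_le_mul_of_nonneg_left h1 hp.le, mul_le_mul_of_nonneg_left h2 hp.le]

end BarrX

open BarrX in
/-- Barrier `b x = A' (R₁² + |x|²)^(-1/4)` with `R₁² = 5 C + 1`, `A' = 4 K (R₁² + R₀²)^(1/4)`:
`L b ≤ (3/4) b` (`Lop_radial`) and `b / 4 ≥ K` on the ball of radius `R₀`; apply `maxp` to
`v - b`. -/
theorem barrier (n : ℕ) {C R₀ K om : ℝ} (hC : 0 ≤ C) (hK : 0 ≤ K) (hom : 0 < om) : ∃ R : ℝ,
    ∀ (τ : E n → Mat n) (v : E n → ℝ) (A : ℝ), (∀ x, (τ x).PosSemidef) →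
      (∀ x ξ, qf (τ x) ξ ≤ C * ‖ξ‖ ^ 2) → ContDiff ℝ ∞ v → (∃ M, ∀ x, v x ≤ M) →
      (∀ x, v x - A - K ≤ Lop τ v x) → (∀ x, R₀ ≤ ‖x‖ → v x - A ≤ Lop τ v x) →
      ∀ x, R ≤ ‖x‖ → v x ≤ A + om := by
  have hr : 0 < 5 * C + 1 := by linarith
  have hp0 : 0 < ph (5 * C + 1) (R₀ ^ 2) := ph_pos (by positivity)
  set a := 4 * K / ph (5 * C + 1) (R₀ ^ 2) with ha
  have ha0 : 0 ≤ a := by positivity
  have hlim : Tendsto (fun s => a * ph (5 * C + 1) s) atTop (𝓝 0) := by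
    simpa using (ph_lim (5 * C + 1)).const_mul a
  obtain ⟨S, hS⟩ := eventually_atTop.1 (hlim.eventually (ge_mem_nhds hom))
  refine ⟨max S 1, fun τ v A hτ hq hv hb h1 h2 x hx => ?_⟩
  have hbs : ContDiff ℝ ∞ fun y : E n => a * ph (5 * C + 1) (‖y‖ ^ 2) :=
    contDiff_const.mul (ph_smo hr)
  have hb0 : ∀ y : E n, 0 ≤ a * ph (5 * C + 1) (‖y‖ ^ 2) := fun y =>
    mul_nonneg ha0 (ph_pos (by positivity)).le
  have key := maxp (τ := τ) (v := fun y => v y - a * ph (5 * C + 1) (‖y‖ ^ 2)) (A := A) (β := 1)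
    (C := n * C) hτ (fun y => trace_le_of_qf (hq y)) (hv.sub hbs) ?_ one_pos ?_ x
  · have hx1 : 1 ≤ ‖x‖ := (le_max_right _ _).trans hx
    have hx2 : S ≤ ‖x‖ ^ 2 := by nlinarith [(le_max_left _ _).trans hx]
    linarith [hS _ hx2]
  · obtain ⟨M, hM⟩ := hb
    exact ⟨M, fun y => by linarith [hM y, hb0 y]⟩
  · intro y
    right
    rw [Lop_sub τ hv hbs, Lop_const_mul τ a (ph_smo hr)]
    have h3 := mul_le_mul_of_nonneg_left (L_ph hC (hτ y) (hq y y)) ha0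
    have h4 := hb0 y
    by_cases hy : R₀ ≤ ‖y‖
    · have := h2 y hy
      beta_reduce
      linarith
    · have h5 : ‖y‖ ^ 2 ≤ R₀ ^ 2 := by
        have := norm_nonneg y
        push Not at hy
        gcongr
      have h6 := mul_le_mul_of_nonneg_left (ph_anti (r := 5 * C + 1) (by positivity) h5) ha0
      rw [ha, div_mul_cancel₀ _ hp0.ne', ← ha] at h6
      have := h1 y
      beta_reduce
      linarith

end Vale.Agent.P227
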