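import Vale.Agent.P227.Ibp

/-! Bochner identity for vector fields. -/

namespace Vale.Agent.P227

open scoped ContDiff Matrix RealInnerProductSpace Topology
open MeasureTheory Filter

variable {n : ℕ}

variable {Θ W f g : E n → ℝ}

namespace BochVX

theorem D_div (pW : PG W) {v : Fin n → E n → ℝ} (hv : ∀ i, PG (v i)) (j : Fin n) (x : E n) :
    D j (divW W v) x = divW W (fun i => D j (v i)) x - ∑ i, hess W x j i * v i x := by
  have e : divW W v = fun x => ∑ i, (D i (v i) x - v i x * D i W x) := rfl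
  rw [e, D_sum j _ fun i _ => (((hv i).D i).sub ((hv i).mul (pW.D i))).diff]
  simp only [divW, ← Finset.sum_sub_distrib]
  refine Finset.sum_congr rfl fun i _ => ?_
  rw [D_sub j ((hv i).D i).diff ((hv i).mul (pW.D i)).diff, D_mul j (hv i).diff (pW.D i).diff,
    D_comm j i (hv i).smo, hess_apply]
  ring

end BochVX
open BochVX

/-- `F = div v`: `E F² = -E v_j ∂_j F`, `∂_j F = div (∂_j v) - v_i W_{ij}`, and `Ex_div` again -/
theorem bochner_vec (hW : Coer W) (pW : PG W) {v : Fin n → E n → ℝ} (hv : ∀ i, PG (v i)) :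
    Ex W (fun x => divW W v x ^ 2) =
      Ex W (fun x => ∑ i, ∑ j, D j (v i) x * D i (v j) x) +
        Ex W (fun x => ∑ i, ∑ j, hess W x i j * v i x * v j x) := by
  have cW := pW.smo.continuous
  have h1 := Ex_div hW pW hv (pg_divW pW hv)
  have e1 : (fun x => ∑ j, v j x * D j (divW W v) x) = fun x =>
      ∑ j, v j x * divW W (fun i => D j (v i)) x - ∑ i, ∑ j, hess W x i j * v i x * v j x := by
    funext x
    simp only [D_div pW hv, mul_sub, Finset.sum_sub_distrib, Finset.mul_sum]
    congr 1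
    exact Finset.sum_congr rfl fun i _ => Finset.sum_congr rfl fun j _ => by ring
  have p1 : ∀ j, PG fun x => v j x * divW W (fun i => D j (v i)) x := fun j =>
    (hv j).mul (pg_divW pW fun i => (hv i).D j)
  have p2 : PG fun x => ∑ i, ∑ j, hess W x i j * v i x * v j x :=
    pg_sum _ fun i _ => pg_sum _ fun j _ => (((pW.D j).D i).mul (hv i)).mul (hv j)
  have p3 : ∀ j, PG fun x => ∑ i, D j (v i) x * D i (v j) x := fun j =>
    pg_sum _ fun i _ => ((hv i).D j).mul ((hv j).D i)
  have e2 : (fun x => ∑ i, ∑ j, D j (v i) x * D i (v j) x) =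
      fun x => ∑ j, ∑ i, D j (v i) x * D i (v j) x := funext fun x => Finset.sum_comm
  rw [e1, Ex_sub hW cW (pg_sum _ fun j _ => p1 j).cpb p2.cpb,
    Ex_sum hW cW _ fun j _ => (p1 j).cpb] at h1
  have e3 : ∀ j, Ex W (fun x => v j x * divW W (fun i => D j (v i)) x) =
      -Ex W fun x => ∑ i, D j (v i) x * D i (v j) x := fun j =>
    Ex_div hW pW (fun i => (hv i).D j) (hv j)
  simp only [e3, Finset.sum_neg_distrib] at h1
  rw [e2, Ex_sum hW cW _ fun j _ => (p3 j).cpb]
  simp only [pow_two]
  rw [h1]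
  ring

end Vale.Agent.P227
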