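import Vale.Agent.P227.Ridge

/-! One-dimensional profiles. -/

namespace Vale.Agent.P227

open scoped ContDiff Matrix RealInnerProductSpace Topology
open MeasureTheory Filter

variable {n : ℕ}

/-- `G s = ∫ r in 0..s, Real.smoothTransition r` -/
theorem exists_G : ∃ G : ℝ → ℝ, ContDiff ℝ ∞ G ∧ (∀ s, s ≤ 0 → G s = 0) ∧
    (∀ s, 0 < s → 0 < G s) ∧ (∀ s, 0 ≤ deriv G s) ∧ (∀ s, 0 ≤ deriv (deriv G) s) ∧
    (∀ s, 1 ≤ s → deriv G s = 1) := by
  have hc : Continuous Real.smoothTransition := Real.smoothTransition.continuous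
  have hd : ∀ s, HasDerivAt (fun s => ∫ r in (0 : ℝ)..s, Real.smoothTransition r)
      (Real.smoothTransition s) s := fun s => (hc.integral_hasStrictDerivAt 0 s).hasDerivAt
  have he : deriv (fun s => ∫ r in (0 : ℝ)..s, Real.smoothTransition r) = Real.smoothTransition :=
    funext fun s => (hd s).deriv
  refine ⟨fun s => ∫ r in (0 : ℝ)..s, Real.smoothTransition r, ?_, fun s hs => ?_,
    fun s hs => ?_, fun s => ?_, fun s => ?_, fun s hs => ?_⟩
  · refine contDiff_infty_iff_deriv.2 ⟨fun s => (hd s).differentiableAt, ?_⟩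
    rw [he]; exact Real.smoothTransition.contDiff
  · refine (intervalIntegral.integral_congr (g := fun _ => (0 : ℝ)) fun r hr => ?_).trans (by simp)
    rw [Set.uIcc_of_ge hs] at hr
    exact Real.smoothTransition.zero_of_nonpos hr.2
  · exact intervalIntegral.intervalIntegral_pos_of_pos_on (hc.intervalIntegrable _ _)
      (fun r hr => Real.smoothTransition.pos_of_pos hr.1) hs
  · rw [he]; exact Real.smoothTransition.nonneg s
  · rw [he]; exact Real.smoothTransition.monotone.deriv_nonneg
  · rw [he]; exact Real.smoothTransition.one_of_one_le hs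
/-- `w s = G (s - 1) + G (-s - 1)` -/
theorem exists_profile : ∃ w : ℝ → ℝ, RW w ∧ (∀ s, |s| ≤ 1 → w s = 0) ∧
    ∀ s, 1 < |s| → 0 < w s := by
  obtain ⟨G, hG, h0, hp, -, h2, h1⟩ := exists_G
  have hG' : ContDiff ℝ ∞ (deriv G) := (contDiff_infty_iff_deriv.1 hG).2
  have dG : ∀ s, HasDerivAt G (deriv G s) s := fun s =>
    ((contDiff_infty_iff_deriv.1 hG).1 s).hasDerivAt
  have dG' : ∀ s, HasDerivAt (deriv G) (deriv (deriv G) s) s := fun s =>
    ((contDiff_infty_iff_deriv.1 hG').1 s).hasDerivAt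
  have hn : ∀ s, 0 ≤ G s := fun s => by
    rcases le_or_gt s 0 with h | h
    · exact (h0 s h).ge
    · exact (hp s h).le
  have a1 : ∀ s : ℝ, HasDerivAt (fun s : ℝ => s - 1) 1 s := fun s => (hasDerivAt_id s).sub_const 1
  have a2 : ∀ s : ℝ, HasDerivAt (fun s : ℝ => -s - 1) (-1) s := fun s =>
    (hasDerivAt_neg s).sub_const 1
  have e1 : deriv (fun s => G (s - 1) + G (-s - 1)) =
      fun s => deriv G (s - 1) - deriv G (-s - 1) := by
    funext s
    have := ((dG (s - 1)).comp s (a1 s)).add ((dG (-s - 1)).comp s (a2 s))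
    refine this.deriv.trans ?_
    ring
  have e2 : deriv (fun s => deriv G (s - 1) - deriv G (-s - 1)) =
      fun s => deriv (deriv G) (s - 1) + deriv (deriv G) (-s - 1) := by
    funext s
    have := ((dG' (s - 1)).comp s (a1 s)).sub ((dG' (-s - 1)).comp s (a2 s))
    refine this.deriv.trans ?_
    ring
  have z : ∀ s, s < 0 ∨ 1 < s → deriv (deriv G) s = 0 := by
    rintro s (h | h)
    · have h3 : G =ᶠ[𝓝 s] fun _ => 0 := by
        filter_upwards [Iio_mem_nhds h] with r hr using h0 r (le_of_lt hr)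
      rw [h3.deriv.deriv_eq]; simp
    · have h3 : deriv G =ᶠ[𝓝 s] fun _ => 1 := by
        filter_upwards [Ioi_mem_nhds h] with r hr using h1 r (le_of_lt hr)
      rw [h3.deriv_eq]; simp
  refine ⟨fun s => G (s - 1) + G (-s - 1), ⟨?_, fun s => ?_, fun s => add_nonneg (hn _) (hn _),
    fun s => ?_, ?_⟩, fun s hs => ?_, fun s hs => ?_⟩
  · exact (hG.comp (contDiff_id.sub contDiff_const)).add
      (hG.comp (contDiff_id.neg.sub contDiff_const))
  · simp only [neg_neg]; ring
  · rw [e1, e2]; exact add_nonneg (h2 _) (h2 _)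
  · rw [e1, e2]
    refine HasCompactSupport.intro (isCompact_Icc (a := -2) (b := 2)) fun s hs => ?_
    rw [Set.mem_Icc, not_and_or, not_le, not_le] at hs
    rcases hs with hs | hs
    · rw [z _ (Or.inl (by linarith)), z _ (Or.inr (by linarith)), add_zero]
    · rw [z _ (Or.inr (by linarith)), z _ (Or.inl (by linarith)), add_zero]
  · rw [abs_le] at hs
    show G (s - 1) + G (-s - 1) = 0
    rw [h0 _ (by linarith), h0 _ (by linarith), add_zero]
  · rcases lt_abs.1 hs with h | h
    · exact add_pos_of_pos_of_nonneg (hp _ (by linarith)) (hn _)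
    · exact add_pos_of_nonneg_of_pos (hn _) (hp _ (by linarith))

end Vale.Agent.P227
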