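import Vale.Agent.P227.MatA

/-! Algebra for the Calabi estimate. -/

namespace Vale.Agent.P227

open scoped ContDiff Matrix RealInnerProductSpace Topology
open MeasureTheory Filter

variable {n : ℕ}

variable {τ : Mat n} {c K : ℝ}

namespace CalA

theorem gram {α β : Type} [Fintype α] [Fintype β] (f : α → β → ℝ) :
    ∑ a, ∑ a', (∑ k, f a k * f a' k) ^ 2 = ∑ k, ∑ l, (∑ a, f a k * f a l) ^ 2 := by
  have h := Finset.sum_comm (s := Finset.univ) (t := Finset.univ)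
    (f := fun (a : α × α) (k : β × β) => f a.1 k.1 * f a.2 k.1 * (f a.1 k.2 * f a.2 k.2))
  simp only [Fintype.sum_prod_type] at h
  simp only [sq, Finset.sum_mul_sum]
  rw [h]
  simp only [mul_mul_mul_comm (f _ _) (f _ _) (f _ _)]

/-- The contraction of two copies of `t`. -/
def s (t : Fin n → Fin n → Fin n → ℝ) (i j p r : Fin n) : ℝ := ∑ k, t i j k * t p r k

variable {t : Fin n → Fin n → Fin n → ℝ} {q : Fin n → Fin n → Fin n → Fin n → ℝ}

theorem hQ (ht : Sym3 t) : ∑ i, ∑ a, cQ t i a ^ 2 = ∑ i, ∑ j, ∑ p, ∑ r, s t i j p r ^ 2 := by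
  have h := gram fun (a : Fin n × Fin n) k => t a.1 a.2 k
  simp only [Fintype.sum_prod_type] at h
  refine Eq.trans ?_ h.symm
  refine Finset.sum_congr rfl fun i _ => Finset.sum_congr rfl fun a _ => congrArg (· ^ 2) ?_
  refine Finset.sum_congr rfl fun k _ => Finset.sum_congr rfl fun l _ => ?_
  rw [ht.1 i, ht.2 k, ht.1 a, ht.2 k a]

theorem hP : cP t = ∑ i, ∑ j, ∑ p, ∑ r, s t i j p r * s t i p j r := by
  refine Finset.sum_congr rfl fun i _ => Finset.sum_congr rfl fun j _ => Finset.sum_comm.trans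
    (Finset.sum_congr rfl fun p _ => Finset.sum_comm.trans (Finset.sum_congr rfl fun r _ => ?_))
  rw [s, s, Finset.sum_mul_sum]
  exact Finset.sum_congr rfl fun k _ => Finset.sum_congr rfl fun l _ => by ring

theorem hA (hq : Sym4 q) : cA t q = ∑ i, ∑ j, ∑ p, ∑ r, q i j p r * s t i j p r := by
  refine Finset.sum_congr rfl fun i _ => Finset.sum_congr rfl fun j _ => Finset.sum_comm.trans
    (Finset.sum_congr rfl fun p _ => Finset.sum_comm.trans (Finset.sum_congr rfl fun r _ => ?_))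
  rw [s, Finset.mul_sum, hq.2.1 p r, hq.1 p i, hq.2.2 i p, hq.2.1 i p]
  exact Finset.sum_congr rfl fun k _ => by ring

end CalA

/-- Calabi's algebraic inequality. Put `s i j p r = ∑ k, t i j k * t p r k` and
`σ = (s i j p r + s i p j r + s i r j p) / 3`. Then `cA t q = ⟨q, s⟩ = ⟨q, σ⟩` (q symmetric),
`|s|² = ∑ cQ²`, `⟨s i j p r, s i p j r⟩ = cP`, `|σ|² = (∑ cQ² + 2 cP) / 3`, `|cP| ≤ ∑ cQ²`, and
`2 |q|² - 6 ⟨q, σ⟩ + (9/2) |σ|² ≥ 0`. -/
theorem cal_alg {t : Fin n → Fin n → Fin n → ℝ} {q : Fin n → Fin n → Fin n → Fin n → ℝ}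
    (ht : Sym3 t) (hq : Sym4 q) :
    0 ≤ 3 * (∑ i, ∑ a, cQ t i a ^ 2) + 2 * cP t +
      2 * (∑ i, ∑ j, ∑ k, ∑ l, q i j k l ^ 2) - 6 * cA t q := by
  have h1 := CalA.hQ ht
  have h2 : ∑ i, ∑ a, cQ t i a ^ 2 = ∑ i, ∑ j, ∑ p, ∑ r, CalA.s t i p j r ^ 2 :=
    h1.trans (Finset.sum_congr rfl fun i _ => Finset.sum_comm)
  have h3 := CalA.hA (t := t) hq
  have h4 : cA t q = ∑ i, ∑ j, ∑ p, ∑ r, q i j p r * CalA.s t i p j r := by
    rw [h3]
    refine Finset.sum_congr rfl fun i _ => Finset.sum_comm.trans ?_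
    simp only [hq.2.1 i]
  have h5 : 0 ≤ ∑ i, ∑ j, ∑ p, ∑ r, (3 / 2 * CalA.s t i j p r ^ 2 + 3 / 2 * CalA.s t i p j r ^ 2 +
      2 * (CalA.s t i j p r * CalA.s t i p j r) + 2 * q i j p r ^ 2 -
      3 * (q i j p r * CalA.s t i j p r) - 3 * (q i j p r * CalA.s t i p j r)) := by
    refine Finset.sum_nonneg fun i _ => Finset.sum_nonneg fun j _ => Finset.sum_nonneg fun p _ =>
      Finset.sum_nonneg fun r _ => ?_
    nlinarith [sq_nonneg (q i j p r - 3 / 4 * (CalA.s t i j p r + CalA.s t i p j r)),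
      sq_nonneg (CalA.s t i j p r - CalA.s t i p j r), sq_nonneg (CalA.s t i j p r),
      sq_nonneg (CalA.s t i p j r)]
  simp only [Finset.sum_add_distrib, Finset.sum_sub_distrib, ← Finset.mul_sum] at h5
  rw [← h1, ← h2, ← h3, ← h4, ← CalA.hP] at h5
  linarith

theorem cQ_psd (t : Fin n → Fin n → Fin n → ℝ) : (Matrix.of (cQ t) : Mat n).PosSemidef := by
  have h := Matrix.posSemidef_self_mul_conjTranspose
    (Matrix.of fun i (a : Fin n × Fin n) => t i a.1 a.2)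
  refine (congrArg _ (Matrix.ext fun i j => ?_)).mp h
  simp [Matrix.mul_apply, cQ, Fintype.sum_prod_type]

end Vale.Agent.P227
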