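import Vale.Agent.P227.MatA

/-! Three-tensors contracted with a metric. -/

namespace Vale.Agent.P227

open scoped ContDiff Matrix RealInnerProductSpace Topology
open MeasureTheory Filter

variable {n : ℕ}

variable {τ : Mat n} {c K : ℝ}

namespace MatBAux
open scoped Kronecker

/-- a three-tensor as a vector -/
def vec (t : Fin n → Fin n → Fin n → ℝ) : Fin n × Fin n × Fin n → ℝ := fun p => t p.1 p.2.1 p.2.2

/-- the quadratic form of a triple Kronecker product -/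
def N (A B C : Mat n) (t : Fin n → Fin n → Fin n → ℝ) : ℝ :=
  vec t ⬝ᵥ (A ⊗ₖ (B ⊗ₖ C)) *ᵥ vec t

theorem nrm3_eq (τ : Mat n) (t : Fin n → Fin n → Fin n → ℝ) : nrm3 τ t = N τ τ τ t := by
  simp only [nrm3, N, vec, dotProduct, Matrix.mulVec, Fintype.sum_prod_type,
    Matrix.kroneckerMap_apply, Finset.mul_sum]
  refine Finset.sum_congr rfl fun _ _ => Finset.sum_congr rfl fun _ _ =>
    Finset.sum_congr rfl fun _ _ => Finset.sum_congr rfl fun _ _ =>
    Finset.sum_congr rfl fun _ _ => Finset.sum_congr rfl fun _ _ => ?_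
  ring

theorem N_nonneg {A B C : Mat n} (hA : A.PosSemidef) (hB : B.PosSemidef) (hC : C.PosSemidef)
    (t : Fin n → Fin n → Fin n → ℝ) : 0 ≤ N A B C t :=
  (hA.kronecker (hB.kronecker hC)).dotProduct_mulVec_nonneg _

theorem mono {A B : Mat n} (hA : A.PosSemidef) (hD : (B - A).PosSemidef)
    (t : Fin n → Fin n → Fin n → ℝ) : nrm3 A t ≤ nrm3 B t := by
  obtain ⟨D, rfl⟩ : ∃ D, B = A + D := ⟨_, (add_sub_cancel A B).symm⟩
  rw [add_sub_cancel_left] at hD
  have hB := hA.add hD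
  have e1 : N (A + D) (A + D) (A + D) t = N A (A + D) (A + D) t + N D (A + D) (A + D) t := by
    rw [N, Matrix.add_kronecker A D, Matrix.add_mulVec, dotProduct_add]
    rfl
  have e2 : N A (A + D) (A + D) t = N A A (A + D) t + N A D (A + D) t := by
    rw [N, Matrix.add_kronecker A D, Matrix.kronecker_add, Matrix.add_mulVec, dotProduct_add]
    rfl
  have e3 : N A A (A + D) t = N A A A t + N A A D t := by
    rw [N, Matrix.kronecker_add, Matrix.kronecker_add, Matrix.add_mulVec, dotProduct_add]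
    rfl
  rw [nrm3_eq, nrm3_eq]
  linarith [N_nonneg hD hB hB t, N_nonneg hA hD hB t, N_nonneg hA hA hD t]

theorem nrm3_smul (c : ℝ) (t : Fin n → Fin n → Fin n → ℝ) :
    nrm3 (c • (1 : Mat n)) t = c ^ 3 * ∑ i, ∑ j, ∑ k, t i j k ^ 2 := by
  rw [nrm3_eq, N]
  simp only [Matrix.smul_kronecker, Matrix.kronecker_smul, Matrix.one_kronecker_one,
    Matrix.smul_mulVec, Matrix.one_mulVec, dotProduct_smul, smul_eq_mul]
  simp only [dotProduct, vec, Fintype.sum_prod_type, sq]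
  ring

end MatBAux
open MatBAux

open scoped Kronecker in
/-- change of frame; do it one slot at a time -/
theorem nrm3_lin (τ B : Mat n) (t : Fin n → Fin n → Fin n → ℝ) :
    nrm3 τ (fun i j k => ∑ a, ∑ b, ∑ e, B a i * B b j * B e k * t a b e) =
      nrm3 (B * τ * Bᵀ) t := by
  have e : vec (fun i j k => ∑ a, ∑ b, ∑ e, B a i * B b j * B e k * t a b e) =
      (Bᵀ ⊗ₖ (Bᵀ ⊗ₖ Bᵀ)) *ᵥ vec t := by
    funext p
    simp only [vec, Matrix.mulVec, dotProduct, Fintype.sum_prod_type, Matrix.kroneckerMap_apply,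
      Matrix.transpose_apply, mul_assoc]
  have e' : (Bᵀ ⊗ₖ (Bᵀ ⊗ₖ Bᵀ)) = (B ⊗ₖ (B ⊗ₖ B))ᵀ := rfl
  rw [nrm3_eq, nrm3_eq, N, N, e, Matrix.mul_kronecker_mul, Matrix.mul_kronecker_mul,
    Matrix.mul_kronecker_mul, Matrix.mul_kronecker_mul, ← Matrix.mulVec_mulVec,
    ← Matrix.mulVec_mulVec, Matrix.dotProduct_mulVec (vec t), e', Matrix.mulVec_transpose]
theorem nrm3_one (t : Fin n → Fin n → Fin n → ℝ) :
    nrm3 (1 : Mat n) t = ∑ i, ∑ j, ∑ k, t i j k ^ 2 := by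
  simpa only [one_smul, one_pow, one_mul] using nrm3_smul 1 t
/-- with `τ = B B`, `nrm3 τ t` is the sum of squares of the transformed tensor; bound one slot
at a time using `c |ξ|² ≤ |B ξ|² ≤ K |ξ|²` -/
theorem nrm3_lower (h : Ell1 c K τ) (hc : 0 ≤ c) (t : Fin n → Fin n → Fin n → ℝ) :
    c ^ 3 * ∑ i, ∑ j, ∑ k, t i j k ^ 2 ≤ nrm3 τ t := by
  rw [← nrm3_smul]
  refine mono (Matrix.PosSemidef.one.smul hc) (psd_of_qf (h.1.sub (Matrix.isSymm_one.smul c))
    fun ξ => ?_) t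
  rw [qf_sub, qf_smul, qf_one]
  linarith [(h.2 ξ).1]
theorem nrm3_upper (h : Ell1 c K τ) (hc : 0 ≤ c) (hK : 0 ≤ K) (t : Fin n → Fin n → Fin n → ℝ) :
    nrm3 τ t ≤ K ^ 3 * ∑ i, ∑ j, ∑ k, t i j k ^ 2 := by
  rw [← nrm3_smul]
  refine mono (h.psd hc) (psd_of_qf ((Matrix.isSymm_one.smul K).sub h.1) fun ξ => ?_) t
  rw [qf_sub, qf_smul, qf_one]
  linarith [(h.2 ξ).2]

end Vale.Agent.P227
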