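import Vale.Agent.P227.Ident2
import Vale.Agent.P227.MatB

/-! Calabi identity at a point where the Hessian is the identity (checked numerically). -/

namespace Vale.Agent.P227

open scoped ContDiff Matrix RealInnerProductSpace Topology
open MeasureTheory Filter

variable {n : ℕ}

namespace CalN

/-- value, first derivatives and `L` at a point -/
structure Jet (τ : E n → Mat n) (x : E n) (f : E n → ℝ) (v : ℝ) (d : Fin n → ℝ) (l : ℝ) :
    Prop where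
  smo : ContDiff ℝ ∞ f
  val : f x = v
  der : ∀ p, D p f x = d p
  lop : Lop τ f x = l

variable {τ : E n → Mat n} {x : E n}

theorem Jet.mul {f g : E n → ℝ} {v v' l l' : ℝ} {d d' : Fin n → ℝ} (h1 : τ x = 1)
    (hf : Jet τ x f v d l) (hg : Jet τ x g v' d' l') : Jet τ x (fun y => f y * g y) (v * v')
      (fun p => d p * v' + v * d' p) (v * l' + v' * l + 2 * ∑ p, d p * d' p) := by
  refine ⟨hf.smo.mul hg.smo, by rw [hf.val, hg.val], fun p => ?_, ?_⟩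
  · rw [D_mul p (smo_diff hf.smo) (smo_diff hg.smo)]
    simp only [hf.val, hg.val, hf.der, hg.der]
  · rw [Lop_mul (h1 ▸ Matrix.isSymm_one) hf.smo hg.smo, hf.val, hg.val, hf.lop, hg.lop]
    simp [Gam, h1, Matrix.one_apply, hf.der, hg.der]

theorem Jet.sum {f : Fin n → E n → ℝ} {v l : Fin n → ℝ} {d : Fin n → Fin n → ℝ}
    (hf : ∀ i, Jet τ x (f i) (v i) (d i) (l i)) : Jet τ x (fun y => ∑ i, f i y) (∑ i, v i)
      (fun p => ∑ i, d i p) (∑ i, l i) := by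
  refine ⟨ContDiff.sum fun i _ => (hf i).smo, by simp only [(hf _).val], fun p => ?_, ?_⟩
  · rw [D_sum p _ fun i _ => smo_diff (hf i).smo]
    simp only [(hf _).der]
  · rw [Lop_sum τ _ fun i _ => (hf i).smo]
    simp only [(hf _).lop]

theorem Jet.raise {t : Fin n → Fin n → Fin n → ℝ} {M : Mat n} (h1 : τ x = 1)
    (hτ : ∀ i a, Jet τ x (ent τ i a) ((1 : Mat n) i a) (fun p => -t p i a) (M i a))
    {f : Fin n → E n → ℝ} {v l : Fin n → ℝ} {d : Fin n → Fin n → ℝ}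
    (hf : ∀ i, Jet τ x (f i) (v i) (d i) (l i)) (a : Fin n) :
    Jet τ x (fun y => ∑ i, τ y i a * f i y) (v a) (fun p => d a p - ∑ r, t p r a * v r)
      (l a + ∑ r, M r a * v r - 2 * ∑ p, ∑ r, t p r a * d r p) := by
  have h := Jet.sum fun i => (hτ i a).mul h1 (hf i)
  refine ⟨h.smo, h.val.trans ?_, fun p => (h.der p).trans ?_, h.lop.trans ?_⟩
  · simp [Matrix.one_apply]
  · simp [Matrix.one_apply, Finset.sum_add_distrib, sub_eq_neg_add]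
  · rw [Finset.sum_comm (f := fun p r => t p r a * d r p)]
    simp [Matrix.one_apply, Finset.sum_add_distrib, Finset.mul_sum, sub_eq_add_neg, mul_comm]

theorem nest4 (F : Fin n → Fin n → Fin n → Fin n → ℝ) : ∑ a, ∑ b, ∑ c, ∑ d, F a b c d =
    ∑ x : Fin n × Fin n × Fin n × Fin n, F x.1 x.2.1 x.2.2.1 x.2.2.2 := by
  simp only [Fintype.sum_prod_type]

theorem nest5 (F : Fin n → Fin n → Fin n → Fin n → Fin n → ℝ) :
    ∑ a, ∑ b, ∑ c, ∑ d, ∑ e, F a b c d e = ∑ x : Fin n × Fin n × Fin n × Fin n × Fin n,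
      F x.1 x.2.1 x.2.2.1 x.2.2.2.1 x.2.2.2.2 := by
  simp only [Fintype.sum_prod_type]

theorem nest6 (F : Fin n → Fin n → Fin n → Fin n → Fin n → Fin n → ℝ) :
    ∑ a, ∑ b, ∑ c, ∑ d, ∑ e, ∑ f, F a b c d e f =
      ∑ x : Fin n × Fin n × Fin n × Fin n × Fin n × Fin n,
        F x.1 x.2.1 x.2.2.1 x.2.2.2.1 x.2.2.2.2.1 x.2.2.2.2.2 := by
  simp only [Fintype.sum_prod_type]

theorem nrm3_eq (τ : Mat n) (t : Fin n → Fin n → Fin n → ℝ) : nrm3 τ t =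
    ∑ a, ∑ b, ∑ c, (∑ k, τ k c * ∑ j, τ j b * ∑ i, τ i a * t i j k) * t a b c := by
  simp only [nrm3, Finset.mul_sum, Finset.sum_mul]
  rw [nest6, nest6]
  refine Fintype.sum_equiv ⟨fun (i, j, k, a, b, c) => (a, b, c, k, j, i),
    fun (a, b, c, k, j, i) => (i, j, k, a, b, c), fun _ => rfl, fun _ => rfl⟩ _ _ ?_
  rintro ⟨i, j, k, a, b, c⟩
  simp only [Equiv.coe_fn_mk]
  ring

section contr

variable {t : Fin n → Fin n → Fin n → ℝ} {q : Fin n → Fin n → Fin n → Fin n → ℝ}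

theorem A1 (ht : Sym3 t) (hq : Sym4 q) :
    ∑ a, ∑ b, ∑ c, t a b c * ∑ p, ∑ r, t a p r * q r p b c =
      cA t q := by
  simp only [cA, Finset.mul_sum]
  rw [nest5, nest5]
  refine Fintype.sum_equiv ⟨fun (a, b, c, p, r) => (b, c, a, p, r),
    fun (b, c, a, p, r) => (a, b, c, p, r), fun _ => rfl, fun _ => rfl⟩ _ _ ?_
  rintro ⟨a, b, c, p, r⟩
  simp only [Equiv.coe_fn_mk, ht.1, ht.2, hq.1, hq.2.1, hq.2.2, mul_comm, mul_left_comm]

theorem A2 (ht : Sym3 t) (hq : Sym4 q) :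
    ∑ a, ∑ b, ∑ c, t a b c * ∑ p, ∑ r, t b p r * q r p a c =
      cA t q := by
  simp only [cA, Finset.mul_sum]
  rw [nest5, nest5]
  refine Fintype.sum_equiv ⟨fun (a, b, c, p, r) => (a, c, b, p, r),
    fun (a, c, b, p, r) => (a, b, c, p, r), fun _ => rfl, fun _ => rfl⟩ _ _ ?_
  rintro ⟨a, b, c, p, r⟩
  simp only [Equiv.coe_fn_mk, ht.1, ht.2, hq.1, hq.2.1, hq.2.2, mul_comm, mul_left_comm]

theorem A3 (ht : Sym3 t) (hq : Sym4 q) :
    ∑ a, ∑ b, ∑ c, t a b c * ∑ p, ∑ r, t c p r * q r p a b =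
      cA t q := by
  simp only [cA, Finset.mul_sum]
  rw [nest5, nest5]
  refine Fintype.sum_equiv ⟨fun (a, b, c, p, r) => (a, b, c, p, r),
    fun (a, b, c, p, r) => (a, b, c, p, r), fun _ => rfl, fun _ => rfl⟩ _ _ ?_
  rintro ⟨a, b, c, p, r⟩
  simp only [Equiv.coe_fn_mk, ht.1, ht.2, hq.1, hq.2.1, hq.2.2, mul_comm, mul_left_comm]

theorem B1 (ht : Sym3 t) (hq : Sym4 q) :
    ∑ a, ∑ b, ∑ c, t a b c * ∑ p, ∑ r, t p r a * q p r b c =
      cA t q := by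
  simp only [cA, Finset.mul_sum]
  rw [nest5, nest5]
  refine Fintype.sum_equiv ⟨fun (a, b, c, p, r) => (b, c, a, p, r),
    fun (b, c, a, p, r) => (a, b, c, p, r), fun _ => rfl, fun _ => rfl⟩ _ _ ?_
  rintro ⟨a, b, c, p, r⟩
  simp only [Equiv.coe_fn_mk, ht.1, ht.2, hq.1, hq.2.1, hq.2.2, mul_comm, mul_left_comm]

theorem B2 (ht : Sym3 t) (hq : Sym4 q) :
    ∑ a, ∑ b, ∑ c, t a b c * ∑ p, ∑ r, t p r b * q p a r c =
      cA t q := by
  simp only [cA, Finset.mul_sum]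
  rw [nest5, nest5]
  refine Fintype.sum_equiv ⟨fun (a, b, c, p, r) => (a, c, b, p, r),
    fun (a, c, b, p, r) => (a, b, c, p, r), fun _ => rfl, fun _ => rfl⟩ _ _ ?_
  rintro ⟨a, b, c, p, r⟩
  simp only [Equiv.coe_fn_mk, ht.1, ht.2, hq.1, hq.2.1, hq.2.2, mul_comm, mul_left_comm]

theorem B3 (ht : Sym3 t) (hq : Sym4 q) :
    ∑ a, ∑ b, ∑ c, t a b c * ∑ p, ∑ r, t p r c * q p a b r =
      cA t q := by
  simp only [cA, Finset.mul_sum]
  rw [nest5, nest5]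
  refine Fintype.sum_equiv ⟨fun (a, b, c, p, r) => (a, b, c, p, r),
    fun (a, b, c, p, r) => (a, b, c, p, r), fun _ => rfl, fun _ => rfl⟩ _ _ ?_
  rintro ⟨a, b, c, p, r⟩
  simp only [Equiv.coe_fn_mk, ht.1, ht.2, hq.1, hq.2.1, hq.2.2, mul_comm, mul_left_comm]

theorem C1 (ht : Sym3 t) (hq : Sym4 q) :
    ∑ a, ∑ b, ∑ c, ∑ p, (∑ r, t p r a * t r b c) * q p a b c =
      cA t q := by
  simp only [cA, Finset.sum_mul]
  rw [nest5, nest5]
  refine Fintype.sum_equiv ⟨fun (a, b, c, p, r) => (b, c, r, p, a),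
    fun (b, c, r, p, a) => (a, b, c, p, r), fun _ => rfl, fun _ => rfl⟩ _ _ ?_
  rintro ⟨a, b, c, p, r⟩
  simp only [Equiv.coe_fn_mk, ht.1, ht.2, hq.1, hq.2.1, hq.2.2, mul_comm, mul_left_comm]

theorem C2 (ht : Sym3 t) (hq : Sym4 q) :
    ∑ a, ∑ b, ∑ c, ∑ p, (∑ r, t p r b * t a r c) * q p a b c =
      cA t q := by
  simp only [cA, Finset.sum_mul]
  rw [nest5, nest5]
  refine Fintype.sum_equiv ⟨fun (a, b, c, p, r) => (a, c, r, p, b),
    fun (a, c, r, p, b) => (a, b, c, p, r), fun _ => rfl, fun _ => rfl⟩ _ _ ?_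
  rintro ⟨a, b, c, p, r⟩
  simp only [Equiv.coe_fn_mk, ht.1, ht.2, hq.1, hq.2.1, hq.2.2, mul_comm, mul_left_comm]

theorem C3 (ht : Sym3 t) (hq : Sym4 q) :
    ∑ a, ∑ b, ∑ c, ∑ p, (∑ r, t p r c * t a b r) * q p a b c =
      cA t q := by
  simp only [cA, Finset.sum_mul]
  rw [nest5, nest5]
  refine Fintype.sum_equiv ⟨fun (a, b, c, p, r) => (a, b, r, p, c),
    fun (a, b, r, p, c) => (a, b, c, p, r), fun _ => rfl, fun _ => rfl⟩ _ _ ?_
  rintro ⟨a, b, c, p, r⟩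
  simp only [Equiv.coe_fn_mk, ht.1, ht.2, hq.1, hq.2.1, hq.2.2, mul_comm, mul_left_comm]

theorem P0 (ht : Sym3 t) :
    ∑ a, ∑ b, ∑ c, t a b c * ∑ p, ∑ r, ∑ s, t a p r * t b r s * t c s p =
      cP t := by
  simp only [cP, Finset.mul_sum]
  rw [nest6, nest6]
  refine Fintype.sum_equiv ⟨fun (a, b, c, p, r, s) => (a, b, c, p, s, r),
    fun (a, b, c, p, s, r) => (a, b, c, p, r, s), fun _ => rfl, fun _ => rfl⟩ _ _ ?_
  rintro ⟨a, b, c, p, r, s⟩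
  simp only [Equiv.coe_fn_mk, ht.1, ht.2, mul_comm, mul_left_comm]

theorem P1 (ht : Sym3 t) :
    ∑ a, ∑ b, ∑ c, t a b c * ∑ p, ∑ r, t p r b * ∑ s, t p s a * t s r c =
      cP t := by
  simp only [cP, Finset.mul_sum]
  rw [nest6, nest6]
  refine Fintype.sum_equiv ⟨fun (a, b, c, p, r, s) => (a, b, c, s, r, p),
    fun (a, b, c, s, r, p) => (a, b, c, p, r, s), fun _ => rfl, fun _ => rfl⟩ _ _ ?_
  rintro ⟨a, b, c, p, r, s⟩
  simp only [Equiv.coe_fn_mk, ht.1, ht.2, mul_comm, mul_left_comm]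

theorem P2 (ht : Sym3 t) :
    ∑ a, ∑ b, ∑ c, t a b c * ∑ p, ∑ r, t p r c * ∑ s, t p s a * t s b r =
      cP t := by
  simp only [cP, Finset.mul_sum]
  rw [nest6, nest6]
  refine Fintype.sum_equiv ⟨fun (a, b, c, p, r, s) => (a, c, b, s, r, p),
    fun (a, c, b, s, r, p) => (a, b, c, p, r, s), fun _ => rfl, fun _ => rfl⟩ _ _ ?_
  rintro ⟨a, b, c, p, r, s⟩
  simp only [Equiv.coe_fn_mk, ht.1, ht.2, mul_comm, mul_left_comm]

theorem P3 (ht : Sym3 t) :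
    ∑ a, ∑ b, ∑ c, t a b c * ∑ p, ∑ r, t p r c * ∑ s, t p s b * t a s r =
      cP t := by
  simp only [cP, Finset.mul_sum]
  rw [nest6, nest6]
  refine Fintype.sum_equiv ⟨fun (a, b, c, p, r, s) => (b, c, a, s, r, p),
    fun (b, c, a, s, r, p) => (a, b, c, p, r, s), fun _ => rfl, fun _ => rfl⟩ _ _ ?_
  rintro ⟨a, b, c, p, r, s⟩
  simp only [Equiv.coe_fn_mk, ht.1, ht.2, mul_comm, mul_left_comm]

theorem M1 (M : Mat n) (ht : Sym3 t) :
    ∑ a, ∑ b, ∑ c, t a b c * ∑ r, M r a * t r b c =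
      ∑ i, ∑ a, M i a * cQ t i a := by
  simp only [cQ, Finset.mul_sum]
  rw [nest4, nest4]
  refine Fintype.sum_equiv ⟨fun (a, b, c, r) => (r, a, b, c),
    fun (r, a, b, c) => (a, b, c, r), fun _ => rfl, fun _ => rfl⟩ _ _ ?_
  rintro ⟨a, b, c, r⟩
  simp only [Equiv.coe_fn_mk, ht.1, ht.2, mul_comm, mul_left_comm]

theorem M2 (M : Mat n) (ht : Sym3 t) :
    ∑ a, ∑ b, ∑ c, t a b c * ∑ r, M r b * t a r c =
      ∑ i, ∑ a, M i a * cQ t i a := by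
  simp only [cQ, Finset.mul_sum]
  rw [nest4, nest4]
  refine Fintype.sum_equiv ⟨fun (a, b, c, r) => (r, b, a, c),
    fun (r, b, a, c) => (a, b, c, r), fun _ => rfl, fun _ => rfl⟩ _ _ ?_
  rintro ⟨a, b, c, r⟩
  simp only [Equiv.coe_fn_mk, ht.1, ht.2, mul_comm, mul_left_comm]

theorem M3 (M : Mat n) (ht : Sym3 t) :
    ∑ a, ∑ b, ∑ c, t a b c * ∑ r, M r c * t a b r =
      ∑ i, ∑ a, M i a * cQ t i a := by
  simp only [cQ, Finset.mul_sum]
  rw [nest4, nest4]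
  refine Fintype.sum_equiv ⟨fun (a, b, c, r) => (r, c, a, b),
    fun (r, c, a, b) => (a, b, c, r), fun _ => rfl, fun _ => rfl⟩ _ _ ?_
  rintro ⟨a, b, c, r⟩
  simp only [Equiv.coe_fn_mk, ht.1, ht.2, mul_comm, mul_left_comm]

theorem Q0  :
    ∑ a, ∑ b, ∑ c, ∑ p, q p a b c * q p a b c =
      ∑ i, ∑ j, ∑ k, ∑ l, q i j k l ^ 2 := by
  simp only [sq]
  rw [nest4, nest4]
  refine Fintype.sum_equiv ⟨fun (a, b, c, p) => (p, a, b, c),
    fun (p, a, b, c) => (a, b, c, p), fun _ => rfl, fun _ => rfl⟩ _ _ ?_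
  rintro ⟨a, b, c, p⟩
  simp only [Equiv.coe_fn_mk]

end contr

theorem alg {t w l : Fin n → Fin n → Fin n → ℝ} {q : Fin n → Fin n → Fin n → Fin n → ℝ}
    (M : Mat n) (ht : Sym3 t) (hq : Sym4 q)
    (hl : ∀ a b c, l a b c = 2 * t a b c - w a b c + ∑ p, ∑ r, t a p r * q r p b c +
      ∑ p, ∑ r, t b p r * q r p a c + ∑ p, ∑ r, t c p r * q r p a b -
      2 * ∑ p, ∑ r, ∑ s, t a p r * t b r s * t c s p) :
    ∑ a, ∑ b, ∑ c, (t a b c * l a b c + t a b c *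
      (l a b c + ∑ r, M r a * t r b c - 2 * ∑ p, ∑ r, t p r a * q p r b c +
        ∑ r, M r b * t a r c - 2 * ∑ p, ∑ r, t p r b * (q p a r c - ∑ s, t p s a * t s r c) +
        ∑ r, M r c * t a b r - 2 * ∑ p, ∑ r, t p r c *
          (q p a b r - ∑ s, t p s a * t s b r - ∑ s, t p s b * t a s r)) +
      2 * ∑ p, (q p a b c - ∑ r, t p r a * t r b c - ∑ r, t p r b * t a r c -
        ∑ r, t p r c * t a b r) * q p a b c) =
    4 * (∑ i, ∑ j, ∑ k, t i j k ^ 2) - 2 * (∑ i, ∑ j, ∑ k, t i j k * w i j k) +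
      3 * (∑ i, ∑ a, M i a * cQ t i a) + 2 * cP t + 2 * (∑ i, ∑ j, ∑ k, ∑ l, q i j k l ^ 2) -
      6 * cA t q := by
  have e : ∀ a b c, t a b c * l a b c + t a b c *
      (l a b c + ∑ r, M r a * t r b c - 2 * ∑ p, ∑ r, t p r a * q p r b c +
        ∑ r, M r b * t a r c - 2 * ∑ p, ∑ r, t p r b * (q p a r c - ∑ s, t p s a * t s r c) +
        ∑ r, M r c * t a b r - 2 * ∑ p, ∑ r, t p r c *
          (q p a b r - ∑ s, t p s a * t s b r - ∑ s, t p s b * t a s r)) +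
      2 * ∑ p, (q p a b c - ∑ r, t p r a * t r b c - ∑ r, t p r b * t a r c -
        ∑ r, t p r c * t a b r) * q p a b c =
      4 * t a b c ^ 2 - 2 * (t a b c * w a b c) +
      2 * (t a b c * ∑ p, ∑ r, t a p r * q r p b c) +
      2 * (t a b c * ∑ p, ∑ r, t b p r * q r p a c) +
      2 * (t a b c * ∑ p, ∑ r, t c p r * q r p a b) -
      4 * (t a b c * ∑ p, ∑ r, ∑ s, t a p r * t b r s * t c s p) +
      t a b c * ∑ r, M r a * t r b c + t a b c * ∑ r, M r b * t a r c +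
      t a b c * ∑ r, M r c * t a b r -
      2 * (t a b c * ∑ p, ∑ r, t p r a * q p r b c) -
      2 * (t a b c * ∑ p, ∑ r, t p r b * q p a r c) -
      2 * (t a b c * ∑ p, ∑ r, t p r c * q p a b r) +
      2 * (t a b c * ∑ p, ∑ r, t p r b * ∑ s, t p s a * t s r c) +
      2 * (t a b c * ∑ p, ∑ r, t p r c * ∑ s, t p s a * t s b r) +
      2 * (t a b c * ∑ p, ∑ r, t p r c * ∑ s, t p s b * t a s r) +
      2 * ∑ p, q p a b c * q p a b c - 2 * ∑ p, (∑ r, t p r a * t r b c) * q p a b c -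
      2 * ∑ p, (∑ r, t p r b * t a r c) * q p a b c -
      2 * ∑ p, (∑ r, t p r c * t a b r) * q p a b c := fun a b c => by
    simp only [hl, mul_sub, sub_mul, Finset.sum_sub_distrib]
    ring
  have c2 : ∀ F : Fin n → ℝ, ∑ a, 2 * F a = 2 * ∑ a, F a := fun F => (Finset.mul_sum ..).symm
  have c4 : ∀ F : Fin n → ℝ, ∑ a, 4 * F a = 4 * ∑ a, F a := fun F => (Finset.mul_sum ..).symm
  simp only [e, Finset.sum_add_distrib, Finset.sum_sub_distrib, c2, c4]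
  rw [A1 ht hq, A2 ht hq, A3 ht hq, B1 ht hq, B2 ht hq, B3 ht hq, C1 ht hq, C2 ht hq, C3 ht hq,
    P0 ht, P1 ht, P2 ht, P3 ht, M1 M ht, M2 M ht, M3 M ht, Q0]
  ring

end CalN

open CalN in
/-- First prove the rule for `Lop` of a product of five smooth functions (iterate `Lop_mul`,
`D_mul`). At `x₀`: `τ = 1`, `D p τ_{ia} = - t_{pia}` (`MD_tau`), `L τ_{ia} = W_{ia} - δ + cQ_{ia}`
(`L_tau`), `L t_{ijk} = 2t - W₃ + ∑_cyc t_{ipq} q_{pqjk} - 2 tr (T_i T_j T_k)` (`L_d3`),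
`D p t_{ijk} = q_{pijk}`. Contributions: `2⟨t, Lt⟩ = 4w - 2⟨t,W₃⟩ + 6 cA - 4 cP`,
`3 (Lτ) t t = -3w + 3 ⟨W'', cQ⟩ + 3 |cQ|²`, pairs (t,t): `2|q|²`, (τ,t): `-12 cA`, (τ,τ): `6 cP`. -/
theorem cal_norm {Θ W : E n → ℝ} (h : LPot Θ W) {x₀ : E n} (h1 : hess Θ x₀ = 1) :
    Lop (tau Θ) (wC Θ) x₀ = (∑ i, ∑ j, ∑ k, d3 Θ x₀ i j k ^ 2)
      - 2 * (∑ i, ∑ j, ∑ k, d3 Θ x₀ i j k * d3 W x₀ i j k)
      + 3 * (∑ i, ∑ a, hess W x₀ i a * cQ (d3 Θ x₀) i a)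
      + (3 * (∑ i, ∑ a, cQ (d3 Θ x₀) i a ^ 2) + 2 * cP (d3 Θ x₀) +
        2 * (∑ i, ∑ j, ∑ k, ∑ l, d4 Θ x₀ i j k l ^ 2) - 6 * cA (d3 Θ x₀) (d4 Θ x₀)) := by
  have h0 : tau Θ x₀ = 1 := by rw [tau, h1, inv_one]
  have ht := d3_sym h.sT x₀
  have hq := d4_sym h.sT x₀
  have hT := hess_D_apply h.sT x₀
  have jτ : ∀ i a, Jet (tau Θ) x₀ (ent (tau Θ) i a) ((1 : Mat n) i a)
      (fun p => -d3 Θ x₀ p i a) ((hess W x₀ - 1 + Matrix.of (cQ (d3 Θ x₀))) i a) := fun i a => by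
    refine ⟨h.msmo i a, by rw [ent, h0], fun p => ?_, ?_⟩
    · rw [← MD_apply, h.MD_tau, h0, one_mul, mul_one, Matrix.neg_apply, hT]
    · have := congrFun (congrFun (h.L_tau x₀) i) a
      rw [h0, one_mul, mul_one, one_mul, mul_one, Matrix.of_apply] at this
      rw [this, Matrix.add_apply, Matrix.add_apply]
      simp only [Qm, h0, one_mul, mul_one, Matrix.of_apply, Matrix.trace, Matrix.diag,
        Matrix.mul_apply, hT, cQ, ht.2 a]
  have jt : ∀ i j k, Jet (tau Θ) x₀ (fun y => d3 Θ y i j k) (d3 Θ x₀ i j k)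
      (fun p => d4 Θ x₀ p i j k) (Lop (tau Θ) (D i (D j (D k Θ))) x₀) := fun i j k =>
    ⟨smo_D _ (smo_D _ (smo_D _ h.sT)), rfl, fun _ => rfl, rfl⟩
  have j1 := fun a j k => Jet.raise h0 jτ (fun i => jt i j k) a
  have j2 := fun a b k => Jet.raise h0 jτ (fun j => j1 a j k) b
  have j3 := fun a b c => Jet.raise h0 jτ (fun k => j2 a b k) c
  have j4 := (Jet.sum fun a => Jet.sum fun b => Jet.sum fun c =>
    (j3 a b c).mul h0 (jt a b c)).lop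
  have e : wC Θ = fun y => ∑ a, ∑ b, ∑ c, (∑ k, tau Θ y k c * ∑ j, tau Θ y j b *
      ∑ i, tau Θ y i a * d3 Θ y i j k) * d3 Θ y a b c := funext fun y => nrm3_eq _ _
  rw [e, j4, alg (w := d3 W x₀) _ ht hq fun a b c => ?_]
  · have e2 : ∑ i, ∑ a, (hess W x₀ - 1 + Matrix.of (cQ (d3 Θ x₀))) i a * cQ (d3 Θ x₀) i a =
        ∑ i, ∑ a, hess W x₀ i a * cQ (d3 Θ x₀) i a - ∑ i, ∑ j, ∑ k, d3 Θ x₀ i j k ^ 2 +
          ∑ i, ∑ a, cQ (d3 Θ x₀) i a ^ 2 := by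
      simp only [Matrix.add_apply, Matrix.sub_apply, Matrix.of_apply, add_mul, sub_mul,
        Finset.sum_add_distrib, Finset.sum_sub_distrib, Matrix.one_apply, ite_mul, one_mul,
        zero_mul, Finset.sum_ite_eq, Finset.mem_univ, if_true, sq]
      rfl
    rw [e2]
    ring
  · rw [h.L_d3, h0]
    simp only [one_mul, mul_one, Matrix.trace, Matrix.diag, Matrix.mul_apply, hT,
      Finset.sum_mul]
    refine congrArg₂ _ rfl (congrArg _ (Finset.sum_congr rfl fun p _ => Finset.sum_comm))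

end Vale.Agent.P227
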