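import Vale.Agent.P227.HbM
import Vale.Agent.P227.MatB

/-! Linear changes of variables. -/

namespace Vale.Agent.P227

open scoped ContDiff Matrix RealInnerProductSpace Topology
open MeasureTheory Filter

variable {n : ℕ}

variable {f Θ W : E n → ℝ}

theorem smo_lin (hf : ContDiff ℝ ∞ f) (B : Mat n) : ContDiff ℝ ∞ (fun y => f (lin B y)) :=
  hf.comp (lin B).contDiff
theorem D_lin (hf : Differentiable ℝ f) (B : Mat n) (i : Fin n) :
    D i (fun y => f (lin B y)) = fun y => ∑ a, B a i * D a f (lin B y) := by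
  funext y
  have h := ((hf (lin B y)).hasFDerivAt.comp y (lin B).hasFDerivAt).fderiv
  have h2 : D i (fun y => f (lin B y)) y = pd (lin B (ev i)) f (lin B y) := by
    show fderiv ℝ (f ∘ lin B) y (ev i) = _
    rw [h]; rfl
  rw [h2, pd_eq_sum]
  refine Finset.sum_congr rfl fun a _ => ?_
  simp [lin_apply, ev_apply]

namespace LinX

/-- derivative along the `i`-th column of `B` -/
noncomputable def Dl (B : Mat n) (i : Fin n) (f : E n → ℝ) : E n → ℝ :=
  fun x => ∑ a, B a i * D a f x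

theorem D_lin' (hf : ContDiff ℝ ∞ f) (B : Mat n) (i : Fin n) :
    D i (fun y => f (lin B y)) = fun y => Dl B i f (lin B y) := D_lin (smo_diff hf) B i

theorem smo_Dl (hf : ContDiff ℝ ∞ f) (B : Mat n) (i : Fin n) : ContDiff ℝ ∞ (Dl B i f) :=
  ContDiff.sum fun a _ => contDiff_const.mul (smo_D a hf)

theorem D_Dl (hf : ContDiff ℝ ∞ f) (B : Mat n) (i k : Fin n) :
    D k (Dl B i f) = fun x => ∑ a, B a i * D k (D a f) x := by
  unfold Dl
  rw [D_sum k Finset.univ fun a _ => smo_diff (contDiff_const.mul (smo_D a hf))]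
  funext x
  exact Finset.sum_congr rfl fun a _ => by rw [D_const_mul k _ (smo_diff (smo_D a hf))]

theorem hess_Dl (hf : ContDiff ℝ ∞ f) (B : Mat n) (i : Fin n) (x : E n) :
    hess (Dl B i f) x = ∑ a, B a i • hess (D a f) x := by
  unfold Dl
  rw [hess_sum Finset.univ fun a _ => contDiff_const.mul (smo_D a hf)]
  exact Finset.sum_congr rfl fun a _ => hess_const_mul _ (smo_D a hf) x

theorem pb_lin (hf : PB f) (B : Mat n) : PB (fun y => f (lin B y)) := by
  obtain ⟨C, k, hC, hf⟩ := hf.nonneg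
  refine ⟨C * (1 + ‖lin B‖) ^ k, k, fun z => (hf _).trans ?_⟩
  rw [mul_assoc, ← mul_pow]
  refine mul_le_mul_of_nonneg_left (pow_le_pow_left₀ (by positivity) ?_ k) hC
  have h1 := (lin B).le_opNorm z
  have := norm_nonneg (lin B)
  have := norm_nonneg z
  nlinarith

theorem conj_apply (B H : Mat n) (i j : Fin n) :
    (Bᵀ * H * B) i j = ∑ a, ∑ b, B a i * B b j * H a b := by
  simp only [Matrix.mul_apply, Matrix.transpose_apply, Finset.sum_mul]
  rw [Finset.sum_comm]
  exact Finset.sum_congr rfl fun a _ => Finset.sum_congr rfl fun b _ => by ring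

theorem trace_conj (B T H : Mat n) : (T * (Bᵀ * H * B)).trace = (B * T * Bᵀ * H).trace := by
  rw [← Matrix.mul_assoc, Matrix.trace_mul_comm]
  simp only [Matrix.mul_assoc]

end LinX

open LinX

theorem PG.lin (hf : PG f) (B : Mat n) : PG (fun y => f (lin B y)) := by
  refine pg_of_closed (fun g => ∃ h, PG h ∧ g = fun y => h (P227.lin B y)) ?_ ?_ ?_ ⟨f, hf, rfl⟩
  · rintro g ⟨h, hh, rfl⟩
    exact smo_diff (smo_lin hh.smo B)
  · rintro g ⟨h, hh, rfl⟩
    exact pb_lin hh.pb B
  · rintro g ⟨h, hh, rfl⟩ i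
    exact ⟨Dl B i h, pg_sum _ fun a _ => (hh.D a).const_mul _, D_lin' hh.smo B i⟩
theorem hess_lin (hf : ContDiff ℝ ∞ f) (B : Mat n) (y : E n) :
    hess (fun y => f (lin B y)) y = Bᵀ * hess f (lin B y) * B := by
  ext i j
  rw [hess_apply, D_lin' hf, D_lin (smo_diff (smo_Dl hf B j)), conj_apply]
  refine Finset.sum_congr rfl fun a _ => ?_
  rw [D_Dl hf, Finset.mul_sum]
  exact Finset.sum_congr rfl fun b _ => by rw [hess_apply]; ring
theorem rad_lin (hf : Differentiable ℝ f) (B : Mat n) (y : E n) :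
    rad (fun y => f (lin B y)) y = rad f (lin B y) := by
  simp only [rad, D_lin hf, lin_apply, Finset.mul_sum, Finset.sum_mul]
  rw [Finset.sum_comm]
  exact Finset.sum_congr rfl fun a _ => Finset.sum_congr rfl fun b _ => by ring
theorem Lop_lin (hf : ContDiff ℝ ∞ f) {τ τ' : E n → Mat n} {B : Mat n} {y : E n}
    (h : B * τ' y * Bᵀ = τ (lin B y)) :
    Lop τ' (fun y => f (lin B y)) y = Lop τ f (lin B y) := by
  rw [Lop_eq_trace _ (smo_lin hf B), Lop_eq_trace _ hf, hess_lin hf, rad_lin (smo_diff hf),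
    trace_conj, h]
theorem d3_lin (hf : ContDiff ℝ ∞ f) (B : Mat n) (y : E n) :
    d3 (fun y => f (lin B y)) y =
      fun i j k => ∑ a, ∑ b, ∑ e, B a i * B b j * B e k * d3 f (lin B y) a b e := by
  funext i j k
  have h1 : d3 (fun y => f (lin B y)) y i j k = hess (fun y => Dl B k f (lin B y)) y i j := by
    rw [d3, D_lin' hf]; rfl
  rw [h1, hess_lin (smo_Dl hf B k), conj_apply, hess_Dl hf]
  refine Finset.sum_congr rfl fun a _ => Finset.sum_congr rfl fun b _ => ?_
  rw [Matrix.sum_apply, Finset.mul_sum]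
  refine Finset.sum_congr rfl fun e _ => ?_
  rw [Matrix.smul_apply, smul_eq_mul, hess_apply, d3]
  ring
theorem tau_lin (h : LPot Θ W) {B : Mat n} (hB : IsUnit B.det) (y : E n) :
    B * tau (fun y => Θ (lin B y)) y * Bᵀ = tau Θ (lin B y) := by
  have hB' : IsUnit Bᵀ.det := by rwa [Matrix.det_transpose]
  unfold tau
  rw [hess_lin h.sT, Matrix.mul_inv_rev, Matrix.mul_inv_rev, ← Matrix.mul_assoc,
    Matrix.mul_nonsing_inv _ hB, Matrix.one_mul, Matrix.mul_assoc,
    Matrix.nonsing_inv_mul _ hB', Matrix.mul_one]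
theorem LPot.lin (h : LPot Θ W) {B : Mat n} (hB : IsUnit B.det) :
    LPot (fun y => Θ (lin B y)) (fun y => W (lin B y)) := by
  refine ⟨smo_lin h.sT B, smo_lin h.sW B, fun y => ?_, fun i y => ?_⟩
  · rw [hess_lin h.sT]
    have := (h.pos (P227.lin B y)).conjTranspose_mul_mul_same (B := B)
      (Matrix.mulVec_injective_of_isUnit ((Matrix.isUnit_iff_isUnit_det B).2 hB))
    rwa [Matrix.conjTranspose_eq_transpose_of_trivial] at this
  · rw [D_lin (smo_diff h.sW), D_lin' h.sT, hess_lin (smo_Dl h.sT B i), trace_conj, tau_lin h hB,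
      hess_Dl h.sT, hess_lin h.sT]
    simp only [h.grad, mul_sub, Finset.sum_sub_distrib, Matrix.mul_sum, Matrix.trace_sum,
      Matrix.mul_smul, Matrix.trace_smul, smul_eq_mul]
    congr 1
    simp only [conj_apply, lin_apply, Finset.mul_sum, Finset.sum_mul]
    rw [Finset.sum_comm]
    refine Eq.trans (Finset.sum_congr rfl fun c _ => Finset.sum_comm) ?_
    rw [Finset.sum_comm]
    exact Finset.sum_congr rfl fun a _ => Finset.sum_congr rfl fun c _ =>
      Finset.sum_congr rfl fun b _ => by ring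
theorem wC_lin (h : LPot Θ W) {B : Mat n} (hB : IsUnit B.det) :
    wC (fun y => Θ (lin B y)) = fun y => wC Θ (lin B y) := by
  funext y
  unfold wC
  rw [d3_lin h.sT, nrm3_lin, tau_lin h hB]

end Vale.Agent.P227
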