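import Vale.Agent.P227.CalN
import Vale.Agent.P227.CalA
import Vale.Agent.P227.Lin
import Vale.Agent.P227.Apri1

/-! Calabi third order estimate. -/

namespace Vale.Agent.P227

open scoped ContDiff Matrix RealInnerProductSpace Topology
open MeasureTheory Filter

variable {n : ℕ}

theorem CalTAux.alg {t w : Fin n → Fin n → Fin n → ℝ} {q : Fin n → Fin n → Fin n → Fin n → ℝ}
    {M : Mat n} (hM : M.PosSemidef) (ht : Sym3 t) (hq : Sym4 q) :
    (∑ i, ∑ j, ∑ k, t i j k ^ 2) / 2 - 2 * ∑ i, ∑ j, ∑ k, w i j k ^ 2 ≤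
      (∑ i, ∑ j, ∑ k, t i j k ^ 2) - 2 * (∑ i, ∑ j, ∑ k, t i j k * w i j k) +
        3 * (∑ i, ∑ a, M i a * cQ t i a) + (3 * (∑ i, ∑ a, cQ t i a ^ 2) + 2 * cP t +
          2 * (∑ i, ∑ j, ∑ k, ∑ l, q i j k l ^ 2) - 6 * cA t q) := by
  have h1 := cal_alg ht hq
  have h2 := trace_mul_nonneg hM (cQ_psd t)
  rw [← sum_mul_eq_trace (psd_isSymm (cQ_psd t))] at h2
  simp only [Matrix.of_apply] at h2
  have h3 : 2 * (∑ i, ∑ j, ∑ k, t i j k * w i j k) ≤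
      1 / 2 * (∑ i, ∑ j, ∑ k, t i j k ^ 2) + 2 * ∑ i, ∑ j, ∑ k, w i j k ^ 2 := by
    simp only [Finset.mul_sum, ← Finset.sum_add_distrib]
    exact Finset.sum_le_sum fun i _ => Finset.sum_le_sum fun j _ => Finset.sum_le_sum fun k _ => by
      nlinarith [sq_nonneg (t i j k - 2 * w i j k)]
  linarith

theorem CalTAux.sum_le {t : Fin n → Fin n → Fin n → ℝ} {M : ℝ} (h : ∀ i j k, |t i j k| ≤ M) :
    ∑ i, ∑ j, ∑ k, t i j k ^ 2 ≤ n ^ 3 * M ^ 2 := by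
  refine (Finset.sum_le_sum fun i _ => Finset.sum_le_sum fun j _ =>
    Finset.sum_le_sum (g := fun _ => M ^ 2) fun k _ => ?_).trans (le_of_eq ?_)
  · rw [← sq_abs]
    exact pow_le_pow_left₀ (abs_nonneg _) (h i j k) 2
  · simp; ring

theorem LPot.smo_wC {Θ W : E n → ℝ} (h : LPot Θ W) : ContDiff ℝ ∞ (wC Θ) := by
  unfold wC nrm3
  iterate 6 refine ContDiff.sum fun _ _ => ?_
  rename_i i _ j _ k _ a _ b _ c _
  exact ((((h.msmo i a).mul (h.msmo j b)).mul (h.msmo k c)).mul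
    (smo_D i (smo_D j (smo_D k h.sT)))).mul (smo_D a (smo_D b (smo_D c h.sT)))

/-- Take `B` symmetric with `B B = tau Θ x₀`, `y₀ = lin B⁻¹ x₀`; then `Θ ∘ B` has Hessian `1` at
`y₀`. Use `LPot.lin`, `cal_norm`, `cal_alg`, `cQ_psd`, `2ab ≤ a²/2 + 2b²`, and transfer back with
`wC_lin`, `Lop_lin`, `tau_lin`, `d3_lin`, `nrm3_lin`, `nrm3_one`. -/
theorem cal_ineq {Θ W : E n → ℝ} (h : LPot Θ W) {x₀ : E n} (hW : (hess W x₀).PosSemidef) :
    wC Θ x₀ / 2 - 2 * nrm3 (tau Θ x₀) (d3 W x₀) ≤ Lop (tau Θ) (wC Θ) x₀ := by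
  obtain ⟨B, hs, hB⟩ := exists_sqrt (h.tau_posDef x₀).posSemidef
  have hu : IsUnit B.det := by
    have := (h.tau_posDef x₀).det_pos
    rw [← hB, Matrix.det_mul] at this
    exact Ne.isUnit fun e => by simp [e] at this
  obtain ⟨y, rfl⟩ : ∃ y, x₀ = lin B y :=
    ⟨lin B⁻¹ x₀, by rw [lin_lin, Matrix.mul_nonsing_inv _ hu, lin_one]⟩
  have h' := h.lin hu
  have h1 : hess (fun y => Θ (lin B y)) y = 1 := by
    have e := h.tau_mul (lin B y)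
    rw [← hB, Matrix.mul_assoc] at e
    rw [hess_lin h.sT, hs.eq]
    exact mul_eq_one_comm.1 e
  have h0 : tau (fun y => Θ (lin B y)) y = 1 := by rw [tau, h1, inv_one]
  have h2 : (hess (fun y => W (lin B y)) y).PosSemidef := by
    rw [hess_lin h.sW]
    exact hW.conjTranspose_mul_mul_same B
  have e1 : Lop (tau Θ) (wC Θ) (lin B y) =
      Lop (tau fun y => Θ (lin B y)) (wC fun y => Θ (lin B y)) y := by
    rw [wC_lin h hu, Lop_lin h.smo_wC (tau_lin h hu y)]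
  have e2 : wC Θ (lin B y) = ∑ i, ∑ j, ∑ k, d3 (fun y => Θ (lin B y)) y i j k ^ 2 := by
    rw [← nrm3_one, ← h0]
    exact (congrFun (wC_lin h hu) y).symm
  have e3 : nrm3 (tau Θ (lin B y)) (d3 W (lin B y)) =
      ∑ i, ∑ j, ∑ k, d3 (fun y => W (lin B y)) y i j k ^ 2 := by
    rw [← nrm3_one, ← h0, d3_lin h.sW, nrm3_lin, tau_lin h hu]
  rw [e1, e2, e3, cal_norm h' h1]
  exact CalTAux.alg h2 (d3_sym h'.sT y) (d4_sym h'.sT y)

/-- `maxp` with `β = 1/2` for `wC Θ` (bounded qualitatively), `ap_ell`, `nrm3_upper`,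
`nrm3_lower` -/
theorem cal_bound (n : ℕ) {κ K : ℝ} (hκ : 0 < κ) (hK : 0 < K) : ∃ C : ℝ, 0 < C ∧
    ∀ Θ W : E n → ℝ, Pot Θ W → Ell κ K (hess W) → N2 1 K W →
      ∀ i j k x, |D i (D j (D k Θ)) x| ≤ C := by
  have hn : (0 : ℝ) ≤ (n : ℝ) ^ 3 := by positivity
  refine ⟨K ^ 3 * (4 * ((1 / κ) ^ 3 * (n ^ 3 * K ^ 2))) + 1, by positivity,
    fun Θ W h hE hN i j k x => ?_⟩
  have hτ := (ap_ell h hκ hK hE).1
  have hK' : (0 : ℝ) ≤ 1 / K := by positivity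
  have hκ' : (0 : ℝ) ≤ 1 / κ := by positivity
  have up : ∀ (f : E n → ℝ) (M : ℝ), N2 1 M f → ∀ z,
      nrm3 (tau Θ z) (d3 f z) ≤ (1 / κ) ^ 3 * (n ^ 3 * M ^ 2) := fun f M hf z =>
    (nrm3_upper (hτ z) hK' hκ' _).trans (mul_le_mul_of_nonneg_left
      (CalTAux.sum_le fun a b c => hf.abs_le3 a b c z) (by positivity))
  obtain ⟨M, hM⟩ := h.mT.2 1
  have h1 := maxp (A := 4 * ((1 / κ) ^ 3 * (n ^ 3 * K ^ 2))) (β := 1 / 2)
    (fun z => (hτ z).psd hK') (fun z => trace_le_of_qf fun ξ => ((hτ z).2 ξ).2)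
    h.toLPot.smo_wC ⟨_, up Θ M hM⟩ one_half_pos (fun z => Or.inr (by
      have := cal_ineq h.toLPot ((hE z).psd hκ.le)
      linarith [up W K hN z])) x
  have h2 := (nrm3_lower (hτ x) hK' (d3 Θ x)).trans h1
  have h3 : d3 Θ x i j k ^ 2 ≤ ∑ a, ∑ b, ∑ c, d3 Θ x a b c ^ 2 :=
    ((Finset.single_le_sum (f := fun c => d3 Θ x i j c ^ 2) (fun _ _ => sq_nonneg _)
      (Finset.mem_univ k)).trans (Finset.single_le_sum (f := fun b => ∑ c, d3 Θ x i b c ^ 2)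
        (fun _ _ => by positivity) (Finset.mem_univ j))).trans
      (Finset.single_le_sum (f := fun a => ∑ b, ∑ c, d3 Θ x a b c ^ 2)
        (fun _ _ => by positivity) (Finset.mem_univ i))
  have h4 := mul_le_mul_of_nonneg_left h2 (pow_pos hK 3).le
  rw [← mul_assoc, ← mul_pow, mul_one_div_cancel hK.ne', one_pow, one_mul] at h4
  have h5 := h3.trans h4
  change |d3 Θ x i j k| ≤ _
  rw [← sq_abs] at h5
  nlinarith [sq_nonneg (|d3 Θ x i j k| - 1), abs_nonneg (d3 Θ x i j k), sq_nonneg (d3 Θ x i j k)]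

end Vale.Agent.P227
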