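import Vale.Agent.P227.Defs

/-! Basic calculus for coordinate derivatives. -/

namespace Vale.Agent.P227

open scoped ContDiff Matrix RealInnerProductSpace Topology
open MeasureTheory Filter

variable {n : ℕ}

variable {f g : E n → ℝ}

theorem smo_diff (hf : ContDiff ℝ ∞ f) : Differentiable ℝ f := hf.differentiable (by simp)
theorem smo_pd (w : E n) (hf : ContDiff ℝ ∞ f) : ContDiff ℝ ∞ (pd w f) := (hf.fderiv_right (m := ∞) (by simp)).clm_apply contDiff_const
theorem smo_D (i : Fin n) (hf : ContDiff ℝ ∞ f) : ContDiff ℝ ∞ (D i f) := smo_pd _ hf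
theorem smo_coord (i : Fin n) : ContDiff ℝ ∞ (fun x : E n => x i) := (EuclideanSpace.proj (𝕜 := ℝ) i : E n →L[ℝ] ℝ).contDiff
theorem smo_normsq : ContDiff ℝ ∞ (fun x : E n => ‖x‖ ^ 2) := contDiff_norm_sq ℝ
theorem ev_apply (i j : Fin n) : (ev i : E n) j = if j = i then 1 else 0 := by simp [ev]
theorem norm_ev (i : Fin n) : ‖(ev i : E n)‖ = 1 := by simp [ev]
theorem abs_coord_le (x : E n) (i : Fin n) : |x i| ≤ ‖x‖ := by simpa using PiLp.norm_apply_le x i
theorem normsq_eq (x : E n) : ‖x‖ ^ 2 = ∑ i, x i ^ 2 := by simp [EuclideanSpace.norm_sq_eq]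
theorem inner_eq_sum (x y : E n) : ⟪x, y⟫ = ∑ i, x i * y i := by simp [PiLp.inner_apply, mul_comm]
theorem eq_sum_ev (w : E n) : w = ∑ i, w i • ev i := by
  ext j
  simp [ev_apply]
theorem pd_eq_sum (w : E n) (f : E n → ℝ) (x : E n) : pd w f x = ∑ i, w i * D i f x := by
  conv_lhs => rw [pd, eq_sum_ev w]
  simp only [map_sum, map_smul, smul_eq_mul]
  rfl
theorem rad_eq (f : E n → ℝ) (x : E n) : rad f x = fderiv ℝ f x x := (pd_eq_sum x f x).symm
theorem hasDerivAt_line (hf : Differentiable ℝ f) (x w : E n) (s : ℝ) :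
    HasDerivAt (fun r : ℝ => f (x + r • w)) (∑ i, w i * D i f (x + s • w)) s := by
  rw [← pd_eq_sum]
  have h : HasDerivAt (fun r : ℝ => x + r • w) w s := by
    simpa using ((hasDerivAt_id s).smul_const w).const_add x
  exact (hf _).hasFDerivAt.comp_hasDerivAt s h
theorem D_const (i : Fin n) (c : ℝ) : D i (fun _ : E n => c) = fun _ => 0 := by
  funext x; simp [D, pd]
theorem D_add (i : Fin n) (hf : Differentiable ℝ f) (hg : Differentiable ℝ g) :
    D i (fun x => f x + g x) = fun x => D i f x + D i g x := by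
  funext x; simp only [D, pd]; rw [fderiv_fun_add (hf x) (hg x)]; rfl
theorem D_sub (i : Fin n) (hf : Differentiable ℝ f) (hg : Differentiable ℝ g) :
    D i (fun x => f x - g x) = fun x => D i f x - D i g x := by
  funext x; simp only [D, pd]; rw [fderiv_fun_sub (hf x) (hg x)]; rfl
theorem D_neg (i : Fin n) (f : E n → ℝ) : D i (fun x => -f x) = fun x => -D i f x := by
  funext x; simp only [D, pd]; rw [fderiv_fun_neg]; rfl
theorem D_const_mul (i : Fin n) (c : ℝ) (hf : Differentiable ℝ f) :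
    D i (fun x => c * f x) = fun x => c * D i f x := by
  funext x; simp only [D, pd]; rw [fderiv_const_mul (hf x)]; rfl
theorem D_mul (i : Fin n) (hf : Differentiable ℝ f) (hg : Differentiable ℝ g) :
    D i (fun x => f x * g x) = fun x => D i f x * g x + f x * D i g x := by
  funext x; simp only [D, pd]; rw [fderiv_fun_mul (hf x) (hg x)]
  simp only [add_apply, smul_apply, smul_eq_mul]; ring
theorem D_sum {ι : Type*} (i : Fin n) (s : Finset ι) {F : ι → E n → ℝ}
    (h : ∀ a ∈ s, Differentiable ℝ (F a)) :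
    D i (fun x => ∑ a ∈ s, F a x) = fun x => ∑ a ∈ s, D i (F a) x := by
  funext x; simp only [D, pd]; rw [fderiv_fun_sum fun a ha => h a ha x]
  simp only [ContinuousLinearMap.sum_apply]
theorem D_coord (i j : Fin n) :
    D i (fun x : E n => x j) = fun _ => if j = i then (1 : ℝ) else 0 := by
  funext x
  have := (EuclideanSpace.proj (𝕜 := ℝ) j : E n →L[ℝ] ℝ).fderiv (x := x)
  simp only [D, pd]
  rw [← ev_apply]
  exact congrArg (fun L : E n →L[ℝ] ℝ => L (ev i)) this
theorem D_normsq (i : Fin n) : D i (fun x : E n => ‖x‖ ^ 2) = fun x => 2 * x i := by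
  funext x
  simp only [D, pd]
  rw [(hasStrictFDerivAt_norm_sq x).hasFDerivAt.fderiv]
  simp [inner_eq_sum, ev_apply]
theorem D_comp (i : Fin n) {φ φ' : ℝ → ℝ} (hφ : ∀ x, HasDerivAt φ (φ' (f x)) (f x))
    (hf : Differentiable ℝ f) : D i (fun x => φ (f x)) = fun x => φ' (f x) * D i f x := by
  funext x
  simp only [D, pd]
  have := ((hφ x).comp_hasFDerivAt x (hf x).hasFDerivAt).fderiv
  exact congrArg (fun L : E n →L[ℝ] ℝ => L (ev i)) this
theorem D_affine (i : Fin n) (hf : Differentiable ℝ f) (m : E n) (σ : ℝ) :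
    D i (fun z => f (m + σ • z)) = fun z => σ * D i f (m + σ • z) := by
  funext z
  simp only [D, pd]
  have h : HasFDerivAt (fun z : E n => m + σ • z) (σ • ContinuousLinearMap.id ℝ (E n)) z :=
    ((hasFDerivAt_id z).const_smul σ).const_add m
  have := ((hf _).hasFDerivAt.comp z h).fderiv
  refine (congrArg (fun L : E n →L[ℝ] ℝ => L (ev i)) this).trans ?_
  simp
theorem smo_affine (hf : ContDiff ℝ ∞ f) (m : E n) (σ : ℝ) :
    ContDiff ℝ ∞ (fun z => f (m + σ • z)) := hf.comp (contDiff_const.add (contDiff_id.const_smul σ))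
theorem D_congr (i : Fin n) {x : E n} (h : f =ᶠ[𝓝 x] g) : D i f =ᶠ[𝓝 x] D i g := (h.fderiv (𝕜 := ℝ)).mono fun _ hy => congrArg (fun L : E n →L[ℝ] ℝ => L (ev i)) hy
theorem D_comm (i j : Fin n) (hf : ContDiff ℝ ∞ f) : D i (D j f) = D j (D i f) := by
  funext x
  have h1 : DifferentiableAt ℝ (fderiv ℝ f) x :=
    (hf.fderiv_right (m := ∞) (by simp)).differentiable (by simp) x
  have h2 : ∀ a b : Fin n, D a (D b f) x = fderiv ℝ (fderiv ℝ f) x (ev a) (ev b) := by
    intro a b
    show fderiv ℝ (fun y => fderiv ℝ f y (ev b)) x (ev a) = _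
    rw [fderiv_clm_apply h1 (differentiableAt_const _)]
    simp
  rw [h2, h2]
  exact (hf.contDiffAt.isSymmSndFDerivAt (by simp; exact WithTop.coe_le_coe.2 le_top)).eq _ _
theorem hess_apply (f : E n → ℝ) (x : E n) (i j : Fin n) : hess f x i j = D i (D j f) x := rfl
theorem ent_hess (f : E n → ℝ) (i j : Fin n) : ent (hess f) i j = D i (D j f) := rfl
theorem hess_symm (hf : ContDiff ℝ ∞ f) (x : E n) : (hess f x).IsSymm := Matrix.IsSymm.ext fun i j => congrFun (D_comm j i hf) x
theorem hess_congr {x : E n} (h : f =ᶠ[𝓝 x] g) : hess f x = hess g x := by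
  ext i j
  exact (D_congr i (D_congr j h)).self_of_nhds
theorem msmo_hess (hf : ContDiff ℝ ∞ f) : MSmo (hess f) := fun i j => smo_D i (smo_D j hf)
theorem MD_hess (k : Fin n) (hf : ContDiff ℝ ∞ f) (x : E n) :
    MD k (hess f) x = hess (D k f) x := by
  ext i j
  show D k (D i (D j f)) x = D i (D j (D k f)) x
  rw [D_comm k i (smo_D j hf), D_comm k j hf]
theorem hess_D_apply (hf : ContDiff ℝ ∞ f) (x : E n) (k i j : Fin n) :
    hess (D k f) x i j = d3 f x k i j := by
  show D i (D j (D k f)) x = D k (D i (D j f)) x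
  rw [D_comm k i (smo_D j hf), D_comm k j hf]
theorem d3_sym (hf : ContDiff ℝ ∞ f) (x : E n) : Sym3 (d3 f x) := ⟨fun i j k => congrFun (D_comm i j (smo_D k hf)) x,
    fun i j k => by rw [d3, d3, D_comm j k hf]⟩
theorem hessD_sym (hf : ContDiff ℝ ∞ f) (x : E n) :
    Sym3 (fun k i j => hess (D k f) x i j) := by
  simp only [hess_D_apply hf]
  exact d3_sym hf x
theorem d4_sym (hf : ContDiff ℝ ∞ f) (x : E n) : Sym4 (d4 f x) := ⟨fun i j k l => congrFun (D_comm i j (smo_D k (smo_D l hf))) x,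
    fun i j k l => by rw [d4, d4, D_comm j k (smo_D l hf)],
    fun i j k l => by rw [d4, d4, D_comm k l hf]⟩
theorem hess_add (hf : ContDiff ℝ ∞ f) (hg : ContDiff ℝ ∞ g) (x : E n) :
    hess (fun y => f y + g y) x = hess f x + hess g x := by
  ext i j
  rw [Matrix.add_apply, hess_apply, D_add j (smo_diff hf) (smo_diff hg),
    D_add i (smo_diff (smo_D j hf)) (smo_diff (smo_D j hg))]
  rfl
theorem hess_sub (hf : ContDiff ℝ ∞ f) (hg : ContDiff ℝ ∞ g) (x : E n) :
    hess (fun y => f y - g y) x = hess f x - hess g x := by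
  ext i j
  rw [Matrix.sub_apply, hess_apply, D_sub j (smo_diff hf) (smo_diff hg),
    D_sub i (smo_diff (smo_D j hf)) (smo_diff (smo_D j hg))]
  rfl
theorem hess_const_mul (c : ℝ) (hf : ContDiff ℝ ∞ f) (x : E n) :
    hess (fun y => c * f y) x = c • hess f x := by
  ext i j
  rw [Matrix.smul_apply, hess_apply, D_const_mul j c (smo_diff hf),
    D_const_mul i c (smo_diff (smo_D j hf))]
  rfl
theorem hess_const (c : ℝ) (x : E n) : hess (fun _ : E n => c) x = 0 := by
  ext i j
  rw [hess_apply, D_const, D_const]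
  rfl
theorem hess_coord (i : Fin n) (x : E n) : hess (fun y : E n => y i) x = 0 := by
  ext a b
  rw [hess_apply, D_coord, D_const]
  rfl
theorem hess_sum {ι : Type*} (s : Finset ι) {F : ι → E n → ℝ}
    (h : ∀ a ∈ s, ContDiff ℝ ∞ (F a)) (x : E n) :
    hess (fun y => ∑ a ∈ s, F a y) x = ∑ a ∈ s, hess (F a) x := by
  ext i j
  rw [Matrix.sum_apply, hess_apply, D_sum j s fun a ha => smo_diff (h a ha),
    D_sum i s fun a ha => smo_diff (smo_D j (h a ha))]
  rfl
theorem hess_normsq (x : E n) : hess (fun y : E n => ‖y‖ ^ 2) x = (2 : ℝ) • (1 : Mat n) := by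
  ext i j
  rw [hess_apply, D_normsq, D_const_mul i 2 (smo_diff (smo_coord j)), D_coord]
  simp [Matrix.one_apply, eq_comm]
theorem smo_gW : ContDiff ℝ ∞ (gW : E n → ℝ) := smo_normsq.div_const 2
theorem D_gW (i : Fin n) : D i (gW : E n → ℝ) = fun x => x i := by
  have : (gW : E n → ℝ) = fun z => 1 / 2 * ‖z‖ ^ 2 := by funext z; rw [gW]; ring
  rw [this, D_const_mul i _ (smo_diff smo_normsq), D_normsq]
  funext x; ring
theorem hess_gW (x : E n) : hess gW x = 1 := by
  ext i j
  rw [hess_apply, D_gW, D_coord]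
  simp [Matrix.one_apply, eq_comm]
theorem smo_rad (hf : ContDiff ℝ ∞ f) : ContDiff ℝ ∞ (rad f) := ContDiff.sum fun i _ => (smo_coord i).mul (smo_D i hf)
theorem D_rad (i : Fin n) (hf : ContDiff ℝ ∞ f) :
    D i (rad f) = fun x => D i f x + rad (D i f) x := by
  have h := D_sum (F := fun a (x : E n) => x a * D a f x) i Finset.univ
    fun a _ => smo_diff ((smo_coord a).mul (smo_D a hf))
  refine h.trans (funext fun x => ?_)
  simp only [D_mul i (smo_diff (smo_coord _)) (smo_diff (smo_D _ hf)), D_coord,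
    Finset.sum_add_distrib, rad, D_comm i _ hf]
  simp
theorem rad_add (hf : Differentiable ℝ f) (hg : Differentiable ℝ g) :
    rad (fun x => f x + g x) = fun x => rad f x + rad g x := by
  funext x
  simp only [rad, D_add _ hf hg, mul_add, Finset.sum_add_distrib]
theorem rad_sub (hf : Differentiable ℝ f) (hg : Differentiable ℝ g) :
    rad (fun x => f x - g x) = fun x => rad f x - rad g x := by
  funext x
  simp only [rad, D_sub _ hf hg, mul_sub, Finset.sum_sub_distrib]
theorem rad_const_mul (c : ℝ) (hf : Differentiable ℝ f) :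
    rad (fun x => c * f x) = fun x => c * rad f x := by
  funext x
  simp only [rad, D_const_mul _ c hf, Finset.mul_sum]
  exact Finset.sum_congr rfl fun i _ => by ring
theorem norm_fderiv_le {x : E n} {M : ℝ} (h : ∀ i, |D i f x| ≤ M) :
    ‖fderiv ℝ f x‖ ≤ n * M := by
  have h0 : 0 ≤ (n : ℝ) * M := by
    rcases Nat.eq_zero_or_pos n with rfl | hn
    · simp
    · exact mul_nonneg (Nat.cast_nonneg n) ((abs_nonneg _).trans (h ⟨0, hn⟩))
  refine ContinuousLinearMap.opNorm_le_bound _ h0 fun w => ?_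
  have := pd_eq_sum w f x
  rw [pd] at this
  rw [this, Real.norm_eq_abs]
  refine (Finset.abs_sum_le_sum_abs _ _).trans ((Finset.sum_le_sum (g := fun _ => ‖w‖ * M)
    fun i _ => ?_).trans (le_of_eq ?_))
  · rw [abs_mul]
    exact mul_le_mul (abs_coord_le w i) (h i) (abs_nonneg _) (norm_nonneg _)
  · simp; ring
theorem lip_of_D {M : ℝ} (hf : Differentiable ℝ f) (h : ∀ i x, |D i f x| ≤ M) (x y : E n) :
    |f x - f y| ≤ n * M * ‖x - y‖ := by
  have := convex_univ.norm_image_sub_le_of_norm_fderiv_le (𝕜 := ℝ) (fun z _ => hf z)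
    (fun z _ => norm_fderiv_le fun i => h i z) (Set.mem_univ y) (Set.mem_univ x)
  rwa [Real.norm_eq_abs] at this
/-- a class of differentiable functions closed under `D i` consists of smooth functions
(`contDiff_infty`, induction with `contDiff_succ_iff_fderiv_apply`, `pd_eq_sum`) -/
theorem smo_of_closed (P : (E n → ℝ) → Prop) (h1 : ∀ f, P f → Differentiable ℝ f)
    (h2 : ∀ f, P f → ∀ i, P (D i f)) (hf : P f) : ContDiff ℝ ∞ f := by
  refine contDiff_infty.2 fun k => ?_
  induction k generalizing f with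
  | zero => exact contDiff_zero.2 (h1 f hf).continuous
  | succ k ih =>
    rw [Nat.cast_succ, contDiff_succ_iff_fderiv_apply]
    refine ⟨h1 f hf, by simp, fun w => ?_⟩
    have : (fun x => fderiv ℝ f x w) = fun x => ∑ i, w i * D i f x :=
      funext fun x => pd_eq_sum w f x
    rw [this]
    exact ContDiff.sum fun i _ => contDiff_const.mul (ih (h2 f hf i))

end Vale.Agent.P227
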