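import Vale.Agent.P227.CalcO

/-! Parity, Taylor bounds, local maxima. -/

namespace Vale.Agent.P227

open scoped ContDiff Matrix RealInnerProductSpace Topology
open MeasureTheory Filter

variable {n : ℕ}

variable {f g : E n → ℝ} {τ τ' : E n → Mat n}

namespace CalcLX

theorem D_negarg (hf : Differentiable ℝ f) (i : Fin n) :
    D i (fun z => f (-z)) = fun z => -D i f (-z) := by
  simpa using D_affine i hf 0 (-1)

theorem line2 (hf : ContDiff ℝ ∞ f) (y w : E n) (s : ℝ) :
    HasDerivAt (fun r : ℝ => ∑ i, w i * D i f (y + r • w)) (qf (hess f (y + s • w)) w) s := by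
  have h := HasDerivAt.fun_sum (u := Finset.univ) fun i _ =>
    (hasDerivAt_line (smo_diff (smo_D i hf)) y w s).const_mul (w i)
  have e : qf (hess f (y + s • w)) w = ∑ i, w i * ∑ j, w j * D j (D i f) (y + s • w) := by
    simp only [qf, hess_apply, Finset.mul_sum]
    rw [Finset.sum_comm]
    exact Finset.sum_congr rfl fun i _ => Finset.sum_congr rfl fun j _ => by ring
  rw [e]
  exact h

theorem taylor2 {u u' u'' : ℝ → ℝ} {a : ℝ} (h1 : ∀ s, HasDerivAt u (u' s) s)
    (h2 : ∀ s, HasDerivAt u' (u'' s) s) (h0 : u' 0 = 0) (h : ∀ s, a ≤ u'' s) :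
    u 0 + a / 2 ≤ u 1 := by
  have k1 : ∀ s, HasDerivAt (fun s => u' s - a * s) (u'' s - a) s := fun s => by
    have := (h2 s).sub ((hasDerivAt_id s).const_mul a)
    rw [mul_one] at this
    exact this
  have m1 : Monotone fun s => u' s - a * s :=
    monotone_of_hasDerivAt_nonneg k1 fun s => sub_nonneg.2 (h s)
  have k2 : ∀ s, HasDerivAt (fun s => u s - a / 2 * (s * s)) (u' s - a * s) s := fun s => by
    have := (h1 s).sub (((hasDerivAt_id s).mul (hasDerivAt_id s)).const_mul (a / 2))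
    have e : u' s - a * s = u' s - a / 2 * (1 * id s + id s * 1) := by simp only [id]; ring
    rw [e]
    exact this
  have m2 : MonotoneOn (fun s => u s - a / 2 * (s * s)) (Set.Ici 0) :=
    monotoneOn_of_deriv_nonneg (convex_Ici 0)
      (fun s _ => (k2 s).continuousAt.continuousWithinAt)
      (fun s _ => (k2 s).differentiableAt.differentiableWithinAt) fun s hs => by
        rw [(k2 s).deriv]
        have := m1 (interior_subset hs : (0 : ℝ) ≤ s)
        simpa [h0] using this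
  have := m2 (Set.mem_Ici.2 le_rfl) (Set.mem_Ici.2 zero_le_one) zero_le_one
  simp only [mul_zero, sub_zero, mul_one] at this
  linarith

theorem qf_hess_neg (f : E n → ℝ) (x ξ : E n) :
    qf (hess (fun y => -f y) x) ξ = -qf (hess f x) ξ := by
  simp only [qf, hess_apply, D_neg, neg_mul, Finset.sum_neg_distrib]

end CalcLX

open CalcLX

theorem Ev.D_neg (he : Ev f) (hf : Differentiable ℝ f) (i : Fin n) (x : E n) :
    D i f (-x) = -D i f x := by
  have h := congrFun (D_negarg hf i) x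
  rw [show (fun z => f (-z)) = f from funext he] at h
  rw [h, neg_neg]
theorem ev_D_of_odd (ho : ∀ x, f (-x) = -f x) (hf : Differentiable ℝ f) (i : Fin n) :
    Ev (D i f) := by
  intro x
  have h := congrFun (D_negarg hf i) x
  rw [show (fun z => f (-z)) = fun z => -f z from funext ho, D_neg] at h
  exact (neg_injective h).symm
theorem Ev.DD (he : Ev f) (hf : ContDiff ℝ ∞ f) (i j : Fin n) : Ev (D i (D j f)) :=
  ev_D_of_odd (he.D_neg (smo_diff hf) j) (smo_diff (smo_D j hf)) i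
theorem Ev.hess_neg (he : Ev f) (hf : ContDiff ℝ ∞ f) (x : E n) : hess f (-x) = hess f x := by
  ext i j
  exact he.DD hf i j x
theorem Ev.rad (he : Ev f) (hf : ContDiff ℝ ∞ f) : Ev (rad f) := by
  intro x
  simp [P227.rad, he.D_neg (smo_diff hf)]
theorem Ev.Lop (he : Ev f) (hf : ContDiff ℝ ∞ f) (hτ : ∀ x, τ (-x) = τ x) : Ev (Lop τ f) := by
  intro x
  have := fun i j => he.DD hf i j x
  simp only [P227.Lop, hτ, this, he.rad hf x]
theorem Ev.Aop (he : Ev f) (hf : ContDiff ℝ ∞ f) (hτ : ∀ x, τ (-x) = τ x) (l : ℝ) :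
    Ev (Aop τ l f) := by
  intro x
  simp only [P227.Aop, he x, he.Lop hf hτ x]
theorem Ev.D_zero (he : Ev f) (hf : Differentiable ℝ f) (i : Fin n) : D i f 0 = 0 := by
  have := he.D_neg hf i 0
  rw [neg_zero] at this
  linarith
theorem Ev.abs_D_le {M : ℝ} (he : Ev f) (hf : ContDiff ℝ ∞ f)
    (h : ∀ i j x, |D i (D j f) x| ≤ M) (i : Fin n) (x : E n) : |D i f x| ≤ n * M * ‖x‖ := by
  simpa [he.D_zero (smo_diff hf) i] using
    lip_of_D (smo_diff (smo_D i hf)) (fun j y => h j i y) x 0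
theorem Ev.abs_rad_le {M : ℝ} (he : Ev f) (hf : ContDiff ℝ ∞ f)
    (h : ∀ i j x, |D i (D j f) x| ≤ M) (x : E n) : |P227.rad f x| ≤ n ^ 2 * M * ‖x‖ ^ 2 := by
  rw [rad_eq, ← Real.norm_eq_abs]
  refine ((fderiv ℝ f x).le_of_opNorm_le (norm_fderiv_le fun i => he.abs_D_le hf h i x) x).trans
    (le_of_eq ?_)
  ring
theorem Ev.abs_sub_le {M : ℝ} (he : Ev f) (hf : ContDiff ℝ ∞ f)
    (h : ∀ i j x, |D i (D j f) x| ≤ M) (x : E n) : |f x - f 0| ≤ n ^ 2 * M * ‖x‖ ^ 2 := by
  have h1 := Convex.norm_image_sub_le_of_norm_fderiv_le (𝕜 := ℝ) (f := f)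
    (s := Metric.closedBall (0 : E n) ‖x‖) (C := n * (n * M * ‖x‖))
    (fun y _ => smo_diff hf y) (fun y hy => norm_fderiv_le fun i =>
      (he.abs_D_le hf h i y).trans (by
        rw [mem_closedBall_zero_iff] at hy
        have hM : 0 ≤ M := (abs_nonneg _).trans (h i i 0)
        gcongr)) (convex_closedBall _ _) (Metric.mem_closedBall_self (norm_nonneg x))
    (mem_closedBall_zero_iff.2 le_rfl)
  rw [sub_zero, Real.norm_eq_abs] at h1
  refine h1.trans (le_of_eq ?_)
  ring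
/-- along the ray `s ↦ f (s • x)`: second derivative `qf (hess f (s • x)) x`, first derivative
zero at `s = 0` -/
theorem Ev.lower {κ : ℝ} (he : Ev f) (hf : ContDiff ℝ ∞ f)
    (h : ∀ x ξ, κ * ‖ξ‖ ^ 2 ≤ qf (hess f x) ξ) (x : E n) : f 0 + κ / 2 * ‖x‖ ^ 2 ≤ f x := by
  have := taylor2 (hasDerivAt_line (smo_diff hf) 0 x) (line2 hf 0 x)
    (by simp [he.D_zero (smo_diff hf)]) (fun s => h _ x)
  simp only [zero_smul, add_zero, one_smul, zero_add] at this
  linarith
theorem Ev.upper {K : ℝ} (he : Ev f) (hf : ContDiff ℝ ∞ f)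
    (h : ∀ x ξ, qf (hess f x) ξ ≤ K * ‖ξ‖ ^ 2) (x : E n) : f x ≤ f 0 + K / 2 * ‖x‖ ^ 2 := by
  have := Ev.lower (f := fun y => -f y) (κ := -K) (fun y => congrArg Neg.neg (he y)) hf.neg
    (fun y ξ => by rw [qf_hess_neg f]; linarith [h y ξ]) x
  linarith
theorem Ev.coer {κ : ℝ} (he : Ev f) (hf : ContDiff ℝ ∞ f) (hκ : 0 < κ)
    (h : ∀ x ξ, κ * ‖ξ‖ ^ 2 ≤ qf (hess f x) ξ) : Coer f :=
  ⟨κ / 2, -f 0, half_pos hκ, fun x => by linarith [he.lower hf h x]⟩
theorem localMax_D {x : E n} (hm : IsLocalMax f x) (i : Fin n) : D i f x = 0 := by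
  simp [D, pd, hm.fderiv_eq_zero]
theorem localMax_qf {x : E n} (hf : ContDiff ℝ ∞ f) (hm : IsLocalMax f x) (ξ : E n) :
    qf (hess f x) ξ ≤ 0 := by
  by_contra hpos
  push Not at hpos
  have h1 := hasDerivAt_line (smo_diff hf) x ξ
  have h2 := line2 hf x ξ 0
  have hd : deriv (fun r : ℝ => f (x + r • ξ)) = fun s => ∑ i, ξ i * D i f (x + s • ξ) :=
    funext fun s => (h1 s).deriv
  have hmin : IsLocalMin (fun r : ℝ => f (x + r • ξ)) 0 :=
    isLocalMin_of_deriv_deriv_pos (by rw [hd, h2.deriv]; simpa using hpos)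
      (by rw [hd]; simp [localMax_D hm]) (h1 0).continuousAt
  have hc : ContinuousAt (fun r : ℝ => x + r • ξ) 0 := by fun_prop
  have hmax : IsLocalMax (fun r : ℝ => f (x + r • ξ)) 0 :=
    IsLocalMax.comp_continuous (g := fun r : ℝ => x + r • ξ) (by simpa using hm) hc
  have he : (fun r : ℝ => f (x + r • ξ)) =ᶠ[𝓝 0] fun _ => f (x + (0 : ℝ) • ξ) := by
    filter_upwards [hmin, hmax] with r k1 k2 using le_antisymm k2 k1
  have := he.deriv.deriv_eq
  rw [hd, h2.deriv] at this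
  simp only [zero_smul, add_zero, deriv_const', deriv_const] at this
  linarith

end Vale.Agent.P227
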