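import Vale.Agent.P227.Calc

/-! Calculus for the operators L and A; radial functions. -/

namespace Vale.Agent.P227

open scoped ContDiff Matrix RealInnerProductSpace Topology
open MeasureTheory Filter

variable {n : ℕ}

variable {f g : E n → ℝ} {τ τ' : E n → Mat n}

namespace CalcOX

theorem smo_tr (hτ : MSmo τ) (hf : ContDiff ℝ ∞ f) :
    ContDiff ℝ ∞ (fun x => ∑ i, ∑ j, τ x i j * D i (D j f) x) :=
  ContDiff.sum fun i _ => ContDiff.sum fun j _ => (hτ i j).mul (smo_D i (smo_D j hf))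

theorem DD_add (hf : ContDiff ℝ ∞ f) (hg : ContDiff ℝ ∞ g) (i j : Fin n) (x : E n) :
    D i (D j fun y => f y + g y) x = D i (D j f) x + D i (D j g) x :=
  congrFun (congrFun (hess_add hf hg x) i) j

theorem DD_cmul (c : ℝ) (hf : ContDiff ℝ ∞ f) (i j : Fin n) (x : E n) :
    D i (D j fun y => c * f y) x = c * D i (D j f) x :=
  congrFun (congrFun (hess_const_mul c hf x) i) j

theorem DD_mul (hf : ContDiff ℝ ∞ f) (hg : ContDiff ℝ ∞ g) (i j : Fin n) (x : E n) :
    D i (D j fun y => f y * g y) x = f x * D i (D j g) x + g x * D i (D j f) x +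
      D i f x * D j g x + D j f x * D i g x := by
  rw [D_mul j (smo_diff hf) (smo_diff hg),
    D_add i (smo_diff ((smo_D j hf).mul hg)) (smo_diff (hf.mul (smo_D j hg))),
    D_mul i (smo_diff (smo_D j hf)) (smo_diff hg), D_mul i (smo_diff hf) (smo_diff (smo_D j hg))]
  ring

end CalcOX

open CalcOX

theorem smo_Lop (hτ : MSmo τ) (hf : ContDiff ℝ ∞ f) : ContDiff ℝ ∞ (Lop τ f) :=
  (smo_tr hτ hf).sub (smo_rad hf)
theorem smo_Aop (hτ : MSmo τ) (l : ℝ) (hf : ContDiff ℝ ∞ f) : ContDiff ℝ ∞ (Aop τ l f) :=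
  (contDiff_const.mul hf).sub (smo_Lop hτ hf)
theorem smo_Gam (hτ : MSmo τ) (hf : ContDiff ℝ ∞ f) (hg : ContDiff ℝ ∞ g) :
    ContDiff ℝ ∞ (Gam τ f g) :=
  ContDiff.sum fun i _ => ContDiff.sum fun j _ => ((hτ i j).mul (smo_D i hf)).mul (smo_D j hg)
theorem msmo_const (A : Mat n) : MSmo (fun _ : E n => A) := fun _ _ => contDiff_const
theorem Lop_const (τ : E n → Mat n) (c : ℝ) : Lop τ (fun _ => c) = fun _ => 0 := by
  funext x
  simp [Lop, rad, D_const]
theorem Lop_coord (τ : E n → Mat n) (i : Fin n) : Lop τ (fun y => y i) = fun x => -x i := by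
  funext x
  simp [Lop, rad, D_coord, D_const]
theorem Lop_add (τ : E n → Mat n) (hf : ContDiff ℝ ∞ f) (hg : ContDiff ℝ ∞ g) :
    Lop τ (fun y => f y + g y) = fun x => Lop τ f x + Lop τ g x := by
  funext x
  simp only [Lop, DD_add hf hg, rad_add (smo_diff hf) (smo_diff hg), mul_add,
    Finset.sum_add_distrib]
  ring
theorem Lop_neg (τ : E n → Mat n) (f : E n → ℝ) :
    Lop τ (fun y => -f y) = fun x => -Lop τ f x := by
  funext x
  simp only [Lop, rad, D_neg, mul_neg, Finset.sum_neg_distrib]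
  ring
theorem Lop_sub (τ : E n → Mat n) (hf : ContDiff ℝ ∞ f) (hg : ContDiff ℝ ∞ g) :
    Lop τ (fun y => f y - g y) = fun x => Lop τ f x - Lop τ g x := by
  simp only [sub_eq_add_neg]
  rw [Lop_add τ hf hg.neg, Lop_neg]
theorem Lop_const_mul (τ : E n → Mat n) (c : ℝ) (hf : ContDiff ℝ ∞ f) :
    Lop τ (fun y => c * f y) = fun x => c * Lop τ f x := by
  funext x
  simp only [Lop, DD_cmul c hf, rad_const_mul c (smo_diff hf), mul_sub, Finset.mul_sum]
  congr 1
  exact Finset.sum_congr rfl fun i _ => Finset.sum_congr rfl fun j _ => by ring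
theorem Lop_sum {ι : Type*} (τ : E n → Mat n) (s : Finset ι) {F : ι → E n → ℝ}
    (h : ∀ a ∈ s, ContDiff ℝ ∞ (F a)) :
    Lop τ (fun y => ∑ a ∈ s, F a y) = fun x => ∑ a ∈ s, Lop τ (F a) x := by
  classical
  induction s using Finset.induction_on with
  | empty => simpa using Lop_const τ 0
  | insert a s ha ih =>
    have h' : ∀ b ∈ s, ContDiff ℝ ∞ (F b) := fun b hb => h b (Finset.mem_insert_of_mem hb)
    simp only [Finset.sum_insert ha]
    rw [Lop_add τ (h a (Finset.mem_insert_self _ _)) (ContDiff.sum h'), ih h']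
theorem Lop_mul {x : E n} (hs : (τ x).IsSymm) (hf : ContDiff ℝ ∞ f) (hg : ContDiff ℝ ∞ g) :
    Lop τ (fun y => f y * g y) x = f x * Lop τ g x + g x * Lop τ f x + 2 * Gam τ f g x := by
  have e : ∑ i, ∑ j, τ x i j * (D j f x * D i g x) = ∑ k, ∑ l, τ x k l * D k f x * D l g x := by
    rw [Finset.sum_comm]
    exact Finset.sum_congr rfl fun i _ => Finset.sum_congr rfl fun j _ => by
      rw [hs.apply i j, mul_assoc]
  have e1 : ∑ i, ∑ j, τ x i j * (D i f x * D j g x) = ∑ k, ∑ l, τ x k l * D k f x * D l g x := by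
    simp only [mul_assoc]
  have e2 : ∀ (a : ℝ) (F : Fin n → Fin n → ℝ),
      ∑ i, ∑ j, τ x i j * (a * F i j) = a * ∑ i, ∑ j, τ x i j * F i j := by
    intro a F
    simp only [Finset.mul_sum]
    exact Finset.sum_congr rfl fun i _ => Finset.sum_congr rfl fun j _ => by ring
  have e3 : rad (fun y => f y * g y) x = f x * rad g x + g x * rad f x := by
    simp only [rad, D_mul _ (smo_diff hf) (smo_diff hg), Finset.mul_sum, ← Finset.sum_add_distrib]
    exact Finset.sum_congr rfl fun i _ => by ring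
  simp only [Lop, Gam, DD_mul hf hg, mul_add, Finset.sum_add_distrib, e, e1, e2, e3]
  ring
theorem Lop_eq_trace (τ : E n → Mat n) (hf : ContDiff ℝ ∞ f) (x : E n) :
    Lop τ f x = (τ x * hess f x).trace - rad f x := by
  simp only [Lop, Matrix.trace, Matrix.diag_apply, Matrix.mul_apply, hess_apply]
  congr 1
  exact Finset.sum_congr rfl fun i _ => Finset.sum_congr rfl fun j _ => by rw [D_comm i j hf]
theorem Lop_one (f : E n → ℝ) (x : E n) :
    Lop (one n) f x = (∑ i, D i (D i f) x) - rad f x := by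
  simp [Lop, one, Matrix.one_apply]
theorem Aop_add (τ : E n → Mat n) (l : ℝ) (hf : ContDiff ℝ ∞ f) (hg : ContDiff ℝ ∞ g) :
    Aop τ l (fun y => f y + g y) = fun x => Aop τ l f x + Aop τ l g x := by
  funext x
  simp only [Aop, Lop_add τ hf hg]
  ring
theorem Aop_sub (τ : E n → Mat n) (l : ℝ) (hf : ContDiff ℝ ∞ f) (hg : ContDiff ℝ ∞ g) :
    Aop τ l (fun y => f y - g y) = fun x => Aop τ l f x - Aop τ l g x := by
  funext x
  simp only [Aop, Lop_sub τ hf hg]
  ring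
theorem Aop_const_mul (τ : E n → Mat n) (l c : ℝ) (hf : ContDiff ℝ ∞ f) :
    Aop τ l (fun y => c * f y) = fun x => c * Aop τ l f x := by
  funext x
  simp only [Aop, Lop_const_mul τ c hf]
  ring
theorem Aop_change (τ τ' : E n → Mat n) (l : ℝ) (f : E n → ℝ) :
    Aop τ' l f = fun x => Aop τ l f x - ∑ p, ∑ q, (τ' x p q - τ x p q) * D p (D q f) x := by
  funext x
  simp only [Aop, Lop, sub_mul, Finset.sum_sub_distrib]
  ring
theorem D_Lop (i : Fin n) (hτ : MSmo τ) (hf : ContDiff ℝ ∞ f) :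
    D i (Lop τ f) = fun x => Lop τ (D i f) x - D i f x +
      ∑ p, ∑ q, D i (ent τ p q) x * D p (D q f) x := by
  have h1 : ∀ p q, ContDiff ℝ ∞ fun x => τ x p q * D p (D q f) x :=
    fun p q => (hτ p q).mul (smo_D p (smo_D q hf))
  have h2 : ∀ p q, D i (fun x => τ x p q * D p (D q f) x) =
      fun x => D i (ent τ p q) x * D p (D q f) x + τ x p q * D p (D q (D i f)) x := by
    intro p q
    rw [← D_comm i q hf, ← D_comm i p (smo_D q hf)]
    exact D_mul i (smo_diff (hτ p q)) (smo_diff (smo_D p (smo_D q hf)))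
  have h3 : ∀ p, D i (fun x => ∑ q, τ x p q * D p (D q f) x) =
      fun x => ∑ q, D i (fun x => τ x p q * D p (D q f) x) x :=
    fun p => D_sum i Finset.univ fun q _ => smo_diff (h1 p q)
  unfold Lop
  rw [D_sub i (smo_diff (smo_tr hτ hf)) (smo_diff (smo_rad hf)), D_rad i hf,
    D_sum i Finset.univ fun p _ => smo_diff (ContDiff.sum fun q _ => h1 p q)]
  funext x
  simp only [h3, h2, Finset.sum_add_distrib]
  ring
theorem D_Aop (i : Fin n) (hτ : MSmo τ) (l : ℝ) (hf : ContDiff ℝ ∞ f) :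
    D i (Aop τ l f) = fun x => Aop τ (l + 1) (D i f) x -
      ∑ p, ∑ q, D i (ent τ p q) x * D p (D q f) x := by
  unfold Aop
  rw [D_sub i (smo_diff (contDiff_const.mul hf)) (smo_diff (smo_Lop hτ hf)),
    D_const_mul i l (smo_diff hf), D_Lop i hτ hf]
  funext x
  ring
theorem D_Aop_const (i : Fin n) (A : Mat n) (l : ℝ) (hf : ContDiff ℝ ∞ f) :
    D i (Aop (fun _ => A) l f) = Aop (fun _ => A) (l + 1) (D i f) := by
  rw [D_Aop i (msmo_const A) l hf]
  funext x
  have : ∀ p q, D i (ent (fun _ : E n => A) p q) = fun _ => 0 := fun p q => D_const i (A p q)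
  simp [this]
/-- radial functions: first derivatives -/
theorem D_radial (i : Fin n) {φ φ' : ℝ → ℝ} (h1 : ∀ s, 0 ≤ s → HasDerivAt φ (φ' s) s) :
    D i (fun x : E n => φ (‖x‖ ^ 2)) = fun x => 2 * φ' (‖x‖ ^ 2) * x i := by
  rw [D_comp i (f := fun x : E n => ‖x‖ ^ 2) (fun x => h1 _ (sq_nonneg _)) (smo_diff smo_normsq),
    D_normsq]
  funext x
  ring

theorem hess_radial {φ φ' φ'' : ℝ → ℝ} (h1 : ∀ s, 0 ≤ s → HasDerivAt φ (φ' s) s)
    (h2 : ∀ s, 0 ≤ s → HasDerivAt φ' (φ'' s) s) (x : E n) (i j : Fin n) :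
    hess (fun y : E n => φ (‖y‖ ^ 2)) x i j =
      2 * φ' (‖x‖ ^ 2) * (1 : Mat n) i j + 4 * φ'' (‖x‖ ^ 2) * x i * x j := by
  have hd : Differentiable ℝ fun y : E n => φ' (‖y‖ ^ 2) := fun y =>
    (h2 _ (sq_nonneg _)).differentiableAt.comp y (smo_diff smo_normsq y)
  rw [hess_apply, D_radial j h1, D_mul i (hd.const_mul 2) (smo_diff (smo_coord j)),
    D_const_mul i 2 hd, D_radial i h2, D_coord, Matrix.one_apply]
  by_cases h : i = j
  · subst h
    simp only [if_true]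
    ring
  · simp only [if_neg h, if_neg (Ne.symm h)]
    ring

/-- radial functions: Hessian form -/
theorem qf_hess_radial {φ φ' φ'' : ℝ → ℝ} (h1 : ∀ s, 0 ≤ s → HasDerivAt φ (φ' s) s)
    (h2 : ∀ s, 0 ≤ s → HasDerivAt φ' (φ'' s) s) (x ξ : E n) :
    qf (hess (fun y : E n => φ (‖y‖ ^ 2)) x) ξ =
      2 * φ' (‖x‖ ^ 2) * ‖ξ‖ ^ 2 + 4 * φ'' (‖x‖ ^ 2) * ⟪x, ξ⟫ ^ 2 := by
  simp only [qf, hess_radial h1 h2, add_mul, Finset.sum_add_distrib]
  congr 1
  · rw [normsq_eq ξ, Finset.mul_sum]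
    refine Finset.sum_congr rfl fun i _ => ?_
    simp [Matrix.one_apply, sq, mul_assoc]
  · rw [inner_eq_sum, sq (∑ i, x i * ξ i), Finset.sum_mul_sum, Finset.mul_sum]
    refine Finset.sum_congr rfl fun i _ => ?_
    rw [Finset.mul_sum]
    exact Finset.sum_congr rfl fun j _ => by ring

theorem Lop_radial (τ : E n → Mat n) {φ φ' φ'' : ℝ → ℝ}
    (h1 : ∀ s, 0 ≤ s → HasDerivAt φ (φ' s) s) (h2 : ∀ s, 0 ≤ s → HasDerivAt φ' (φ'' s) s)
    (x : E n) : Lop τ (fun y : E n => φ (‖y‖ ^ 2)) x =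
      2 * φ' (‖x‖ ^ 2) * ((τ x).trace - ‖x‖ ^ 2) + 4 * φ'' (‖x‖ ^ 2) * qf (τ x) x := by
  have e1 : ∑ i, ∑ j, τ x i j * (2 * φ' (‖x‖ ^ 2) * (1 : Mat n) i j) =
      2 * φ' (‖x‖ ^ 2) * (τ x).trace := by
    simp only [Matrix.trace, Matrix.diag_apply, Finset.mul_sum]
    refine Finset.sum_congr rfl fun i _ => ?_
    simp [Matrix.one_apply, mul_comm]
  have e2 : ∑ i, ∑ j, τ x i j * (4 * φ'' (‖x‖ ^ 2) * x i * x j) =
      4 * φ'' (‖x‖ ^ 2) * qf (τ x) x := by
    simp only [qf, Finset.mul_sum]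
    exact Finset.sum_congr rfl fun i _ => Finset.sum_congr rfl fun j _ => by ring
  have e3 : rad (fun y : E n => φ (‖y‖ ^ 2)) x = 2 * φ' (‖x‖ ^ 2) * ‖x‖ ^ 2 := by
    have : 2 * φ' (‖x‖ ^ 2) * ‖x‖ ^ 2 = 2 * φ' (‖x‖ ^ 2) * ∑ i, x i ^ 2 := by rw [← normsq_eq]
    rw [this]
    simp only [rad, D_radial _ h1, Finset.mul_sum]
    exact Finset.sum_congr rfl fun i _ => by ring
  have e4 := fun i j => hess_radial h1 h2 x i j
  simp only [hess_apply] at e4
  simp only [Lop, e4, mul_add, Finset.sum_add_distrib, e1, e2, e3]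
  ring

end Vale.Agent.P227
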