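import Vale.Agent.P227.Bump

/-! Potentials that are quadratic outside a ball. -/

namespace Vale.Agent.P227

open scoped ContDiff Matrix RealInnerProductSpace Topology
open MeasureTheory Filter

variable {n : ℕ}

namespace GlueAux

theorem radial {R : ℝ} (hR : 0 < R) : ∃ φ φ' φ'' : ℝ → ℝ, ContDiff ℝ ∞ φ ∧
    (∀ s, HasDerivAt φ (φ' s) s) ∧ (∀ s, HasDerivAt φ' (φ'' s) s) ∧ (∀ s, 0 ≤ φ s) ∧
    (∀ s, s ≤ R ^ 2 → φ s = 0) ∧ (∀ s, 0 ≤ φ' s) ∧ (∀ s, 0 ≤ φ'' s) ∧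
    (∀ s, 4 * R ^ 2 ≤ s → φ' s = 1) ∧ ∀ s, 4 * R ^ 2 < s → φ'' s = 0 := by
  obtain ⟨G, g1, g2, g3, g4, g5, g6⟩ := exists_G
  have h3 : 0 < 3 * R ^ 2 := by positivity
  have hl : ∀ s, HasDerivAt (fun s => (s - R ^ 2) / (3 * R ^ 2)) (1 / (3 * R ^ 2)) s := fun s =>
    ((hasDerivAt_id s).sub_const _).div_const _
  have d1 : Differentiable ℝ G := g1.differentiable (by simp)
  have d2 : Differentiable ℝ (deriv G) :=
    (contDiff_infty_iff_deriv.1 g1).2.differentiable (by simp)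
  refine ⟨fun s => 3 * R ^ 2 * G ((s - R ^ 2) / (3 * R ^ 2)),
    fun s => deriv G ((s - R ^ 2) / (3 * R ^ 2)),
    fun s => deriv (deriv G) ((s - R ^ 2) / (3 * R ^ 2)) * (1 / (3 * R ^ 2)),
    contDiff_const.mul (g1.comp ((contDiff_id.sub contDiff_const).div_const _)), fun s => ?_,
    fun s => (d2 _).hasDerivAt.comp s (hl s), fun s => mul_nonneg h3.le ?_, fun s hs => ?_,
    fun s => g4 _, fun s => mul_nonneg (g5 _) (by positivity), fun s hs => g6 _ ?_, fun s hs => ?_⟩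
  · refine (((d1 _).hasDerivAt.comp s (hl s)).const_mul (3 * R ^ 2)).congr_deriv ?_
    field_simp
  · rcases le_or_gt ((s - R ^ 2) / (3 * R ^ 2)) 0 with h | h
    · exact (g2 _ h).ge
    · exact (g3 _ h).le
  · show 3 * R ^ 2 * G _ = 0
    rw [g2 _ (div_nonpos_of_nonpos_of_nonneg (by linarith) h3.le), mul_zero]
  · rw [le_div_iff₀ h3]
    linarith
  · have a1 : 1 < (s - R ^ 2) / (3 * R ^ 2) := by
      rw [lt_div_iff₀ h3]
      linarith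
    have a2 : deriv G =ᶠ[𝓝 ((s - R ^ 2) / (3 * R ^ 2))] fun _ => 1 :=
      (lt_mem_nhds a1).mono fun r hr => g6 r hr.le
    show deriv (deriv G) _ * _ = 0
    rw [a2.deriv_eq, deriv_const, zero_mul]

theorem cut {S : E n → ℝ} (hS : ContDiff ℝ ∞ S) (he : Ev S) (h0 : ∀ x, 0 ≤ S x) {R : ℝ}
    (hR : 0 < R) : ∃ (U : E n → ℝ) (M : ℝ), ContDiff ℝ ∞ U ∧ Ev U ∧ (∀ x, 0 ≤ U x) ∧ 0 ≤ M ∧
      (∀ x ξ, |qf (hess U x) ξ| ≤ M * ‖ξ‖ ^ 2) ∧ (∀ x, ‖x‖ ≤ 3 * R → U x = S x) ∧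
      ∀ x, 4 * R ≤ ‖x‖ → U x = 0 := by
  let β : ContDiffBump (0 : E n) := ⟨3 * R, 4 * R, by positivity, by linarith⟩
  have h1 : ContDiff ℝ ∞ fun x => β x * S x := β.contDiff.mul hS
  have h2 : ∀ x, 4 * R ≤ ‖x‖ → β x * S x = 0 := fun x hx => by
    rw [β.zero_of_le_dist (by simpa using hx), zero_mul]
  obtain ⟨M, hM, h3⟩ := (binf_of_compact h1 h2).sm.n2 0
  refine ⟨fun x => β x * S x, n * M, h1, fun x => ?_, fun x => mul_nonneg β.nonneg (h0 x),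
    by positivity, fun x ξ => abs_qf_le (fun i j => h3.abs_le i j x) ξ, fun x hx => ?_, h2⟩
  · show β (-x) * S (-x) = β x * S x
    rw [β.neg, he x]
  · show β x * S x = S x
    rw [β.one_of_mem_closedBall (by simpa using hx), one_mul]

end GlueAux

/-- `V' = ε|x|² + β · ∑ ridge + A₀ · 3R² G ((|x|² - R²) / (3R²))`, `β` an even smooth cutoff
(`ContDiffBump (0 : E n)` with radii `3R`, `4R`; radial, hence even). On `‖x‖ < 3R`, `β = 1` near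
`x` (`hess_congr`) and the last term is convex (`qf_hess_radial`); on `‖x‖ ≥ 2R` the last term has
Hessian form at least `2 A₀ |ξ|²`, and `A₀` is chosen above the bounds for the Hessians of
`β ∑ ridge` (compact support, `binf_of_compact`, `abs_qf_le`) and `HR` (`HR_le`). For
`‖x‖ ≥ 5R` the Hessian is `(2ε + 2A₀) • 1`. -/
theorem glue {k : ℕ} {w : ℝ → ℝ} (hw : RW w) {ε : ℝ} (hε : 0 < ε) (b : Fin k → E n) {R : ℝ}
    (hR : 0 < R) : ∃ (V' : E n → ℝ) (A R₀ : ℝ), ContDiff ℝ ∞ V' ∧ Ev V' ∧ 0 < A ∧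
      (∀ x ξ, 2 * ε * ‖ξ‖ ^ 2 + HR b w x ξ ≤ qf (hess V' x) ξ) ∧
      (∀ x, R₀ ≤ ‖x‖ → hess V' x = A • (1 : Mat n)) ∧
      (∀ x, ‖x‖ ≤ R → V' x = VR ε b w x) ∧ ∀ x, ε * ‖x‖ ^ 2 ≤ V' x := by
  obtain ⟨φ, φ', φ'', p1, p2, p3, p4, p5, p6, p7, p8, p9⟩ := GlueAux.radial hR
  have sS : ContDiff ℝ ∞ fun x : E n => ∑ m, ridge (b m) w x :=
    ContDiff.sum fun m _ => smo_ridge (b m) hw.smo
  obtain ⟨U, M, u1, u2, u3, u4, u5, u6, u7⟩ := GlueAux.cut sS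
    (fun x => Finset.sum_congr rfl fun m _ => by simp only [ridge, inner_neg_right, hw.even])
    (fun x => Finset.sum_nonneg fun m _ => hw.nonneg _) hR
  obtain ⟨C, hC, hC'⟩ := HR_le hw b
  have s1 : ContDiff ℝ ∞ fun x : E n => ε * ‖x‖ ^ 2 := contDiff_const.mul smo_normsq
  have s2 : ContDiff ℝ ∞ fun x : E n => φ (‖x‖ ^ 2) := p1.comp smo_normsq
  have s3 : ContDiff ℝ ∞ fun x : E n => (M + C + 1) * φ (‖x‖ ^ 2) := contDiff_const.mul s2
  have hH : ∀ x : E n, hess (fun x => ε * ‖x‖ ^ 2 + U x + (M + C + 1) * φ (‖x‖ ^ 2)) x =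
      ε • (2 : ℝ) • (1 : Mat n) + hess U x +
        (M + C + 1) • hess (fun x : E n => φ (‖x‖ ^ 2)) x := fun x => by
    rw [hess_add (s1.add u1) s3, hess_add s1 u1, hess_const_mul _ smo_normsq, hess_normsq,
      hess_const_mul _ s2]
  have hA : 0 < M + C + 1 := by positivity
  refine ⟨fun x => ε * ‖x‖ ^ 2 + U x + (M + C + 1) * φ (‖x‖ ^ 2), 2 * ε + 2 * (M + C + 1), 5 * R,
    (s1.add u1).add s3, fun x => ?_, by positivity, fun x ξ => ?_, fun x hx => ?_, fun x hx => ?_,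
    fun x => ?_⟩
  · simp only [norm_neg, u2 x]
  · rw [hH, qf_add, qf_add, qf_smul, qf_smul, qf_smul, qf_one,
      qf_hess_radial (fun s _ => p2 s) (fun s _ => p3 s)]
    have a1 : 0 ≤ 4 * φ'' (‖x‖ ^ 2) * ⟪x, ξ⟫ ^ 2 := by
      have := p7 (‖x‖ ^ 2)
      positivity
    rcases lt_or_ge ‖x‖ (3 * R) with hx | hx
    · have a2 : U =ᶠ[𝓝 x] fun x => ∑ m, ridge (b m) w x :=
        (continuous_norm.continuousAt.eventually (gt_mem_nhds hx)).mono fun y hy => u6 y hy.le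
      rw [hess_congr a2, hess_sum _ fun m _ => smo_ridge (b m) hw.smo, qf_sum_ridge hw]
      have a3 : 0 ≤ 2 * φ' (‖x‖ ^ 2) * ‖ξ‖ ^ 2 := by
        have := p6 (‖x‖ ^ 2)
        positivity
      nlinarith [mul_nonneg hA.le (add_nonneg a3 a1)]
    · rw [p8 _ (by nlinarith)]
      have a2 := (abs_le.1 (u5 x ξ)).1
      have a3 := hC' x ξ
      nlinarith [mul_nonneg hA.le a1, sq_nonneg ‖ξ‖, mul_nonneg u4 (sq_nonneg ‖ξ‖),
        mul_nonneg hC (sq_nonneg ‖ξ‖)]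
  · have a2 : U =ᶠ[𝓝 x] fun _ => 0 :=
      (continuous_norm.continuousAt.eventually (lt_mem_nhds (show 4 * R < ‖x‖ by linarith))).mono
        fun y hy => u7 y hy.le
    rw [hH, hess_congr a2, hess_const]
    ext i j
    simp only [Matrix.add_apply, Matrix.smul_apply, Matrix.zero_apply, smul_eq_mul]
    rw [hess_radial (fun s _ => p2 s) (fun s _ => p3 s), p8 _ (by nlinarith), p9 _ (by nlinarith)]
    ring
  · show ε * ‖x‖ ^ 2 + U x + (M + C + 1) * φ (‖x‖ ^ 2) = _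
    rw [p5 _ (pow_le_pow_left₀ (norm_nonneg _) hx 2), u6 x (by linarith), mul_zero, add_zero]
    rfl
  · have := mul_nonneg hA.le (p4 (‖x‖ ^ 2))
    have := u3 x
    show _ ≤ ε * ‖x‖ ^ 2 + U x + (M + C + 1) * φ (‖x‖ ^ 2)
    linarith

end Vale.Agent.P227
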