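import Vale.Agent.P227.Core1
import Vale.Agent.P227.Glue

/-! The variance inequality for ridge potentials. -/

namespace Vale.Agent.P227

open scoped ContDiff Matrix RealInnerProductSpace Topology
open MeasureTheory Filter

variable {n : ℕ}

namespace CoreX

theorem hess_scale {V : E n → ℝ} (hV : ContDiff ℝ ∞ V) (s : ℝ) (x : E n) :
    hess (fun z => V (s • z)) x = s ^ 2 • hess V (s • x) := by
  have h1 : ∀ {f : E n → ℝ}, ContDiff ℝ ∞ f → ∀ i,
      D i (fun z => f (s • z)) = fun z => s * D i f (s • z) := fun hf i => by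
    simpa using D_affine i (smo_diff hf) 0 s
  have h2 : ∀ {f : E n → ℝ}, ContDiff ℝ ∞ f → Differentiable ℝ (fun z : E n => f (s • z)) :=
    fun hf => smo_diff (hf.comp (contDiff_id.const_smul s))
  ext i j
  rw [hess_apply, h1 hV, D_const_mul i s (h2 (smo_D j hV)), h1 (smo_D j hV)]
  simp only [Matrix.smul_apply, hess_apply, smul_eq_mul]
  ring

theorem var_scale {V f R : E n → ℝ} {s : ℝ} (hs : 0 < s)
    (h : VarIneq (fun x => V (s • x)) (fun x => f (s • x)) (fun x => R (s • x))) :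
    VarIneq V f R := by
  have e1 := Ex_scale V (fun _ => 1) hs
  have e2 := Ex_scale V (fun x => f x ^ 2) hs
  have e3 := Ex_scale V f hs
  have e4 := Ex_scale V R hs
  unfold VarIneq at h ⊢
  rw [e1, e2, e3, e4] at h
  have hc : 0 < ((s ^ n)⁻¹) ^ 2 := by positivity
  refine le_of_mul_le_mul_left ?_ hc
  nlinarith

end CoreX

/-- scaling: `s = 1/√A`, apply `core1` to `V (s • x)` and the vectors `s • b m` (`D_affine`,
`Ex_scale`) -/
theorem core2 {V : E n → ℝ} {κ R₀ A : ℝ} (hV : ContDiff ℝ ∞ V) (he : Ev V) (hκ : 0 < κ)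
    (hA : 0 < A) (hl : ∀ x ξ, κ * ‖ξ‖ ^ 2 ≤ qf (hess V x) ξ)
    (hf : ∀ x, R₀ ≤ ‖x‖ → hess V x = A • (1 : Mat n))
    {k : ℕ} {w : ℝ → ℝ} (hw : RW w) (b : Fin k → E n) (d : Fin k → ℝ)
    (hd : ∀ x ξ, HR b w x ξ ≤ qf (hess V x) ξ) : VarIneq V (fR b d w) (RR b d w) := by
  set s : ℝ := (√A)⁻¹ with hs
  have hs0 : 0 < s := by positivity
  have hs2 : s ^ 2 * A = 1 := by
    rw [hs, inv_pow, Real.sq_sqrt hA.le, inv_mul_cancel₀ hA.ne']
  have hi : ∀ (m : Fin k) (x : E n), ⟪s • b m, x⟫ = ⟪b m, s • x⟫ := fun m x => by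
    rw [real_inner_smul_left, real_inner_smul_right]
  have key := core1 (V := fun x => V (s • x)) (κ := s ^ 2 * κ) (R₀ := R₀ / s)
    (hV.comp (contDiff_id.const_smul s)) (fun x => by simp only [smul_neg]; exact he _)
    (by positivity)
    (fun x ξ => by
      rw [CoreX.hess_scale hV, qf_smul, mul_assoc]
      exact mul_le_mul_of_nonneg_left (hl _ _) (sq_nonneg s))
    (fun x hx => by
      rw [CoreX.hess_scale hV, hf, smul_smul, hs2, one_smul]
      rw [norm_smul, Real.norm_of_nonneg hs0.le, mul_comm]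
      exact (div_le_iff₀ hs0).1 hx)
    hw (fun m => s • b m) d
    (fun x ξ => by
      rw [CoreX.hess_scale hV, qf_smul, ← qf_smul_vec]
      refine le_of_eq_of_le ?_ (hd (s • x) (s • ξ))
      simp only [HR, hi])
  refine CoreX.var_scale hs0 ?_
  have e1 : (fun x => fR b d w (s • x)) = fR (fun m => s • b m) d w := by
    funext x; simp only [fR, hi]
  have e2 : (fun x => RR b d w (s • x)) = RR (fun m => s • b m) d w := by
    funext x; simp only [RR, hi]
  rw [e1, e2]
  exact key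

/-- `glue` with `R = j + 1`, `core2`, `varIneq_of_tendsto` with `θ = 1` -/
theorem core3 {k : ℕ} {w : ℝ → ℝ} (hw : RW w) {ε : ℝ} (hε : 0 < ε) (b : Fin k → E n)
    (d : Fin k → ℝ) : VarIneq (VR ε b w) (fR b d w) (RR b d w) := by
  choose V A R₀ h1 h2 h3 h4 h5 h6 h7 using fun j : ℕ =>
    glue hw hε b (R := (j : ℝ) + 1) (by positivity)
  refine varIneq_of_tendsto (Wk := V) (θ := fun _ => 1) (C := 0) hε (fun j => (h1 j).continuous)
    (fun j x => by simpa using h7 j x) (fun x => ?_) (cpb_fR hw b d) (cpb_RR hw b d)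
    tendsto_const_nhds fun j => ?_
  · obtain ⟨N, hN⟩ := exists_nat_ge ‖x‖
    refine tendsto_const_nhds.congr' ?_
    filter_upwards [eventually_ge_atTop N] with j hj
    have : (N : ℝ) ≤ j := by exact_mod_cast hj
    exact (h6 j x (by linarith)).symm
  · simp only [one_mul]
    refine core2 (κ := 2 * ε) (h1 j) (h2 j) (by positivity) (h3 j) (fun x ξ => ?_) (h5 j) hw b d
      fun x ξ => ?_
    · linarith [h4 j x ξ, HR_nonneg hw b x ξ]
    · have : 0 ≤ 2 * ε * ‖ξ‖ ^ 2 := by positivity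
      linarith [h4 j x ξ]

end Vale.Agent.P227
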