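import Vale.Agent.P227.ConcA
import Vale.Agent.P227.Core

/-! Log-concavity of the partition function. -/

namespace Vale.Agent.P227

open scoped ContDiff Matrix RealInnerProductSpace Topology
open MeasureTheory Filter

variable {n : ℕ}

namespace Conc

/-- a positive function with `Z Z'' ≤ Z'^2` is log-concave -/
theorem logconc {Z Z1 Z2 : ℝ → ℝ} (hp : ∀ t, 0 < Z t) (d1 : ∀ t, HasDerivAt Z (Z1 t) t)
    (d2 : ∀ t, HasDerivAt Z1 (Z2 t) t) (h : ∀ t, Z t * Z2 t ≤ Z1 t ^ 2) {l : ℝ} (h0 : 0 ≤ l)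
    (h1 : l ≤ 1) : Z 0 ^ (1 - l) * Z 1 ^ l ≤ Z l := by
  have e1 : ∀ t, HasDerivAt (fun t => Real.log (Z t)) (Z1 t / Z t) t :=
    fun t => (d1 t).log (hp t).ne'
  have e2 : ∀ t, HasDerivAt (fun t => Z1 t / Z t) ((Z2 t * Z t - Z1 t * Z1 t) / Z t ^ 2) t :=
    fun t => (d2 t).fun_div (d1 t) (hp t).ne'
  have hd : deriv (fun t => Real.log (Z t)) = fun t => Z1 t / Z t := funext fun t => (e1 t).deriv
  have hc : ConcaveOn ℝ Set.univ fun t => Real.log (Z t) := by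
    refine Antitone.concaveOn_univ_of_deriv (fun t => (e1 t).differentiableAt) ?_
    rw [hd]
    refine antitone_of_deriv_nonpos (fun t => (e2 t).differentiableAt) fun t => ?_
    rw [(e2 t).deriv]
    refine div_nonpos_of_nonpos_of_nonneg ?_ (sq_nonneg _)
    have := h t
    nlinarith
  have h2 := hc.2 (Set.mem_univ (0 : ℝ)) (Set.mem_univ (1 : ℝ)) (sub_nonneg.2 h1) h0 (by ring)
  simp only [smul_eq_mul, mul_zero, mul_one, zero_add] at h2
  rw [Real.rpow_def_of_pos (hp 0), Real.rpow_def_of_pos (hp 1), ← Real.exp_add,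
    ← Real.exp_log (hp l)]
  refine Real.exp_le_exp.2 ?_
  linarith

end Conc

/-- `(log Z)'' = (Z Z'' - Z'^2) / Z² ≤ 0` by `core3`; `concaveOn_of_deriv2_nonpos` -/
theorem conc {k : ℕ} {w : ℝ → ℝ} (hw : RW w) {ε : ℝ} (hε : 0 < ε) (a : Fin k → E n)
    (d : Fin k → ℝ) {l : ℝ} (h0 : 0 ≤ l) (h1 : l ≤ 1) :
    ZR ε a d w 0 ^ (1 - l) * ZR ε a d w 1 ^ l ≤ ZR ε a d w l := by
  have hc : ∀ b : Fin k → E n, Coer (VR ε b w) := fun b =>
    ⟨ε, 0, hε, fun x => by rw [sub_zero]; exact VR_ge hw ε b x⟩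
  have hV : ∀ b : Fin k → E n, Continuous (VR ε b w) := fun b => (smo_VR hw ε b).continuous
  refine Conc.logconc (Z := ZR ε a d w) (fun t => Ex_one_pos (hc _) (hV _)) (ZR_deriv hw hε a d)
    (ZR_deriv2 hw hε a d) (fun t => ?_) h0 h1
  have h := core3 hw hε (fun m => Real.exp (-(d m * t)) • a m) d
  rw [Ex_sub (hc _) (hV _) ((cpb_fR hw _ d).pow 2) (cpb_RR hw _ d)]
  unfold VarIneq at h
  unfold ZR
  linarith

end Vale.Agent.P227
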