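import Vale.Agent.P227.HbB

/-! Integration against e^{-W}. -/

namespace Vale.Agent.P227

open scoped ContDiff Matrix RealInnerProductSpace Topology
open MeasureTheory Filter

variable {n : ℕ}

variable {W f g : E n → ℝ}

namespace Ibp

theorem pow_le_exp (N : ℕ) {κ r : ℝ} (hκ : 0 < κ) (hr : 0 ≤ r) :
    (1 + r) ^ N ≤ Real.exp (N ^ 2 / (4 * κ)) * Real.exp (κ * r ^ 2) := by
  have h1 : (1 + r) ^ N ≤ Real.exp r ^ N :=
    pow_le_pow_left₀ (by positivity) (by linarith [Real.add_one_le_exp r]) N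
  rw [← Real.exp_nat_mul] at h1
  rw [← Real.exp_add]
  refine h1.trans (Real.exp_le_exp.2 ?_)
  have h2 : (N : ℝ) ^ 2 / (4 * κ) + κ * r ^ 2 - N * r = (N - 2 * κ * r) ^ 2 / (4 * κ) := by
    field_simp
    ring
  have h3 : 0 ≤ ((N : ℝ) - 2 * κ * r) ^ 2 / (4 * κ) := by positivity
  linarith

theorem pt_le {κ a C : ℝ} {m : ℕ} {x : E n} (hW : a + κ * ‖x‖ ^ 2 ≤ W x)
    (hg : |g x| ≤ C * (1 + ‖x‖) ^ m) : ‖g x * Real.exp (-W x)‖ ≤
      C * Real.exp (-a) * ((1 + ‖x‖) ^ m * Real.exp (-(κ * ‖x‖ ^ 2))) := by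
  rw [Real.norm_eq_abs, abs_mul, abs_of_pos (Real.exp_pos _)]
  have h1 : Real.exp (-W x) ≤ Real.exp (-a) * Real.exp (-(κ * ‖x‖ ^ 2)) := by
    rw [← Real.exp_add]
    exact Real.exp_le_exp.2 (by linarith)
  refine (mul_le_mul hg h1 (Real.exp_pos _).le ((abs_nonneg _).trans hg)).trans (le_of_eq ?_)
  ring

end Ibp

/-- `(1 + |x|)^m e^{-κ |x|²}` is integrable -/
theorem integrable_poly_gauss (n m : ℕ) {κ : ℝ} (hκ : 0 < κ) :
    Integrable (fun x : E n => (1 + ‖x‖) ^ m * Real.exp (-(κ * ‖x‖ ^ 2))) := by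
  have h : ((Module.finrank ℝ (E n) : ℕ) : ℝ) < ((n + 1 : ℕ) : ℝ) := by simp
  have hi := (integrable_one_add_norm (E := E n) (μ := volume) h).const_mul
    (Real.exp (((m + (n + 1) : ℕ) : ℝ) ^ 2 / (4 * κ)))
  refine hi.mono' (Continuous.aestronglyMeasurable (by fun_prop)) (ae_of_all _ fun x => ?_)
  have hx : 0 < 1 + ‖x‖ := by positivity
  have h1 := Ibp.pow_le_exp (m + (n + 1)) hκ (norm_nonneg x)
  rw [Real.norm_of_nonneg (by positivity), Real.rpow_neg hx.le, Real.rpow_natCast,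
    Real.exp_neg, ← div_eq_mul_inv, ← div_eq_mul_inv,
    div_le_div_iff₀ (Real.exp_pos _) (by positivity), ← pow_add]
  exact h1
theorem integrable_Ex (hW : Coer W) (cW : Continuous W) (hg : CPB g) :
    Integrable (fun x => g x * Real.exp (-W x)) := by
  obtain ⟨κ, C, hκ, hW⟩ := hW
  obtain ⟨cg, C', m, hg⟩ := hg
  refine ((integrable_poly_gauss n m hκ).const_mul (C' * Real.exp (-(-C)))).mono'
    (Continuous.aestronglyMeasurable (by fun_prop)) (ae_of_all _ fun x => ?_)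
  exact Ibp.pt_le (by linarith [hW x]) (hg x)
theorem Ex_add (hW : Coer W) (cW : Continuous W) (hf : CPB f) (hg : CPB g) :
    Ex W (fun x => f x + g x) = Ex W f + Ex W g := by
  simp only [Ex, add_mul]
  exact integral_add (integrable_Ex hW cW hf) (integrable_Ex hW cW hg)
theorem Ex_sub (hW : Coer W) (cW : Continuous W) (hf : CPB f) (hg : CPB g) :
    Ex W (fun x => f x - g x) = Ex W f - Ex W g := by
  simp only [Ex, sub_mul]
  exact integral_sub (integrable_Ex hW cW hf) (integrable_Ex hW cW hg)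
theorem Ex_neg (W f : E n → ℝ) : Ex W (fun x => -f x) = -Ex W f := by
  simp only [Ex, neg_mul]
  exact integral_neg _
theorem Ex_const_mul (W : E n → ℝ) (a : ℝ) (f : E n → ℝ) :
    Ex W (fun x => a * f x) = a * Ex W f := by
  simp only [Ex, mul_assoc]
  exact integral_const_mul _ _
theorem Ex_const (W : E n → ℝ) (a : ℝ) : Ex W (fun _ => a) = a * Ex W (fun _ => 1) := by
  rw [← Ex_const_mul]
  simp only [mul_one]
theorem Ex_sum {ι : Type*} (hW : Coer W) (cW : Continuous W) (s : Finset ι) {F : ι → E n → ℝ}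
    (h : ∀ a ∈ s, CPB (F a)) : Ex W (fun x => ∑ a ∈ s, F a x) = ∑ a ∈ s, Ex W (F a) := by
  simp only [Ex, Finset.sum_mul]
  exact integral_finset_sum s fun a ha => integrable_Ex hW cW (h a ha)
theorem Ex_mono (hW : Coer W) (cW : Continuous W) (hf : CPB f) (hg : CPB g)
    (h : ∀ x, f x ≤ g x) : Ex W f ≤ Ex W g :=
  integral_mono (integrable_Ex hW cW hf) (integrable_Ex hW cW hg) fun x =>
    mul_le_mul_of_nonneg_right (h x) (Real.exp_pos _).le
theorem Ex_nonneg (W : E n → ℝ) (h : ∀ x, 0 ≤ f x) : 0 ≤ Ex W f :=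
  integral_nonneg fun x => mul_nonneg (h x) (Real.exp_pos _).le
theorem Ex_abs_le (hW : Coer W) (cW : Continuous W) (hg : CPB g) (h : ∀ x, |f x| ≤ g x) :
    |Ex W f| ≤ Ex W g := by
  refine norm_integral_le_of_norm_le (f := fun x => f x * Real.exp (-W x))
    (integrable_Ex hW cW hg) (ae_of_all _ fun x => ?_)
  rw [Real.norm_eq_abs, abs_mul, abs_of_pos (Real.exp_pos _)]
  exact mul_le_mul_of_nonneg_right (h x) (Real.exp_pos _).le
theorem Ex_one_pos (hW : Coer W) (cW : Continuous W) : 0 < Ex W (fun _ => 1) := by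
  have h := integrable_Ex hW cW (cpb_const 1)
  simp only [Ex, one_mul] at h ⊢
  exact integral_exp_pos h
theorem Ex_shift (W : E n → ℝ) (c : ℝ) (g : E n → ℝ) :
    Ex (fun x => W x + c) g = Real.exp (-c) * Ex W g := by
  simp only [Ex]
  rw [← integral_const_mul]
  refine integral_congr_ae (ae_of_all _ fun x => ?_)
  simp only [neg_add, Real.exp_add]
  ring
theorem Ex_bound (n m : ℕ) {κ : ℝ} (hκ : 0 < κ) : ∃ I : ℝ, 0 < I ∧ ∀ (W g : E n → ℝ) (a C : ℝ),
    0 ≤ C → (∀ x, a + κ * ‖x‖ ^ 2 ≤ W x) → (∀ x, |g x| ≤ C * (1 + ‖x‖) ^ m) →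
      |Ex W g| ≤ C * I * Real.exp (-a) := by
  have hi := integrable_poly_gauss n m hκ
  have h0 : 0 ≤ ∫ x : E n, (1 + ‖x‖) ^ m * Real.exp (-(κ * ‖x‖ ^ 2)) :=
    integral_nonneg fun x => by positivity
  refine ⟨(∫ x : E n, (1 + ‖x‖) ^ m * Real.exp (-(κ * ‖x‖ ^ 2))) + 1, by positivity,
    fun W g a C hC hW hg => ?_⟩
  have h := norm_integral_le_of_norm_le (hi.const_mul (C * Real.exp (-a)))
    (ae_of_all _ fun x => Ibp.pt_le (hW x) (hg x))
  rw [integral_const_mul] at h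
  refine h.trans ?_
  have h1 : 0 ≤ C * Real.exp (-a) := by positivity
  nlinarith
/-- `integral_mul_fderiv_eq_neg_fderiv_mul_of_integrable` with `g` and `e^{-W}` -/
theorem Ex_D (hW : Coer W) (pW : PG W) (hg : PG g) (i : Fin n) :
    Ex W (D i g) = Ex W (fun x => g x * D i W x) := by
  have cW := pW.cpb.1
  have hd : Differentiable ℝ fun x => Real.exp (-W x) := pW.diff.neg.exp
  have e : ∀ x, fderiv ℝ (fun x => Real.exp (-W x)) x (ev i) =
      -(D i W x * Real.exp (-W x)) := fun x => by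
    have h := congrFun (D_comp (f := fun x => -W x) i (φ := Real.exp) (φ' := Real.exp)
      (fun _ => Real.hasDerivAt_exp _) pW.diff.neg) x
    rw [D_neg] at h
    exact h.trans (by ring)
  have h2 := (integrable_Ex hW cW (hg.mul (pW.D i)).cpb).neg
  have key := integral_mul_fderiv_eq_neg_fderiv_mul_of_integrable (μ := volume) (f := g)
    (g := fun x => Real.exp (-W x)) (v := ev i) (integrable_Ex hW cW (hg.D i).cpb)
    (h2.congr (ae_of_all _ fun x => by simp only [e, Pi.neg_apply]; ring))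
    (integrable_Ex hW cW hg.cpb) (fun x _ => hg.diff x) (fun x _ => hd x)
  simp only [e, mul_neg, integral_neg, neg_inj, ← mul_assoc] at key
  exact key.symm
theorem Ex_div (hW : Coer W) (pW : PG W) {v : Fin n → E n → ℝ} (hv : ∀ i, PG (v i))
    (hg : PG g) :
    Ex W (fun x => g x * divW W v x) = -Ex W (fun x => ∑ i, v i x * D i g x) := by
  have cW := pW.cpb.1
  have e : (fun x => g x * divW W v x) =
      fun x => ∑ i, (g x * D i (v i) x - g x * v i x * D i W x) := by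
    funext x
    simp only [divW, Finset.mul_sum]
    exact Finset.sum_congr rfl fun i _ => by ring
  rw [e, Ex_sum hW cW _ fun i _ => ((hg.mul ((hv i).D i)).sub ((hg.mul (hv i)).mul (pW.D i))).cpb,
    Ex_sum hW cW _ fun i _ => ((hv i).mul (hg.D i)).cpb, ← Finset.sum_neg_distrib]
  refine Finset.sum_congr rfl fun i _ => ?_
  have h := Ex_D hW pW (hg.mul (hv i)) i
  rw [D_mul i hg.diff (hv i).diff, Ex_add hW cW ((hg.D i).mul (hv i)).cpb
    (hg.mul ((hv i).D i)).cpb] at h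
  rw [Ex_sub hW cW (hg.mul ((hv i).D i)).cpb ((hg.mul (hv i)).mul (pW.D i)).cpb, ← h]
  simp only [mul_comm (v i _)]
  ring
theorem Ex_tendsto {Wk : ℕ → E n → ℝ} {κ C : ℝ} (hκ : 0 < κ) (cW : ∀ k, Continuous (Wk k))
    (hl : ∀ k x, κ * ‖x‖ ^ 2 - C ≤ Wk k x) (ht : ∀ x, Tendsto (fun k => Wk k x) atTop (𝓝 (W x)))
    (hg : CPB g) : Tendsto (fun k => Ex (Wk k) g) atTop (𝓝 (Ex W g)) := by
  obtain ⟨cg, C', m, hg⟩ := hg
  refine tendsto_integral_of_dominated_convergence _
    (fun k => Continuous.aestronglyMeasurable (by have := cW k; fun_prop))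
    ((integrable_poly_gauss n m hκ).const_mul (C' * Real.exp (-(-C))))
    (fun k => ae_of_all _ fun x => Ibp.pt_le (by linarith [hl k x]) (hg x))
    (ae_of_all _ fun x => ?_)
  exact ((Real.continuous_exp.tendsto _).comp (ht x).neg).const_mul _
theorem Ex_neg_arg (W g : E n → ℝ) (hW : Ev W) : Ex W (fun x => g (-x)) = Ex W g := by
  have h := integral_neg_eq_self (fun x => g x * Real.exp (-W x)) (volume : Measure (E n))
  simp only [hW _] at h
  exact h
theorem Ex_scale (W g : E n → ℝ) {s : ℝ} (hs : 0 < s) :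
    Ex (fun x => W (s • x)) (fun x => g (s • x)) = (s ^ n)⁻¹ * Ex W g := by
  have h := Measure.integral_comp_smul_of_nonneg (volume : Measure (E n))
    (fun x => g x * Real.exp (-W x)) s (hR := hs.le)
  rw [finrank_euclideanSpace, Fintype.card_fin, smul_eq_mul] at h
  exact h
theorem VarIneq.shift {R : E n → ℝ} (h : VarIneq W f R) (c : ℝ) :
    VarIneq (fun x => W x + c) f R := by
  unfold VarIneq at h ⊢
  simp only [Ex_shift]
  have h1 := mul_le_mul_of_nonneg_left h (sq_nonneg (Real.exp (-c)))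
  nlinarith
/-- limit of variance inequalities `θ_k Var_k f ≤ E_k R`, `θ_k → 1` -/
theorem varIneq_of_tendsto {Wk : ℕ → E n → ℝ} {θ : ℕ → ℝ} {R : E n → ℝ} {κ C : ℝ} (hκ : 0 < κ)
    (cW : ∀ k, Continuous (Wk k)) (hl : ∀ k x, κ * ‖x‖ ^ 2 - C ≤ Wk k x)
    (ht : ∀ x, Tendsto (fun k => Wk k x) atTop (𝓝 (W x))) (hf : CPB f) (hR : CPB R)
    (hθ : Tendsto θ atTop (𝓝 1))
    (h : ∀ k, VarIneq (Wk k) (fun x => θ k * f x) (fun x => θ k * R x)) : VarIneq W f R := by
  have t1 := Ex_tendsto hκ cW hl ht (cpb_const (n := n) 1)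
  have t2 := Ex_tendsto hκ cW hl ht (hf.pow 2)
  have t3 := Ex_tendsto hκ cW hl ht hf
  have t4 := Ex_tendsto hκ cW hl ht hR
  have l := (t1.mul ((hθ.pow 2).mul t2)).sub ((hθ.mul t3).pow 2)
  have r := t1.mul (hθ.mul t4)
  simp only [one_pow, one_mul] at l r
  refine le_of_tendsto_of_tendsto' l r fun k => ?_
  have hk := h k
  simp only [VarIneq, mul_pow, Ex_const_mul] at hk
  simpa only [mul_pow] using hk

end Vale.Agent.P227
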