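import Vale.Agent.P227.Ridge
import Vale.Agent.P227.Ibp

/-! Derivatives of the partition function. -/

namespace Vale.Agent.P227

open scoped ContDiff Matrix RealInnerProductSpace Topology
open MeasureTheory Filter

variable {n : ℕ}

namespace ConcA

/-- differentiation under the integral sign -/
theorem Ex_deriv {V g f g' : ℝ → E n → ℝ} {ε K t₀ : ℝ} {m : ℕ} (hε : 0 < ε)
    (hV : ∀ t x, ε * ‖x‖ ^ 2 ≤ V t x) (cV : ∀ t, Continuous (V t)) (cg : ∀ t, CPB (g t))
    (cf : Continuous (f t₀)) (cg' : Continuous (g' t₀))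
    (dV : ∀ t x, HasDerivAt (fun t => V t x) (-f t x) t)
    (dg : ∀ t x, HasDerivAt (fun t => g t x) (g' t x) t)
    (hb : ∀ t ∈ Metric.ball t₀ 1, ∀ x, |g t x * f t x + g' t x| ≤ K * (1 + ‖x‖) ^ m) :
    HasDerivAt (fun t => Ex (V t) (g t)) (Ex (V t₀) fun x => g t₀ x * f t₀ x + g' t₀ x) t₀ := by
  have hc : Coer (V t₀) := ⟨ε, 0, hε, fun x => by rw [sub_zero]; exact hV t₀ x⟩
  have h0 := cV t₀
  have h1 := (cg t₀).1
  refine (hasDerivAt_integral_of_dominated_loc_of_deriv_le (μ := volume)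
    (F := fun t x => g t x * Real.exp (-V t x))
    (F' := fun t x => (g t x * f t x + g' t x) * Real.exp (-V t x))
    (bound := fun x => K * ((1 + ‖x‖) ^ m * Real.exp (-(ε * ‖x‖ ^ 2))))
    (Metric.ball_mem_nhds t₀ one_pos) (Eventually.of_forall fun t =>
      ((cg t).1.mul (cV t).neg.rexp).aestronglyMeasurable) (integrable_Ex hc h0 (cg t₀))
    (Continuous.aestronglyMeasurable (by fun_prop)) (ae_of_all _ fun x t ht => ?_)
    ((integrable_poly_gauss n m hε).const_mul K) (ae_of_all _ fun x t _ => ?_)).2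
  · rw [Real.norm_eq_abs, abs_mul, abs_of_pos (Real.exp_pos _), ← mul_assoc]
    exact mul_le_mul (hb t ht x) (Real.exp_le_exp.2 (neg_le_neg (hV t x))) (Real.exp_pos _).le
      ((abs_nonneg _).trans (hb t ht x))
  · refine ((dg t x).fun_mul (dV t x).fun_neg.exp).congr_deriv ?_
    ring

variable {k : ℕ} {w : ℝ → ℝ}

/-- the moving directions -/
noncomputable def bb (a : Fin k → E n) (d : Fin k → ℝ) (t : ℝ) : Fin k → E n :=
  fun m => Real.exp (-(d m * t)) • a m

theorem d_inner (a : Fin k → E n) (d : Fin k → ℝ) (m : Fin k) (x : E n) (t : ℝ) :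
    HasDerivAt (fun t => ⟪bb a d t m, x⟫) (-d m * ⟪bb a d t m, x⟫) t := by
  simp only [bb, real_inner_smul_left]
  refine ((((hasDerivAt_id' t).const_mul (d m)).fun_neg.exp).mul_const _).congr_deriv ?_
  ring

theorem diff1 (hw : RW w) : Differentiable ℝ w := hw.smo.differentiable (by simp)

theorem diff2 (hw : RW w) : Differentiable ℝ (deriv w) :=
  (contDiff_infty_iff_deriv.1 hw.smo).2.differentiable (by simp)

theorem d_VR (hw : RW w) (ε : ℝ) (a : Fin k → E n) (d : Fin k → ℝ) (t : ℝ) (x : E n) :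
    HasDerivAt (fun t => VR ε (bb a d t) w x) (-fR (bb a d t) d w x) t := by
  refine ((HasDerivAt.fun_sum fun m _ =>
    (diff1 hw _).hasDerivAt.comp t (d_inner a d m x t)).const_add _).congr_deriv ?_
  rw [fR, ← Finset.sum_neg_distrib]
  exact Finset.sum_congr rfl fun m _ => by ring

theorem d_fR (hw : RW w) (a : Fin k → E n) (d : Fin k → ℝ) (t : ℝ) (x : E n) :
    HasDerivAt (fun t => fR (bb a d t) d w x) (-RR (bb a d t) d w x) t := by
  refine (HasDerivAt.fun_sum fun m _ => ((d_inner a d m x t).fun_mul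
    ((diff2 hw _).hasDerivAt.comp t (d_inner a d m x t))).const_mul (d m)).congr_deriv ?_
  rw [RR, ← Finset.sum_neg_distrib]
  exact Finset.sum_congr rfl fun m _ => by simp only [Function.comp]; ring

theorem inner_le (a : Fin k → E n) (d : Fin k → ℝ) {t₀ t : ℝ} (ht : t ∈ Metric.ball t₀ 1)
    (m : Fin k) (x : E n) : ⟪bb a d t m, x⟫ ^ 2 ≤
      (Real.exp (|d m| * (|t₀| + 1)) * ‖a m‖) ^ 2 * (1 + ‖x‖) ^ 2 := by
  have h1 : |t| ≤ |t₀| + 1 := by
    have h2 := abs_sub_abs_le_abs_sub t t₀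
    have h3 : |t - t₀| < 1 := ht
    linarith
  have h2 : -(d m * t) ≤ |d m| * (|t₀| + 1) :=
    (neg_le_abs _).trans ((abs_mul _ _).trans_le (mul_le_mul_of_nonneg_left h1 (abs_nonneg _)))
  rw [← mul_pow, ← sq_abs]
  refine pow_le_pow_left₀ (abs_nonneg _) ((abs_real_inner_le_norm _ _).trans ?_) 2
  rw [bb, norm_smul, Real.norm_of_nonneg (Real.exp_pos _).le]
  gcongr
  exact le_add_of_nonneg_left zero_le_one

theorem bounds (hw : RW w) (a : Fin k → E n) (d : Fin k → ℝ) (t₀ : ℝ) : ∃ K : ℝ, 0 ≤ K ∧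
    ∀ t ∈ Metric.ball t₀ 1, ∀ x, |fR (bb a d t) d w x| ≤ K * (1 + ‖x‖) ^ 2 ∧
      |RR (bb a d t) d w x| ≤ K * (1 + ‖x‖) ^ 2 := by
  obtain ⟨C, hC, h⟩ := hw.bound
  have h1 : ∀ s, |s * deriv w s| ≤ C * s ^ 2 := fun s => by
    rw [abs_mul, ← sq_abs s]
    nlinarith [mul_le_mul_of_nonneg_left (h s).2 (abs_nonneg s)]
  have h2 : ∀ s, |s * deriv w s + s ^ 2 * deriv (deriv w) s| ≤ 2 * C * s ^ 2 := fun s => by
    refine (abs_add_le _ _).trans ?_
    rw [abs_of_nonneg (mul_nonneg (sq_nonneg s) (hw.conv s))]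
    nlinarith [h1 s, mul_le_mul_of_nonneg_left (h s).1 (sq_nonneg s)]
  refine ⟨∑ m, (|d m| + 2 * d m ^ 2) * C * (Real.exp (|d m| * (|t₀| + 1)) * ‖a m‖) ^ 2,
    by positivity, fun t ht x => ?_⟩
  rw [Finset.sum_mul]
  refine ⟨(Finset.abs_sum_le_sum_abs _ _).trans (Finset.sum_le_sum fun m _ => ?_),
    (Finset.abs_sum_le_sum_abs _ _).trans (Finset.sum_le_sum fun m _ => ?_)⟩
  · rw [abs_mul, mul_assoc, mul_assoc]
    exact mul_le_mul (le_add_of_nonneg_right (by positivity)) ((h1 _).trans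
      (mul_le_mul_of_nonneg_left (inner_le a d ht m x) hC)) (abs_nonneg _) (by positivity)
  · rw [abs_mul, abs_of_nonneg (sq_nonneg _), mul_assoc, mul_assoc]
    have h3 := mul_le_mul_of_nonneg_left (inner_le a d ht m x) hC
    have h4 := mul_le_mul_of_nonneg_left (h2 ⟪bb a d t m, x⟫) (sq_nonneg (d m))
    have h5 := mul_le_mul_of_nonneg_left h3 (sq_nonneg (d m))
    have h6 : 0 ≤ |d m| * (C * ((Real.exp (|d m| * (|t₀| + 1)) * ‖a m‖) ^ 2 * (1 + ‖x‖) ^ 2)) := by
      positivity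
    linarith

end ConcA

open ConcA

/-- `b_m(t) = e^{-d_m t} a_m`; differentiate under the integral; on `|t - t₀| < 1` the integrand
derivative is dominated by `C |x|² e^{-ε|x|²}` (`RW.bound`, `VR_ge`, `integrable_poly_gauss`) -/
theorem ZR_deriv {k : ℕ} {w : ℝ → ℝ} (hw : RW w) {ε : ℝ} (hε : 0 < ε) (a : Fin k → E n)
    (d : Fin k → ℝ) (t : ℝ) : HasDerivAt (ZR ε a d w)
      (Ex (VR ε (fun m => Real.exp (-(d m * t)) • a m) w)
        (fR (fun m => Real.exp (-(d m * t)) • a m) d w)) t := by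
  obtain ⟨K, -, hK⟩ := bounds hw a d t
  have h := Ex_deriv (V := fun t => VR ε (bb a d t) w) (g := fun _ _ => 1)
    (f := fun t => fR (bb a d t) d w) (g' := fun _ _ => 0) (K := K) (m := 2) (t₀ := t) hε
    (fun t => VR_ge hw ε _) (fun t => (smo_VR hw ε _).continuous)
    (fun _ => ⟨continuous_const, 1, 0, fun _ => by simp⟩) (cpb_fR hw _ d).1 continuous_const
    (d_VR hw ε a d) (fun t _ => hasDerivAt_const t 1) fun s hs x => by
      rw [one_mul, add_zero]
      exact (hK s hs x).1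
  simp only [one_mul, add_zero] at h
  exact h

theorem ZR_deriv2 {k : ℕ} {w : ℝ → ℝ} (hw : RW w) {ε : ℝ} (hε : 0 < ε) (a : Fin k → E n)
    (d : Fin k → ℝ) (t : ℝ) : HasDerivAt
      (fun t => Ex (VR ε (fun m => Real.exp (-(d m * t)) • a m) w)
        (fR (fun m => Real.exp (-(d m * t)) • a m) d w))
      (Ex (VR ε (fun m => Real.exp (-(d m * t)) • a m) w)
        (fun x => fR (fun m => Real.exp (-(d m * t)) • a m) d w x ^ 2 -
          RR (fun m => Real.exp (-(d m * t)) • a m) d w x)) t := by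
  obtain ⟨K, hK0, hK⟩ := bounds hw a d t
  have h := Ex_deriv (V := fun t => VR ε (bb a d t) w) (g := fun t => fR (bb a d t) d w)
    (f := fun t => fR (bb a d t) d w) (g' := fun t x => -RR (bb a d t) d w x) (K := K ^ 2 + K)
    (m := 4) (t₀ := t) hε (fun t => VR_ge hw ε _) (fun t => (smo_VR hw ε _).continuous)
    (fun _ => cpb_fR hw _ d) (cpb_fR hw _ d).1 (cpb_RR hw _ d).1.neg
    (d_VR hw ε a d) (d_fR hw a d) fun s hs x => by
      have h1 : (1 + ‖x‖) ^ 2 ≤ (1 + ‖x‖) ^ 4 :=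
        pow_le_pow_right₀ (le_add_of_nonneg_right (norm_nonneg x)) (by norm_num)
      have h2 := pow_le_pow_left₀ (abs_nonneg _) (hK s hs x).1 2
      have h3 := (hK s hs x).2.trans (mul_le_mul_of_nonneg_left h1 hK0)
      refine (abs_add_le _ _).trans ?_
      rw [abs_neg, abs_mul, ← sq]
      linarith [show (K * (1 + ‖x‖) ^ 2) ^ 2 = K ^ 2 * (1 + ‖x‖) ^ 4 by ring,
        show (K ^ 2 + K) * (1 + ‖x‖) ^ 4 = K ^ 2 * (1 + ‖x‖) ^ 4 + K * (1 + ‖x‖) ^ 4 by ring]
  simp only [← sq, ← sub_eq_add_neg] at h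
  exact h

end Vale.Agent.P227
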