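import Vale.Agent.P227.HbM

/-! Openness of approximate solvability. -/

namespace Vale.Agent.P227

open scoped ContDiff Matrix RealInnerProductSpace Topology
open MeasureTheory Filter

variable {n : ℕ}

namespace OpenAux

theorem step {C ε l M : ℝ} {τ τ' : E n → Mat n} {u : E n → ℝ}
    (hε : 80 * (n : ℝ) ^ 2 * ε * C ≤ 1) (hl : -1 ≤ l) (hs : ASolv τ l) (ha : APri C τ)
    (hτ : MBinf τ) (hd : MHb 3 ε fun x => τ' x - τ x) (hM : 0 < M) (su : Sm u) (eu : Ev u)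
    (hu : N2 1 M u) : ∃ θ, Sm θ ∧ Ev θ ∧ Sm (rad θ) ∧
      N2 1 (M / 2) (fun x => Aop τ' l θ x - u x) := by
  obtain ⟨θ, s1, e1, r1, h1⟩ := hs u su eu (M / 4) (by positivity)
  have sA := smo_Aop hτ.msmo l s1.smo
  have h2 : N2 1 (M / 4 + M) (Aop τ l θ) := by
    have h3 := h1.add hu (sA.sub su.smo) su.smo
    simp only [sub_add_cancel] at h3
    exact h3
  have h3 := hd.contr (ha l θ _ hl (by positivity) s1 e1 h2)
  have h4 := (h1.sub h3.n2 (sA.sub su.smo) h3.smo).mono (M' := M / 2) (by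
    nlinarith [mul_le_mul_of_nonneg_left hε hM.le])
  refine ⟨θ, s1, e1, r1, ?_⟩
  rw [Aop_change τ τ']
  simp only [Matrix.sub_apply] at h4
  simp only [sub_right_comm _ _ (u _)]
  exact h4

end OpenAux

/-- One step halves the residual: for `N2 1 M u`, `M > 0`, take `θ₁` with error `M/4` for `τ`;
then `N2 3 (C 5M/4) θ₁` and `Aop τ' l θ₁ - u = err - ∑ (τ' - τ) ∂∂θ₁` (`Aop_change`, `MHb.contr`,
`Hb.n2`) has `N2 1 (M/2)`. Iterate on the residual (which is `Sm` and even): by induction there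
is `θ` with residual `N2 1 (M / 2^m)`. -/
theorem open_solv (n : ℕ) {C : ℝ} (hC : 0 < C) : ∃ ε : ℝ, 0 < ε ∧
    ∀ (τ τ' : E n → Mat n) (l : ℝ), -1 ≤ l → ASolv τ l → APri C τ → MBinf τ → MBinf τ' →
      (∀ x, τ' (-x) = τ' x) → MHb 3 ε (fun x => τ' x - τ x) → ASolv τ' l := by
  refine ⟨1 / (80 * ((n : ℝ) ^ 2 + 1) * C), by positivity, ?_⟩
  intro τ τ' l hl hs ha hτ hτ' he hd u su eu η hη
  have hε : 80 * (n : ℝ) ^ 2 * (1 / (80 * ((n : ℝ) ^ 2 + 1) * C)) * C ≤ 1 := by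
    rw [mul_one_div, div_mul_eq_mul_div, div_le_one (by positivity)]
    nlinarith
  obtain ⟨B, hB, hu⟩ := su.n2 1
  have key := halving (Q := fun a => ∃ θ, Sm θ ∧ Ev θ ∧ Sm (rad θ) ∧
    N2 1 a (fun x => Aop τ' l θ x - u x)) (B := B) (c := 0)
    (fun a b hab ⟨θ, h1, h2, h3, h4⟩ => ⟨θ, h1, h2, h3, h4.mono hab⟩) hB ?_ ?_ le_rfl η hη
  · rwa [mul_zero, zero_add] at key
  · have h0 : rad (fun _ : E n => (0 : ℝ)) = fun _ => 0 := by
      funext x
      simp [rad, D_const]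
    refine ⟨fun _ => 0, sm_const 0, fun _ => rfl, by rw [h0]; exact sm_const 0, ?_⟩
    simp only [Aop, Lop_const, mul_zero, sub_zero, zero_sub]
    exact hu.neg
  · rintro a ha0 ⟨θ, s0, e0, r0, h0⟩
    rcases ha0.eq_or_lt with rfl | hpos
    · exact ⟨θ, s0, e0, r0, h0.mono (by norm_num)⟩
    obtain ⟨θ₁, s1, e1, r1, h1⟩ := OpenAux.step hε hl hs ha hτ hd hpos
      ((s0.Aop r0 hτ' l).sub su) (fun x => by simp only [e0.Aop s0.smo he l x, eu x]) h0
    refine ⟨fun x => θ x - θ₁ x, s0.sub s1, fun x => by simp only [e0 x, e1 x], ?_, ?_⟩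
    · rw [rad_sub (smo_diff s0.smo) (smo_diff s1.smo)]
      exact r0.sub r1
    · rw [Aop_sub τ' l s0.smo s1.smo, add_zero]
      have h2 := h1.neg
      simp only [neg_sub] at h2
      simp only [sub_right_comm _ _ (u _)]
      exact h2

end Vale.Agent.P227
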