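import Vale.Agent.P227.Dyn

/-! Approximate solvability for the standard OU operator. -/

namespace Vale.Agent.P227

open scoped ContDiff Matrix RealInnerProductSpace Topology
open MeasureTheory Filter

variable {n : ℕ}

/-- truncated resolvent -/
noncomputable def Rz (l T : ℝ) (u : E n → ℝ) : E n → ℝ :=
  fun x => ∫ t in (0 : ℝ)..T, Real.exp (-(l * t)) * OU t u x

namespace ResX

theorem fderiv_eq (f : E n → ℝ) (x : E n) :
    fderiv ℝ f x = ∑ i, D i f x • (EuclideanSpace.proj i : E n →L[ℝ] ℝ) := by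
  ext w
  rw [show fderiv ℝ f x w = pd w f x from rfl, pd_eq_sum]
  simp [mul_comm]

theorem under {G : ℝ → E n → ℝ} {G' : Fin n → ℝ → E n → ℝ} (T : ℝ)
    (hG : Continuous fun p : ℝ × E n => G p.1 p.2)
    (hG' : ∀ i, Continuous fun p : ℝ × E n => G' i p.1 p.2) (hd : ∀ t, Differentiable ℝ (G t))
    (hD : ∀ i t, D i (G t) = G' i t) :
    (Differentiable ℝ fun x => ∫ t in (0 : ℝ)..T, G t x) ∧
      ∀ i, D i (fun x => ∫ t in (0 : ℝ)..T, G t x) = fun x => ∫ t in (0 : ℝ)..T, G' i t x := by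
  have hc : Continuous fun p : ℝ × E n => fderiv ℝ (G p.1) p.2 := by
    simp only [fderiv_eq, hD]
    exact continuous_finsetSum _ fun i _ => (hG' i).smul continuous_const
  have c0 : ∀ x, Continuous fun t => G t x := fun x => hG.comp (Continuous.prodMk_left x)
  have c1 : ∀ x, Continuous fun t => fderiv ℝ (G t) x := fun x => hc.comp (Continuous.prodMk_left x)
  have key : ∀ x, HasFDerivAt (fun x => ∫ t in (0 : ℝ)..T, G t x)
      (∫ t in (0 : ℝ)..T, fderiv ℝ (G t) x) x := fun x => by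
    obtain ⟨C, hC⟩ := ((isCompact_uIcc (a := 0) (b := T)).prod
      (isCompact_closedBall x 1)).exists_bound_of_continuousOn hc.continuousOn
    exact hasFDerivAt_integral_of_dominated_of_fderiv_le'' (F := fun x t => G t x)
      (F' := fun x t => fderiv ℝ (G t) x) (bound := fun _ => C)
      (Metric.closedBall_mem_nhds x one_pos)
      (Eventually.of_forall fun y => (c0 y).aestronglyMeasurable)
      ((c0 x).intervalIntegrable _ _) (c1 x).aestronglyMeasurable
      ((ae_restrict_iff' measurableSet_uIoc).2 (Eventually.of_forall fun t ht y hy =>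
        hC (t, y) ⟨Set.uIoc_subset_uIcc ht, hy⟩)) intervalIntegrable_const
      (Eventually.of_forall fun t y _ => (hd t y).hasFDerivAt)
  refine ⟨fun x => (key x).differentiableAt, fun i => funext fun x => ?_⟩
  rw [D, pd, (key x).fderiv,
    ContinuousLinearMap.intervalIntegral_apply ((c1 x).intervalIntegrable _ _)]
  simp only [← hD]
  rfl

theorem cont {u : E n → ℝ} (hu : PG u) (l : ℝ) :
    Continuous fun p : ℝ × E n => Real.exp (-(l * p.1)) * OU p.1 u p.2 :=
  Continuous.mul (by fun_prop) (OU_cont hu.cpb)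

theorem int {u : E n → ℝ} (hu : PG u) (l T : ℝ) (x : E n) :
    IntervalIntegrable (fun t => Real.exp (-(l * t)) * OU t u x) volume 0 T :=
  ((cont hu l).comp (Continuous.prodMk_left x)).intervalIntegrable _ _

theorem D_Rz {u : E n → ℝ} (hu : PG u) (l T : ℝ) :
    Differentiable ℝ (Rz l T u) ∧ ∀ i, D i (Rz l T u) = Rz (l + 1) T (D i u) :=
  under (G := fun t x => Real.exp (-(l * t)) * OU t u x)
    (G' := fun i t x => Real.exp (-((l + 1) * t)) * OU t (D i u) x) T (cont hu l)
    (fun i => cont (hu.D i) _) (fun t => (OU_diff t hu).const_mul _) fun i t => by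
      rw [D_const_mul i _ (OU_diff t hu), D_OU t hu]
      funext x
      rw [← mul_assoc, ← Real.exp_add]
      ring_nf

theorem smo {u : E n → ℝ} (hu : PG u) (l T : ℝ) : ContDiff ℝ ∞ (Rz l T u) :=
  smo_of_closed (fun f => ∃ l u, PG u ∧ f = Rz l T u)
    (by rintro _ ⟨l, u, hu, rfl⟩; exact (D_Rz hu l T).1)
    (by rintro _ ⟨l, u, hu, rfl⟩ i; exact ⟨_, _, hu.D i, (D_Rz hu l T).2 i⟩) ⟨l, u, hu, rfl⟩

theorem binf {u : E n → ℝ} (hu : Binf u) (l : ℝ) {T : ℝ} (hT : 0 ≤ T) : Binf (Rz l T u) := by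
  refine binf_of_closed (fun f => ∃ l u, Binf u ∧ f = Rz l T u)
    (by rintro _ ⟨l, u, hu, rfl⟩; exact smo hu.pg l T) ?_
    (by rintro _ ⟨l, u, hu, rfl⟩ i; exact ⟨_, _, hu.D i, (D_Rz hu.pg l T).2 i⟩) ⟨l, u, hu, rfl⟩
  rintro _ ⟨l, u, hu, rfl⟩
  obtain ⟨M, hM⟩ := hu.bdd
  refine ⟨∫ t in (0 : ℝ)..T, Real.exp (-(l * t)) * M, fun x =>
    intervalIntegral.norm_integral_le_of_norm_le (f := fun t => Real.exp (-(l * t)) * OU t u x)
      (g := fun t => Real.exp (-(l * t)) * M) hT (Eventually.of_forall fun t _ => ?_)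
      (Continuous.intervalIntegrable (by fun_prop) _ _)⟩
  rw [Real.norm_eq_abs, abs_mul, abs_of_pos (Real.exp_pos _)]
  exact mul_le_mul_of_nonneg_left (OU_abs_le t hM x) (Real.exp_pos _).le

theorem sm {u : E n → ℝ} (hu : Sm u) (l : ℝ) {T : ℝ} (hT : 0 ≤ T) : Sm (Rz l T u) := by
  refine sm_iff.2 ⟨smo hu.pg l T, fun i j => ?_⟩
  rw [(D_Rz hu.pg l T).2, (D_Rz (hu.pg.D j) _ T).2]
  exact binf (hu.DD i j) _ hT

theorem Aop_Rz {u : E n → ℝ} (hu : PG u) (l : ℝ) {T : ℝ} (hT : 0 ≤ T) (x : E n) :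
    Aop (one n) l (Rz l T u) x = u x - Real.exp (-(l * T)) * OU T u x := by
  have h1 : ∀ t ∈ Set.uIcc 0 T, Real.exp (-(l * t)) * OU t (Aop (one n) l u) x =
      l * (Real.exp (-(l * t)) * OU t u x) -
        ((∑ i, Real.exp (-((l + 1 + 1) * t)) * OU t (D i (D i u)) x) -
          ∑ i, x i * (Real.exp (-((l + 1) * t)) * OU t (D i u) x)) := fun t ht => by
    rw [Set.uIcc_of_le hT] at ht
    have e1 : Real.exp (-((l + 1) * t)) = Real.exp (-(l * t)) * Real.exp (-t) := by
      rw [← Real.exp_add]; ring_nf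
    have e2 : Real.exp (-((l + 1 + 1) * t)) =
        Real.exp (-(l * t)) * (Real.exp (-t) * Real.exp (-t)) := by
      rw [← Real.exp_add, ← Real.exp_add]; ring_nf
    unfold Aop
    rw [OU_sub t (hu.cpb.const_mul l) (hu.Lop (τ := one n) (mpg_const 1)).cpb, OU_const_mul]
    simp only
    rw [← OU_comm hu ht.1, Lop_one, rad]
    simp only [D_OU t hu, D_const_mul _ _ (OU_diff t (hu.D _)), D_OU t (hu.D _), e1, e2, mul_sub,
      Finset.mul_sum]
    exact congrArg₂ _ (by ring) (congrArg₂ _ (Finset.sum_congr rfl fun i _ => by ring)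
      (Finset.sum_congr rfl fun i _ => by ring))
  have i1 := fun i => int ((hu.D i).D i) (l + 1 + 1) T x
  have i2 := fun i => (int (hu.D i) (l + 1) T x).const_mul (x i)
  have j1 := IntervalIntegrable.sum Finset.univ fun i _ => i1 i
  have j2 := IntervalIntegrable.sum Finset.univ fun i _ => i2 i
  simp only [Finset.sum_fn] at j1 j2
  rw [eq_sub_iff_add_eq', dynkin hu l hT x, intervalIntegral.integral_congr h1,
    intervalIntegral.integral_sub ((int hu l T x).const_mul l) (j1.sub j2),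
    intervalIntegral.integral_sub j1 j2, intervalIntegral.integral_finsetSum fun i _ => i1 i,
    intervalIntegral.integral_finsetSum fun i _ => i2 i, Aop, Lop_one, rad]
  simp only [intervalIntegral.integral_const_mul, (D_Rz hu l T).2, (D_Rz (hu.D _) _ T).2, Rz]

end ResX

/-- Facts to prove for `PG u`, `0 ≤ T`: `Rz l T u` is differentiable with
`D i (Rz l T u) = Rz (l+1) T (D i u)` (differentiate under the interval integral; `OU_cont`,
`OU_pb`, `D_OU`); smooth (`smo_of_closed`); `Binf u → Binf (Rz l T u)` (`binf_of_closed`), so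
`Sm u → Sm (Rz l T u)`; even; and `Aop one l (Rz l T u) = u - e^{-lT} OU T u` (move `Lop` inside
the integral, then FTC with `OU_deriv`). Then `rad θ = Δθ - l θ + u - e^{-lT} OU T u` is `Sm`, and
the error `- e^{-lT} OU T u` has `N2 1 (e^{-(l+2)T} M)` (`OU_n2`): take `T` large. -/
theorem res {l : ℝ} (hl : -2 < l) : ASolv (one n) l := by
  intro u hu he ε hε
  obtain ⟨M, hM, hN⟩ := hu.n2 1
  have hl' : 0 < l + 2 := by linarith
  obtain ⟨T, hT, hTe⟩ : ∃ T, 0 ≤ T ∧ (l + 2) * T = M / ε :=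
    ⟨M / ε / (l + 2), by positivity, mul_div_cancel₀ _ hl'.ne'⟩
  have hθ := ResX.sm hu l hT
  have hA := ResX.Aop_Rz hu.pg l hT
  refine ⟨Rz l T u, hθ, fun x => ?_, ?_, ?_⟩
  · simp only [Rz, OU_ev _ he x]
  · have e : rad (Rz l T u) = fun x => (∑ i, D i (D i (Rz l T u)) x) - l * Rz l T u x +
        (u x - Real.exp (-(l * T)) * OU T u x) := funext fun x => by
      rw [← hA x, Aop, Lop_one]
      ring
    rw [e]
    exact ((sm_sum _ fun i _ => (hθ.DD i i).sm).sub (hθ.const_mul l)).add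
      (hu.sub ((OU_sm hT hu).const_mul _))
  · have e : (fun x => Aop (one n) l (Rz l T u) x - u x) =
        fun x => -Real.exp (-(l * T)) * OU T u x := funext fun x => by
      rw [hA x]
      ring
    rw [e]
    refine ((OU_n2 hT hu.pg hN).const_mul (OU_sm hT hu).smo _).mono ?_
    rw [abs_neg, abs_of_pos (Real.exp_pos _), ← mul_assoc, ← Real.exp_add,
      show -(l * T) + -2 * T = -(M / ε) by linarith, Real.exp_neg, inv_mul_le_iff₀ (Real.exp_pos _)]
    have h1 := mul_le_mul_of_nonneg_right (Real.add_one_le_exp (M / ε)) hε.le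
    rw [add_mul, div_mul_cancel₀ _ hε.ne'] at h1
    linarith

end Vale.Agent.P227
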