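import Vale.Agent.P227.StepA

/-! One Euler step: estimates. -/

namespace Vale.Agent.P227

open scoped ContDiff Matrix RealInnerProductSpace Topology
open MeasureTheory Filter

variable {n : ℕ}

namespace StepX

theorem prods (n : ℕ) {K' C₁ C₀ : ℝ} (hK' : 0 < K') (hC₁ : 0 < C₁) (hC₀ : 0 < C₀) :
    ∃ A : ℝ, 0 < A ∧ ∀ τ Φ τ' Ψ T : E n → Mat n, MHb 3 K' τ → MHb 3 C₁ Φ → MHb 3 C₀ τ' →
      MHb 2 C₁ Ψ → MHb 2 K' T →
      Hb 2 A (fun x => (τ x * Φ x * τ' x * Ψ x).trace -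
        (τ x * Φ x * τ x * Φ x * τ' x * T x).trace) ∧ MHb 3 A fun x => τ x * Φ x * τ' x := by
  obtain ⟨a, ha⟩ : ∃ a : ℝ, a = n * 2 ^ (2 + 1) := ⟨_, rfl⟩
  obtain ⟨b, hb⟩ : ∃ b : ℝ, b = n * 2 ^ (3 + 1) := ⟨_, rfl⟩
  have ha0 : 0 ≤ a := by rw [ha]; positivity
  have hb0 : 0 ≤ b := by rw [hb]; positivity
  have h1 : 0 ≤ n * (a * (a * (a * K' * C₁) * C₀) * C₁) +
      n * (a * (a * (a * (a * (a * K' * C₁) * K') * C₁) * C₀) * K') := by positivity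
  have h2 : 0 ≤ b * (b * K' * C₁) * C₀ := by positivity
  refine ⟨n * (a * (a * (a * K' * C₁) * C₀) * C₁) +
      n * (a * (a * (a * (a * (a * K' * C₁) * K') * C₁) * C₀) * K') + b * (b * K' * C₁) * C₀ + 1,
    by linarith, fun τ Φ τ' Ψ T t1 t2 t3 t4 t5 => ⟨?_, ?_⟩⟩
  · have s1 := t1.of_le (show 2 ≤ 3 by norm_num)
    have s2 := t2.of_le (show 2 ≤ 3 by norm_num)
    have s3 := t3.of_le (show 2 ≤ 3 by norm_num)
    have s4 := (((s1.mul s2).mul s3).mul t4).trace.sub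
      (((((s1.mul s2).mul s1).mul s2).mul s3).mul t5).trace
    rw [← ha] at s4
    exact s4.mono (by linarith)
  · have s4 := (t1.mul t2).mul t3
    rw [← hb] at s4
    exact s4.mono (by linarith)

end StepX

open StepX in
/-- `δ₀ = min 1 (c / (2 n C₁ + 2))`, so `h' ≥ c/2`; `mhb_inv` for `τ'`; `τ' - τ = -δ τ Φ τ'`;
`MHb.mul`, `MHb.trace`, `MD_hess`, `n2_of_D`. -/
theorem step (n : ℕ) {c K K' C₁ : ℝ} (hc : 0 < c) (hK' : 0 < K') (hC₁ : 0 < C₁) :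
    ∃ δ₀ C₂ : ℝ, 0 < δ₀ ∧ 0 < C₂ ∧ ∀ (Θ W θ : E n → ℝ) (δ : ℝ), Pot Θ W → Ell c K (hess Θ) →
      MHb 3 K' (hess Θ) → MHb 3 K' (tau Θ) → Sm θ → Ev θ → Sm (rad θ) → N2 3 C₁ θ → 0 < δ →
      δ ≤ δ₀ → ∃ W' : E n → ℝ, Pot (fun x => Θ x + δ * θ x) W' ∧
        N2 1 (C₂ * δ ^ 2) (fun x => W' x - W x - δ * Aop (tau Θ) (-1) θ x) ∧
        MHb 3 (C₂ * δ) (fun x => tau (fun y => Θ y + δ * θ y) x - tau Θ x) := by
  obtain ⟨C₀, hC₀, hinv⟩ := mhb_inv n 3 (K' + C₁) (1 / (c / 2))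
  obtain ⟨A, hA, hpr⟩ := prods n hK' hC₁ hC₀
  have hd : 0 < 2 * n * C₁ + 2 := by positivity
  refine ⟨min 1 (c / (2 * n * C₁ + 2)), A, lt_min one_pos (div_pos hc hd), hA,
    fun Θ W θ δ h hE hH hτ hθ he hr hN hδ hδ₀ => ?_⟩
  have hδ1 : δ ≤ 1 := hδ₀.trans (min_le_left _ _)
  have hδ2 : δ * (2 * n * C₁ + 2) ≤ c := (le_div_iff₀ hd).1 (hδ₀.trans (min_le_right _ _))
  have hΦ : MHb 3 C₁ (hess θ) := n2_iff_mhb.1 hN
  have hl : ∀ x ξ, c / 2 * ‖ξ‖ ^ 2 ≤ qf (hess Θ x + δ • hess θ x) ξ := by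
    intro x ξ
    have h1 := ((hE x).2 ξ).1
    have h2 := mul_le_mul_of_nonneg_left (abs_le.1 (abs_qf_le (hΦ.abs_le x) ξ)).1 hδ.le
    have h3 : δ * (n * C₁) * ‖ξ‖ ^ 2 ≤ c / 2 * ‖ξ‖ ^ 2 :=
      mul_le_mul_of_nonneg_right (by linarith) (sq_nonneg _)
    rw [qf_add, qf_smul]
    linarith
  obtain ⟨W', hP, hD⟩ := stepA h hθ he hr (half_pos hc) hl
  have hH' : ∀ x, hess (fun y => Θ y + δ * θ y) x = hess Θ x + δ • hess θ x := fun x => by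
    rw [hess_add h.sT (contDiff_const.mul hθ.smo), hess_const_mul δ hθ.smo]
  have hτ' : MHb 3 C₀ (tau fun y => Θ y + δ * θ y) := by
    refine hinv _ hP.toLPot.unit ?_ fun x i j => ?_
    · rw [funext hH']
      refine (hH.add (hΦ.smul δ)).mono ?_
      rw [abs_of_pos hδ]
      nlinarith
    · refine abs_entry_le (psd_isSymm (hP.pos x).inv.posSemidef) (fun ξ => ?_) i j
      rw [abs_of_nonneg (qf_nonneg (hP.pos x).inv.posSemidef ξ)]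
      refine qf_inv_upper (hess_symm hP.sT x) (half_pos hc) (fun η => ?_) ξ
      rw [hH']
      exact hl x η
  have hT : ∀ i, MHb 2 K' (hess (D i Θ)) := fun i => n2_iff_mhb.1 ((n2_iff_mhb.2 hH).D i)
  have hΨ : ∀ i, MHb 2 C₁ (hess (D i θ)) := fun i => n2_iff_mhb.1 (hN.D i)
  refine ⟨W', hP, n2_of_D fun i => ?_, ?_⟩
  · rw [hD i]
    refine ((hpr _ _ _ _ _ hτ hΦ hτ' (hΨ i) (hT i)).1.const_mul (δ ^ 2)).mono ?_
    rw [abs_of_nonneg (sq_nonneg δ), mul_comm]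
  · have e : (fun x => tau (fun y => Θ y + δ * θ y) x - tau Θ x) =
        fun x => (-δ) • (tau Θ x * hess θ x * tau (fun y => Θ y + δ * θ y) x) := by
      funext x
      have h1 := HbM.inv_sub (h.toLPot.unit x) (hP.toLPot.unit x)
      have h2 : hess (fun y => Θ y + δ * θ y) x - hess Θ x = δ • hess θ x := by
        rw [hH', add_sub_cancel_left]
      rw [h2, Matrix.mul_smul, Matrix.smul_mul] at h1
      rw [neg_smul, ← neg_sub]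
      exact congrArg Neg.neg h1
    rw [e]
    refine ((hpr _ _ _ _ _ hτ hΦ hτ' (hΦ.of_le (by norm_num)) (hH.of_le (by norm_num))).2.smul
      (-δ)).mono ?_
    rw [abs_neg, abs_of_pos hδ, mul_comm]

end Vale.Agent.P227
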