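import Vale.Agent.P227.Uni
import Vale.Agent.P227.Open
import Vale.Agent.P227.Step
import Vale.Agent.P227.Res

/-! Existence of approximate moment potentials. -/

namespace Vale.Agent.P227

open scoped ContDiff Matrix RealInnerProductSpace Topology
open MeasureTheory Filter

variable {n : ℕ}

theorem pot_base : Pot (gW : E n → ℝ) gW ∧ tau (gW : E n → ℝ) = one n := by
  have ht : tau (gW : E n → ℝ) = one n := by
    funext x
    simp [tau, hess_gW, one]
  refine ⟨⟨⟨smo_gW, smo_gW, fun x => ?_, fun i x => ?_⟩, sm_gW, sm_gW, ev_gW, ev_gW,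
    1, one_pos, fun x ξ => ?_⟩, ht⟩
  · rw [hess_gW]; exact Matrix.PosDef.one
  · rw [D_gW, hess_coord, hess_gW]
    simp [Matrix.one_apply]
  · rw [hess_gW, qf_one, one_mul]

namespace ExistAux

theorem n2_gW (k : ℕ) : N2 k 1 (gW : E n → ℝ) := by
  intro i j
  have e : D i (D j (gW : E n → ℝ)) = fun _ => (1 : Mat n) i j := by
    funext x
    rw [← hess_apply, hess_gW]
  rw [e]
  refine hb_const k ?_
  rw [Matrix.one_apply]
  split_ifs <;> simp

theorem adm {V W : E n → ℝ} {κ R₀ KD s η' ηu : ℝ} (hV : ContDiff ℝ ∞ V) (hW : ContDiff ℝ ∞ W)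
    (hl : ∀ x ξ, κ * ‖ξ‖ ^ 2 ≤ qf (hess V x) ξ) (hf : ∀ x, R₀ ≤ ‖x‖ → hess V x = 1)
    (hKD0 : 0 ≤ KD) (hKD : N2 1 KD fun x => V x - gW x) (hs0 : 0 ≤ s) (hs1 : s ≤ 1)
    (h : N2 1 η' fun x => W x - (gW x + s * (V x - gW x))) (h1 : η' ≤ 1)
    (h2 : n * η' ≤ min κ 1 / 2) (h3 : η' ≤ ηu) :
    Adm (min κ 1 / 2) ((n + 1) * (KD + 2)) R₀ ηu W := by
  have sD : ContDiff ℝ ∞ fun x => V x - gW x := hV.sub smo_gW
  have sS : ContDiff ℝ ∞ fun x => gW x + s * (V x - gW x) :=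
    smo_gW.add (contDiff_const.mul sD)
  have sR : ContDiff ℝ ∞ fun x => W x - (gW x + s * (V x - gW x)) := hW.sub sS
  have eW : W = fun x => (W x - (gW x + s * (V x - gW x))) + (gW x + s * (V x - gW x)) := by
    funext x; ring
  have hH : ∀ x, hess W x = hess (fun x => W x - (gW x + s * (V x - gW x))) x +
      (1 + s • (hess V x - 1)) := by
    intro x
    rw [hess_sub hW sS, hess_add smo_gW (contDiff_const.mul sD), hess_const_mul s sD,
      hess_sub hV smo_gW, hess_gW]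
    abel
  have n1 : N2 1 (KD + 2) W := by
    have a := h.add ((n2_gW 1).add (hKD.const_mul sD s) smo_gW (contDiff_const.mul sD)) sR sS
    rw [← eW] at a
    refine a.mono ?_
    rw [abs_of_nonneg hs0]
    nlinarith
  have hn : (0 : ℝ) ≤ n := Nat.cast_nonneg n
  refine ⟨fun x => ⟨hess_symm hW x, fun ξ => ⟨?_, ?_⟩⟩, n1.mono (by nlinarith), ?_⟩
  · have a := abs_qf_le (A := hess (fun x => W x - (gW x + s * (V x - gW x))) x)
      (fun i j => h.abs_le i j x) ξ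
    rw [hH, qf_add, qf_add, qf_smul, qf_sub, qf_one]
    have b := hl x ξ
    have c := (abs_le.1 a).1
    have d : 0 ≤ ‖ξ‖ ^ 2 := by positivity
    have e1 : min κ 1 ≤ κ := min_le_left _ _
    have e2 : min κ 1 ≤ 1 := min_le_right _ _
    generalize qf (hess (fun x => W x - (gW x + s * (V x - gW x))) x) ξ = q1 at a c
    generalize qf (hess V x) ξ = q2 at b
    generalize ‖ξ‖ ^ 2 = r at *
    generalize min κ 1 = μ at *
    have f1 : μ * r ≤ κ * r := mul_le_mul_of_nonneg_right e1 d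
    have f2 : μ * r ≤ r := by nlinarith
    have f3 : n * η' * r ≤ μ / 2 * r := mul_le_mul_of_nonneg_right h2 d
    nlinarith
  · have a := abs_qf_le (A := hess W x) (fun i j => n1.abs_le i j x) ξ
    have d : 0 ≤ ‖ξ‖ ^ 2 := by positivity
    have c := (abs_le.1 a).2
    nlinarith
  · intro x hx i j
    rw [hH, hf x hx]
    have a := h.abs_le i j x
    simp only [sub_self, smul_zero, add_zero, Matrix.add_apply, add_sub_cancel_right]
    exact a.trans h3

end ExistAux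

/-- `Dv = V - gW` is `Sm` (`binf_of_compact` on its Hessian entries), `N2 1 K_D Dv`. Path
`V_s = gW + s Dv`, `κ₀ = min κ 1 ≤ V_s''`. If `N2 1 η' (W - V_s)` with `η' ≤ 1`, `n η' ≤ κ₀/2`,
`η' ≤ η_uni`, then `Adm (κ₀/2) K R₀ η_uni W` for `K = (n+1)(K_D + 2) + 1`. Induction on `j ≤ m`,
`δ = 1/m`: there are `Θ, W` with `Pot`, `N2 1 (j (C₂+1) δ²) (W - V_{jδ})`, `ASolv` at `-1` and
`0`. Step: `θ` from `ASolv (-1)` with data `Dv` and error `δ`; `APri` gives
`N2 3 (C (K_D + 1)) θ`; use `step` and `open_solv`;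
`W' - V_{(j+1)δ} = (W - V_{jδ}) + (W' - W - δ Aop) + δ (Aop - Dv)`. Base: `pot_base`, `res`. -/
theorem exist {V : E n → ℝ} {κ R₀ : ℝ} (hV : ContDiff ℝ ∞ V) (he : Ev V) (hκ : 0 < κ)
    (hl : ∀ x ξ, κ * ‖ξ‖ ^ 2 ≤ qf (hess V x) ξ) (hf : ∀ x, R₀ ≤ ‖x‖ → hess V x = 1)
    {η : ℝ} (hη : 0 < η) : ∃ Θ W : E n → ℝ, Pot Θ W ∧ N2 1 η (fun x => W x - V x) ∧
      ASolv (tau Θ) (-1) ∧ ASolv (tau Θ) 0 := by
  have sD : ContDiff ℝ ∞ fun x => V x - gW x := hV.sub smo_gW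
  have mD : Sm fun x => V x - gW x := by
    refine sm_iff.2 ⟨sD, fun i j => binf_of_compact (R := R₀) (smo_D _ (smo_D _ sD)) ?_⟩
    intro x hx
    rw [← hess_apply, hess_sub hV smo_gW, hf x hx, hess_gW]
    simp
  have eD : Ev fun x => V x - gW x := fun x => by
    show V (-x) - gW (-x) = V x - gW x
    rw [he x, ev_gW x]
  obtain ⟨KD, hKD0, hKD⟩ := mD.n2 1
  have hn : (0 : ℝ) ≤ n := Nat.cast_nonneg n
  have hκ0 : 0 < min κ 1 / 2 := by positivity
  have hK : 0 < ((n : ℝ) + 1) * (KD + 2) := by positivity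
  obtain ⟨ηu, K', C, hηu, hK', hC, huni⟩ := uni n hκ0 hK R₀
  obtain ⟨δ₀, C₂, hδ₀, hC₂, hstep⟩ :=
    step n (c := min κ 1 / 2) (K := (n + 1) * (KD + 2)) (C₁ := C * (1 + KD)) hκ0 hK'
      (by positivity)
  obtain ⟨εo, hεo, hopen⟩ := open_solv n hC
  obtain ⟨η', hη', a1, a2, a3, a4⟩ : ∃ η' : ℝ, 0 < η' ∧ η' ≤ 1 ∧ n * η' ≤ min κ 1 / 2 ∧
      η' ≤ ηu ∧ η' ≤ η := by
    refine ⟨min (min 1 (min κ 1 / 2 / (n + 1))) (min ηu η), by positivity,
      (min_le_left _ _).trans (min_le_left _ _), ?_, (min_le_right _ _).trans (min_le_left _ _),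
      (min_le_right _ _).trans (min_le_right _ _)⟩
    have b : min (min 1 (min κ 1 / 2 / (n + 1))) (min ηu η) ≤ min κ 1 / 2 / (n + 1) :=
      (min_le_left _ _).trans (min_le_right _ _)
    rw [le_div_iff₀ (by positivity)] at b
    have b' : 0 < min (min 1 (min κ 1 / 2 / (n + 1))) (min ηu η) := by positivity
    nlinarith
  obtain ⟨δ₁, hδ₁, b1, b2, b3, b4⟩ : ∃ δ₁ : ℝ, 0 < δ₁ ∧ δ₁ ≤ 1 ∧ δ₁ ≤ δ₀ ∧ C₂ * δ₁ ≤ εo ∧
      (C₂ + 1) * δ₁ ≤ η' := by
    refine ⟨min (min 1 δ₀) (min (εo / C₂) (η' / (C₂ + 1))), by positivity,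
      (min_le_left _ _).trans (min_le_left _ _), (min_le_left _ _).trans (min_le_right _ _),
      ?_, ?_⟩
    · rw [mul_comm, ← le_div_iff₀ hC₂]
      exact (min_le_right _ _).trans (min_le_left _ _)
    · rw [mul_comm, ← le_div_iff₀ (by positivity)]
      exact (min_le_right _ _).trans (min_le_right _ _)
  obtain ⟨m, hm⟩ := exists_nat_one_div_lt hδ₁
  obtain ⟨δ, hδ, hδ1, hmδ⟩ : ∃ δ : ℝ, 0 < δ ∧ δ ≤ δ₁ ∧ ((m + 1 : ℕ) : ℝ) * δ = 1 := by
    refine ⟨1 / ((m : ℝ) + 1), by positivity, hm.le, ?_⟩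
    push_cast
    field_simp
  have key : ∀ j : ℕ, j ≤ m + 1 → ∃ Θ W : E n → ℝ, Pot Θ W ∧
      N2 1 (j * ((C₂ + 1) * δ ^ 2)) (fun x => W x - (gW x + j * δ * (V x - gW x))) ∧
      ASolv (tau Θ) (-1) ∧ ASolv (tau Θ) 0 := by
    intro j
    induction j with
    | zero =>
      intro _
      refine ⟨gW, gW, pot_base.1, ?_, ?_, ?_⟩
      · have e : (fun x : E n => gW x - (gW x + ((0 : ℕ) : ℝ) * δ * (V x - gW x))) =
            fun _ => (0 : ℝ) := by
          funext x; simp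
        rw [e]
        intro i j
        rw [D_const, D_const]
        exact hb_const 1 (by simp)
      · rw [pot_base.2]; exact res (by norm_num)
      · rw [pot_base.2]; exact res (by norm_num)
    | succ j ih =>
      intro hj
      obtain ⟨Θ, W, hP, hN, s1, s0⟩ := ih (Nat.le_of_succ_le hj)
      have hj' : ((j : ℝ) + 1) * δ ≤ 1 := by
        have c : (j : ℝ) + 1 ≤ ((m + 1 : ℕ) : ℝ) := by exact_mod_cast hj
        exact (mul_le_mul_of_nonneg_right c hδ.le).trans hmδ.le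
      have hj0 : (0 : ℝ) ≤ j := Nat.cast_nonneg j
      have hjδ : (j : ℝ) * δ ≤ 1 := by nlinarith
      have hb : (j : ℝ) * ((C₂ + 1) * δ ^ 2) ≤ η' := by
        have c1 : (j : ℝ) * ((C₂ + 1) * δ ^ 2) = (j * δ) * ((C₂ + 1) * δ) := by ring
        have c2 : (C₂ + 1) * δ ≤ η' :=
          (mul_le_mul_of_nonneg_left hδ1 (by positivity)).trans b4
        have c3 : 0 ≤ (C₂ + 1) * δ := by positivity
        rw [c1]
        nlinarith
      obtain ⟨u1, u2, u3, u4⟩ := huni Θ W hP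
        (ExistAux.adm hV hP.sW hl hf hKD0 hKD (by positivity) hjδ (hN.mono hb) a1 a2 a3)
      obtain ⟨θ, t1, t2, t3, t4⟩ := s1 _ mD eD δ hδ
      have sA : ContDiff ℝ ∞ (Aop (tau Θ) (-1) θ) := smo_Aop hP.toLPot.msmo _ t1.smo
      have t5 : N2 1 (1 + KD) (Aop (tau Θ) (-1) θ) := by
        have a := t4.add hKD (sA.sub sD) sD
        simp only [sub_add_cancel] at a
        exact a.mono (by linarith)
      have t6 := u4 (-1) θ (1 + KD) le_rfl (by positivity) t1 t2 t5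
      obtain ⟨W', hP', w1, w2⟩ := hstep Θ W θ δ hP u1 u2 u3 t1 t2 t3 t6 hδ (hδ1.trans b2)
      have w3 : MHb 3 εo fun x => tau (fun y => Θ y + δ * θ y) x - tau Θ x :=
        w2.mono ((mul_le_mul_of_nonneg_left hδ1 hC₂.le).trans b3)
      refine ⟨_, W', hP', ?_,
        hopen _ _ _ le_rfl s1 u4 hP.mbinf hP'.mbinf hP'.tau_neg w3,
        hopen _ _ _ (by norm_num) s0 u4 hP.mbinf hP'.mbinf hP'.tau_neg w3⟩
      have q1 : ContDiff ℝ ∞ fun x => W x - (gW x + j * δ * (V x - gW x)) :=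
        hP.sW.sub (smo_gW.add (contDiff_const.mul sD))
      have q2 : ContDiff ℝ ∞ fun x => W' x - W x - δ * Aop (tau Θ) (-1) θ x :=
        (hP'.sW.sub hP.sW).sub (contDiff_const.mul sA)
      have q3 : ContDiff ℝ ∞ fun x => Aop (tau Θ) (-1) θ x - (V x - gW x) := sA.sub sD
      have a := (hN.add w1 q1 q2).add (t4.const_mul q3 δ) (q1.add q2) (contDiff_const.mul q3)
      have e : (fun x => W' x - (gW x + ((j + 1 : ℕ) : ℝ) * δ * (V x - gW x))) = fun x =>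
          W x - (gW x + j * δ * (V x - gW x)) + (W' x - W x - δ * Aop (tau Θ) (-1) θ x) +
            δ * (Aop (tau Θ) (-1) θ x - (V x - gW x)) := by
        funext x; push_cast; ring
      rw [e]
      refine a.mono (le_of_eq ?_)
      rw [abs_of_pos hδ]
      push_cast
      ring
  obtain ⟨Θ, W, hP, hN, s1, s0⟩ := key (m + 1) le_rfl
  refine ⟨Θ, W, hP, ?_, s1, s0⟩
  rw [hmδ] at hN
  simp only [one_mul, add_sub_cancel] at hN
  refine hN.mono ?_
  have c1 : ((m + 1 : ℕ) : ℝ) * ((C₂ + 1) * δ ^ 2) =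
      (((m + 1 : ℕ) : ℝ) * δ) * ((C₂ + 1) * δ) := by ring
  rw [c1, hmδ, one_mul]
  exact ((mul_le_mul_of_nonneg_left hδ1 (by positivity)).trans b4).trans a4

end Vale.Agent.P227
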