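import Vale.Agent.P227.Calc

/-! Matrix algebra. (Vale/Agent/P252/B/Mat.lean has proofs that can be copied.) -/

namespace Vale.Agent.P227

open scoped ContDiff Matrix RealInnerProductSpace Topology
open MeasureTheory Filter

variable {n : ℕ}

variable {A B τ P : Mat n} {c K : ℝ}

open scoped MatrixOrder in
theorem MatAAux.sqrt (h : A.PosSemidef) : ∃ B : Mat n, B.IsSymm ∧ B * B = A :=
  ⟨CFC.sqrt A, (Matrix.nonneg_iff_posSemidef.1 (CFC.sqrt_nonneg A)).1, CFC.sqrt_mul_sqrt_self A h.nonneg⟩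

theorem lin_apply (B : Mat n) (x : E n) (i : Fin n) : lin B x i = ∑ j, B i j * x j := rfl
theorem lin_lin (A B : Mat n) (x : E n) : lin A (lin B x) = lin (A * B) x := by
  ext i
  simp only [lin_apply, Matrix.mul_apply, Finset.mul_sum, Finset.sum_mul, mul_assoc]
  exact Finset.sum_comm
theorem lin_one (x : E n) : lin (1 : Mat n) x = x := by
  ext i
  simp [lin_apply, Matrix.one_apply]
theorem qf_eq_dot (A : Mat n) (ξ : E n) :
    qf A ξ = (fun i => ξ i) ⬝ᵥ A *ᵥ (fun i => ξ i) := by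
  simp only [qf, dotProduct, Matrix.mulVec, Finset.mul_sum]
  exact Finset.sum_congr rfl fun i _ => Finset.sum_congr rfl fun j _ => by ring
theorem qf_add (A B : Mat n) (ξ : E n) : qf (A + B) ξ = qf A ξ + qf B ξ := by
  simp only [qf, Matrix.add_apply, add_mul, Finset.sum_add_distrib]
theorem qf_sub (A B : Mat n) (ξ : E n) : qf (A - B) ξ = qf A ξ - qf B ξ := by
  simp only [qf, Matrix.sub_apply, sub_mul, Finset.sum_sub_distrib]
theorem qf_smul (a : ℝ) (A : Mat n) (ξ : E n) : qf (a • A) ξ = a * qf A ξ := by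
  simp only [qf, Matrix.smul_apply, smul_eq_mul, Finset.mul_sum, mul_assoc]
theorem qf_smul_vec (a : ℝ) (A : Mat n) (ξ : E n) : qf A (a • ξ) = a ^ 2 * qf A ξ := by
  simp only [qf, PiLp.smul_apply, smul_eq_mul, Finset.mul_sum]
  exact Finset.sum_congr rfl fun i _ => Finset.sum_congr rfl fun j _ => by ring
theorem qf_one (ξ : E n) : qf (1 : Mat n) ξ = ‖ξ‖ ^ 2 := by
  rw [normsq_eq]
  simp [qf, Matrix.one_apply, sq]
theorem qf_sum {ι : Type*} (s : Finset ι) (F : ι → Mat n) (ξ : E n) :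
    qf (∑ a ∈ s, F a) ξ = ∑ a ∈ s, qf (F a) ξ := by
  classical
  induction s using Finset.induction_on with
  | empty => simp [qf]
  | insert a s ha ih => rw [Finset.sum_insert ha, Finset.sum_insert ha, qf_add, ih]
theorem qf_conj (A B : Mat n) (ξ : E n) : qf (Bᵀ * A * B) ξ = qf A (lin B ξ) := by
  rw [qf_eq_dot, qf_eq_dot, ← Matrix.mulVec_mulVec, ← Matrix.mulVec_mulVec,
    Matrix.dotProduct_mulVec, Matrix.vecMul_transpose]
  rfl
theorem normsq_lin (hB : B.IsSymm) (z : E n) : ‖lin B z‖ ^ 2 = qf (B * B) z := by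
  rw [← qf_one, ← qf_conj, hB.eq, Matrix.mul_one]
theorem qf_sq_le (τ : Mat n) (ξ : E n) : qf τ ξ ^ 2 ≤ ‖lin τ ξ‖ ^ 2 * ‖ξ‖ ^ 2 := by
  have h : qf τ ξ = ⟪lin τ ξ, ξ⟫ := by
    rw [inner_eq_sum, qf_eq_dot]
    exact dotProduct_comm _ _
  rw [h, ← mul_pow, ← sq_abs]
  exact pow_le_pow_left₀ (abs_nonneg _) (abs_real_inner_le_norm _ _) 2
theorem psd_of_qf (hs : A.IsSymm) (h : ∀ ξ, 0 ≤ qf A ξ) : A.PosSemidef := by
  refine Matrix.PosSemidef.of_dotProduct_mulVec_nonneg hs fun x => ?_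
  have := h (WithLp.toLp 2 x)
  rwa [qf_eq_dot] at this
theorem posDef_of_qf (hs : A.IsSymm) (hc : 0 < c) (h : ∀ ξ, c * ‖ξ‖ ^ 2 ≤ qf A ξ) :
    A.PosDef := by
  refine Matrix.PosDef.of_dotProduct_mulVec_pos hs fun x hx => ?_
  have := h (WithLp.toLp 2 x)
  rw [qf_eq_dot] at this
  have h0 : (WithLp.toLp 2 x : E n) ≠ 0 := fun e => hx (congrArg WithLp.ofLp e)
  exact (mul_pos hc (pow_pos (norm_pos_iff.2 h0) 2)).trans_le this
theorem qf_nonneg (h : A.PosSemidef) (ξ : E n) : 0 ≤ qf A ξ := by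
  rw [qf_eq_dot]
  exact h.dotProduct_mulVec_nonneg _
theorem psd_isSymm (h : A.PosSemidef) : A.IsSymm := h.1
theorem Ell1.psd (h : Ell1 c K A) (hc : 0 ≤ c) : A.PosSemidef := psd_of_qf h.1 fun ξ => (mul_nonneg hc (sq_nonneg _)).trans (h.2 ξ).1
theorem Ell1.posDef (h : Ell1 c K A) (hc : 0 < c) : A.PosDef := posDef_of_qf h.1 hc fun ξ => (h.2 ξ).1
theorem Ell1.mono {c' K' : ℝ} (h : Ell1 c K A) (hc : c' ≤ c) (hK : K ≤ K') :
    Ell1 c' K' A := ⟨h.1, fun ξ => ⟨(mul_le_mul_of_nonneg_right hc (sq_nonneg _)).trans (h.2 ξ).1,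
    (h.2 ξ).2.trans (mul_le_mul_of_nonneg_right hK (sq_nonneg _))⟩⟩
theorem ell1_one : Ell1 1 1 (1 : Mat n) := ⟨Matrix.isSymm_one, fun ξ => by rw [qf_one, one_mul]; exact ⟨le_rfl, le_rfl⟩⟩
theorem trace_mul_nonneg (hA : A.PosSemidef) (hB : B.PosSemidef) : 0 ≤ (A * B).trace := by
  obtain ⟨R, hR, rfl⟩ := MatAAux.sqrt hA
  have := (hB.mul_mul_conjTranspose_same R).trace_nonneg
  rw [Matrix.mul_assoc, Matrix.trace_mul_comm]
  rwa [show Rᴴ = R from hR] at this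
theorem sum_mul_eq_trace (hB : B.IsSymm) : ∑ i, ∑ j, A i j * B i j = (A * B).trace := by
  simp only [Matrix.trace, Matrix.diag_apply, Matrix.mul_apply]
  exact Finset.sum_congr rfl fun i _ => Finset.sum_congr rfl fun j _ => by rw [hB.apply]
theorem sum_mul_nonpos (hτ : τ.PosSemidef) (hA : A.IsSymm) (h : ∀ ξ, qf A ξ ≤ 0) :
    ∑ i, ∑ j, τ i j * A i j ≤ 0 := by
  have h1 : ((-1 : ℝ) • A).PosSemidef := psd_of_qf (hA.smul _) fun ξ => by
    rw [qf_smul]; linarith [h ξ]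
  have h2 := trace_mul_nonneg hτ h1
  rw [Matrix.mul_smul, Matrix.trace_smul, smul_eq_mul] at h2
  rw [sum_mul_eq_trace hA]
  linarith
theorem exists_sqrt (h : A.PosSemidef) : ∃ B : Mat n, B.IsSymm ∧ B * B = A := MatAAux.sqrt h
/-- polarisation with `ev i + ev j`, `ev i - ev j` -/
theorem abs_entry_le (hs : A.IsSymm) (h : ∀ ξ : E n, |qf A ξ| ≤ K * ‖ξ‖ ^ 2) (i j : Fin n) :
    |A i j| ≤ K := by
  have h1 : qf A (ev i + ev j) - qf A (ev i - ev j) = 4 * A i j := by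
    simp [qf, ev_apply, mul_add, add_mul, mul_sub, sub_mul, Finset.sum_add_distrib,
      Finset.sum_sub_distrib, hs.apply i j]
    ring
  have h2 := parallelogram_law_with_norm ℝ (ev i : E n) (ev j)
  rw [norm_ev, norm_ev] at h2
  have h3 := abs_le.1 (h (ev i + ev j))
  have h4 := abs_le.1 (h (ev i - ev j))
  have h5 : K * ‖(ev i + ev j : E n)‖ ^ 2 + K * ‖(ev i - ev j : E n)‖ ^ 2 = 4 * K := by
    rw [← mul_add]
    have : ‖(ev i + ev j : E n)‖ ^ 2 + ‖(ev i - ev j : E n)‖ ^ 2 = 4 := by nlinarith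
    rw [this, mul_comm]
  exact abs_le.2 ⟨by linarith [h3.1, h4.2], by linarith [h3.2, h4.1]⟩
theorem Ell1.abs_le (h : Ell1 c K A) (hc : 0 ≤ c) (i j : Fin n) : |A i j| ≤ K := abs_entry_le h.1 (fun ξ => by rw [abs_of_nonneg (qf_nonneg (h.psd hc) ξ)]; exact (h.2 ξ).2) i j
theorem abs_qf_le {η : ℝ} (h : ∀ i j, |A i j| ≤ η) (ξ : E n) :
    |qf A ξ| ≤ n * η * ‖ξ‖ ^ 2 := by
  have h1 : ∀ i j, |A i j * ξ i * ξ j| ≤ η / 2 * ξ i ^ 2 + η / 2 * ξ j ^ 2 := fun i j => by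
    rw [abs_mul, abs_mul, ← sq_abs (ξ i), ← sq_abs (ξ j)]
    have h2 := mul_le_mul_of_nonneg_right (h i j) (mul_nonneg (abs_nonneg (ξ i)) (abs_nonneg (ξ j)))
    nlinarith [mul_nonneg ((abs_nonneg _).trans (h i j)) (sq_nonneg (|ξ i| - |ξ j|))]
  refine (Finset.abs_sum_le_sum_abs _ _).trans ((Finset.sum_le_sum fun i _ =>
    (Finset.abs_sum_le_sum_abs _ _).trans (Finset.sum_le_sum fun j _ => h1 i j)).trans
      (le_of_eq ?_))
  simp only [Finset.sum_add_distrib, ← Finset.mul_sum, ← normsq_eq, Finset.sum_const,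
    Finset.card_univ, Fintype.card_fin, nsmul_eq_mul]
  ring
theorem trace_le_of_qf (h : ∀ ξ : E n, qf A ξ ≤ K * ‖ξ‖ ^ 2) : A.trace ≤ n * K := by
  refine (Finset.sum_le_sum (g := fun _ => K) fun i _ => ?_).trans (by simp)
  have := h (ev i)
  simpa [qf, ev_apply, norm_ev] using this
theorem qf_inv_lower (hA : A.PosDef) (hK : 0 < K) (h : ∀ ξ : E n, qf A ξ ≤ K * ‖ξ‖ ^ 2)
    (ξ : E n) : 1 / K * ‖ξ‖ ^ 2 ≤ qf A⁻¹ ξ := by
  have hu : IsUnit A.det := hA.det_pos.ne'.isUnit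
  have h1 := qf_nonneg hA.inv.posSemidef (lin (1 - (1 / K) • A) ξ)
  have h2 : (1 - (1 / K) • A)ᵀ * A⁻¹ * (1 - (1 / K) • A) =
      A⁻¹ - (2 / K) • (1 : Mat n) + (1 / K) ^ 2 • A := by
    rw [Matrix.transpose_sub, Matrix.transpose_smul, Matrix.transpose_one,
      (psd_isSymm hA.posSemidef).eq]
    simp only [Matrix.sub_mul, Matrix.mul_sub, Matrix.one_mul, Matrix.mul_one, Matrix.smul_mul,
      Matrix.mul_smul, Matrix.mul_nonsing_inv _ hu, Matrix.nonsing_inv_mul _ hu]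
    module
  rw [← qf_conj, h2, qf_add, qf_sub, qf_smul, qf_smul, qf_one] at h1
  have h3 := mul_le_mul_of_nonneg_left (h ξ) (sq_nonneg (1 / K))
  have h4 : (1 / K) ^ 2 * (K * ‖ξ‖ ^ 2) = 1 / K * ‖ξ‖ ^ 2 := by field_simp
  have h5 : 2 / K * ‖ξ‖ ^ 2 = 2 * (1 / K * ‖ξ‖ ^ 2) := by ring
  linarith
theorem qf_inv_upper (hs : A.IsSymm) (hc : 0 < c) (h : ∀ ξ : E n, c * ‖ξ‖ ^ 2 ≤ qf A ξ)
    (ξ : E n) : qf A⁻¹ ξ ≤ 1 / c * ‖ξ‖ ^ 2 := by
  have hA := posDef_of_qf hs hc h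
  have hu : IsUnit A.det := hA.det_pos.ne'.isUnit
  have h1 := h (lin A⁻¹ ξ)
  rw [← qf_conj, (psd_isSymm hA.inv.posSemidef).eq, Matrix.nonsing_inv_mul _ hu,
    Matrix.one_mul] at h1
  have h2 := qf_sq_le A⁻¹ ξ
  rw [one_div, ← div_eq_inv_mul, le_div_iff₀ hc]
  rcases (qf_nonneg hA.inv.posSemidef ξ).eq_or_lt with h0 | h0
  · rw [← h0, zero_mul]; positivity
  · refine le_of_mul_le_mul_left ?_ h0
    nlinarith [mul_le_mul_of_nonneg_left h2 hc.le, mul_le_mul_of_nonneg_right h1 (sq_nonneg ‖ξ‖)]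
theorem Ell1.inv (h : Ell1 c K A) (hc : 0 < c) (hK : 0 < K) : Ell1 (1 / K) (1 / c) A⁻¹ := ⟨psd_isSymm (h.posDef hc).inv.posSemidef, fun ξ =>
    ⟨qf_inv_lower (h.posDef hc) hK (fun ξ => (h.2 ξ).2) ξ,
      qf_inv_upper h.1 hc (fun ξ => (h.2 ξ).1) ξ⟩⟩
theorem trace_sq_nonneg (hτ : τ.PosSemidef) (hA : A.IsSymm) : 0 ≤ (τ * A * τ * A).trace := by
  have := trace_mul_nonneg hτ (hτ.mul_mul_conjTranspose_same A)
  rwa [show Aᴴ = A from hA, ← Matrix.mul_assoc, ← Matrix.mul_assoc] at this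
/-- write `τ = c 1 + τ₀` with `τ₀` psd, or use `exists_sqrt` -/
theorem trace_sq_lower (h : Ell1 c K τ) (hc : 0 ≤ c) (hA : A.IsSymm) (i j : Fin n) :
    c ^ 2 * A i j ^ 2 ≤ (τ * A * τ * A).trace := by
  have h0 : (τ - c • (1 : Mat n)).PosSemidef :=
    psd_of_qf (h.1.sub (Matrix.isSymm_one.smul c)) fun ξ => by
      rw [qf_sub, qf_smul, qf_one]; linarith [(h.2 ξ).1]
  obtain ⟨σ, rfl⟩ : ∃ σ : Mat n, τ = σ + c • (1 : Mat n) := ⟨_, (sub_add_cancel τ _).symm⟩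
  rw [add_sub_cancel_right] at h0
  have e : Aᴴ = A := hA
  have h1 := trace_sq_nonneg h0 hA
  have h2 := trace_mul_nonneg h0 (Matrix.posSemidef_conjTranspose_mul_self A)
  have h3 := (h0.mul_mul_conjTranspose_same A).trace_nonneg
  have h4 : A i j ^ 2 ≤ (A * A).trace := by
    rw [← sum_mul_eq_trace hA, sq]
    exact (Finset.single_le_sum (f := fun j => A i j * A i j) (fun _ _ => mul_self_nonneg _)
      (Finset.mem_univ j)).trans (Finset.single_le_sum (f := fun i => ∑ j, A i j * A i j)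
        (fun _ _ => Finset.sum_nonneg fun _ _ => mul_self_nonneg _) (Finset.mem_univ i))
  rw [e] at h2 h3
  rw [← Matrix.mul_assoc] at h2
  simp only [Matrix.add_mul, Matrix.mul_add, Matrix.smul_mul, Matrix.mul_smul, Matrix.one_mul,
    Matrix.mul_one, Matrix.trace_add, Matrix.trace_smul, smul_eq_mul]
  nlinarith [mul_nonneg hc h2, mul_nonneg hc h3, mul_le_mul_of_nonneg_left h4 (sq_nonneg c)]
theorem psd_tPtPt (hτ : τ.PosSemidef) (hP : P.IsSymm) : (τ * P * τ * P * τ).PosSemidef := by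
  have := hτ.mul_mul_conjTranspose_same (τ * P)
  rwa [Matrix.conjTranspose_mul, show Pᴴ = P from hP, hτ.1.eq, ← Matrix.mul_assoc] at this
/-- expand `0 ≤ tr (A (d - τ P) τ (d - P τ))` -/
theorem cs_trace (hA : A.PosSemidef) (hτ : τ.PosSemidef) (hP : P.IsSymm) (d : ℝ) :
    2 * d * (A * (τ * P * τ)).trace ≤ d ^ 2 * (A * τ).trace + (A * (τ * P * τ * P * τ)).trace := by
  have h := trace_mul_nonneg hA (hτ.mul_mul_conjTranspose_same (d • (1 : Mat n) - τ * P))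
  rw [Matrix.conjTranspose_sub, Matrix.conjTranspose_mul, show Pᴴ = P from hP, hτ.1.eq,
    Matrix.conjTranspose_smul, Matrix.conjTranspose_one, star_trivial] at h
  simp only [Matrix.sub_mul, Matrix.mul_sub, Matrix.smul_mul, Matrix.mul_smul, Matrix.one_mul,
    Matrix.mul_one, Matrix.trace_sub, Matrix.trace_smul, smul_eq_mul, Matrix.mul_assoc] at h ⊢
  nlinarith
theorem cs_vec (hA : A.PosSemidef) (d : ℝ) (x : E n) (v : Fin n → ℝ) :
    2 * d * (∑ i, ∑ j, A i j * x i * v j) ≤ d ^ 2 * qf A x + ∑ i, ∑ j, A i j * v i * v j := by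
  have h := qf_nonneg hA (WithLp.toLp 2 fun i => d * x i - v i)
  have h1 : ∑ i, ∑ j, A i j * v i * x j = ∑ i, ∑ j, A i j * x i * v j := by
    rw [Finset.sum_comm]
    exact Finset.sum_congr rfl fun i _ => Finset.sum_congr rfl fun j _ => by
      rw [(psd_isSymm hA).apply]; ring
  have h2 : qf A (WithLp.toLp 2 fun i => d * x i - v i) = d ^ 2 * qf A x -
      d * ∑ i, ∑ j, A i j * x i * v j - d * ∑ i, ∑ j, A i j * v i * x j +
        ∑ i, ∑ j, A i j * v i * v j := by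
    simp only [qf, Finset.mul_sum, ← Finset.sum_sub_distrib, ← Finset.sum_add_distrib]
    exact Finset.sum_congr rfl fun i _ => Finset.sum_congr rfl fun j _ => by ring
  rw [h2, h1] at h
  linarith
theorem sum_psd_nonneg (hA : A.PosSemidef) (v : Fin n → ℝ) :
    0 ≤ ∑ i, ∑ j, A i j * v i * v j := qf_nonneg hA (WithLp.toLp 2 v)

end Vale.Agent.P227
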