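import Vale.Agent.P227.HbB
import Vale.Agent.P227.MatA

/-! Ridge functions. -/

namespace Vale.Agent.P227

open scoped ContDiff Matrix RealInnerProductSpace Topology
open MeasureTheory Filter

variable {n : ℕ}

variable {b : E n} {g w : ℝ → ℝ} {k : ℕ}

namespace Ridge

theorem smo_inner (b : E n) : ContDiff ℝ ∞ fun x : E n => ⟪b, x⟫ := (innerSL ℝ b).contDiff

theorem smo_deriv (hg : ContDiff ℝ ∞ g) : ContDiff ℝ ∞ (deriv g) :=
  (contDiff_infty_iff_deriv.1 hg).2

theorem diff (hg : ContDiff ℝ ∞ g) : Differentiable ℝ g := hg.differentiable (by simp)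

theorem D_inner (b : E n) (i : Fin n) : D i (fun x : E n => ⟪b, x⟫) = fun _ => b i := by
  funext x
  have h := (innerSL ℝ b).fderiv (x := x)
  have h2 := congrArg (fun L : E n →L[ℝ] ℝ => L (ev i)) h
  refine Eq.trans h2 ?_
  simp [ev, EuclideanSpace.inner_single_right]

theorem cpb_inner (b : E n) : CPB fun x : E n => ⟪b, x⟫ :=
  (cpb_norm.const_mul ‖b‖).of_le (smo_inner b).continuous fun x => abs_real_inner_le_norm b x

theorem deriv_cmul (hg : ContDiff ℝ ∞ g) (a : ℝ) :
    deriv (fun s => a * g s) = fun s => a * deriv g s :=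
  funext fun s => deriv_const_mul a (diff hg s)

end Ridge

open Ridge

theorem smo_ridge (b : E n) (hg : ContDiff ℝ ∞ g) : ContDiff ℝ ∞ (ridge b g) :=
  hg.comp (smo_inner b)
theorem D_ridge (b : E n) (hg : Differentiable ℝ g) (i : Fin n) :
    D i (ridge b g) = fun x => b i * ridge b (deriv g) x := by
  have h := D_comp i (f := fun x : E n => ⟪b, x⟫) (φ := g) (φ' := deriv g)
    (fun x => (hg _).hasDerivAt) (smo_diff (smo_inner b))
  rw [D_inner] at h
  exact h.trans (funext fun x => mul_comm _ _)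
theorem hess_ridge (b : E n) (hg : ContDiff ℝ ∞ g) (x : E n) (i j : Fin n) :
    hess (ridge b g) x i j = deriv (deriv g) ⟪b, x⟫ * b i * b j := by
  rw [hess_apply, D_ridge b (diff hg), D_const_mul i _ (smo_diff (smo_ridge b (smo_deriv hg))),
    D_ridge b (diff (smo_deriv hg))]
  simp only [ridge]
  ring
theorem qf_hess_ridge (b : E n) (hg : ContDiff ℝ ∞ g) (x ξ : E n) :
    qf (hess (ridge b g) x) ξ = deriv (deriv g) ⟪b, x⟫ * ⟪b, ξ⟫ ^ 2 := by
  rw [inner_eq_sum b ξ, sq, Finset.sum_mul_sum]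
  simp only [qf, hess_ridge b hg, Finset.mul_sum]
  exact Finset.sum_congr rfl fun i _ => Finset.sum_congr rfl fun j _ => by ring
theorem rad_ridge (b : E n) (hg : Differentiable ℝ g) (x : E n) :
    rad (ridge b g) x = ⟪b, x⟫ * deriv g ⟪b, x⟫ := by
  have e : ⟪b, x⟫ * deriv g ⟪b, x⟫ = (∑ i, b i * x i) * deriv g ⟪b, x⟫ := by
    rw [← inner_eq_sum]
  simp only [e, rad, D_ridge b hg, ridge, Finset.sum_mul]
  exact Finset.sum_congr rfl fun i _ => by ring
/-- `binf_of_closed` with the class of all `a * ridge b q`, `q` smooth with compact support -/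
theorem binf_ridge (b : E n) (hg : ContDiff ℝ ∞ g) (hs : HasCompactSupport g) :
    Binf (ridge b g) := by
  refine binf_of_closed (fun f => ∃ (a : ℝ) (q : ℝ → ℝ), ContDiff ℝ ∞ q ∧ HasCompactSupport q ∧
    f = fun x => a * ridge b q x) ?_ ?_ ?_ ⟨1, g, hg, hs, by simp⟩
  · rintro _ ⟨a, q, h1, -, rfl⟩
    exact contDiff_const.mul (smo_ridge b h1)
  · rintro _ ⟨a, q, h1, h2, rfl⟩
    obtain ⟨M, hM⟩ := h1.continuous.bounded_above_of_compact_support h2
    exact ⟨|a| * M, fun x => by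
      rw [abs_mul]; exact mul_le_mul_of_nonneg_left (hM _) (abs_nonneg a)⟩
  · rintro _ ⟨a, q, h1, h2, rfl⟩ i
    refine ⟨a * b i, deriv q, smo_deriv h1, h2.deriv, ?_⟩
    rw [D_const_mul i a (smo_diff (smo_ridge b h1)), D_ridge b (diff h1)]
    funext x
    ring
theorem sm_ridge (b : E n) (hg : ContDiff ℝ ∞ g) (hs : HasCompactSupport (deriv (deriv g))) :
    Sm (ridge b g) := by
  refine sm_iff.2 ⟨smo_ridge b hg, fun i j => ?_⟩
  have e : D i (D j (ridge b g)) = fun x => b i * b j * ridge b (deriv (deriv g)) x :=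
    funext fun x => (hess_ridge b hg x i j).trans (by simp only [ridge]; ring)
  rw [e]
  exact (binf_ridge b (smo_deriv (smo_deriv hg)) hs).const_mul _
theorem RW.smul (hw : RW w) {a : ℝ} (ha : 0 ≤ a) : RW (fun s => a * w s) := by
  have e : deriv (deriv fun s => a * w s) = fun s => a * deriv (deriv w) s := by
    rw [deriv_cmul hw.smo, deriv_cmul (smo_deriv hw.smo)]
  refine ⟨contDiff_const.mul hw.smo, fun s => by rw [hw.even], fun s => mul_nonneg ha (hw.nonneg s),
    fun s => ?_, ?_⟩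
  · rw [e]; exact mul_nonneg ha (hw.conv s)
  · rw [e]; exact hw.supp.mul_left
theorem RW.deriv_neg (hw : RW w) (s : ℝ) : deriv w (-s) = -deriv w s := by
  have h := deriv_comp_neg w s
  rw [show (fun x => w (-x)) = w from funext hw.even] at h
  linarith
theorem RW.bound (hw : RW w) : ∃ C : ℝ, 0 ≤ C ∧ ∀ s, deriv (deriv w) s ≤ C ∧
    |deriv w s| ≤ C * |s| := by
  obtain ⟨C, hC⟩ := (smo_deriv (smo_deriv hw.smo)).continuous.bounded_above_of_compact_support
    hw.supp
  refine ⟨C, (norm_nonneg _).trans (hC 0), fun s => ⟨(le_abs_self _).trans (hC s), ?_⟩⟩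
  have h0 : deriv w 0 = 0 := by
    have := hw.deriv_neg 0
    rw [neg_zero] at this
    linarith
  have h := convex_univ.norm_image_sub_le_of_norm_deriv_le (f := deriv w)
    (fun x _ => diff (smo_deriv hw.smo) x) (fun x _ => hC x) (Set.mem_univ 0) (Set.mem_univ s)
  simpa only [h0, sub_zero, Real.norm_eq_abs] using h
theorem RW.psd (hw : RW w) (b x : E n) : (hess (ridge b w) x).PosSemidef :=
  psd_of_qf (hess_symm (smo_ridge b hw.smo) x) fun ξ => by
    rw [qf_hess_ridge b hw.smo]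
    exact mul_nonneg (hw.conv _) (sq_nonneg _)
theorem fG_ridge (hw : RW w) (b : Fin k → E n) (d : Fin k → ℝ) :
    fG (fun m => ridge (b m) w) d = fR b d w := by
  funext x
  simp only [fG, fR, rad_ridge _ (diff hw.smo)]
theorem RG_ridge (hw : RW w) (b : Fin k → E n) (d : Fin k → ℝ) :
    RG (fun m => ridge (b m) w) d = RR b d w := by
  funext x
  simp only [RG, RR, rad_ridge _ (diff hw.smo), qf_hess_ridge _ hw.smo]
  exact Finset.sum_congr rfl fun i _ => by ring
theorem qf_sum_ridge (hw : RW w) (b : Fin k → E n) (x ξ : E n) :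
    qf (∑ m, hess (ridge (b m) w) x) ξ = HR b w x ξ := by
  simp only [qf_sum, qf_hess_ridge _ hw.smo, HR]
/-- the second derivative of `s * deriv w s` is `2 w2 + s w3` and has compact support -/
theorem sm_fR (hw : RW w) (b : Fin k → E n) (d : Fin k → ℝ) : Sm (fR b d w) := by
  have h1 := smo_deriv hw.smo
  have h2 := smo_deriv h1
  have e : ∀ {q : ℝ → ℝ}, ContDiff ℝ ∞ q →
      deriv (fun s => s * q s) = fun s => q s + s * deriv q s := fun hq => funext fun s => by
    simpa using ((hasDerivAt_id s).fun_mul (diff hq s).hasDerivAt).deriv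
  have e2 : deriv (deriv fun s => s * deriv w s) =
      fun s => deriv (deriv w) s + (deriv (deriv w) s + s * deriv (deriv (deriv w)) s) := by
    have h3 : ContDiff ℝ ∞ (fun s => s * deriv (deriv w) s) := contDiff_id.mul h2
    rw [e h1]
    funext s
    rw [deriv_fun_add (diff h1 s) (diff h3 s), e h2]
  have hs : HasCompactSupport (deriv (deriv fun s => s * deriv w s)) := by
    rw [e2]
    exact hw.supp.add (hw.supp.add hw.supp.deriv.mul_left)
  exact sm_sum Finset.univ (F := fun m x => d m * ridge (b m) (fun s => s * deriv w s) x)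
    fun m _ => (sm_ridge (b m) (contDiff_id.mul h1) hs).const_mul _
theorem ev_fR (hw : RW w) (b : Fin k → E n) (d : Fin k → ℝ) : Ev (fR b d w) := fun x => by
  simp only [fR, inner_neg_right, hw.deriv_neg, neg_mul_neg]
theorem cpb_fR (hw : RW w) (b : Fin k → E n) (d : Fin k → ℝ) : CPB (fR b d w) :=
  (sm_fR hw b d).pg.cpb
theorem cpb_RR (hw : RW w) (b : Fin k → E n) (d : Fin k → ℝ) : CPB (RR b d w) := by
  obtain ⟨C, -, hC⟩ := hw.bound
  have h1 := smo_deriv hw.smo
  refine cpb_sum Finset.univ (F := fun m x => d m ^ 2 * (⟪b m, x⟫ * deriv w ⟪b m, x⟫ +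
    ⟪b m, x⟫ ^ 2 * deriv (deriv w) ⟪b m, x⟫)) fun m _ => CPB.const_mul (CPB.add
      ((cpb_inner _).mul ?_) (((cpb_inner _).pow 2).mul ?_)) _
  · exact ((cpb_inner (b m)).abs.const_mul C).of_le (smo_ridge _ h1).continuous fun x => (hC _).2
  · exact cpb_of_bdd (M := C) (smo_ridge _ (smo_deriv h1)).continuous fun x => by
      rw [abs_of_nonneg (hw.conv _)]; exact (hC _).1
theorem fR_smul (hw : RW w) (a : ℝ) (b : Fin k → E n) (d : Fin k → ℝ) :
    fR b d (fun s => a * w s) = fun x => a * fR b d w x := by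
  funext x
  simp only [fR, deriv_cmul hw.smo, Finset.mul_sum]
  exact Finset.sum_congr rfl fun i _ => by ring
theorem RR_smul (hw : RW w) (a : ℝ) (b : Fin k → E n) (d : Fin k → ℝ) :
    RR b d (fun s => a * w s) = fun x => a * RR b d w x := by
  funext x
  simp only [RR, deriv_cmul hw.smo, deriv_cmul (smo_deriv hw.smo), Finset.mul_sum]
  exact Finset.sum_congr rfl fun i _ => by ring
theorem HR_smul (hw : RW w) (a : ℝ) (b : Fin k → E n) (x ξ : E n) :
    HR b (fun s => a * w s) x ξ = a * HR b w x ξ := by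
  simp only [HR, deriv_cmul hw.smo, deriv_cmul (smo_deriv hw.smo), Finset.mul_sum, mul_assoc]
theorem HR_nonneg (hw : RW w) (b : Fin k → E n) (x ξ : E n) : 0 ≤ HR b w x ξ :=
  Finset.sum_nonneg fun _ _ => mul_nonneg (hw.conv _) (sq_nonneg _)
theorem HR_le (hw : RW w) (b : Fin k → E n) : ∃ C : ℝ, 0 ≤ C ∧
    ∀ x ξ, HR b w x ξ ≤ C * ‖ξ‖ ^ 2 := by
  obtain ⟨C, h0, hC⟩ := hw.bound
  refine ⟨∑ m, C * ‖b m‖ ^ 2, by positivity, fun x ξ => ?_⟩
  rw [Finset.sum_mul]
  refine Finset.sum_le_sum fun m _ => ?_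
  rw [mul_assoc, ← mul_pow, ← sq_abs]
  exact mul_le_mul (hC _).1 (pow_le_pow_left₀ (abs_nonneg _) (abs_real_inner_le_norm _ _) 2)
    (sq_nonneg _) h0
theorem smo_VR (hw : RW w) (ε : ℝ) (b : Fin k → E n) : ContDiff ℝ ∞ (VR ε b w) :=
  (contDiff_const.mul smo_normsq).add (ContDiff.sum fun m _ => smo_ridge (b m) hw.smo)
theorem VR_ge (hw : RW w) (ε : ℝ) (b : Fin k → E n) (x : E n) : ε * ‖x‖ ^ 2 ≤ VR ε b w x :=
  le_add_of_nonneg_right (Finset.sum_nonneg fun _ _ => hw.nonneg _)
theorem coer_VR (hw : RW w) {ε : ℝ} (hε : 0 < ε) (b : Fin k → E n) : Coer (VR ε b w) :=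
  ⟨ε, 0, hε, fun x => by rw [sub_zero]; exact VR_ge hw ε b x⟩

end Vale.Agent.P227
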