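import Vale.Agent.P227.Var
import Vale.Agent.P227.Exist
import Vale.Agent.P227.Ridge

/-! The variance inequality, normalised case. -/

namespace Vale.Agent.P227

open scoped ContDiff Matrix RealInnerProductSpace Topology
open MeasureTheory Filter

variable {n : ℕ}

namespace Core1X

theorem approx {V : E n → ℝ} {κ R₀ : ℝ} (hV : ContDiff ℝ ∞ V) (he : Ev V) (hκ : 0 < κ)
    (hl : ∀ x ξ, κ * ‖ξ‖ ^ 2 ≤ qf (hess V x) ξ) (hf : ∀ x, R₀ ≤ ‖x‖ → hess V x = 1)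
    {k : ℕ} {w : ℝ → ℝ} (hw : RW w) (b : Fin k → E n) (d : Fin k → ℝ)
    (hd : ∀ x ξ, HR b w x ξ ≤ qf (hess V x) ξ) {t : ℝ} (ht : 0 < t) (ht2 : t ≤ 1 / 2) :
    ∃ W : E n → ℝ, Continuous W ∧ (∀ x, κ / 4 * ‖x‖ ^ 2 - -V 0 ≤ W x) ∧
      (∀ x, |W x - V x| ≤ t * (n ^ 2 * (κ / (n + 1)) * ‖x‖ ^ 2)) ∧
      VarIneq W (fun x => (1 - t) * fR b d w x) (fun x => (1 - t) * RR b d w x) := by
  have hn : (0 : ℝ) ≤ n := Nat.cast_nonneg n
  have hη : 0 < t * (κ / (n + 1)) := by positivity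
  obtain ⟨Θ, W, hP, hN, h1, h0⟩ := exist hV he hκ hl hf hη
  have sW := hP.sW
  have hnη : n * (t * (κ / (n + 1))) ≤ t * κ := by
    rw [mul_left_comm, ← mul_div_assoc]
    refine mul_le_mul_of_nonneg_left ?_ ht.le
    rw [div_le_iff₀ (by positivity)]
    nlinarith
  have hq : ∀ x ξ, (1 - t) * qf (hess V x) ξ ≤ qf (hess W x) ξ := by
    intro x ξ
    have a := abs_qf_le (A := hess (fun y => W y - V y) x) (fun i j => hN.abs_le i j x) ξ
    rw [hess_sub sW hV, qf_sub] at a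
    have c := (abs_le.1 a).1
    have e1 : n * (t * (κ / (n + 1))) * ‖ξ‖ ^ 2 ≤ t * κ * ‖ξ‖ ^ 2 :=
      mul_le_mul_of_nonneg_right hnη (by positivity)
    have e2 := mul_le_mul_of_nonneg_left (hl x ξ) ht.le
    linarith
  have hlow : ∀ x ξ, κ / 2 * ‖ξ‖ ^ 2 ≤ qf (hess W x) ξ := by
    intro x ξ
    have e1 := mul_le_mul_of_nonneg_left (hl x ξ) (by linarith : 0 ≤ 1 - t)
    have e2 : 0 ≤ κ * ‖ξ‖ ^ 2 := by positivity
    have e3 := hq x ξ
    nlinarith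
  have hw' : RW fun s => (1 - t) * w s := hw.smul (by linarith)
  have hv := var_pot hP (hP.eW.coer sW (half_pos hκ) hlow) h1 h0
    (Wm := fun m => ridge (b m) fun s => (1 - t) * w s) d
    (fun m => (sm_ridge (b m) hw'.smo hw'.supp).pg) (fun m x => hw'.psd (b m) x)
    (fun x => by
      refine psd_of_qf ((hess_symm sW x).sub ?_) fun ξ => ?_
      · exact psd_isSymm (Matrix.posSemidef_sum _ fun m _ => hw'.psd (b m) x)
      · rw [qf_sub, qf_sum_ridge hw', HR_smul hw]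
        have e1 := mul_le_mul_of_nonneg_left (hd x ξ) (by linarith : 0 ≤ 1 - t)
        linarith [hq x ξ])
    (by rw [fG_ridge hw']; exact sm_fR hw' b d) (by rw [fG_ridge hw']; exact ev_fR hw' b d)
  rw [fG_ridge hw', RG_ridge hw', fR_smul hw, RR_smul hw] at hv
  refine ⟨fun x => W x + (V 0 - W 0), sW.continuous.add continuous_const, fun x => ?_,
    fun x => ?_, hv.shift _⟩
  · have := hP.eW.lower sW hlow x
    linarith
  · have ee : Ev fun y => W y - V y := fun y => by simp only [hP.eW y, he y]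
    have := ee.abs_sub_le (sW.sub hV) (fun i j y => hN.abs_le i j y) x
    refine (le_of_eq (congrArg abs (by ring))).trans (this.trans (le_of_eq (by ring)))

end Core1X

open Core1X in
/-- For `η_j → 0` (`n η_j ≤ κ/2`) take `Θ_j, W_j` from `exist`, `θ_j = 1 - n η_j / κ`. Then
`W_j'' ≥ V'' - n η_j ≥ θ_j V'' ≥ θ_j HR` (`abs_qf_le`), so `var_pot` applies to the ridges of
`θ_j w` (`RW.smul`, `fG_ridge`, `fR_smul`). Shift `W_j` by `V 0 - W_j 0` (`VarIneq.shift`); it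
converges pointwise to `V` (`Ev.abs_sub_le`) and is at least `V 0 + κ/4 |x|²` (`Ev.lower`);
finish with `varIneq_of_tendsto`. -/
theorem core1 {V : E n → ℝ} {κ R₀ : ℝ} (hV : ContDiff ℝ ∞ V) (he : Ev V) (hκ : 0 < κ)
    (hl : ∀ x ξ, κ * ‖ξ‖ ^ 2 ≤ qf (hess V x) ξ) (hf : ∀ x, R₀ ≤ ‖x‖ → hess V x = 1)
    {k : ℕ} {w : ℝ → ℝ} (hw : RW w) (b : Fin k → E n) (d : Fin k → ℝ)
    (hd : ∀ x ξ, HR b w x ξ ≤ qf (hess V x) ξ) : VarIneq V (fR b d w) (RR b d w) := by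
  have ht : ∀ j : ℕ, 0 < 1 / 2 * (1 / ((j : ℝ) + 1)) := fun j => by positivity
  have ht2 : ∀ j : ℕ, 1 / 2 * (1 / ((j : ℝ) + 1)) ≤ 1 / 2 := fun j =>
    mul_le_of_le_one_right (by norm_num)
      ((div_le_one (by positivity)).2 (by linarith [(Nat.cast_nonneg j : (0 : ℝ) ≤ j)]))
  have hlim : Tendsto (fun j : ℕ => 1 / 2 * (1 / ((j : ℝ) + 1))) atTop (𝓝 0) := by
    simpa only [mul_zero] using
      (tendsto_one_div_add_atTop_nhds_zero_nat (𝕜 := ℝ)).const_mul (1 / 2)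
  choose W cW lW aW vW using fun j : ℕ => approx hV he hκ hl hf hw b d hd (ht j) (ht2 j)
  refine varIneq_of_tendsto (Wk := W) (θ := fun j : ℕ => 1 - 1 / 2 * (1 / ((j : ℝ) + 1)))
    (by positivity : 0 < κ / 4) cW lW (fun x => ?_) (cpb_fR hw b d) (cpb_RR hw b d)
    (by simpa only [sub_zero] using hlim.const_sub 1) vW
  rw [tendsto_iff_dist_tendsto_zero]
  refine squeeze_zero (fun j => dist_nonneg) (fun j => aW j x) ?_
  simpa only [zero_mul] using hlim.mul_const (n ^ 2 * (κ / (n + 1)) * ‖x‖ ^ 2)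

end Vale.Agent.P227
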