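import Vale.Agent.P227.OUa

/-! Time derivative of the Mehler semigroup and the Dynkin formula. -/

namespace Vale.Agent.P227

open scoped ContDiff Matrix RealInnerProductSpace Topology
open MeasureTheory Filter

variable {n : ℕ}

variable {g v : E n → ℝ} {t : ℝ}

namespace DynAux

theorem L_OU (hg : PG g) (t : ℝ) (x : E n) : Lop (one n) (OU t g) x =
    ∑ i, (Real.exp (-2 * t) * OU t (D i (D i g)) x - Real.exp (-t) * x i * OU t (D i g) x) := by
  have e2 : Real.exp (-2 * t) = Real.exp (-t) * Real.exp (-t) := by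
    rw [← Real.exp_add]; ring_nf
  rw [Lop_one, rad, ← Finset.sum_sub_distrib]
  refine Finset.sum_congr rfl fun i _ => ?_
  rw [D_OU t hg i, D_const_mul i _ (OU_diff t (hg.D i)), D_OU t (hg.D i) i, e2]
  ring

theorem GE_z (hg : PG g) (m : E n) (σ : ℝ) (i : Fin n) :
    GE (fun z => z i * g (m + σ • z)) = σ * GE fun z => D i g (m + σ • z) := by
  rw [← GE_D (hg.affine m σ) i, D_affine i hg.diff, GE_const_mul]

theorem GE_lin (hg : PG g) (m w : E n) (σ b : ℝ) :
    GE (fun z => ∑ i, (w + b • z) i * D i g (m + σ • z)) =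
      ∑ i, (w i * GE (fun z => D i g (m + σ • z)) +
        b * σ * GE fun z => D i (D i g) (m + σ • z)) := by
  have h1 : ∀ i, CPB fun z => D i g (m + σ • z) := fun i => (hg.D i).cpb.affine m σ
  rw [GE_sum _ fun i _ => ((cpb_coord i).affine w b).mul (h1 i)]
  refine Finset.sum_congr rfl fun i _ => ?_
  rw [mul_assoc, ← GE_z (hg.D i), ← GE_const_mul, ← GE_const_mul,
    ← GE_add ((h1 i).const_mul _) (((cpb_coord i).mul (h1 i)).const_mul _)]
  congr 1
  ext z
  simp only [PiLp.add_apply, PiLp.smul_apply, smul_eq_mul]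
  ring

theorem deriv_GE (hg : PG g) {m m' : ℝ → E n} {b b' : ℝ → ℝ} {K : ℝ}
    (h : ∀ᶠ s in 𝓝 t, HasDerivAt m (m' s) s ∧ HasDerivAt b (b' s) s ∧ ‖m s‖ ≤ K ∧
      ‖m' s‖ ≤ K ∧ ‖b s‖ ≤ K ∧ ‖b' s‖ ≤ K) :
    HasDerivAt (fun s => GE fun z => g (m s + b s • z))
      (GE fun z => ∑ i, (m' t + b' t • z) i * D i g (m t + b t • z)) t := by
  obtain ⟨C, k, hC, hb⟩ := hg.fderiv_le
  have cW : Continuous (gW : E n → ℝ) := smo_gW.continuous
  have hN : CPB fun z : E n => K + K * ‖z‖ := (cpb_const K).add (cpb_norm.const_mul K)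
  have hl : ∀ (w : E n) (c : ℝ) (z : E n), ‖w‖ ≤ K → ‖c‖ ≤ K → ‖w + c • z‖ ≤ K + K * ‖z‖ :=
    fun w c z h1 h2 => (norm_add_le _ _).trans (add_le_add h1 (by
      rw [norm_smul]; exact mul_le_mul_of_nonneg_right h2 (norm_nonneg _)))
  refine HasDerivAt.div_const (hasDerivAt_integral_of_dominated_loc_of_deriv_le
    (F := fun s z => g (m s + b s • z) * Real.exp (-gW z))
    (F' := fun s z => (∑ i, (m' s + b' s • z) i * D i g (m s + b s • z)) * Real.exp (-gW z))
    (bound := fun z => C * (1 + (K + K * ‖z‖)) ^ k * (K + K * ‖z‖) * Real.exp (-gW z)) h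
    (.of_forall fun s => (integrable_Ex coer_gW cW (hg.cpb.affine _ _)).1)
    (integrable_Ex coer_gW cW (hg.cpb.affine _ _))
    (integrable_Ex coer_gW cW (cpb_sum _ fun i _ => ((cpb_coord i).affine _ _).mul
      ((hg.D i).cpb.affine _ _))).1 (.of_forall fun z s hs => ?_)
    (integrable_Ex coer_gW cW (((((cpb_const 1).add hN).pow k).const_mul C).mul hN))
    (.of_forall fun z s hs => ?_)).2 _
  · obtain ⟨-, -, h1, h2, h3, h4⟩ := hs
    rw [← pd_eq_sum, norm_mul, Real.norm_of_nonneg (Real.exp_pos _).le]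
    refine mul_le_mul_of_nonneg_right ((ContinuousLinearMap.le_opNorm _ _).trans ?_)
      (Real.exp_pos _).le
    have h5 := hl _ _ z h1 h3
    refine mul_le_mul ((hb _).trans ?_) (hl _ _ z h2 h4) (norm_nonneg _) ?_
    · gcongr
    · have := (norm_nonneg _).trans h5
      positivity
  · rw [← pd_eq_sum]
    exact ((hg.diff _).hasFDerivAt.comp_hasDerivAt s
      (hs.1.add (hs.2.1.smul_const z))).mul_const _

theorem deriv_sg {s : ℝ} (hs : 0 < s) : HasDerivAt sg (Real.exp (-2 * s) / sg s) s := by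
  have h0 : 1 - Real.exp (-2 * s) ≠ 0 := by
    rw [← sg_sq hs.le]; exact (pow_pos (sg_pos hs) 2).ne'
  have h1 := (((hasDerivAt_id s).const_mul (-2)).exp.const_sub 1).sqrt h0
  refine HasDerivAt.congr_deriv h1 ?_
  have := sg_pos hs
  change -(Real.exp (-2 * s) * (-2 * 1)) / (2 * sg s) = _
  field_simp

end DynAux
open DynAux

/-- `L P_t g = e^{-2t} E Δg - e^{-t} x · E ∇g` by `D_OU`, while
`P_t L g = E Δg - E (e^{-t} x + σ Z) · ∇g` and `E Z_i g_i(m + σ Z) = σ E g_ii` (`GE_D`) -/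
theorem OU_comm (hg : PG g) (ht : 0 ≤ t) (x : E n) :
    Lop (one n) (OU t g) x = OU t (Lop (one n) g) x := by
  have h1 : Lop (one n) g = fun y => (∑ i, D i (D i g) y) - rad g y := funext (Lop_one g)
  have h2 : OU t (rad g) x = _ := GE_lin hg (Real.exp (-t) • x) (Real.exp (-t) • x) (sg t) (sg t)
  rw [L_OU hg, h1, OU_sub t (cpb_sum _ fun i _ => ((hg.D i).D i).cpb) hg.rad.cpb,
    OU_sum t _ fun i _ => ((hg.D i).D i).cpb]
  simp only [h2]
  rw [← Finset.sum_sub_distrib, ← sq, sg_sq ht]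
  refine Finset.sum_congr rfl fun i _ => ?_
  simp only [OU, PiLp.smul_apply, smul_eq_mul]
  ring
/-- differentiate under the integral (`hasDerivAt_integral_of_dominated_loc_of_deriv_le`);
`σ σ' = e^{-2t}` -/
theorem OU_deriv (hg : PG g) (ht : 0 < t) (x : E n) :
    HasDerivAt (fun s => OU s g x) (Lop (one n) (OU t g) x) t := by
  have c1 : ContinuousAt (fun s => ‖Real.exp (-s) • x‖ + ‖sg s‖ + ‖Real.exp (-2 * s) / sg s‖) t :=
    ((by fun_prop : ContinuousAt (fun s => ‖Real.exp (-s) • x‖) t).add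
      continuous_sg.continuousAt.norm).add (ContinuousAt.norm (ContinuousAt.div
        (f := fun s => Real.exp (-2 * s)) (by fun_prop) continuous_sg.continuousAt (sg_pos ht).ne'))
  have h1 := deriv_GE (t := t) hg (m := fun s => Real.exp (-s) • x)
    (m' := fun s => -(Real.exp (-s) • x)) (b := sg) (b' := fun s => Real.exp (-2 * s) / sg s)
    (K := ‖Real.exp (-t) • x‖ + ‖sg t‖ + ‖Real.exp (-2 * t) / sg t‖ + 1) (by
      filter_upwards [c1.eventually (gt_mem_nhds (lt_add_one _)), lt_mem_nhds ht] with s h1 h2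
      have n1 := norm_nonneg (Real.exp (-s) • x)
      have n2 := norm_nonneg (sg s)
      have n3 := norm_nonneg (Real.exp (-2 * s) / sg s)
      refine ⟨((hasDerivAt_neg s).exp.smul_const x).congr_deriv (by simp), deriv_sg h2,
        by linarith, by rw [norm_neg]; linarith, by linarith, by linarith⟩)
  refine HasDerivAt.congr_deriv h1 ?_
  rw [GE_lin hg, L_OU hg, div_mul_cancel₀ _ (sg_pos ht).ne']
  refine Finset.sum_congr rfl fun i _ => ?_
  simp only [OU, PiLp.smul_apply, PiLp.neg_apply, smul_eq_mul]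
  ring
/-- FTC (`intervalIntegral.integral_eq_sub_of_hasDerivAt_of_le`) for `e^{-l s} P_s g (x)` -/
theorem dynkin (hg : PG g) (l : ℝ) {T : ℝ} (hT : 0 ≤ T) (x : E n) :
    g x = Real.exp (-(l * T)) * OU T g x +
      ∫ t in (0 : ℝ)..T, Real.exp (-(l * t)) * OU t (Aop (one n) l g) x := by
  have hc : ∀ f : E n → ℝ, PG f → Continuous fun s => Real.exp (-(l * s)) * OU s f x :=
    fun f hf => (by fun_prop : Continuous fun s => Real.exp (-(l * s))).mul
      ((OU_cont hf.cpb).comp (continuous_id.prodMk continuous_const))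
  have hL : PG (Lop (one n) g) := hg.Lop (mpg_const 1)
  have h1 := intervalIntegral.integral_eq_sub_of_hasDerivAt_of_le hT
    (f := fun s => -(Real.exp (-(l * s)) * OU s g x))
    (f' := fun s => Real.exp (-(l * s)) * OU s (Aop (one n) l g) x) (hc g hg).neg.continuousOn
    (fun s hs => ((((hasDerivAt_id s).const_mul l).neg.exp.mul
      (OU_deriv hg hs.1 x)).neg).congr_deriv (by
        have h2 : OU s (Aop (one n) l g) = _ := OU_sub s (hg.const_mul l).cpb hL.cpb
        rw [OU_comm hg hs.1.le, h2, OU_const_mul]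
        simp only [id, Pi.neg_apply]
        ring))
    ((hc _ (hg.Aop (mpg_const 1) l)).intervalIntegrable _ _)
  rw [h1, OU_zero]
  simp
theorem dynkin2 (hv : PG v) (l : ℝ) {T : ℝ} (hT : 0 ≤ T) (i j : Fin n) (x : E n) :
    D i (D j v) x = Real.exp (-((l + 2) * T)) * OU T (D i (D j v)) x +
      ∫ t in (0 : ℝ)..T, Real.exp (-((l + 2) * t)) * OU t (D i (D j (Aop (one n) l v))) x := by
  have h1 : D j (Aop (one n) l v) = Aop (one n) (l + 1) (D j v) := D_Aop_const j 1 l hv.smo
  have h2 : D i (Aop (one n) (l + 1) (D j v)) = Aop (one n) (l + 1 + 1) (D i (D j v)) :=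
    D_Aop_const i 1 (l + 1) (hv.D j).smo
  rw [h1, h2, add_assoc, one_add_one_eq_two]
  exact dynkin ((hv.D j).D i) (l + 2) hT x

end Vale.Agent.P227
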