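import Vale.Agent.P227.FinA

/-! The logarithmic Brunn-Minkowski inequality. -/

namespace Vale.Agent.P227

open scoped ContDiff Matrix RealInnerProductSpace Topology
open MeasureTheory Filter

variable {n : ℕ}

namespace FinAux

theorem exp_le {ε : ℝ} (hε : 0 < ε) (x : E n) : Real.exp (-(ε * ‖x‖ ^ 2)) ≤ 1 :=
  Real.exp_le_one_iff.2 (neg_nonpos.2 (by positivity))

theorem gm_le {ε : ℝ} (hε : 0 < ε) {S : Set (E n)} (hS : volume S ≠ ⊤) :
    gm ε S ≤ (volume S).toReal := by
  have h := integral_mono (μ := volume.restrict S) (FinA_integrable hε).integrableOn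
    (integrableOn_const (C := (1 : ℝ)) hS) fun x => exp_le hε x
  rwa [setIntegral_const, smul_eq_mul, mul_one] at h

theorem gm_tendsto {K : Set (E n)} (hK : IsCompact K) :
    Tendsto (fun ε => gm ε K) (𝓝[>] 0) (𝓝 (volume K).toReal) := by
  have h := tendsto_integral_filter_of_dominated_convergence (μ := volume.restrict K)
    (l := 𝓝[>] (0 : ℝ)) (F := fun ε (x : E n) => Real.exp (-(ε * ‖x‖ ^ 2)))
    (f := fun _ => (1 : ℝ)) (fun _ => 1)
    (Eventually.of_forall fun ε => Continuous.aestronglyMeasurable (by fun_prop))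
    (by
      filter_upwards [self_mem_nhdsWithin] with ε hε
      refine Eventually.of_forall fun x => ?_
      rw [Real.norm_of_nonneg (Real.exp_pos _).le]
      exact exp_le hε x)
    (integrableOn_const hK.measure_lt_top.ne)
    (Eventually.of_forall fun x => by
      have h1 : Continuous fun ε : ℝ => Real.exp (-(ε * ‖x‖ ^ 2)) := by fun_prop
      have h2 := (h1.tendsto 0).mono_left (nhdsWithin_le_nhds (s := Set.Ioi 0))
      rwa [zero_mul, neg_zero, Real.exp_zero] at h2)
  rwa [setIntegral_const, smul_eq_mul, mul_one] at h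

end FinAux

/-- `ENNReal.ofReal (gm ε S) ≤ volume S`; `gm ε K → (volume K).toReal` as `ε → 0` for compact
`K`; `ENNReal.ofReal_rpow_of_nonneg` -/
theorem logBM (hn : 1 ≤ n) {K L : Set (E n)} (hK : IsCompact K) (cK : Convex ℝ K)
    (iK : (interior K).Nonempty) (sK : K = -K) (hL : IsCompact L) (cL : Convex ℝ L)
    (iL : (interior L).Nonempty) (sL : L = -L) {l : ℝ} (h0 : 0 ≤ l) (h1 : l ≤ 1) :
    volume K ^ (1 - l) * volume L ^ l ≤
      volume (wulff fun u => supp K u ^ (1 - l) * supp L u ^ l) := by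
  by_cases hS : volume (wulff fun u => supp K u ^ (1 - l) * supp L u ^ l) = ⊤
  · rw [hS]; exact le_top
  have h2 : 0 ≤ 1 - l := sub_nonneg.2 h1
  have h3 := ((FinAux.gm_tendsto hK).rpow_const (p := 1 - l) (Or.inr h2)).mul
    ((FinAux.gm_tendsto hL).rpow_const (p := l) (Or.inr h0))
  have h4 := le_of_tendsto h3 (b := (volume (wulff fun u => supp K u ^ (1 - l) *
      supp L u ^ l)).toReal) (by
    filter_upwards [self_mem_nhdsWithin] with ε hε
    exact (gm_wulff hn hK cK iK sK hL cL iL sL h0 h1 hε).trans (FinAux.gm_le hε hS))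
  rw [ENNReal.toReal_rpow, ENNReal.toReal_rpow, ← ENNReal.toReal_mul] at h4
  exact (ENNReal.toReal_le_toReal (ENNReal.mul_ne_top
    (ENNReal.rpow_ne_top_of_nonneg h2 hK.measure_lt_top.ne)
    (ENNReal.rpow_ne_top_of_nonneg h0 hL.measure_lt_top.ne)) hS).1 h4

end Vale.Agent.P227
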