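import Vale.Agent.P227.Strip

/-! Support functions; the inequality for the Gaussian weight. -/

namespace Vale.Agent.P227

open scoped ContDiff Matrix RealInnerProductSpace Topology
open MeasureTheory Filter

variable {n : ℕ}

theorem le_supp {K : Set (E n)} (hK : IsCompact K) {x : E n} (hx : x ∈ K) (u : E n) :
    ⟪x, u⟫ ≤ supp K u := by
  have hc : Continuous (fun x : E n => ⟪x, u⟫) := by fun_prop
  exact le_csSup (hK.image hc).bddAbove ⟨x, hx, rfl⟩

theorem FinA_neg_mem {K : Set (E n)} (hs : K = -K) {x : E n} (hx : x ∈ K) : -x ∈ K := by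
  rw [hs]
  simpa using hx

theorem supp_neg {K : Set (E n)} (hs : K = -K) (u : E n) : supp K (-u) = supp K u := by
  unfold supp
  refine congrArg sSup ?_
  ext r
  constructor
  · rintro ⟨x, hx, rfl⟩
    exact ⟨-x, FinA_neg_mem hs hx, by simp only [inner_neg_left, inner_neg_right]⟩
  · rintro ⟨x, hx, rfl⟩
    exact ⟨-x, FinA_neg_mem hs hx, by simp only [inner_neg_left, inner_neg_right, neg_neg]⟩

theorem continuous_supp {K : Set (E n)} (hK : IsCompact K) (hne : K.Nonempty) :
    Continuous (supp K) := by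
  have h : Continuous ↿(fun (u x : E n) => ⟪x, u⟫) := by
    show Continuous fun p : E n × E n => ⟪p.2, p.1⟫
    fun_prop
  exact hK.continuous_sSup h

/-- a small ball about `0` lies in `K` -/
theorem supp_pos {K : Set (E n)} (hK : IsCompact K) (hc : Convex ℝ K)
    (hi : (interior K).Nonempty) (hs : K = -K) {u : E n} (hu : ‖u‖ = 1) : 0 < supp K u := by
  obtain ⟨x, hx⟩ := hi
  obtain ⟨r, hr, hb⟩ := Metric.mem_nhds_iff.1 (mem_interior_iff_mem_nhds.1 hx)
  have h1 : x + (r / 2) • u ∈ K := by
    refine hb ?_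
    rw [Metric.mem_ball, dist_eq_norm, add_sub_cancel_left, norm_smul, hu, mul_one,
      Real.norm_eq_abs, abs_of_pos (by positivity)]
    linarith
  have h2 : -x ∈ K := FinA_neg_mem hs (interior_subset hx)
  have e1 := le_supp hK h1 u
  have e2 := le_supp hK h2 u
  rw [inner_add_left, real_inner_smul_left, real_inner_self_eq_norm_sq, hu] at e1
  rw [inner_neg_left] at e2
  linarith

theorem FinA_integrable {ε : ℝ} (hε : 0 < ε) :
    Integrable (fun x : E n => Real.exp (-(ε * ‖x‖ ^ 2))) := by
  have h := integrable_poly_gauss n 0 hε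
  simpa using h

theorem FinA_gm_mono {ε : ℝ} (hε : 0 < ε) {S T : Set (E n)} (h : S ⊆ T) : gm ε S ≤ gm ε T := by
  unfold gm
  exact setIntegral_mono_set (FinA_integrable hε).integrableOn
    (Eventually.of_forall fun x => (Real.exp_pos _).le) h.eventuallyLE

theorem FinA_gm_nonneg (ε : ℝ) (S : Set (E n)) : 0 ≤ gm ε S :=
  integral_nonneg fun _ => (Real.exp_pos _).le

theorem FinA_closed_strips {k : ℕ} (u : Fin k → E n) (α : Fin k → ℝ) :
    IsClosed (strips u α) := by
  have h : strips u α = ⋂ m, {x : E n | |⟪u m, x⟫| ≤ α m} := by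
    ext x
    simp only [strips, Set.mem_setOf_eq, Set.mem_iInter]
  rw [h]
  refine isClosed_iInter fun m => isClosed_le ?_ continuous_const
  fun_prop

theorem FinA_subset_strips {K : Set (E n)} (hK : IsCompact K) (sK : K = -K) {k : ℕ}
    (u : Fin k → E n) : K ⊆ strips u fun m => supp K (u m) := by
  intro x hx m
  have e1 := le_supp hK hx (u m)
  have e2 := le_supp hK (FinA_neg_mem sK hx) (u m)
  rw [inner_neg_left] at e2
  rw [real_inner_comm, abs_le]
  constructor <;> linarith

/-- Take a dense sequence `u` of the unit sphere (`TopologicalSpace.denseSeq`). With the first `k`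
directions, `K ⊆ strips u h_K`, `L ⊆ strips u h_L`, and the sets `strips u (h_K^(1-l) h_L^l)`
decrease to the Wulff body (continuity, evenness). `strip` and continuity from above of the finite
measure `e^{-ε|x|²} dx` give `gm ε K ^ (1-l) * gm ε L ^ l ≤ gm ε Wulff`. -/
theorem gm_wulff (hn : 1 ≤ n) {K L : Set (E n)} (hK : IsCompact K) (cK : Convex ℝ K)
    (iK : (interior K).Nonempty) (sK : K = -K) (hL : IsCompact L) (cL : Convex ℝ L)
    (iL : (interior L).Nonempty) (sL : L = -L) {l : ℝ} (h0 : 0 ≤ l) (h1 : l ≤ 1) {ε : ℝ}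
    (hε : 0 < ε) : gm ε K ^ (1 - l) * gm ε L ^ l ≤
      gm ε (wulff fun u => supp K u ^ (1 - l) * supp L u ^ l) := by
  have hne : Nonempty (Metric.sphere (0 : E n) 1) :=
    ⟨⟨EuclideanSpace.single (⟨0, hn⟩ : Fin n) 1, by simp⟩⟩
  obtain ⟨u, hu⟩ := TopologicalSpace.exists_dense_seq (Metric.sphere (0 : E n) 1)
  have hu1 : ∀ m, ‖(u m : E n)‖ = 1 := fun m => by simpa using (u m).2
  set f : E n → ℝ := fun v => supp K v ^ (1 - l) * supp L v ^ l with hf
  have hKne : K.Nonempty := iK.mono interior_subset
  have hLne : L.Nonempty := iL.mono interior_subset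
  have cf : Continuous f :=
    ((continuous_supp hK hKne).rpow_const fun _ => Or.inr (by linarith)).mul
      ((continuous_supp hL hLne).rpow_const fun _ => Or.inr h0)
  have ef : ∀ v, f (-v) = f v := fun v => by
    simp only [hf, supp_neg sK, supp_neg sL]
  set S : ℕ → Set (E n) := fun k =>
    strips (fun m : Fin k => (u m : E n)) fun m => f (u m) with hS
  have hanti : Antitone S := by
    intro k k' hk x hx m
    exact hx ⟨m, lt_of_lt_of_le m.2 hk⟩
  have hint : ⋂ k, S k = wulff f := by
    ext x
    simp only [Set.mem_iInter]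
    constructor
    · intro hx v hv
      have hcl : IsClosed {w : Metric.sphere (0 : E n) 1 | ⟪x, (w : E n)⟫ ≤ f w} := by
        refine isClosed_le ?_ (cf.comp continuous_subtype_val)
        fun_prop
      have hall : ∀ w : Metric.sphere (0 : E n) 1, ⟪x, (w : E n)⟫ ≤ f w := by
        intro w
        refine hu.induction_on w hcl fun m => ?_
        have h := hx (m + 1) ⟨m, Nat.lt_succ_self m⟩
        have h2 := (abs_le.1 h).2
        rw [real_inner_comm]
        exact h2
      exact hall ⟨v, by simpa using hv⟩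
    · intro hx k m
      have e1 := hx (u m) (hu1 m)
      have e2 := hx (-(u m : E n)) (by rw [norm_neg]; exact hu1 m)
      rw [inner_neg_right, ef] at e2
      show |⟪(u m : E n), x⟫| ≤ f (u m)
      rw [real_inner_comm, abs_le]
      constructor <;> linarith
  have hlim : Tendsto (fun k => gm ε (S k)) atTop (𝓝 (gm ε (wulff f))) := by
    rw [← hint]
    exact tendsto_setIntegral_of_antitone (fun k => (FinA_closed_strips _ _).measurableSet) hanti
      ⟨0, (FinA_integrable hε).integrableOn⟩
  refine ge_of_tendsto' hlim fun k => ?_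
  have h := strip (n := n) hε (fun m : Fin k => (u m : E n))
    (α := fun m => supp K (u m)) (β := fun m => supp L (u m))
    (fun m => supp_pos hK cK iK sK (hu1 m)) (fun m => supp_pos hL cL iL sL (hu1 m)) h0 h1
  refine le_trans ?_ h
  refine mul_le_mul ?_ ?_ (Real.rpow_nonneg (FinA_gm_nonneg _ _) _)
    (Real.rpow_nonneg (FinA_gm_nonneg _ _) _)
  · exact Real.rpow_le_rpow (FinA_gm_nonneg _ _)
      (FinA_gm_mono hε (FinA_subset_strips hK sK _)) (by linarith)
  · exact Real.rpow_le_rpow (FinA_gm_nonneg _ _)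
      (FinA_gm_mono hε (FinA_subset_strips hL sL _)) h0

end Vale.Agent.P227
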