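import Vale.Agent.P227.Gauss0

/-! Gaussian smoothing estimates. -/

namespace Vale.Agent.P227

open scoped ContDiff Matrix RealInnerProductSpace Topology
open MeasureTheory Filter

variable {n : ℕ}

variable {f g : E n → ℝ}

namespace GaussX

/-- the adjoint of `∂_i` for the Gaussian weight -/
noncomputable def He (i : Fin n) (p : E n → ℝ) : E n → ℝ := fun z => z i * p z - D i p z

theorem pg_He {p : E n → ℝ} (hp : PG p) (i : Fin n) : PG (He i p) :=
  ((pg_coord i).mul hp).sub (hp.D i)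

theorem step {p G : E n → ℝ} (hp : PG p) (hG : PG G) (i : Fin n) :
    GE (fun z => p z * D i G z) = GE fun z => He i p z * G z := by
  have h1 := GE_D (hp.mul hG) i
  rw [D_mul i hp.diff hG.diff, GE_add ((hp.D i).mul hG).cpb (hp.mul (hG.D i)).cpb] at h1
  have h2 : (fun z => He i p z * G z) = fun z => z i * (p z * G z) - D i p z * G z := by
    funext z
    simp only [He]
    ring
  rw [h2, GE_sub ((pg_coord i).mul (hp.mul hG)).cpb ((hp.D i).mul hG).cpb, ← h1]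
  ring

theorem step0 {G : E n → ℝ} (hG : PG G) (i : Fin n) :
    GE (D i G) = GE fun z => He i (fun _ => 1) z * G z := by
  rw [← step (pg_const 1) hG i]
  simp only [one_mul]

/-- the constant attached to a weight -/
noncomputable def cc (p w : E n → ℝ) : ℝ := GE fun z => |p z| * w z

theorem cc_nonneg (p : E n → ℝ) {w : E n → ℝ} (hw : ∀ z, 0 ≤ w z) : 0 ≤ cc p w :=
  GE_nonneg fun z => mul_nonneg (abs_nonneg _) (hw z)

theorem bnd {p w G : E n → ℝ} (hp : PG p) (hw : CPB w) {a : ℝ} (h : ∀ z, |G z| ≤ a * w z) :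
    |GE fun z => p z * G z| ≤ a * cc p w := by
  rw [cc, ← GE_const_mul]
  refine GE_abs_le ((hp.cpb.abs.mul hw).const_mul a) fun z => ?_
  rw [abs_mul]
  calc |p z| * |G z| ≤ |p z| * (a * w z) := mul_le_mul_of_nonneg_left (h z) (abs_nonneg _)
    _ = a * (|p z| * w z) := by ring

theorem uni {ι : Type} [Fintype ι] (c : ι → ℝ) (hc : ∀ a, 0 ≤ c a) :
    ∃ C : ℝ, 0 < C ∧ ∀ a, c a ≤ C := by
  have h0 : 0 ≤ ∑ a, c a := Finset.sum_nonneg fun a _ => hc a
  refine ⟨∑ a, c a + 1, by linarith, fun a => ?_⟩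
  have := Finset.single_le_sum (f := c) (fun a _ => hc a) (Finset.mem_univ a)
  linarith

/-- the weight `mo |z|` -/
noncomputable def wt (z : E n) : ℝ := mo (1 * ‖z‖)

theorem wt_nonneg (z : E n) : 0 ≤ wt z := by
  unfold wt mo
  positivity

theorem cpb_wt : CPB (wt : E n → ℝ) := cpb_mo 1 zero_le_one

theorem small {F : E n → ℝ} {m : E n} {σ K : ℝ} (h0 : 0 < σ) (h1 : σ ≤ 1) (hK : 0 ≤ K)
    (h : ∀ y, |F y - F m| ≤ K * mo ‖y - m‖) (z : E n) :
    |F (m + σ • z) - F m| ≤ K * Real.sqrt σ * wt z := by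
  refine (h _).trans ?_
  rw [add_sub_cancel_left, norm_smul, Real.norm_of_nonneg h0.le, mul_assoc]
  refine mul_le_mul_of_nonneg_left ?_ hK
  have h2 : σ ≤ Real.sqrt σ := by
    rw [Real.le_sqrt h0.le h0.le]
    nlinarith
  have h3 := mul_le_mul_of_nonneg_right h2 (norm_nonneg z)
  simp only [wt, mo, one_mul, Real.sqrt_mul h0.le]
  linarith

theorem D_shift {F : E n → ℝ} (hF : PG F) (m : E n) (σ c : ℝ) (i : Fin n) :
    D i (fun z => F (m + σ • z) - c) = fun z => σ * D i F (m + σ • z) := by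
  rw [D_sub i (hF.affine m σ).diff (differentiable_const c), D_const, D_affine i hF.diff]
  simp only [sub_zero]

theorem D_sc {F : E n → ℝ} (hF : PG F) (m : E n) (σ c : ℝ) (i : Fin n) :
    D i (fun z => c * F (m + σ • z)) = fun z => c * σ * D i F (m + σ • z) := by
  rw [D_const_mul i c (hF.affine m σ).diff, D_affine i hF.diff]
  simp only [mul_assoc]

theorem fin {x c s t C K : ℝ} (hs : 0 < s) (ht : 0 < t) (hK : 0 ≤ K) (hc : c ≤ C)
    (h : |s * t ^ 2 * x| ≤ K * t * c) : |x| ≤ C * K / (s * t) := by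
  rw [abs_mul, abs_of_pos (by positivity)] at h
  rw [le_div_iff₀ (by positivity)]
  have h1 : K * t * c ≤ K * t * C := mul_le_mul_of_nonneg_left hc (by positivity)
  refine le_of_mul_le_mul_left ?_ ht
  nlinarith

end GaussX
open GaussX

/-- `σ E (∂_i g)(m + σ Z) = E Z_i g(m + σ Z)` (`GE_D`, `D_affine`) -/
theorem smooth1 (n : ℕ) : ∃ C : ℝ, 0 < C ∧ ∀ (g : E n → ℝ) (m : E n) (σ M : ℝ) (i : Fin n),
    PG g → 0 < σ → (∀ y, |g y| ≤ M) → |GE fun z => D i g (m + σ • z)| ≤ C * M / σ := by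
  obtain ⟨C, hC, hc⟩ := uni (fun i : Fin n => GaussX.cc (He i fun _ => 1) fun _ => 1)
    fun i => cc_nonneg _ fun _ => zero_le_one
  refine ⟨C, hC, fun g m σ M i hg hσ hM => ?_⟩
  have h0 : 0 ≤ M := (abs_nonneg _).trans (hM 0)
  have h1 := step0 (hg.affine m σ) i
  rw [D_affine i hg.diff, GE_const_mul] at h1
  have h2 := bnd (G := fun z => g (m + σ • z)) (pg_He (pg_const 1) i) (cpb_const 1) (a := M)
    fun z => by simpa using hM _
  rw [← h1, abs_mul, abs_of_pos hσ] at h2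
  rw [le_div_iff₀ hσ]
  have h3 := mul_le_mul_of_nonneg_left (hc i) h0
  linarith

/-- Replace `F` by `G z = F (m + σ z) - F m`; `σ² E ∂_i∂_j F = E (Z_i Z_j - δ_ij) G(Z)` by two
uses of `GE_D`, and `|G z| ≤ K mo (σ |z|) ≤ K · 2 √σ · mo |z|` (`mo_mul_le`, `σ ≤ √σ`). -/
theorem smooth2 (n : ℕ) : ∃ C : ℝ, 0 < C ∧ ∀ (F : E n → ℝ) (m : E n) (σ K : ℝ) (i j : Fin n),
    PG F → 0 < σ → σ ≤ 1 → 0 ≤ K → (∀ y, |F y - F m| ≤ K * mo ‖y - m‖) →
      |GE fun z => D i (D j F) (m + σ • z)| ≤ C * K / (σ * Real.sqrt σ) := by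
  obtain ⟨C, hC, hc⟩ := uni
    (fun a : Fin n × Fin n => GaussX.cc (He a.2 (He a.1 fun _ => 1)) wt)
    fun i => cc_nonneg _ wt_nonneg
  refine ⟨C, hC, fun F m σ K i j hF hσ h1 hK h => ?_⟩
  have hG : PG fun z => F (m + σ • z) - F m := (hF.affine m σ).sub (pg_const _)
  have e1 := step0 (hG.D j) i
  rw [step (pg_He (pg_const 1) i) hG j, D_shift hF, D_sc (hF.D j), GE_const_mul] at e1
  have h2 := bnd (pg_He (pg_He (pg_const 1) i) j) cpb_wt (small hσ h1 hK h)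
  rw [← e1] at h2
  refine fin hσ (Real.sqrt_pos.2 hσ) hK (hc (i, j)) ?_
  rwa [Real.sq_sqrt hσ.le]

/-- same with three derivatives and the cubic Hermite polynomial -/
theorem smooth3 (n : ℕ) : ∃ C : ℝ, 0 < C ∧ ∀ (F : E n → ℝ) (m : E n) (σ K : ℝ) (i j k : Fin n),
    PG F → 0 < σ → σ ≤ 1 → 0 ≤ K → (∀ y, |F y - F m| ≤ K * mo ‖y - m‖) →
      |GE fun z => D i (D j (D k F)) (m + σ • z)| ≤ C * K / (σ ^ 2 * Real.sqrt σ) := by
  obtain ⟨C, hC, hc⟩ := uni
    (fun a : Fin n × Fin n × Fin n => GaussX.cc (He a.2.2 (He a.2.1 (He a.1 fun _ => 1))) wt)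
    fun i => cc_nonneg _ wt_nonneg
  refine ⟨C, hC, fun F m σ K i j k hF hσ h1 hK h => ?_⟩
  have hG : PG fun z => F (m + σ • z) - F m := (hF.affine m σ).sub (pg_const _)
  have e1 := step0 ((hG.D k).D j) i
  rw [step (pg_He (pg_const 1) i) (hG.D k) j, step (pg_He (pg_He (pg_const 1) i) j) hG k,
    D_shift hF, D_sc (hF.D k), D_sc ((hF.D k).D j), GE_const_mul] at e1
  have h2 := bnd (pg_He (pg_He (pg_He (pg_const 1) i) j) k) cpb_wt (small hσ h1 hK h)
  rw [← e1] at h2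
  refine fin (pow_pos hσ 2) (Real.sqrt_pos.2 hσ) hK (hc (i, j, k)) ?_
  rwa [Real.sq_sqrt hσ.le, pow_two]

end Vale.Agent.P227
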