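import Vale.Agent.P227.Ibp

/-! Standard Gaussian expectation. -/

namespace Vale.Agent.P227

open scoped ContDiff Matrix RealInnerProductSpace Topology
open MeasureTheory Filter

variable {n : ℕ}

variable {f g : E n → ℝ}

theorem coer_gW : Coer (gW : E n → ℝ) :=
  ⟨1 / 2, 0, by norm_num, fun x => by rw [gW]; linarith⟩
theorem ev_gW : Ev (gW : E n → ℝ) := fun x => by simp only [gW, norm_neg]
theorem GE_const (c : ℝ) : GE (fun _ : E n => c) = c := by
  have h := Ex_one_pos (coer_gW (n := n)) smo_gW.continuous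
  rw [GE, Ex_const, mul_div_assoc, div_self h.ne', mul_one]
theorem GE_add (hf : CPB f) (hg : CPB g) : GE (fun z => f z + g z) = GE f + GE g := by
  simp only [GE]
  rw [Ex_add coer_gW smo_gW.continuous hf hg, add_div]
theorem GE_sub (hf : CPB f) (hg : CPB g) : GE (fun z => f z - g z) = GE f - GE g := by
  simp only [GE]
  rw [Ex_sub coer_gW smo_gW.continuous hf hg, sub_div]
theorem GE_const_mul (a : ℝ) (f : E n → ℝ) : GE (fun z => a * f z) = a * GE f := by
  simp only [GE]
  rw [Ex_const_mul, mul_div_assoc]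
theorem GE_sum {ι : Type*} (s : Finset ι) {F : ι → E n → ℝ} (h : ∀ a ∈ s, CPB (F a)) :
    GE (fun z => ∑ a ∈ s, F a z) = ∑ a ∈ s, GE (F a) := by
  simp only [GE]
  rw [Ex_sum coer_gW smo_gW.continuous s h, Finset.sum_div]
theorem GE_abs_le (hg : CPB g) (h : ∀ z, |f z| ≤ g z) : |GE f| ≤ GE g := by
  have h1 := Ex_one_pos (coer_gW (n := n)) smo_gW.continuous
  simp only [GE]
  rw [abs_div, abs_of_pos h1]
  exact div_le_div_of_nonneg_right (Ex_abs_le coer_gW smo_gW.continuous hg h) h1.le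
theorem GE_nonneg (h : ∀ z, 0 ≤ f z) : 0 ≤ GE f :=
  div_nonneg (Ex_nonneg _ h) (Ex_one_pos (coer_gW (n := n)) smo_gW.continuous).le
theorem GE_neg_arg (g : E n → ℝ) : GE (fun z => g (-z)) = GE g := by
  simp only [GE]
  rw [Ex_neg_arg _ _ ev_gW]
theorem GE_D (hg : PG g) (i : Fin n) : GE (D i g) = GE (fun z => z i * g z) := by
  simp only [GE]
  rw [Ex_D coer_gW sm_gW.pg hg i, D_gW]
  simp only [mul_comm]

end Vale.Agent.P227
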