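import Vale.Agent.P227.HbM

/-! Pointwise identities for a moment potential, part 1. Notation: τ = tau Θ, T k = hess (D k Θ). -/

namespace Vale.Agent.P227

open scoped ContDiff Matrix RealInnerProductSpace Topology
open MeasureTheory Filter

variable {n : ℕ}

variable {Θ W f φ : E n → ℝ}

namespace Ident

theorem key (τ σ : Mat n) (T : Fin n → Mat n) (hT : ∀ k i j, T k i j = T i k j) (i : Fin n) :
    ∑ j, (τ * T j * σ) i j = ∑ j, τ i j * (σ * T j).trace := by
  simp only [Matrix.mul_apply, Matrix.trace, Matrix.diag_apply, Finset.sum_mul, Finset.mul_sum]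
  calc ∑ j, ∑ b, ∑ a, τ i a * T j a b * σ b j = ∑ j, ∑ a, ∑ b, τ i a * T j a b * σ b j :=
        Finset.sum_congr rfl fun j _ => Finset.sum_comm
    _ = ∑ a, ∑ j, ∑ b, τ i a * T j a b * σ b j := Finset.sum_comm
    _ = ∑ a, ∑ b, ∑ j, τ i a * T j a b * σ b j :=
        Finset.sum_congr rfl fun j _ => Finset.sum_comm
    _ = _ := by
      refine Finset.sum_congr rfl fun a _ => Finset.sum_congr rfl fun b _ =>
        Finset.sum_congr rfl fun j _ => ?_
      rw [hT j a b]; ring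

theorem hT (hf : ContDiff ℝ ∞ f) (x : E n) (k i j : Fin n) :
    hess (D k f) x i j = hess (D i f) x k j := (hessD_sym hf x).1 k i j

end Ident
open Ident

theorem LPot.unit (h : LPot Θ W) (x : E n) : IsUnit (hess Θ x).det :=
  (Matrix.isUnit_iff_isUnit_det _).1 (h.pos x).isUnit
theorem LPot.tau_posDef (h : LPot Θ W) (x : E n) : (tau Θ x).PosDef := (h.pos x).inv
theorem LPot.tau_symm (h : LPot Θ W) (x : E n) : (tau Θ x).IsSymm :=
  psd_isSymm (h.tau_posDef x).posSemidef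
theorem LPot.tau_mul (h : LPot Θ W) (x : E n) : tau Θ x * hess Θ x = 1 :=
  Matrix.nonsing_inv_mul _ (h.unit x)
theorem LPot.mul_tau (h : LPot Θ W) (x : E n) : hess Θ x * tau Θ x = 1 :=
  Matrix.mul_nonsing_inv _ (h.unit x)
theorem LPot.msmo (h : LPot Θ W) : MSmo (tau Θ) := (msmo_hess h.sT).inv h.unit
theorem LPot.MD_tau (h : LPot Θ W) (k : Fin n) (x : E n) :
    MD k (tau Θ) x = -(tau Θ x * hess (D k Θ) x * tau Θ x) := by
  have := MD_inv k (msmo_hess h.sT) h.unit x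
  rw [MD_hess k h.sT] at this
  exact this
/-- Stein identity: `τ^{ij} W_j = x_i - τ^{ij} tr (τ T_j)` and
`∑_j ∂_j τ^{ij} = - τ^{ia} t_{abj} τ^{bj}` -/
theorem LPot.stein (h : LPot Θ W) (i : Fin n) (x : E n) :
    divW W (fun j => ent (tau Θ) i j) x = -x i := by
  have e1 : ∀ j, D j (ent (tau Θ) i j) x = -(tau Θ x * hess (D j Θ) x * tau Θ x) i j := by
    intro j
    rw [← MD_apply, h.MD_tau, Matrix.neg_apply]
  have e2 : ∑ j, tau Θ x i j * ∑ a, x a * hess Θ x a j = x i := by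
    have e3 : ∀ a, ∑ j, tau Θ x i j * hess Θ x a j = (1 : Mat n) i a := by
      intro a
      rw [← h.tau_mul x, Matrix.mul_apply]
      exact Finset.sum_congr rfl fun j _ => by rw [(hess_symm h.sT x).apply j a]
    calc ∑ j, tau Θ x i j * ∑ a, x a * hess Θ x a j
        = ∑ a, x a * ∑ j, tau Θ x i j * hess Θ x a j := by
          simp only [Finset.mul_sum]
          rw [Finset.sum_comm]
          exact Finset.sum_congr rfl fun a _ => Finset.sum_congr rfl fun j _ => by ring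
      _ = x i := by simp [e3, Matrix.one_apply]
  have e4 := key (tau Θ x) (tau Θ x) (fun j => hess (D j Θ) x) (hT h.sT x) i
  simp only [divW, e1, h.grad, mul_sub, Finset.sum_sub_distrib, Finset.sum_neg_distrib]
  simp only [ent]
  rw [e2, e4]
  ring

theorem Ident.div_mul (h : LPot Θ W) {g : Fin n → E n → ℝ} (hg : ∀ b, ContDiff ℝ ∞ (g b))
    (x : E n) : divW W (fun j y => ∑ b, g b y * tau Θ y b j) x =
      (∑ b, ∑ j, D j (g b) x * tau Θ x b j) - ∑ b, g b x * x b := by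
  have e1 : ∀ j, D j (fun y => ∑ b, g b y * tau Θ y b j) x =
      ∑ b, (D j (g b) x * tau Θ x b j + g b x * D j (ent (tau Θ) b j) x) := by
    intro j
    have := D_sum j Finset.univ (F := fun b y => g b y * ent (tau Θ) b j y)
      fun b _ => smo_diff ((hg b).mul (h.msmo b j))
    refine (congrFun this x).trans (Finset.sum_congr rfl fun b _ => ?_)
    rw [D_mul j (smo_diff (hg b)) (smo_diff (h.msmo b j))]
    rfl
  have e2 : ∀ b, g b x * x b =
      -∑ j, g b x * (D j (ent (tau Θ) b j) x - tau Θ x b j * D j W x) := by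
    intro b
    have := h.stein b x
    simp only [divW] at this
    rw [← Finset.mul_sum]
    change _ = -(g b x * ∑ j, (D j (ent (tau Θ) b j) x - ent (tau Θ) b j x * D j W x))
    rw [this]; ring
  simp only [divW, e1, e2, Finset.sum_mul, ← Finset.sum_sub_distrib, sub_neg_eq_add,
    ← Finset.sum_add_distrib]
  rw [Finset.sum_comm]
  exact Finset.sum_congr rfl fun b _ => Finset.sum_congr rfl fun j _ => by ring

theorem LPot.div_grad (h : LPot Θ W) (hf : ContDiff ℝ ∞ f) (x : E n) :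
    divW W (fun i y => ∑ a, tau Θ y i a * D a f y) x = Lop (tau Θ) f x := by
  have e : (fun i y => ∑ a, tau Θ y i a * D a f y) =
      fun j y => ∑ b, D b f y * tau Θ y b j := by
    funext j y
    exact Finset.sum_congr rfl fun b _ => by rw [(h.tau_symm y).apply j b, mul_comm]
  rw [e, div_mul h (fun b => smo_D b hf), Finset.sum_comm]
  simp only [Lop, rad]
  congr 1
  · exact Finset.sum_congr rfl fun i _ => Finset.sum_congr rfl fun j _ => by
      rw [(h.tau_symm x).apply i j, mul_comm]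
  · exact Finset.sum_congr rfl fun i _ => mul_comm _ _
theorem LPot.D_L (h : LPot Θ W) (hf : ContDiff ℝ ∞ f) (i : Fin n) :
    D i (Lop (tau Θ) f) = fun x => Lop (tau Θ) (D i f) x - D i f x -
      (tau Θ x * hess (D i Θ) x * tau Θ x * hess f x).trace := by
  rw [D_Lop i h.msmo hf]
  funext x
  have e : ∑ p, ∑ q, D i (ent (tau Θ) p q) x * D p (D q f) x =
      (MD i (tau Θ) x * hess f x).trace := sum_mul_eq_trace (hess_symm hf x)
  rw [e, h.MD_tau, Matrix.neg_mul, Matrix.trace_neg]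
  ring
theorem LPot.L_D (h : LPot Θ W) (i : Fin n) : Lop (tau Θ) (D i Θ) = fun x => -D i W x := by
  funext x
  rw [Lop_eq_trace _ (smo_D i h.sT), h.grad]
  simp only [rad, hess_apply]
  ring
/-- apply `D i` to `L_D j` and use `D_L` -/
theorem LPot.L_hess (h : LPot Θ W) (i j : Fin n) :
    Lop (tau Θ) (D i (D j Θ)) = fun x => hess Θ x i j - hess W x i j + Qm Θ x i j := by
  funext x
  have e := congrFun (h.D_L (smo_D j h.sT) i) x
  rw [h.L_D j, D_neg] at e
  simp only [hess_apply, Qm, Matrix.of_apply]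
  linarith
theorem LPot.MD_SS (h : LPot Θ W) (hφ : ContDiff ℝ ∞ φ) (k : Fin n) (x : E n) :
    MD k (SS Θ φ) x = dS (tau Θ x) (hess φ x) (hess (D k Θ) x) (hess (D k φ) x) := by
  have h1 := h.msmo
  have h2 := msmo_hess hφ
  unfold SS dS
  rw [MD_mul k (h1.mul h2) h1, MD_mul k h1 h2, h.MD_tau, MD_hess k hφ]
  noncomm_ring
theorem LPot.MD_MM (h : LPot Θ W) (hφ : ContDiff ℝ ∞ φ) (k : Fin n) (x : E n) :
    MD k (MM Θ φ) x = dM (tau Θ x) (hess φ x) (hess (D k Θ) x) (hess (D k φ) x) := by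
  have h1 := h.msmo
  have h2 := msmo_hess hφ
  unfold MM dM
  rw [MD_mul k (((h1.mul h2).mul h1).mul h2) h1, MD_mul k ((h1.mul h2).mul h1) h2,
    MD_mul k (h1.mul h2) h1, MD_mul k h1 h2, h.MD_tau, MD_hess k hφ]
  noncomm_ring
theorem LPot.D_uu (h : LPot Θ W) (hφ : ContDiff ℝ ∞ φ) (a : Fin n) (x : E n) :
    D a (uu Θ φ) x = Lop (tau Θ) (D a φ) x -
      (tau Θ x * hess (D a Θ) x * tau Θ x * hess φ x).trace := by
  unfold uu
  rw [D_add a (smo_diff (smo_Lop h.msmo hφ)) (smo_diff hφ), h.D_L hφ]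
  ring
/-- `S^{ij} = (τ φ'')^i_b τ^{bj}`: product rule, `stein`, `D_uu` -/
theorem LPot.div_S (h : LPot Θ W) (hφ : ContDiff ℝ ∞ φ) (i : Fin n) (x : E n) :
    divW W (fun j => ent (SS Θ φ) i j) x = -cc Θ φ i x := by
  have h1 := h.msmo
  have h2 := msmo_hess hφ
  have e : (fun j => ent (SS Θ φ) i j) =
      fun j y => ∑ b, ent (fun z => tau Θ z * hess φ z) i b y * tau Θ y b j := by
    funext j y
    simp only [ent, SS]
    rw [Matrix.mul_apply]
  rw [e, div_mul h (fun b => h1.mul h2 i b), Finset.sum_comm]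
  have e1 : ∀ j, ∑ b, D j (ent (fun z => tau Θ z * hess φ z) i b) x * tau Θ x b j =
      (tau Θ x * hess (D j φ) x * tau Θ x) i j -
        (tau Θ x * hess (D j Θ) x * (tau Θ x * hess φ x * tau Θ x)) i j := by
    intro j
    simp only [← MD_apply]
    rw [← Matrix.mul_apply, MD_mul j h1 h2, h.MD_tau, MD_hess j hφ, ← Matrix.sub_apply]
    refine congrFun (congrFun ?_ i) j
    noncomm_ring
  have e2 := key (tau Θ x) (tau Θ x) (fun j => hess (D j φ) x) (hT hφ x) i
  have e3 := key (tau Θ x) (tau Θ x * hess φ x * tau Θ x) (fun j => hess (D j Θ) x) (hT h.sT x) i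
  have e4 : ∀ a, (tau Θ x * hess φ x * tau Θ x * hess (D a Θ) x).trace =
      (tau Θ x * hess (D a Θ) x * tau Θ x * hess φ x).trace := by
    intro a
    rw [Matrix.mul_assoc (tau Θ x * hess φ x), Matrix.trace_mul_comm, ← Matrix.mul_assoc]
  have e5 : ∑ b, ent (fun z => tau Θ z * hess φ z) i b x * x b =
      ∑ a, tau Θ x i a * rad (D a φ) x := by
    simp only [ent, rad, Matrix.mul_apply, Finset.sum_mul, Finset.mul_sum]
    rw [Finset.sum_comm]
    refine Finset.sum_congr rfl fun a _ => Finset.sum_congr rfl fun b _ => ?_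
    rw [hess_apply, D_comm a b hφ]; ring
  simp only [e1, Finset.sum_sub_distrib]
  rw [e2, e3, e5]
  simp only [e4, cc, neg_neg, h.D_uu hφ, Lop_eq_trace _ (smo_D _ hφ), mul_sub,
    Finset.sum_sub_distrib]
  ring
theorem LPot.div_c (h : LPot Θ W) (hφ : ContDiff ℝ ∞ φ) (x : E n) :
    divW W (cc Θ φ) x = FF Θ φ x := by
  have hu : ContDiff ℝ ∞ (uu Θ φ) := (smo_Lop h.msmo hφ).add hφ
  unfold FF
  rw [← h.div_grad hu x]
  unfold cc divW
  rw [← Finset.sum_neg_distrib]
  refine Finset.sum_congr rfl fun i _ => ?_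
  rw [D_neg]
  ring
theorem Pot.ell (h : Pot Θ W) : ∃ c K : ℝ, 0 < c ∧ 0 < K ∧ Ell c K (tau Θ) := by
  obtain ⟨c, hc, h1⟩ := h.low
  obtain ⟨M, hM, h2⟩ := h.mT.n2 0
  have hK : 0 < n * M + 1 := by positivity
  refine ⟨1 / (n * M + 1), 1 / c, by positivity, by positivity, fun x => ?_⟩
  refine Ell1.inv ⟨hess_symm h.sT x, fun ξ => ⟨h1 x ξ, ?_⟩⟩ hc hK
  have h3 := (le_abs_self _).trans
    (abs_qf_le (A := hess Θ x) (fun i j => h2.abs_le i j x) ξ)
  nlinarith [sq_nonneg ‖ξ‖]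
theorem Pot.mbinf (h : Pot Θ W) : MBinf (tau Θ) := by
  obtain ⟨c, K, hc, -, h1⟩ := h.ell
  exact h.mT.mbinf.inv h.unit fun x i j => (h1 x).abs_le hc.le i j
theorem Pot.mpg (h : Pot Θ W) : MPG (tau Θ) := h.mbinf.mpg
theorem Pot.tau_neg (h : Pot Θ W) (x : E n) : tau Θ (-x) = tau Θ x := by
  unfold tau
  rw [h.eT.hess_neg h.sT]
theorem Pot.pg_uu (h : Pot Θ W) (hφ : PG φ) : PG (uu Θ φ) := (hφ.Lop h.mpg).add hφ
theorem Pot.pg_cc (h : Pot Θ W) (hφ : PG φ) (i : Fin n) : PG (cc Θ φ i) :=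
  (pg_sum _ fun a _ => (h.mpg i a).mul ((h.pg_uu hφ).D a)).neg
theorem Pot.pg_FF (h : Pot Θ W) (hφ : PG φ) : PG (FF Θ φ) := ((h.pg_uu hφ).Lop h.mpg).neg
theorem Pot.mpg_SS (h : Pot Θ W) (hφ : PG φ) : MPG (SS Θ φ) := (h.mpg.mul hφ.hess).mul h.mpg
theorem Pot.mpg_MM (h : Pot Θ W) (hφ : PG φ) : MPG (MM Θ φ) :=
  (((h.mpg.mul hφ.hess).mul h.mpg).mul hφ.hess).mul h.mpg

end Vale.Agent.P227
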