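import Vale.Agent.P227.Ibp
import Vale.Agent.P227.Ident

/-! Green and Bochner identities for L. -/

namespace Vale.Agent.P227

open scoped ContDiff Matrix RealInnerProductSpace Topology
open MeasureTheory Filter

variable {n : ℕ}

variable {Θ W f g : E n → ℝ}

namespace Green

theorem nest4 (F : Fin n → Fin n → Fin n → Fin n → ℝ) : ∑ a, ∑ b, ∑ c, ∑ d, F a b c d =
    ∑ x : Fin n × Fin n × Fin n × Fin n, F x.1 x.2.1 x.2.2.1 x.2.2.2 := by
  simp only [Fintype.sum_prod_type]

theorem nest6 (F : Fin n → Fin n → Fin n → Fin n → Fin n → Fin n → ℝ) :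
    ∑ a, ∑ b, ∑ c, ∑ d, ∑ e, ∑ f, F a b c d e f =
      ∑ x : Fin n × Fin n × Fin n × Fin n × Fin n × Fin n,
        F x.1 x.2.1 x.2.2.1 x.2.2.2.1 x.2.2.2.2.1 x.2.2.2.2.2 := by
  simp only [Fintype.sum_prod_type]

theorem alg1 {τ H : Mat n} (hτ : τ.IsSymm) (hH : H.IsSymm) :
    ∑ k, ∑ p, ∑ q, τ p q * (∑ l, τ k l * H p l) * H q k = (τ * H * τ * H).trace := by
  have t1 : ∀ i j, τ i j = τ j i := fun i j => hτ.apply j i
  have h1 : ∀ i j, H i j = H j i := fun i j => hH.apply j i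
  simp only [Matrix.trace, Matrix.diag, Matrix.mul_apply, Finset.mul_sum, Finset.sum_mul]
  rw [nest4, nest4]
  refine Fintype.sum_equiv ⟨fun (k, p, q, l) => (q, k, l, p), fun (q, k, l, p) => (k, p, q, l),
    fun _ => rfl, fun _ => rfl⟩ _ _ ?_
  rintro ⟨k, p, q, l⟩
  simp only [Equiv.coe_fn_mk, t1, h1, mul_comm, mul_left_comm]

theorem alg2 {τ H : Mat n} {T : Fin n → Mat n} (hτ : τ.IsSymm)
    (hT : Sym3 fun k i j => T k i j) (g : Fin n → ℝ) :
    ∑ k, ∑ p, ∑ q, τ p q * (∑ l, (τ * T p * τ) k l * g l) * H q k =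
      ∑ k, ∑ l, τ k l * g l * (τ * T k * τ * H).trace := by
  have t1 : ∀ i j, τ i j = τ j i := fun i j => hτ.apply j i
  have s1 : ∀ i j k, T i j k = T j i k := hT.1
  have s2 : ∀ i j k, T i j k = T i k j := hT.2
  simp only [Matrix.trace, Matrix.diag, Matrix.mul_apply, Finset.mul_sum, Finset.sum_mul]
  rw [nest6, nest6]
  refine Fintype.sum_equiv ⟨fun (k, p, q, l, c, a) => (c, l, k, q, p, a),
    fun (c, l, k, q, p, a) => (k, p, q, l, c, a), fun _ => rfl, fun _ => rfl⟩ _ _ ?_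
  rintro ⟨k, p, q, l, c, a⟩
  simp only [Equiv.coe_fn_mk, t1, s1, s2, mul_comm, mul_left_comm]

theorem pg_b (h : Pot Θ W) (hg : PG g) (i : Fin n) :
    PG fun y => ∑ a, tau Θ y i a * D a g y :=
  pg_sum _ fun a _ => (h.mpg i a).mul (hg.D a)

end Green

theorem Pot.green (h : Pot Θ W) (hW : Coer W) (hf : PG f) (hg : PG g) :
    Ex W (fun x => f x * Lop (tau Θ) g x) = -Ex W (Gam (tau Θ) f g) := by
  have := Ex_div hW h.mW.pg (Green.pg_b h hg) hf
  simp only [h.toLPot.div_grad hg.smo] at this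
  rw [this]
  refine congrArg (fun u => -Ex W u) (funext fun x => ?_)
  simp only [Gam, Finset.sum_mul]
  exact Finset.sum_congr rfl fun i _ => Finset.sum_congr rfl fun a _ => by ring

theorem Pot.Ex_L (h : Pot Θ W) (hW : Coer W) (hg : PG g) : Ex W (Lop (tau Θ) g) = 0 := by
  have := h.green hW (pg_const 1) hg
  simpa [Gam, D_const, Ex] using this

/-- `E (Lg)² = -E τ^{kl} ∂_k(Lg) g_l`; insert `D_L`; with `b_k = τ^{kl} g_l`,
`-E b_k L g_k = E Gam b_k g_k` (green); the two terms containing `T` cancel by symmetry of `t`. -/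
theorem Pot.bochner (h : Pot Θ W) (hW : Coer W) (hg : PG g) :
    Ex W (fun x => Lop (tau Θ) g x ^ 2) =
      Ex W (fun x => (tau Θ x * hess g x * tau Θ x * hess g x).trace) +
        Ex W (Gam (tau Θ) g g) := by
  have cW := h.sW.continuous
  have hL := hg.Lop h.mpg
  have hb := Green.pg_b h hg
  have p1 := fun k => (hb k).mul ((hg.D k).Lop h.mpg)
  have p2 := fun k => (hb k).Gam (hg.D k) h.mpg
  have p3 : PG fun x => (tau Θ x * hess g x * tau Θ x * hess g x).trace :=
    (((h.mpg.mul hg.hess).mul h.mpg).mul hg.hess).trace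
  have p4 := hg.Gam hg h.mpg
  have e1 := h.green hW hL hg
  have e2 : Ex W (fun x => ∑ k, ((∑ a, tau Θ x k a * D a g x) * Lop (tau Θ) (D k g) x +
      Gam (tau Θ) (fun y => ∑ a, tau Θ y k a * D a g y) (D k g) x)) = 0 := by
    rw [Ex_sum hW cW _ fun k _ => ((p1 k).add (p2 k)).cpb]
    refine Finset.sum_eq_zero fun k _ => ?_
    rw [Ex_add hW cW (p1 k).cpb (p2 k).cpb, h.green hW (hb k) (hg.D k), neg_add_cancel]
  have e3 : (fun x => ∑ k, ((∑ a, tau Θ x k a * D a g x) * Lop (tau Θ) (D k g) x +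
      Gam (tau Θ) (fun y => ∑ a, tau Θ y k a * D a g y) (D k g) x)) = fun x =>
      Gam (tau Θ) (Lop (tau Θ) g) g x +
        ((tau Θ x * hess g x * tau Θ x * hess g x).trace + Gam (tau Θ) g g x) := by
    funext x
    have d1 : ∀ k p, D p (fun y => ∑ a, tau Θ y k a * D a g y) x =
        ∑ l, tau Θ x k l * hess g x p l -
          ∑ l, (tau Θ x * hess (D p Θ) x * tau Θ x) k l * D l g x := fun k p => by
      change D p (fun y => ∑ a, ent (tau Θ) k a y * D a g y) x = _
      rw [D_sum p _ fun a _ => ((h.mpg k a).mul (hg.D a)).diff, ← Finset.sum_sub_distrib]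
      refine Finset.sum_congr rfl fun l _ => ?_
      rw [D_mul p (h.mpg k l).diff (hg.D l).diff]
      beta_reduce
      rw [← MD_apply, h.toLPot.MD_tau, Matrix.neg_apply, hess_apply, ent]
      ring
    have a1 := Green.alg1 (h.toLPot.tau_symm x) (hess_symm hg.smo x)
    have a2 := Green.alg2 (H := hess g x) (h.toLPot.tau_symm x) (hessD_sym h.sT x)
      fun l => D l g x
    simp only [Gam, d1, h.toLPot.D_L hg.smo, ← hess_apply, mul_sub, sub_mul,
      Finset.sum_add_distrib, Finset.sum_sub_distrib, a1, a2]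
    have c : ∀ F : Fin n → ℝ, ∑ k, ∑ l, tau Θ x k l * F k * D l g x =
        ∑ k, ∑ l, tau Θ x k l * D l g x * F k := fun F =>
      Finset.sum_congr rfl fun k _ => Finset.sum_congr rfl fun l _ => mul_right_comm _ _ _
    rw [c fun k => Lop (tau Θ) (D k g) x,
      c fun k => (tau Θ x * hess (D k Θ) x * tau Θ x * hess g x).trace]
    simp only [Finset.sum_mul]
    ring
  rw [e3, Ex_add hW cW (hL.Gam hg h.mpg).cpb (p3.add p4).cpb, Ex_add hW cW p3.cpb p4.cpb] at e2
  simp only [sq]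
  linarith

end Vale.Agent.P227
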