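import Vale.Agent.P227.HbA0

/-! The scales Hs, N2; halving. -/

namespace Vale.Agent.P227

open scoped ContDiff Matrix RealInnerProductSpace Topology
open MeasureTheory Filter

variable {n : ℕ}

variable {f g : E n → ℝ} {k : ℕ} {M M' : ℝ}

theorem Hs.mono (h : Hs k M f) (hM : M ≤ M') : Hs k M' f := by
  cases k with
  | zero => exact Hol.mono h hM
  | succ k => exact ⟨Hol.mono h.1 hM, fun i => (h.2 i).mono hM⟩
theorem Hs.hol (h : Hs k M f) : Hol M f := by
  cases k with
  | zero => exact h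
  | succ k => exact h.1
theorem Hs.of_succ (h : Hs (k + 1) M f) : Hs k M f := by
  cases k with
  | zero => exact h.1
  | succ k => exact ⟨h.1, fun i => (h.2 i).of_le (Nat.le_succ k)⟩
theorem Hs.add (hf : Hs k M f) (hg : Hs k M' g) (sf : ContDiff ℝ ∞ f) (sg : ContDiff ℝ ∞ g) :
    Hs k (M + M') (fun x => f x + g x) := by
  cases k with
  | zero => exact Hol.add hf hg
  | succ k =>
    refine ⟨Hol.add hf.1 hg.1, fun i => ?_⟩
    rw [D_add i (smo_diff sf) (smo_diff sg)]
    exact (hf.2 i).add (hg.2 i)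
/-- first derivatives of a function with `N2` bounds -/
theorem N2.hs_D (h : N2 k M f) (hf : ContDiff ℝ ∞ f) (hM : 0 ≤ M) (i : Fin n) :
    Hs (k + 1) ((n + 1) * M) (D i f) := by
  have h0 : (0 : ℝ) ≤ n * M := by positivity
  exact ⟨(hol_of_D (smo_diff (smo_D i hf)) hM fun p x => (h p i).abs_le x).mono (by linarith),
    fun p => (h p i).mono (by linarith)⟩
theorem Hs.of_le {k' : ℕ} (h : Hs k M f) (hk : k' ≤ k) : Hs k' M f := by
  induction hk with
  | refl => exact h
  | step _ ih => exact ih h.of_succ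
theorem N2.mono (h : N2 k M f) (hM : M ≤ M') : N2 k M' f := fun i j => (h i j).mono hM
theorem N2.of_le {k' : ℕ} (h : N2 k M f) (hk : k' ≤ k) : N2 k' M f := fun i j => (h i j).of_le hk
theorem N2.abs_le (h : N2 k M f) (i j : Fin n) (x : E n) : |D i (D j f) x| ≤ M := (h i j).abs_le x
theorem N2.abs_le3 (h : N2 (k + 1) M f) (p i j : Fin n) (x : E n) :
    |D p (D i (D j f)) x| ≤ M := ((h i j).D p).abs_le x
theorem N2.D (h : N2 (k + 1) M f) (i : Fin n) : N2 k M (D i f) := fun a b => (h b i).D a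
theorem N2.add (hf : N2 k M f) (hg : N2 k M' g) (sf : ContDiff ℝ ∞ f) (sg : ContDiff ℝ ∞ g) :
    N2 k (M + M') (fun x => f x + g x) := by
  intro i j
  rw [D_add j (smo_diff sf) (smo_diff sg), D_add i (smo_diff (smo_D j sf)) (smo_diff (smo_D j sg))]
  exact (hf i j).add (hg i j)
theorem N2.sub (hf : N2 k M f) (hg : N2 k M' g) (sf : ContDiff ℝ ∞ f) (sg : ContDiff ℝ ∞ g) :
    N2 k (M + M') (fun x => f x - g x) := by
  intro i j
  rw [D_sub j (smo_diff sf) (smo_diff sg), D_sub i (smo_diff (smo_D j sf)) (smo_diff (smo_D j sg))]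
  exact (hf i j).sub (hg i j)
theorem N2.neg (hf : N2 k M f) : N2 k M (fun x => -f x) := by
  intro i j
  rw [D_neg, D_neg]
  exact (hf i j).neg
theorem N2.const_mul (hf : N2 k M f) (sf : ContDiff ℝ ∞ f) (a : ℝ) :
    N2 k (|a| * M) (fun x => a * f x) := by
  intro i j
  rw [D_const_mul j a (smo_diff sf), D_const_mul i a (smo_diff (smo_D j sf))]
  exact (hf i j).const_mul a
theorem Hb.n2 (h : Hb (k + 2) M f) : N2 k M f := fun i j => (h.D j).D i
theorem n2_of_D (h : ∀ j, Hb (k + 1) M (D j f)) : N2 k M f := fun i j => (h j).D i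
theorem n2_of_forall (h : ∀ ε, 0 < ε → N2 k (M + ε) f) : N2 k M f := fun i j => hb_of_forall fun ε hε => h ε hε i j
theorem n2_succ_of (hf : ContDiff ℝ ∞ f) (hM' : 0 ≤ M') (h0 : ∀ i j x, |D i (D j f) x| ≤ M)
    (h1 : ∀ i, N2 k M' (D i f)) : N2 (k + 1) (M + (n + 1) * M') f := fun i j => hb_succ_of (smo_D i (smo_D j hf)) hM' (h0 i j) fun p => h1 j p i
theorem n2_iff_mhb : N2 k M f ↔ MHb k M (hess f) := Iff.rfl
/-- absorption principle: iterate `B ↦ B / 2 + c` -/
theorem halving {Q : ℝ → Prop} {B c : ℝ} (mono : ∀ a b, a ≤ b → Q a → Q b) (hB : 0 ≤ B)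
    (h0 : Q B) (step : ∀ a, 0 ≤ a → Q a → Q (a / 2 + c)) (hc : 0 ≤ c) :
    ∀ ε, 0 < ε → Q (2 * c + ε) := by
  intro ε hε
  have h : ∀ m : ℕ, Q (B * (1 / 2) ^ m + 2 * c) := by
    intro m
    induction m with
    | zero => exact mono _ _ (by linarith) h0
    | succ m ih => exact mono _ _ (le_of_eq (by ring)) (step _ (by positivity) ih)
  obtain ⟨m, hm⟩ := exists_pow_lt_of_lt_one (div_pos hε (by linarith : 0 < B + 1))
    (one_half_lt_one (α := ℝ))
  rw [lt_div_iff₀ (by linarith)] at hm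
  have h2 : (0 : ℝ) < (1 / 2) ^ m := by positivity
  exact mono _ _ (by nlinarith) (h m)

end Vale.Agent.P227
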