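import Vale.Agent.P227.Calc

/-! The scale Hb: algebra and interpolation. -/

namespace Vale.Agent.P227

open scoped ContDiff Matrix RealInnerProductSpace Topology
open MeasureTheory Filter

variable {n : ℕ}

variable {f g : E n → ℝ} {k : ℕ} {M M' : ℝ}

theorem mo_nonneg {d : ℝ} (hd : 0 ≤ d) : 0 ≤ mo d := add_nonneg (Real.sqrt_nonneg d) hd
theorem le_mo {d : ℝ} : d ≤ mo d := le_add_of_nonneg_left (Real.sqrt_nonneg d)
theorem sqrt_le_mo {d : ℝ} (hd : 0 ≤ d) : Real.sqrt d ≤ mo d := le_add_of_nonneg_right hd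
theorem mo_mono {d d' : ℝ} (h : d ≤ d') : mo d ≤ mo d' := add_le_add (Real.sqrt_le_sqrt h) h
theorem mo_mul_le {a d : ℝ} (ha : 0 ≤ a) (hd : 0 ≤ d) : mo (a * d) ≤ mo a * mo d := by
  unfold mo
  rw [Real.sqrt_mul ha]
  have h1 := mul_nonneg (Real.sqrt_nonneg a) hd
  have h2 := mul_nonneg ha (Real.sqrt_nonneg d)
  nlinarith
theorem mo_small {K om : ℝ} (hom : 0 < om) : ∃ r, 0 < r ∧ ∀ d, 0 ≤ d → d ≤ r → K * mo d ≤ om := by
  have hc : Continuous fun d : ℝ => K * mo d := by unfold mo; fun_prop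
  have h0 : (fun d : ℝ => K * mo d) 0 < om := by simpa [mo] using hom
  obtain ⟨r, hr, h⟩ := Metric.eventually_nhds_iff.1 (hc.continuousAt.eventually_lt
    continuousAt_const h0)
  refine ⟨r / 2, by positivity, fun d hd hdr => (h ?_).le⟩
  rw [Real.dist_eq, sub_zero, abs_of_nonneg hd]
  linarith
theorem Hol.mono (h : Hol M f) (hM : M ≤ M') : Hol M' f := fun x y =>
  (h x y).trans (mul_le_mul_of_nonneg_right hM (mo_nonneg (norm_nonneg _)))
theorem Hol.add (hf : Hol M f) (hg : Hol M' g) : Hol (M + M') (fun x => f x + g x) := by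
  intro x y
  have h1 := hf x y
  have h2 := hg x y
  have h3 := abs_add_le (f x - f y) (g x - g y)
  have e : f x + g x - (f y + g y) = f x - f y + (g x - g y) := by ring
  simp only [e]
  linarith
theorem Hol.sub (hf : Hol M f) (hg : Hol M' g) : Hol (M + M') (fun x => f x - g x) := by
  intro x y
  have h1 := hf x y
  have h2 := hg x y
  have h3 := abs_sub (f x - f y) (g x - g y)
  have e : f x - g x - (f y - g y) = f x - f y - (g x - g y) := by ring
  simp only [e]
  linarith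
theorem hol_of_D (hf : Differentiable ℝ f) (hM : 0 ≤ M) (h : ∀ i x, |D i f x| ≤ M) :
    Hol (n * M) f := fun x y =>
  (lip_of_D hf h x y).trans (mul_le_mul_of_nonneg_left le_mo (by positivity))
/-- if `√d ≤ ε` use the Lipschitz bound, otherwise the sup bound -/
theorem hol_interp {L ε : ℝ} (hf : Differentiable ℝ f) (hε : 0 < ε) (hL : 0 ≤ L)
    (h0 : ∀ x, |f x| ≤ M) (h1 : ∀ i x, |D i f x| ≤ L) : Hol (ε * (n * L) + 2 * M / ε) f := by
  intro x y
  have hM : 0 ≤ M := (abs_nonneg _).trans (h0 x)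
  have hd : 0 ≤ ‖x - y‖ := norm_nonneg _
  have hs := sqrt_le_mo hd
  have hs0 := Real.sqrt_nonneg ‖x - y‖
  have hm := mo_nonneg hd
  have hA : 0 ≤ ε * (n * L) := by positivity
  have hB : 0 ≤ 2 * M / ε := by positivity
  rw [add_mul]
  rcases le_total (Real.sqrt ‖x - y‖) ε with h | h
  · have h2 := lip_of_D hf h1 x y
    have h3 : ‖x - y‖ ≤ ε * mo ‖x - y‖ := by
      calc ‖x - y‖ = Real.sqrt ‖x - y‖ * Real.sqrt ‖x - y‖ := (Real.mul_self_sqrt hd).symm
        _ ≤ ε * mo ‖x - y‖ := mul_le_mul h hs hs0 hε.le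
    have h4 : (n * L) * ‖x - y‖ ≤ (n * L) * (ε * mo ‖x - y‖) :=
      mul_le_mul_of_nonneg_left h3 (by positivity)
    have h5 := mul_nonneg hB hm
    nlinarith
  · have h2 : |f x - f y| ≤ 2 * M := by
      have := abs_sub (f x) (f y)
      linarith [h0 x, h0 y]
    have h3 : 2 * M = 2 * M / ε * ε := by field_simp
    have h4 : 2 * M / ε * ε ≤ 2 * M / ε * mo ‖x - y‖ := mul_le_mul_of_nonneg_left (h.trans hs) hB
    have h5 := mul_nonneg hA hm
    linarith
/-- mean value theorem on the segment from `x` to `x + r • ev i` -/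
theorem deriv_small {x : E n} {a om r K : ℝ} {i : Fin n} (hf : Differentiable ℝ f) (hr : 0 < r)
    (hK : 0 ≤ K) (h0 : ∀ y, ‖y - x‖ ≤ r → |f y - a| ≤ om) (h1 : Hol K (D i f)) :
    |D i f x| ≤ 2 * om / r + K * mo r := by
  have hd : ∀ s : ℝ, HasDerivAt (fun t : ℝ => f (x + t • ev i)) (D i f (x + s • ev i)) s := by
    intro s
    have := hasDerivAt_line hf x (ev i) s
    rwa [← pd_eq_sum] at this
  obtain ⟨c, hc, e⟩ := exists_hasDerivAt_eq_slope (fun t : ℝ => f (x + t • ev i))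
    (fun s => D i f (x + s • ev i)) hr
    (fun s _ => (hd s).continuousAt.continuousWithinAt) (fun s _ => hd s)
  have hn : ∀ t : ℝ, 0 ≤ t → ‖x + t • ev i - x‖ = t := fun t ht => by
    rw [add_sub_cancel_left, norm_smul, norm_ev, mul_one, Real.norm_eq_abs, abs_of_nonneg ht]
  have a1 := h0 (x + r • ev i) (hn r hr.le).le
  have a2 := h0 (x + (0 : ℝ) • ev i) ((hn 0 le_rfl).le.trans hr.le)
  have a3 : |D i f (x + c • ev i)| ≤ 2 * om / r := by
    rw [e, sub_zero, abs_div, abs_of_pos hr]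
    refine div_le_div_of_nonneg_right ?_ hr.le
    have := abs_sub (f (x + r • ev i) - a) (f (x + (0 : ℝ) • ev i) - a)
    rw [sub_sub_sub_cancel_right] at this
    linarith
  have a4 := h1 (x + c • ev i) x
  rw [hn c hc.1.le] at a4
  have a5 : K * mo c ≤ K * mo r := mul_le_mul_of_nonneg_left (mo_mono hc.2.le) hK
  have a6 := abs_sub (D i f (x + c • ev i)) (D i f (x + c • ev i) - D i f x)
  rw [sub_sub_cancel] at a6
  linarith
theorem Hb.h0 (h : Hb k M f) : H0 M f := by
  cases k with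
  | zero => exact h
  | succ k => exact h.1
theorem Hb.smo (h : Hb k M f) : ContDiff ℝ ∞ f := h.h0.1
theorem Hb.abs_le (h : Hb k M f) (x : E n) : |f x| ≤ M := h.h0.2.1 x
theorem Hb.hol (h : Hb k M f) : Hol M f := h.h0.2.2
theorem Hb.nonneg (h : Hb k M f) : 0 ≤ M := (abs_nonneg _).trans (h.abs_le 0)
theorem Hb.D (h : Hb (k + 1) M f) (i : Fin n) : Hb k M (D i f) := h.2 i

namespace HbA0

theorem h0_mono (h : H0 M f) (hM : M ≤ M') : H0 M' f :=
  ⟨h.1, fun x => (h.2.1 x).trans hM, h.2.2.mono hM⟩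

theorem h0_add (hf : H0 M f) (hg : H0 M' g) : H0 (M + M') (fun x => f x + g x) :=
  ⟨hf.1.add hg.1, fun x => (abs_add_le _ _).trans (add_le_add (hf.2.1 x) (hg.2.1 x)),
    hf.2.2.add hg.2.2⟩

theorem h0_const_mul (hf : H0 M f) (a : ℝ) : H0 (|a| * M) (fun x => a * f x) := by
  refine ⟨contDiff_const.mul hf.1, fun x => ?_, fun x y => ?_⟩
  · rw [abs_mul]
    exact mul_le_mul_of_nonneg_left (hf.2.1 x) (abs_nonneg a)
  · beta_reduce
    rw [← mul_sub, abs_mul, mul_assoc]
    exact mul_le_mul_of_nonneg_left (hf.2.2 x y) (abs_nonneg a)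

theorem h0_mul (hf : H0 M f) (hg : H0 M' g) : H0 (2 * M * M') (fun x => f x * g x) := by
  have hM : 0 ≤ M := (abs_nonneg _).trans (hf.2.1 0)
  have hM' : 0 ≤ M' := (abs_nonneg _).trans (hg.2.1 0)
  refine ⟨hf.1.mul hg.1, fun x => ?_, fun x y => ?_⟩
  · rw [abs_mul]
    have := mul_le_mul (hf.2.1 x) (hg.2.1 x) (abs_nonneg _) hM
    have := mul_nonneg hM hM'
    linarith
  · have e : f x * g x - f y * g y = f x * (g x - g y) + g y * (f x - f y) := by ring
    have h1 := mul_le_mul (hf.2.1 x) (hg.2.2 x y) (abs_nonneg _) hM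
    have h2 := mul_le_mul (hg.2.1 y) (hf.2.2 x y) (abs_nonneg _) hM'
    have h3 := abs_add_le (f x * (g x - g y)) (g y * (f x - f y))
    rw [abs_mul, abs_mul] at h3
    simp only [e]
    linarith

theorem h0_of_forall (h : ∀ ε, 0 < ε → H0 (M + ε) f) : H0 M f := by
  refine ⟨(h 1 one_pos).1, fun x => le_of_forall_pos_le_add fun ε hε => (h ε hε).2.1 x,
    fun x y => le_of_forall_pos_le_add fun ε hε => ?_⟩
  have hm := mo_nonneg (norm_nonneg (x - y))
  have h1 := (h (ε / (mo ‖x - y‖ + 1)) (by positivity)).2.2 x y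
  have h2 : ε / (mo ‖x - y‖ + 1) * mo ‖x - y‖ ≤ ε := by
    rw [div_mul_eq_mul_div, div_le_iff₀ (by positivity)]
    nlinarith
  rw [add_mul] at h1
  linarith

end HbA0
open HbA0

theorem Hb.mono (h : Hb k M f) (hM : M ≤ M') : Hb k M' f := by
  induction k generalizing f with
  | zero => exact h0_mono h hM
  | succ k ih => exact ⟨h0_mono h.1 hM, fun i => ih (h.2 i)⟩
theorem HbA0.of_succ (h : Hb (k + 1) M f) : Hb k M f := by
  induction k generalizing f with
  | zero => exact h.1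
  | succ k ih => exact ⟨h.1, fun i => ih (h.2 i)⟩
theorem Hb.of_le {k' : ℕ} (h : Hb k M f) (hk : k' ≤ k) : Hb k' M f := by
  induction hk with
  | refl => exact h
  | step _ ih => exact ih (of_succ h)
theorem Hb.hs (h : Hb k M f) : Hs k M f := by
  cases k with
  | zero => exact h.hol
  | succ k => exact ⟨h.hol, h.2⟩
theorem hb_const (k : ℕ) {c : ℝ} (hc : |c| ≤ M) : Hb k M (fun _ : E n => c) := by
  have hM : 0 ≤ M := (abs_nonneg _).trans hc
  have h0 : ∀ c : ℝ, |c| ≤ M → H0 M (fun _ : E n => c) := fun c hc =>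
    ⟨contDiff_const, fun _ => hc, fun x y => by
      simpa using mul_nonneg hM (mo_nonneg (norm_nonneg (x - y)))⟩
  induction k generalizing c with
  | zero => exact h0 c hc
  | succ k ih =>
    refine ⟨h0 c hc, fun i => ?_⟩
    rw [D_const]
    exact ih (by simpa using hM)
theorem Hb.add (hf : Hb k M f) (hg : Hb k M' g) : Hb k (M + M') (fun x => f x + g x) := by
  induction k generalizing f g with
  | zero => exact h0_add hf hg
  | succ k ih =>
    refine ⟨h0_add hf.1 hg.1, fun i => ?_⟩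
    rw [D_add i (smo_diff hf.smo) (smo_diff hg.smo)]
    exact ih (hf.2 i) (hg.2 i)
theorem HbA0.cmul (hf : Hb k M f) (a : ℝ) : Hb k (|a| * M) (fun x => a * f x) := by
  induction k generalizing f with
  | zero => exact h0_const_mul hf a
  | succ k ih =>
    refine ⟨h0_const_mul hf.1 a, fun i => ?_⟩
    rw [D_const_mul i a (smo_diff hf.smo)]
    exact ih (hf.2 i)
theorem Hb.neg (hf : Hb k M f) : Hb k M (fun x => -f x) := by
  simpa using cmul hf (-1)
theorem Hb.sub (hf : Hb k M f) (hg : Hb k M' g) : Hb k (M + M') (fun x => f x - g x) := by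
  simpa only [sub_eq_add_neg] using hf.add hg.neg
theorem Hb.const_mul (hf : Hb k M f) (a : ℝ) : Hb k (|a| * M) (fun x => a * f x) := cmul hf a
theorem Hb.mul (hf : Hb k M f) (hg : Hb k M' g) :
    Hb k (2 ^ (k + 1) * M * M') (fun x => f x * g x) := by
  induction k generalizing f g with
  | zero => simpa using (show Hb 0 (2 * M * M') (fun x => f x * g x) from h0_mul hf hg)
  | succ k ih =>
    have hMM := mul_nonneg hf.nonneg hg.nonneg
    refine ⟨h0_mono (h0_mul hf.1 hg.1) ?_, fun i => ?_⟩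
    · have h1 : (2 : ℝ) ≤ 2 ^ (k + 1 + 1) := le_self_pow₀ (by norm_num) (by omega)
      rw [mul_assoc, mul_assoc]
      exact mul_le_mul_of_nonneg_right h1 hMM
    · rw [D_mul i (smo_diff hf.smo) (smo_diff hg.smo)]
      refine ((ih (hf.2 i) (of_succ hg)).add (ih (of_succ hf) (hg.2 i))).mono (le_of_eq ?_)
      ring
theorem hb_sum {ι : Type*} (s : Finset ι) {F : ι → E n → ℝ} (h : ∀ a ∈ s, Hb k M (F a)) :
    Hb k (s.card * M) (fun x => ∑ a ∈ s, F a x) := by
  classical
  induction s using Finset.induction_on with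
  | empty => simpa using hb_const (n := n) (M := 0) k (c := 0) (by simp)
  | insert a s ha ih =>
    simp only [Finset.sum_insert ha, Finset.card_insert_of_notMem ha]
    refine ((h a (Finset.mem_insert_self a s)).add
      (ih fun b hb => h b (Finset.mem_insert_of_mem hb))).mono (le_of_eq ?_)
    push_cast
    ring
theorem hb_sum2 {F : Fin n → Fin n → E n → ℝ} (h : ∀ p q, Hb k M (F p q)) :
    Hb k (n ^ 2 * M) (fun x => ∑ p, ∑ q, F p q x) := by
  refine (hb_sum Finset.univ fun p _ => hb_sum Finset.univ fun q _ => h p q).mono (le_of_eq ?_)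
  rw [Finset.card_univ, Fintype.card_fin]
  ring
theorem hb_of_forall (h : ∀ ε, 0 < ε → Hb k (M + ε) f) : Hb k M f := by
  induction k generalizing f with
  | zero => exact h0_of_forall h
  | succ k ih =>
    exact ⟨h0_of_forall fun ε hε => (h ε hε).1, fun i => ih fun ε hε => (h ε hε).2 i⟩
theorem hb_succ_of (hf : ContDiff ℝ ∞ f) (hM' : 0 ≤ M') (h0 : ∀ x, |f x| ≤ M)
    (h1 : ∀ i, Hb k M' (D i f)) : Hb (k + 1) (M + (n + 1) * M') f := by
  have hM : 0 ≤ M := (abs_nonneg _).trans (h0 0)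
  have hn : 0 ≤ (n : ℝ) * M' := by positivity
  refine ⟨⟨hf, fun x => (h0 x).trans (by nlinarith), (hol_of_D (smo_diff hf) hM'
    fun i x => (h1 i).abs_le x).mono (by nlinarith)⟩, fun i => (h1 i).mono (by nlinarith)⟩

end Vale.Agent.P227
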