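import Vale.Agent.P227.HbA0
import Vale.Agent.P227.CalcL

/-! The classes PG and CPB. -/

namespace Vale.Agent.P227

open scoped ContDiff Matrix RealInnerProductSpace Topology
open MeasureTheory Filter

variable {n : ℕ}

variable {f g : E n → ℝ} {τ : E n → Mat n}

theorem PB.nonneg (h : PB f) : ∃ C : ℝ, ∃ m : ℕ, 0 ≤ C ∧ ∀ x, |f x| ≤ C * (1 + ‖x‖) ^ m := by
  obtain ⟨C, m, h⟩ := h
  refine ⟨|C|, m, abs_nonneg _, fun x => (h x).trans ?_⟩
  exact mul_le_mul_of_nonneg_right (le_abs_self C) (by positivity)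

namespace HbCX

theorem pow_mono (x : E n) {m m' : ℕ} (h : m ≤ m') : (1 + ‖x‖) ^ m ≤ (1 + ‖x‖) ^ m' :=
  pow_le_pow_right₀ (by linarith [norm_nonneg x]) h

theorem pb_of_le (hg : PB g) (h : ∀ x, |f x| ≤ |g x|) : PB f := by
  obtain ⟨C, m, hg⟩ := hg
  exact ⟨C, m, fun x => (h x).trans (hg x)⟩

theorem pb_const (c : ℝ) : PB (fun _ : E n => c) := ⟨|c|, 0, fun _ => by simp⟩

theorem pb_norm : PB (fun x : E n => ‖x‖) := ⟨1, 1, fun x => by simp⟩

theorem pb_coord (i : Fin n) : PB (fun x : E n => x i) :=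
  pb_of_le pb_norm fun x => (abs_coord_le x i).trans (le_abs_self _)

theorem pb_add (hf : PB f) (hg : PB g) : PB (fun x => f x + g x) := by
  obtain ⟨C, m, hC, hf⟩ := hf.nonneg
  obtain ⟨C', m', hC', hg⟩ := hg.nonneg
  refine ⟨C + C', m + m', fun x => (abs_add_le _ _).trans ?_⟩
  rw [add_mul]
  exact add_le_add ((hf x).trans (mul_le_mul_of_nonneg_left (pow_mono x (by omega)) hC))
    ((hg x).trans (mul_le_mul_of_nonneg_left (pow_mono x (by omega)) hC'))

theorem pb_mul (hf : PB f) (hg : PB g) : PB (fun x => f x * g x) := by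
  obtain ⟨C, m, hC, hf⟩ := hf.nonneg
  obtain ⟨C', m', hC', hg⟩ := hg.nonneg
  refine ⟨C * C', m + m', fun x => ?_⟩
  rw [abs_mul, pow_add, mul_mul_mul_comm]
  exact mul_le_mul (hf x) (hg x) (abs_nonneg _) (by positivity)

theorem pb_sum {ι : Type*} (s : Finset ι) {F : ι → E n → ℝ} (h : ∀ a ∈ s, PB (F a)) :
    PB (fun x => ∑ a ∈ s, F a x) := by
  classical
  induction s using Finset.induction_on with
  | empty => simpa using pb_const 0
  | insert a s ha ih =>
    simp only [Finset.sum_insert ha]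
    exact pb_add (h a (Finset.mem_insert_self _ _))
      (ih fun b hb => h b (Finset.mem_insert_of_mem hb))

theorem pb_affine (hf : PB f) (m : E n) (σ : ℝ) : PB (fun z => f (m + σ • z)) := by
  obtain ⟨C, k, hC, hf⟩ := hf.nonneg
  refine ⟨C * (1 + ‖m‖ + |σ|) ^ k, k, fun z => (hf _).trans ?_⟩
  rw [mul_assoc, ← mul_pow]
  refine mul_le_mul_of_nonneg_left (pow_le_pow_left₀ (by positivity) ?_ k) hC
  have h1 := norm_add_le m (σ • z)
  rw [norm_smul, Real.norm_eq_abs] at h1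
  have := norm_nonneg m
  have := norm_nonneg z
  have := abs_nonneg σ
  nlinarith

theorem uniform {F : Fin n → E n → ℝ} (h : ∀ i, PB (F i)) :
    ∃ C : ℝ, ∃ m : ℕ, 0 ≤ C ∧ ∀ i x, |F i x| ≤ C * (1 + ‖x‖) ^ m := by
  obtain ⟨C, m, hC, h'⟩ := (pb_sum Finset.univ (F := fun i x => |F i x|)
    fun i _ => pb_of_le (h i) fun x => by rw [abs_abs]).nonneg
  refine ⟨C, m, hC, fun i x => le_trans ?_ (h' x)⟩
  exact (Finset.single_le_sum (f := fun i => |F i x|) (fun _ _ => abs_nonneg _)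
    (Finset.mem_univ i)).trans (le_abs_self _)

theorem pgk_pb {k : ℕ} (h : PGk k f) : PB f := by
  cases k with
  | zero => exact h
  | succ k => exact h.1

theorem pgk_pred {k : ℕ} : ∀ {f : E n → ℝ}, PGk (k + 1) f → PGk k f := by
  induction k with
  | zero => exact fun h => h.1
  | succ k ih => exact fun h => ⟨h.1, fun i => ih (h.2 i)⟩

theorem pgk_const (k : ℕ) : ∀ c : ℝ, PGk k (fun _ : E n => c) := by
  induction k with
  | zero => exact pb_const
  | succ k ih => exact fun c => ⟨pb_const c, fun i => by rw [D_const]; exact ih 0⟩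

theorem pgk_add (k : ℕ) : ∀ {f g : E n → ℝ}, ContDiff ℝ ∞ f → ContDiff ℝ ∞ g → PGk k f →
    PGk k g → PGk k (fun x => f x + g x) := by
  induction k with
  | zero => exact fun _ _ hf hg => pb_add hf hg
  | succ k ih =>
    intro f g sf sg hf hg
    refine ⟨pb_add hf.1 hg.1, fun i => ?_⟩
    rw [D_add i (smo_diff sf) (smo_diff sg)]
    exact ih (smo_D i sf) (smo_D i sg) (hf.2 i) (hg.2 i)

theorem pgk_mul (k : ℕ) : ∀ {f g : E n → ℝ}, ContDiff ℝ ∞ f → ContDiff ℝ ∞ g → PGk k f →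
    PGk k g → PGk k (fun x => f x * g x) := by
  induction k with
  | zero => exact fun _ _ hf hg => pb_mul hf hg
  | succ k ih =>
    intro f g sf sg hf hg
    refine ⟨pb_mul hf.1 hg.1, fun i => ?_⟩
    rw [D_mul i (smo_diff sf) (smo_diff sg)]
    exact pgk_add k ((smo_D i sf).mul sg) (sf.mul (smo_D i sg))
      (ih (smo_D i sf) sg (hf.2 i) (pgk_pred hg)) (ih sf (smo_D i sg) (pgk_pred hf) (hg.2 i))

theorem pgk_affine (m : E n) (σ : ℝ) (k : ℕ) : ∀ {f : E n → ℝ}, ContDiff ℝ ∞ f → PGk k f →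
    PGk k (fun z => f (m + σ • z)) := by
  induction k with
  | zero => exact fun _ hf => pb_affine hf m σ
  | succ k ih =>
    intro f sf hf
    refine ⟨pb_affine hf.1 m σ, fun i => ?_⟩
    rw [D_affine i (smo_diff sf)]
    exact pgk_mul k contDiff_const (smo_affine (smo_D i sf) m σ) (pgk_const k σ)
      (ih (smo_D i sf) (hf.2 i))

end HbCX

open HbCX

theorem PG.smo (h : PG f) : ContDiff ℝ ∞ f := h.1
theorem PG.diff (h : PG f) : Differentiable ℝ f := smo_diff h.1
theorem PG.pb (h : PG f) : PB f := h.2 0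
theorem PG.cpb (h : PG f) : CPB f := ⟨h.1.continuous, h.pb⟩
theorem PG.D (h : PG f) (i : Fin n) : PG (D i f) := ⟨smo_D i h.1, fun k => (h.2 (k + 1)).2 i⟩
theorem pg_of_D (hf : ContDiff ℝ ∞ f) (h : ∀ i, PG (D i f)) : PG f := by
  have hb : PB f := by
    obtain ⟨C, m, hC, hb⟩ := uniform fun i => (h i).pb
    refine pb_of_le (pb_add (pb_const |f 0|) (⟨n * C, m + 1, fun x => ?_⟩ :
      PB fun x => |f x - f 0|)) fun x => ?_
    · have h1 := Convex.norm_image_sub_le_of_norm_fderiv_le (𝕜 := ℝ) (f := f)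
        (s := Metric.closedBall (0 : E n) ‖x‖) (C := n * (C * (1 + ‖x‖) ^ m))
        (fun y _ => smo_diff hf y) (fun y hy => norm_fderiv_le fun i => (hb i y).trans (by
          rw [mem_closedBall_zero_iff] at hy
          gcongr)) (convex_closedBall _ _) (Metric.mem_closedBall_self (norm_nonneg x))
        (mem_closedBall_zero_iff.2 le_rfl)
      rw [sub_zero, Real.norm_eq_abs] at h1
      rw [abs_abs]
      refine h1.trans ?_
      rw [pow_succ, ← mul_assoc, ← mul_assoc]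
      gcongr
      linarith
    · refine le_trans ?_ (le_abs_self _)
      have := abs_add_le (f 0) (f x - f 0)
      rwa [add_sub_cancel] at this
  refine ⟨hf, fun k => ?_⟩
  cases k with
  | zero => exact hb
  | succ k => exact ⟨hb, fun i => (h i).2 k⟩
theorem pg_of_closed (P : (E n → ℝ) → Prop) (h1 : ∀ f, P f → Differentiable ℝ f)
    (h2 : ∀ f, P f → PB f) (h3 : ∀ f, P f → ∀ i, P (D i f)) (hf : P f) : PG f := by
  refine ⟨smo_of_closed P h1 h3 hf, fun k => ?_⟩
  induction k generalizing f with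
  | zero => exact h2 f hf
  | succ k ih => exact ⟨h2 f hf, fun i => ih (h3 f hf i)⟩
theorem PG.fderiv_le (h : PG f) : ∃ C : ℝ, ∃ m : ℕ, 0 ≤ C ∧
    ∀ x, ‖fderiv ℝ f x‖ ≤ C * (1 + ‖x‖) ^ m := by
  obtain ⟨C, m, hC, hb⟩ := uniform fun i => (h.D i).pb
  refine ⟨n * C, m, by positivity, fun x => ?_⟩
  rw [mul_assoc]
  exact norm_fderiv_le fun i => hb i x
theorem pg_const (c : ℝ) : PG (fun _ : E n => c) := ⟨contDiff_const, fun k => pgk_const k c⟩
theorem pg_coord (i : Fin n) : PG (fun x : E n => x i) :=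
  pg_of_D (smo_coord i) fun j => by rw [D_coord]; exact pg_const _
theorem PG.add (hf : PG f) (hg : PG g) : PG (fun x => f x + g x) :=
  ⟨hf.1.add hg.1, fun k => pgk_add k hf.1 hg.1 (hf.2 k) (hg.2 k)⟩
theorem PG.mul (hf : PG f) (hg : PG g) : PG (fun x => f x * g x) :=
  ⟨hf.1.mul hg.1, fun k => pgk_mul k hf.1 hg.1 (hf.2 k) (hg.2 k)⟩
theorem PG.const_mul (hf : PG f) (a : ℝ) : PG (fun x => a * f x) := (pg_const a).mul hf
theorem pg_normsq : PG (fun x : E n => ‖x‖ ^ 2) :=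
  pg_of_D smo_normsq fun j => by rw [D_normsq]; exact (pg_coord j).const_mul 2
theorem PG.neg (hf : PG f) : PG (fun x => -f x) := by simpa using hf.const_mul (-1)
theorem PG.sub (hf : PG f) (hg : PG g) : PG (fun x => f x - g x) := by
  simpa [sub_eq_add_neg] using hf.add hg.neg
theorem pg_sum {ι : Type*} (s : Finset ι) {F : ι → E n → ℝ} (h : ∀ a ∈ s, PG (F a)) :
    PG (fun x => ∑ a ∈ s, F a x) := by
  classical
  induction s using Finset.induction_on with
  | empty => simpa using pg_const 0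
  | insert a s ha ih =>
    simp only [Finset.sum_insert ha]
    exact (h a (Finset.mem_insert_self _ _)).add (ih fun b hb => h b (Finset.mem_insert_of_mem hb))
theorem PG.rad (hf : PG f) : PG (rad f) :=
  pg_sum Finset.univ (F := fun i x => x i * P227.D i f x) fun i _ => (pg_coord i).mul (hf.D i)
theorem PG.Lop (hf : PG f) (hτ : MPG τ) : PG (Lop τ f) :=
  (pg_sum Finset.univ (F := fun i x => ∑ j, τ x i j * P227.D i (P227.D j f) x) fun i _ =>
    pg_sum Finset.univ (F := fun j x => τ x i j * P227.D i (P227.D j f) x) fun j _ =>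
      (hτ i j).mul ((hf.D j).D i)).sub hf.rad
theorem PG.Aop (hf : PG f) (hτ : MPG τ) (l : ℝ) : PG (Aop τ l f) :=
  (hf.const_mul l).sub (hf.Lop hτ)
theorem PG.Gam (hf : PG f) (hg : PG g) (hτ : MPG τ) : PG (Gam τ f g) :=
  pg_sum Finset.univ (F := fun k x => ∑ l, τ x k l * P227.D k f x * P227.D l g x) fun k _ =>
    pg_sum Finset.univ (F := fun l x => τ x k l * P227.D k f x * P227.D l g x) fun l _ =>
      ((hτ k l).mul (hf.D k)).mul (hg.D l)
theorem PG.affine (hf : PG f) (m : E n) (σ : ℝ) : PG (fun z => f (m + σ • z)) :=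
  ⟨smo_affine hf.1 m σ, fun k => pgk_affine m σ k hf.1 (hf.2 k)⟩
theorem mpg_const (A : Mat n) : MPG (fun _ : E n => A) := fun i j => pg_const (A i j)
theorem pg_divW {W : E n → ℝ} {v : Fin n → E n → ℝ} (hW : PG W) (hv : ∀ i, PG (v i)) :
    PG (divW W v) :=
  pg_sum Finset.univ (F := fun i x => D i (v i) x - v i x * D i W x) fun i _ =>
    ((hv i).D i).sub ((hv i).mul (hW.D i))
theorem cpb_const (c : ℝ) : CPB (fun _ : E n => c) := ⟨continuous_const, pb_const c⟩
theorem cpb_norm : CPB (fun x : E n => ‖x‖) := ⟨continuous_norm, pb_norm⟩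
theorem cpb_coord (i : Fin n) : CPB (fun x : E n => x i) := (pg_coord i).cpb
theorem cpb_of_bdd {M : ℝ} (hf : Continuous f) (h : ∀ x, |f x| ≤ M) : CPB f :=
  ⟨hf, M, 0, fun x => by simpa using h x⟩
theorem CPB.of_le (hg : CPB g) (hf : Continuous f) (h : ∀ x, |f x| ≤ g x) : CPB f :=
  ⟨hf, pb_of_le hg.2 fun x => (h x).trans (le_abs_self _)⟩
theorem CPB.add (hf : CPB f) (hg : CPB g) : CPB (fun x => f x + g x) :=
  ⟨hf.1.add hg.1, pb_add hf.2 hg.2⟩
theorem CPB.mul (hf : CPB f) (hg : CPB g) : CPB (fun x => f x * g x) :=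
  ⟨hf.1.mul hg.1, pb_mul hf.2 hg.2⟩
theorem CPB.const_mul (hf : CPB f) (a : ℝ) : CPB (fun x => a * f x) := (cpb_const a).mul hf
theorem CPB.neg (hf : CPB f) : CPB (fun x => -f x) := by simpa using hf.const_mul (-1)
theorem CPB.sub (hf : CPB f) (hg : CPB g) : CPB (fun x => f x - g x) := by
  simpa [sub_eq_add_neg] using hf.add hg.neg
theorem CPB.pow (hf : CPB f) (m : ℕ) : CPB (fun x => f x ^ m) := by
  induction m with
  | zero => simpa using cpb_const 1
  | succ m ih => simpa [pow_succ] using ih.mul hf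
theorem CPB.abs (hf : CPB f) : CPB (fun x => |f x|) :=
  ⟨hf.1.abs, pb_of_le hf.2 fun x => by rw [abs_abs]⟩
theorem cpb_sum {ι : Type*} (s : Finset ι) {F : ι → E n → ℝ} (h : ∀ a ∈ s, CPB (F a)) :
    CPB (fun x => ∑ a ∈ s, F a x) :=
  ⟨continuous_finsetSum s fun a ha => (h a ha).1, pb_sum s fun a ha => (h a ha).2⟩
theorem CPB.affine (hf : CPB f) (m : E n) (σ : ℝ) : CPB (fun z => f (m + σ • z)) :=
  ⟨hf.1.comp (by fun_prop), pb_affine hf.2 m σ⟩
theorem cpb_mo (a : ℝ) (ha : 0 ≤ a) : CPB (fun z : E n => mo (a * ‖z‖)) := by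
  refine ((cpb_const 1).add (cpb_norm.const_mul (2 * a))).of_le (by unfold mo; fun_prop) fun z => ?_
  have h0 : 0 ≤ a * ‖z‖ := by positivity
  rw [abs_of_nonneg (mo_nonneg h0)]
  unfold mo
  have h1 := Real.sq_sqrt h0
  nlinarith [sq_nonneg (Real.sqrt (a * ‖z‖) - 1)]

end Vale.Agent.P227
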