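import Vale.Agent.P227.HbA
import Vale.Agent.P227.HbC

/-! The classes Binf and Sm. -/

namespace Vale.Agent.P227

open scoped ContDiff Matrix RealInnerProductSpace Topology
open MeasureTheory Filter

variable {n : ℕ}

variable {f g : E n → ℝ} {τ : E n → Mat n}

namespace HbBX

theorem unif {ι : Type*} [Finite ι] {k : ℕ} {F : ι → E n → ℝ} (h : ∀ i, ∃ M, Hb k M (F i)) :
    ∃ M, 0 ≤ M ∧ ∀ i, Hb k M (F i) := by
  choose M hM using h
  obtain ⟨B, hB⟩ := (Set.finite_range M).bddAbove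
  exact ⟨max B 0, le_max_right _ _, fun i => (hM i).mono ((hB ⟨i, rfl⟩).trans (le_max_left _ _))⟩

end HbBX

open HbBX

theorem Binf.smo (h : Binf f) : ContDiff ℝ ∞ f := (h 0).choose_spec.smo
theorem Binf.bdd (h : Binf f) : ∃ M, ∀ x, |f x| ≤ M := ⟨_, (h 0).choose_spec.abs_le⟩
theorem binf_const (c : ℝ) : Binf (fun _ : E n => c) := fun k => ⟨|c|, hb_const k le_rfl⟩
theorem Binf.add (hf : Binf f) (hg : Binf g) : Binf (fun x => f x + g x) :=
  fun k => ⟨_, (hf k).choose_spec.add (hg k).choose_spec⟩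
theorem Binf.sub (hf : Binf f) (hg : Binf g) : Binf (fun x => f x - g x) :=
  fun k => ⟨_, (hf k).choose_spec.sub (hg k).choose_spec⟩
theorem Binf.neg (hf : Binf f) : Binf (fun x => -f x) := fun k => ⟨_, (hf k).choose_spec.neg⟩
theorem Binf.mul (hf : Binf f) (hg : Binf g) : Binf (fun x => f x * g x) :=
  fun k => ⟨_, (hf k).choose_spec.mul (hg k).choose_spec⟩
theorem Binf.const_mul (hf : Binf f) (a : ℝ) : Binf (fun x => a * f x) :=
  fun k => ⟨_, (hf k).choose_spec.const_mul a⟩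
theorem binf_sum {ι : Type*} (s : Finset ι) {F : ι → E n → ℝ} (h : ∀ a ∈ s, Binf (F a)) :
    Binf (fun x => ∑ a ∈ s, F a x) := by
  classical
  induction s using Finset.induction_on with
  | empty => simpa using binf_const 0
  | insert a s ha ih =>
    simp only [Finset.sum_insert ha]
    exact (h a (Finset.mem_insert_self _ _)).add (ih fun b hb => h b (Finset.mem_insert_of_mem hb))
theorem Binf.D (hf : Binf f) (i : Fin n) : Binf (D i f) :=
  fun k => ⟨_, (hf (k + 1)).choose_spec.D i⟩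
theorem binf_of_D (hf : ContDiff ℝ ∞ f) (h0 : ∃ M, ∀ x, |f x| ≤ M) (h : ∀ i, Binf (D i f)) :
    Binf f := by
  intro k
  obtain ⟨M, hM⟩ := h0
  obtain ⟨M', h1, h2⟩ := unif fun i => h i k
  exact ⟨_, (hb_succ_of hf h1 hM h2).of_le (Nat.le_succ k)⟩
/-- a class of bounded smooth functions closed under `D i` lies in `Binf` -/
theorem binf_of_closed (P : (E n → ℝ) → Prop) (h1 : ∀ f, P f → ContDiff ℝ ∞ f)
    (h2 : ∀ f, P f → ∃ M, ∀ x, |f x| ≤ M) (h3 : ∀ f, P f → ∀ i, P (D i f)) (hf : P f) :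
    Binf f := by
  intro k
  induction k generalizing f with
  | zero =>
    obtain ⟨M, hM⟩ := h2 f hf
    choose L hL using fun i => h2 _ (h3 f hf i)
    obtain ⟨B, hB⟩ := (Set.finite_range L).bddAbove
    have hh := hol_of_D (smo_diff (h1 f hf)) (le_max_right B 0)
      fun i x => (hL i x).trans ((hB ⟨i, rfl⟩).trans (le_max_left _ _))
    exact ⟨max M (n * max B 0), h1 f hf, fun x => (hM x).trans (le_max_left _ _),
      hh.mono (le_max_right _ _)⟩
  | succ k ih =>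
    obtain ⟨M, hM⟩ := h2 f hf
    obtain ⟨M', k1, k2⟩ := unif fun i => ih (h3 f hf i)
    exact ⟨_, hb_succ_of (h1 f hf) k1 hM k2⟩
theorem binf_of_compact (hf : ContDiff ℝ ∞ f) {R : ℝ} (h : ∀ x, R ≤ ‖x‖ → f x = 0) : Binf f := by
  refine binf_of_closed (fun g => ContDiff ℝ ∞ g ∧ HasCompactSupport g) (fun _ h => h.1)
    (fun g hg => hg.2.exists_bound_of_continuous hg.1.continuous)
    (fun g hg i => ⟨smo_D i hg.1, hg.2.fderiv_apply (𝕜 := ℝ) (ev i)⟩) ⟨hf, ?_⟩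
  refine HasCompactSupport.intro (isCompact_closedBall (0 : E n) R) fun x hx => h x ?_
  rw [mem_closedBall_zero_iff, not_le] at hx
  exact hx.le
theorem sm_iff : Sm f ↔ ContDiff ℝ ∞ f ∧ ∀ i j, Binf (D i (D j f)) := by
  refine ⟨fun h => ⟨h.1, fun i j k => ⟨_, (h.2 k).choose_spec i j⟩⟩, fun h => ⟨h.1, fun k => ?_⟩⟩
  obtain ⟨M, -, hM⟩ := unif (F := fun p : Fin n × Fin n => D p.1 (D p.2 f)) fun p => h.2 p.1 p.2 k
  exact ⟨M, fun i j => hM (i, j)⟩
theorem Sm.smo (h : Sm f) : ContDiff ℝ ∞ f := h.1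
theorem Sm.DD (h : Sm f) (i j : Fin n) : Binf (D i (D j f)) := (sm_iff.1 h).2 i j
theorem Sm.n2 (h : Sm f) (k : ℕ) : ∃ M, 0 ≤ M ∧ N2 k M f := by
  obtain ⟨M, hM⟩ := h.2 k
  exact ⟨max M 0, le_max_right _ _, hM.mono (le_max_left _ _)⟩
theorem Binf.sm (h : Binf f) : Sm f := sm_iff.2 ⟨h.smo, fun i j => (h.D j).D i⟩
theorem sm_of_D (hf : ContDiff ℝ ∞ f) (h : ∀ j, Binf (D j f)) : Sm f :=
  sm_iff.2 ⟨hf, fun i j => (h j).D i⟩
theorem sm_const (c : ℝ) : Sm (fun _ : E n => c) := (binf_const c).sm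
theorem Sm.add (hf : Sm f) (hg : Sm g) : Sm (fun x => f x + g x) :=
  ⟨hf.1.add hg.1, fun k => ⟨_, (hf.2 k).choose_spec.add (hg.2 k).choose_spec hf.1 hg.1⟩⟩
theorem Sm.sub (hf : Sm f) (hg : Sm g) : Sm (fun x => f x - g x) :=
  ⟨hf.1.sub hg.1, fun k => ⟨_, (hf.2 k).choose_spec.sub (hg.2 k).choose_spec hf.1 hg.1⟩⟩
theorem Sm.neg (hf : Sm f) : Sm (fun x => -f x) :=
  ⟨hf.1.neg, fun k => ⟨_, (hf.2 k).choose_spec.neg⟩⟩
theorem Sm.const_mul (hf : Sm f) (a : ℝ) : Sm (fun x => a * f x) :=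
  ⟨contDiff_const.mul hf.1, fun k => ⟨_, (hf.2 k).choose_spec.const_mul hf.1 a⟩⟩
theorem sm_sum {ι : Type*} (s : Finset ι) {F : ι → E n → ℝ} (h : ∀ a ∈ s, Sm (F a)) :
    Sm (fun x => ∑ a ∈ s, F a x) := by
  classical
  induction s using Finset.induction_on with
  | empty => simpa using sm_const 0
  | insert a s ha ih =>
    simp only [Finset.sum_insert ha]
    exact (h a (Finset.mem_insert_self _ _)).add (ih fun b hb => h b (Finset.mem_insert_of_mem hb))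
theorem Sm.D (hf : Sm f) (i : Fin n) : Sm (D i f) :=
  sm_iff.2 ⟨smo_D i hf.1, fun p q => (hf.DD q i).D p⟩
theorem sm_gW : Sm (gW : E n → ℝ) :=
  sm_iff.2 ⟨smo_gW, fun i j => by rw [D_gW, D_coord]; exact binf_const _⟩
theorem Sm.mbinf (hf : Sm f) : MBinf (hess f) := fun i j => hf.DD i j
theorem Sm.Lop (hf : Sm f) (hr : Sm (rad f)) (hτ : MBinf τ) : Sm (Lop τ f) :=
  (binf_sum Finset.univ (F := fun i x => ∑ j, τ x i j * P227.D i (P227.D j f) x) fun i _ =>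
    binf_sum Finset.univ (F := fun j x => τ x i j * P227.D i (P227.D j f) x) fun j _ =>
      (hτ i j).mul (hf.DD i j)).sm.sub hr
theorem Sm.Aop (hf : Sm f) (hr : Sm (rad f)) (hτ : MBinf τ) (l : ℝ) : Sm (Aop τ l f) :=
  (hf.const_mul l).sub (hf.Lop hr hτ)
theorem Binf.pg (h : Binf f) : PG f :=
  pg_of_closed Binf (fun _ h => smo_diff h.smo)
    (fun _ h => ⟨h.bdd.choose, 0, fun x => by simpa using h.bdd.choose_spec x⟩)
    (fun _ h i => h.D i) h
theorem Sm.pg (h : Sm f) : PG f :=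
  pg_of_D h.1 fun j => pg_of_D (smo_D j h.1) fun i => (h.DD i j).pg

end Vale.Agent.P227
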