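import Vale.Agent.P227.CalcL
import Vale.Agent.P227.MatA

/-! Calculus of matrix fields; inverse and log det. (Vale/Agent/P264/Jac.lean has Jacobi formula over the complex numbers: port it.) -/

namespace Vale.Agent.P227

open scoped ContDiff Matrix RealInnerProductSpace Topology
open MeasureTheory Filter

variable {n : ℕ}

variable {A B : E n → Mat n}

theorem MD_apply (k : Fin n) (A : E n → Mat n) (x : E n) (i j : Fin n) :
    MD k A x i j = D k (ent A i j) x := rfl
theorem ent_MD (k : Fin n) (A : E n → Mat n) (i j : Fin n) :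
    ent (MD k A) i j = D k (ent A i j) := rfl
theorem MSmo.add (hA : MSmo A) (hB : MSmo B) : MSmo (fun x => A x + B x) := fun i j =>
  ContDiff.add (hA i j) (hB i j)
theorem MSmo.sub (hA : MSmo A) (hB : MSmo B) : MSmo (fun x => A x - B x) := fun i j =>
  ContDiff.sub (hA i j) (hB i j)
theorem MSmo.smul (hA : MSmo A) (a : ℝ) : MSmo (fun x => a • A x) := fun i j =>
  ContDiff.mul (contDiff_const (c := a)) (hA i j)
theorem MSmo.mul (hA : MSmo A) (hB : MSmo B) : MSmo (fun x => A x * B x) := fun i j =>
  ContDiff.sum (s := Finset.univ) (f := fun l x => ent A i l x * ent B l j x) fun l _ =>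
    (hA i l).mul (hB l j)
theorem MSmo.MD (hA : MSmo A) (k : Fin n) : MSmo (MD k A) := fun i j => smo_D k (hA i j)
theorem MSmo.trace (hA : MSmo A) : ContDiff ℝ ∞ (fun x => (A x).trace) :=
  ContDiff.sum (s := Finset.univ) (f := fun i x => ent A i i x) fun i _ => hA i i
theorem MSmo.det (hA : MSmo A) : ContDiff ℝ ∞ (fun x => (A x).det) := by
  simp only [Matrix.det_apply']
  exact ContDiff.sum fun σ _ => contDiff_const.mul (contDiff_prod fun i _ => hA (σ i) i)
theorem MSmo.qf (hA : MSmo A) (ξ : E n) : ContDiff ℝ ∞ (fun x => qf (A x) ξ) :=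
  ContDiff.sum fun i _ => ContDiff.sum fun j _ =>
    ((hA i j).mul contDiff_const).mul contDiff_const
theorem MSmo.inv (hA : MSmo A) (hu : ∀ x, IsUnit (A x).det) : MSmo (fun x => (A x)⁻¹) := by
  intro a b
  have h1 : MSmo fun x => (A x).updateRow b (Pi.single a 1) := fun j k => by
    unfold ent
    simp only [Matrix.updateRow_apply]
    split_ifs
    · exact contDiff_const
    · exact hA j k
  unfold ent
  simp only [Matrix.inv_def, Ring.inverse_eq_inv', Matrix.smul_apply, smul_eq_mul,
    Matrix.adjugate_apply]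
  exact (hA.det.inv fun x => (hu x).ne_zero).mul h1.det
theorem MD_const (k : Fin n) (C : Mat n) (x : E n) : MD k (fun _ => C) x = 0 := by
  ext i j
  exact congrFun (D_const k (C i j)) x
theorem MD_add (k : Fin n) (hA : MSmo A) (hB : MSmo B) (x : E n) :
    MD k (fun y => A y + B y) x = MD k A x + MD k B x := by
  ext i j
  exact congrFun (D_add k (smo_diff (hA i j)) (smo_diff (hB i j))) x
theorem MD_sub (k : Fin n) (hA : MSmo A) (hB : MSmo B) (x : E n) :
    MD k (fun y => A y - B y) x = MD k A x - MD k B x := by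
  ext i j
  exact congrFun (D_sub k (smo_diff (hA i j)) (smo_diff (hB i j))) x
theorem MD_smul (k : Fin n) (a : ℝ) (hA : MSmo A) (x : E n) :
    MD k (fun y => a • A y) x = a • MD k A x := by
  ext i j
  exact congrFun (D_const_mul k a (smo_diff (hA i j))) x
theorem MD_mul (k : Fin n) (hA : MSmo A) (hB : MSmo B) (x : E n) :
    MD k (fun y => A y * B y) x = MD k A x * B x + A x * MD k B x := by
  ext i j
  have h1 := congrFun (D_sum k Finset.univ (F := fun l x => ent A i l x * ent B l j x)
    fun l _ => smo_diff ((hA i l).mul (hB l j))) x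
  rw [Matrix.add_apply, Matrix.mul_apply, Matrix.mul_apply, ← Finset.sum_add_distrib]
  exact h1.trans (Finset.sum_congr rfl fun l _ =>
    congrFun (D_mul k (smo_diff (hA i l)) (smo_diff (hB l j))) x)
theorem D_trace (k : Fin n) (hA : MSmo A) :
    D k (fun x => (A x).trace) = fun x => (MD k A x).trace :=
  D_sum k Finset.univ (F := fun i x => ent A i i x) fun i _ => smo_diff (hA i i)
theorem MD_inv (k : Fin n) (hA : MSmo A) (hu : ∀ x, IsUnit (A x).det) (x : E n) :
    MD k (fun y => (A y)⁻¹) x = -((A x)⁻¹ * MD k A x * (A x)⁻¹) := by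
  have h1 := MD_mul k (hA.inv hu) hA x
  rw [show (fun y => (A y)⁻¹ * A y) = fun _ => (1 : Mat n) from
    funext fun y => Matrix.nonsing_inv_mul _ (hu y), MD_const] at h1
  have h2 := congrArg (· * (A x)⁻¹) h1
  simp only [zero_mul, add_mul, Matrix.mul_nonsing_inv_cancel_right _ _ (hu x)] at h2
  exact eq_neg_of_add_eq_zero_left h2.symm
theorem Lop_qf (τ : E n → Mat n) (hA : MSmo A) (ξ x : E n) :
    Lop τ (fun y => qf (A y) ξ) x = qf (Matrix.of fun i j => Lop τ (ent A i j) x) ξ := by
  have e : (fun y => qf (A y) ξ) = fun y => ∑ i, ∑ j, (ξ i * ξ j) * ent A i j y :=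
    funext fun y => Finset.sum_congr rfl fun i _ => Finset.sum_congr rfl fun j _ => by
      unfold ent; ring
  rw [e, Lop_sum τ _ fun i _ => ContDiff.sum fun j _ => contDiff_const.mul (hA i j)]
  refine Finset.sum_congr rfl fun i _ => ?_
  rw [Lop_sum τ _ fun j _ => contDiff_const.mul (hA i j)]
  refine Finset.sum_congr rfl fun j _ => ?_
  rw [Lop_const_mul τ _ (hA i j), Matrix.of_apply]
  ring

namespace MCalc

theorem det_adj {M : ℝ → Mat n} {M' : Mat n} {t : ℝ}
    (h : ∀ j k, HasDerivAt (fun s => M s j k) (M' j k) t) :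
    HasDerivAt (fun s => (M s).det) ((M t).adjugate * M').trace t := by
  have e : ((M t).adjugate * M').trace = ∑ σ : Equiv.Perm (Fin n), ((Equiv.Perm.sign σ : ℤ) : ℝ) *
      ∑ i, (∏ j ∈ Finset.univ.erase i, M t (σ j) j) • M' (σ i) i := by
    simp only [Finset.mul_sum]
    rw [Finset.sum_comm]
    refine Finset.sum_congr rfl fun i _ => ?_
    have e1 : ((M t).adjugate * M').diag i = (M t).cramer (fun r => M' r i) i := by
      rw [Matrix.cramer_eq_adjugate_mulVec]
      rfl
    rw [e1, Matrix.cramer_apply, Matrix.det_apply']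
    refine Finset.sum_congr rfl fun σ _ => congrArg _ ?_
    rw [← Finset.prod_erase_mul _ _ (Finset.mem_univ i), Matrix.updateCol_self, smul_eq_mul]
    exact congrArg (· * _) (Finset.prod_congr rfl fun j hj =>
      Matrix.updateCol_ne (Finset.ne_of_mem_erase hj))
  simp only [e, Matrix.det_apply']
  exact HasDerivAt.fun_sum fun σ _ => (HasDerivAt.fun_finsetProd fun i _ => h (σ i) i).const_mul _

theorem line {f : E n → ℝ} (hf : ContDiff ℝ ∞ f) (k : Fin n) (x : E n) :
    HasDerivAt (fun r : ℝ => f (x + r • ev k)) (D k f x) 0 := by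
  have h1 : HasDerivAt (fun r : ℝ => x + r • ev k) (ev k) 0 := by
    simpa using ((hasDerivAt_id (0 : ℝ)).smul_const (ev k : E n)).const_add x
  exact (smo_diff hf x).hasFDerivAt.comp_hasDerivAt_of_eq 0 h1 (by simp)

theorem D_det (k : Fin n) (hA : MSmo A) (x : E n) :
    D k (fun y => (A y).det) x = ((A x).adjugate * MD k A x).trace := by
  have h1 := det_adj (M := fun r : ℝ => A (x + r • ev k)) (M' := MD k A x) (t := 0)
    fun i j => line (hA i j) k x
  rw [zero_smul, add_zero] at h1
  exact (line hA.det k x).unique h1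

end MCalc

theorem smo_logdet (hA : MSmo A) (hp : ∀ x, (A x).PosDef) :
    ContDiff ℝ ∞ (fun x => Real.log (A x).det) := hA.det.log fun x => (hp x).det_pos.ne'
theorem D_logdet (k : Fin n) (hA : MSmo A) (hp : ∀ x, (A x).PosDef) :
    D k (fun x => Real.log (A x).det) = fun x => ((A x)⁻¹ * MD k A x).trace := by
  rw [D_comp k (φ' := fun t => t⁻¹) (fun x => Real.hasDerivAt_log (hp x).det_pos.ne')
    (smo_diff hA.det)]
  funext x
  rw [MCalc.D_det k hA, Matrix.inv_def, Ring.inverse_eq_inv', Matrix.smul_mul, Matrix.trace_smul,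
    smul_eq_mul]

end Vale.Agent.P227
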