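import Vale.Agent.P227.HbB
import Vale.Agent.P227.MCalc

/-! Matrix fields in the scale Hb. -/

namespace Vale.Agent.P227

open scoped ContDiff Matrix RealInnerProductSpace Topology
open MeasureTheory Filter

variable {n : ℕ}

variable {A B : E n → Mat n} {k : ℕ} {M M' : ℝ}

namespace HbM

theorem ent_mul (A B : E n → Mat n) (i j : Fin n) :
    ent (fun x => A x * B x) i j = fun x => ∑ l, ent A i l x * ent B l j x :=
  funext fun _ => Matrix.mul_apply

theorem trace_eq (A : E n → Mat n) : (fun x => (A x).trace) = fun x => ∑ i, ent A i i x := rfl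

theorem abs_mul_le {P Q : Mat n} {a b : ℝ} (hP : ∀ i j, |P i j| ≤ a) (hQ : ∀ i j, |Q i j| ≤ b)
    (i j : Fin n) : |(P * Q) i j| ≤ n * (a * b) := by
  rw [Matrix.mul_apply]
  refine (Finset.abs_sum_le_sum_abs _ _).trans ?_
  have h : ∀ l ∈ Finset.univ, |P i l * Q l j| ≤ a * b := fun l _ => by
    rw [abs_mul]
    exact mul_le_mul (hP i l) (hQ l j) (abs_nonneg _) ((abs_nonneg _).trans (hP i l))
  refine (Finset.sum_le_card_nsmul _ _ _ h).trans (le_of_eq ?_)
  simp

theorem inv_sub {P Q : Mat n} (hP : IsUnit P.det) (hQ : IsUnit Q.det) :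
    P⁻¹ - Q⁻¹ = P⁻¹ * (Q - P) * Q⁻¹ := by
  rw [Matrix.mul_sub, Matrix.sub_mul, Matrix.nonsing_inv_mul _ hP, Matrix.one_mul,
    Matrix.mul_assoc, Matrix.mul_nonsing_inv _ hQ, Matrix.mul_one]

end HbM

theorem MHb.msmo (h : MHb k M A) : MSmo A := fun i j => (h i j).smo
theorem MHb.mono (h : MHb k M A) (hM : M ≤ M') : MHb k M' A := fun i j => (h i j).mono hM
theorem MHb.of_le {k' : ℕ} (h : MHb k M A) (hk : k' ≤ k) : MHb k' M A :=
  fun i j => (h i j).of_le hk
theorem MHb.abs_le (h : MHb k M A) (x : E n) (i j : Fin n) : |A x i j| ≤ M := (h i j).abs_le x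
theorem MHb.MD (h : MHb (k + 1) M A) (p : Fin n) : MHb k M (MD p A) := fun i j => (h i j).D p
theorem mhb_one (k : ℕ) : MHb k 1 (one n) := fun i j => by
  refine hb_const (c := (1 : Mat n) i j) k ?_
  rw [Matrix.one_apply]
  split_ifs <;> simp
theorem MHb.add (hA : MHb k M A) (hB : MHb k M' B) : MHb k (M + M') (fun x => A x + B x) :=
  fun i j => (hA i j).add (hB i j)
theorem MHb.sub (hA : MHb k M A) (hB : MHb k M' B) : MHb k (M + M') (fun x => A x - B x) :=
  fun i j => (hA i j).sub (hB i j)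
theorem MHb.smul (hA : MHb k M A) (a : ℝ) : MHb k (|a| * M) (fun x => a • A x) :=
  fun i j => (hA i j).const_mul a
theorem MHb.mul (hA : MHb k M A) (hB : MHb k M' B) :
    MHb k (n * 2 ^ (k + 1) * M * M') (fun x => A x * B x) := fun i j => by
  rw [HbM.ent_mul]
  refine (hb_sum Finset.univ fun l _ => (hA i l).mul (hB l j)).mono (le_of_eq ?_)
  rw [Finset.card_univ, Fintype.card_fin]
  ring
theorem MHb.trace (hA : MHb k M A) : Hb k (n * M) (fun x => (A x).trace) := by
  rw [HbM.trace_eq]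
  refine (hb_sum Finset.univ fun l _ => hA l l).mono (le_of_eq ?_)
  rw [Finset.card_univ, Fintype.card_fin]
/-- contraction of a matrix field with a Hessian -/
theorem MHb.contr {f : E n → ℝ} (hA : MHb k M A) (hf : N2 k M' f) :
    Hb k (n ^ 2 * (2 ^ (k + 1) * M * M')) (fun x => ∑ p, ∑ q, A x p q * D p (D q f) x) :=
  hb_sum2 (F := fun p q x => A x p q * D p (D q f) x) fun p q => (hA p q).mul (hf p q)

namespace HbM

theorem inv0 {K K' : ℝ} (hu : ∀ x, IsUnit (A x).det) (hA : MHb 0 K A)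
    (hb : ∀ x i j, |(A x)⁻¹ i j| ≤ K') :
    MHb 0 (|K'| + n * (n * (|K'| * |K|) * |K'|)) (fun x => (A x)⁻¹) := fun i j => by
  have hb' : ∀ x i j, |(A x)⁻¹ i j| ≤ |K'| := fun x i j => (hb x i j).trans (le_abs_self _)
  refine ⟨hA.msmo.inv hu i j, fun x => (hb' x i j).trans (le_add_of_nonneg_right ?_),
    fun x y => ?_⟩
  · positivity
  · have hm : 0 ≤ mo ‖x - y‖ := mo_nonneg (norm_nonneg _)
    have h1 : ∀ a b, |(A y - A x) a b| ≤ |K| * mo ‖x - y‖ := fun a b => by
      rw [Matrix.sub_apply, abs_sub_comm]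
      exact ((hA a b).hol.mono (le_abs_self _)) x y
    have h2 := abs_mul_le (abs_mul_le (hb' x) h1) (hb' y) i j
    rw [← inv_sub (hu x) (hu y), Matrix.sub_apply] at h2
    refine h2.trans ?_
    have h3 : 0 ≤ |K'| * mo ‖x - y‖ := by positivity
    nlinarith

end HbM

/-- induction on `k`; `A(x)⁻¹ - A(y)⁻¹ = A(x)⁻¹ (A y - A x) A(y)⁻¹` and `MD_inv` -/
theorem mhb_inv (n k : ℕ) (K K' : ℝ) : ∃ C : ℝ, 0 < C ∧ ∀ A : E n → Mat n,
    (∀ x, IsUnit (A x).det) → MHb k K A → (∀ x i j, |(A x)⁻¹ i j| ≤ K') →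
      MHb k C (fun x => (A x)⁻¹) := by
  induction k with
  | zero =>
    exact ⟨|K'| + n * (n * (|K'| * |K|) * |K'|) + 1, by positivity, fun A hu hA hb =>
      (HbM.inv0 hu hA hb).mono (by linarith)⟩
  | succ k ih =>
    obtain ⟨C, hC, ih⟩ := ih
    have h0 : 0 ≤ |(-1 : ℝ)| * (n * 2 ^ (k + 1) * (n * 2 ^ (k + 1) * C * |K|) * C) := by positivity
    refine ⟨C + |(-1 : ℝ)| * (n * 2 ^ (k + 1) * (n * 2 ^ (k + 1) * C * |K|) * C), by positivity,
      fun A hu hA hb i j => ?_⟩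
    have h1 := ih A hu (hA.of_le (Nat.le_succ k)) hb
    refine ⟨((h1 i j).mono (le_add_of_nonneg_right h0)).h0, fun p => ?_⟩
    have h2 := ((h1.mul ((hA.MD p).mono (le_abs_self K))).mul h1).smul (-1)
    have e : MD p (fun x => (A x)⁻¹) = fun x => (-1 : ℝ) • ((A x)⁻¹ * MD p A x * (A x)⁻¹) :=
      funext fun x => by rw [MD_inv p hA.msmo hu, neg_one_smul]
    rw [← ent_MD, e]
    exact (h2 i j).mono (le_add_of_nonneg_left hC.le)
theorem MBinf.msmo (h : MBinf A) : MSmo A := fun i j => (h i j).smo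
theorem MBinf.mhb (h : MBinf A) (k : ℕ) : ∃ M, 0 < M ∧ MHb k M A := by
  choose N hN using fun i j => h i j k
  refine ⟨∑ i, ∑ j, |N i j| + 1, by positivity, fun i j => (hN i j).mono ?_⟩
  have h1 : |N i j| ≤ ∑ j, |N i j| :=
    Finset.single_le_sum (f := fun j => |N i j|) (fun _ _ => abs_nonneg _) (Finset.mem_univ j)
  have h2 : ∑ j, |N i j| ≤ ∑ i, ∑ j, |N i j| :=
    Finset.single_le_sum (f := fun i => ∑ j, |N i j|) (fun _ _ => by positivity)
      (Finset.mem_univ i)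
  linarith [le_abs_self (N i j)]
theorem mbinf_of_mhb (h : ∀ k, ∃ M, MHb k M A) : MBinf A := fun i j k =>
  (h k).imp fun _ hM => hM i j
theorem MBinf.mpg (h : MBinf A) : MPG A := fun i j => (h i j).pg
theorem mbinf_const (C : Mat n) : MBinf (fun _ : E n => C) := fun i j => binf_const (C i j)
theorem MBinf.add (hA : MBinf A) (hB : MBinf B) : MBinf (fun x => A x + B x) :=
  fun i j => (hA i j).add (hB i j)
theorem MBinf.sub (hA : MBinf A) (hB : MBinf B) : MBinf (fun x => A x - B x) :=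
  fun i j => (hA i j).sub (hB i j)
theorem MBinf.smul (hA : MBinf A) (a : ℝ) : MBinf (fun x => a • A x) :=
  fun i j => (hA i j).const_mul a
theorem MBinf.mul (hA : MBinf A) (hB : MBinf B) : MBinf (fun x => A x * B x) := fun i j => by
  rw [HbM.ent_mul]
  exact binf_sum Finset.univ fun l _ => (hA i l).mul (hB l j)
theorem MBinf.MD (hA : MBinf A) (p : Fin n) : MBinf (MD p A) := fun i j => (hA i j).D p
theorem MBinf.trace (hA : MBinf A) : Binf (fun x => (A x).trace) := by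
  rw [HbM.trace_eq]
  exact binf_sum Finset.univ fun l _ => hA l l
theorem MBinf.inv (hA : MBinf A) (hu : ∀ x, IsUnit (A x).det) {K' : ℝ}
    (hb : ∀ x i j, |(A x)⁻¹ i j| ≤ K') : MBinf (fun x => (A x)⁻¹) := by
  refine mbinf_of_mhb fun k => ?_
  obtain ⟨K, -, hK⟩ := hA.mhb k
  obtain ⟨C, -, hC⟩ := mhb_inv n k K K'
  exact ⟨C, hC A hu hK hb⟩
theorem MPG.msmo (h : MPG A) : MSmo A := fun i j => (h i j).smo
theorem MPG.add (hA : MPG A) (hB : MPG B) : MPG (fun x => A x + B x) :=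
  fun i j => (hA i j).add (hB i j)
theorem MPG.sub (hA : MPG A) (hB : MPG B) : MPG (fun x => A x - B x) :=
  fun i j => (hA i j).sub (hB i j)
theorem MPG.mul (hA : MPG A) (hB : MPG B) : MPG (fun x => A x * B x) := fun i j => by
  rw [HbM.ent_mul]
  exact pg_sum Finset.univ fun l _ => (hA i l).mul (hB l j)
theorem MPG.MD (hA : MPG A) (p : Fin n) : MPG (MD p A) := fun i j => (hA i j).D p
theorem MPG.trace (hA : MPG A) : PG (fun x => (A x).trace) := by
  rw [HbM.trace_eq]
  exact pg_sum Finset.univ fun l _ => hA l l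
theorem PG.hess {f : E n → ℝ} (hf : PG f) : MPG (hess f) := fun i j => (hf.D j).D i
theorem MPG.qf_self (hA : MPG A) : PG (fun x => qf (A x) x) :=
  pg_sum Finset.univ fun i _ => pg_sum Finset.univ fun j _ =>
    ((hA i j).mul (pg_coord i)).mul (pg_coord j)
theorem Far.mono {om om' R R' : ℝ} (h : Far om R A) (ho : om ≤ om') (hR : R ≤ R') :
    Far om' R' A := fun x hx i j => (h x (hR.trans hx) i j).trans ho

end Vale.Agent.P227
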