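import Vale.Agent.P227.Green

/-! The mixed term of the key inequality (checked numerically). -/

namespace Vale.Agent.P227

open scoped ContDiff Matrix RealInnerProductSpace Topology
open MeasureTheory Filter

variable {n : ℕ}

namespace KBAux

variable {Θ W φ : E n → ℝ}

/-- the terms of order zero -/
noncomputable def rest (Θ φ : E n → ℝ) (i j : Fin n) : E n → ℝ := fun x =>
  SS Θ φ x i j * D j (D i φ) x +
    SS Θ φ x i j * (tau Θ x * hess (D j Θ) x * tau Θ x * hess (D i φ) x).trace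

theorem pg_rest (h : Pot Θ W) (hφ : PG φ) (i j : Fin n) : PG (rest Θ φ i j) :=
  ((h.mpg_SS hφ i j).mul ((hφ.D i).D j)).add ((h.mpg_SS hφ i j).mul
    (((h.mpg.mul (h.mT.pg.D j).hess).mul h.mpg).mul (hφ.D i).hess).trace)

theorem pg_all (h : Pot Θ W) (hφ : PG φ) (i j : Fin n) :
    PG fun x => Gam (tau Θ) (ent (SS Θ φ) i j) (D j (D i φ)) x + rest Θ φ i j x :=
  ((h.mpg_SS hφ i j).Gam ((hφ.D i).D j) h.mpg).add (pg_rest h hφ i j)

theorem step3 (h : Pot Θ W) (hW : Coer W) (hφ : PG φ) (i j : Fin n) :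
    Ex W (fun x => ent (SS Θ φ) i j x * D j (Lop (tau Θ) (D i φ)) x) =
      -Ex W fun x => Gam (tau Θ) (ent (SS Θ φ) i j) (D j (D i φ)) x + rest Θ φ i j x := by
  have cW := h.sW.continuous
  have e : (fun x => ent (SS Θ φ) i j x * D j (Lop (tau Θ) (D i φ)) x) = fun x =>
      ent (SS Θ φ) i j x * Lop (tau Θ) (D j (D i φ)) x - rest Θ φ i j x := by
    funext x
    rw [h.toLPot.D_L (hφ.D i).smo]
    simp only [rest, ent]
    ring
  rw [e, Ex_sub hW cW ((h.mpg_SS hφ i j).mul (((hφ.D i).D j).Lop h.mpg)).cpb (pg_rest h hφ i j).cpb,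
    h.green hW (h.mpg_SS hφ i j) ((hφ.D i).D j),
    Ex_add hW cW ((h.mpg_SS hφ i j).Gam ((hφ.D i).D j) h.mpg).cpb (pg_rest h hφ i j).cpb]
  ring

theorem step (h : Pot Θ W) (hW : Coer W) (hφ : PG φ) (i : Fin n) :
    Ex W (fun x => ∑ j, D j (cc Θ φ i) x * (tau Θ x * hess φ x) j i) =
      Ex W fun x => ∑ j, (Gam (tau Θ) (ent (SS Θ φ) i j) (D j (D i φ)) x + rest Θ φ i j x) := by
  have cW := h.sW.continuous
  have hL : PG (Lop (tau Θ) (D i φ)) := (hφ.D i).Lop h.mpg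
  have a := Ex_div hW h.mW.pg (v := fun j y => ∑ a, tau Θ y j a * D a (D i φ) y)
    (fun j => (h.mpg.mul hφ.hess) j i) (h.pg_cc hφ i)
  have b := Ex_div hW h.mW.pg (v := fun j => ent (SS Θ φ) i j) (fun j => h.mpg_SS hφ i j) hL
  simp only [h.toLPot.div_grad (hφ.D i).smo] at a
  simp only [h.toLPot.div_S hφ.smo] at b
  have e1 : (fun x => Lop (tau Θ) (D i φ) x * -cc Θ φ i x) =
      fun x => -(cc Θ φ i x * Lop (tau Θ) (D i φ) x) := by
    funext x; ring
  have e2 : (fun x => ∑ j, D j (cc Θ φ i) x * (tau Θ x * hess φ x) j i) =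
      fun x => ∑ j, (∑ a, tau Θ x j a * D a (D i φ) x) * D j (cc Θ φ i) x := by
    funext x
    exact Finset.sum_congr rfl fun j _ => mul_comm _ _
  rw [e1, Ex_neg, a, neg_neg, Ex_sum hW cW _ fun j _ => ((h.mpg_SS hφ i j).mul (hL.D j)).cpb] at b
  rw [e2, b, Ex_sum hW cW _ fun j _ => (pg_all h hφ i j).cpb, ← Finset.sum_neg_distrib]
  exact Finset.sum_congr rfl fun j _ => by rw [step3 h hW hφ, neg_neg]

theorem alg (τ S P : Mat n) (dS Ψ : Fin n → Mat n) (t : Fin n → Fin n → ℝ) :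
    ∑ i, ∑ j, ((∑ k, ∑ l, τ k l * dS k i j * Ψ l j i) + (S i j * P j i + S i j * t i j)) =
      (S * P).trace + ((∑ k, ∑ l, τ k l * (dS k * Ψ l).trace) + ∑ i, ∑ j, S i j * t i j) := by
  have e : ∑ i, ∑ j, ∑ k, ∑ l, τ k l * dS k i j * Ψ l j i =
      ∑ k, ∑ l, τ k l * (dS k * Ψ l).trace := by
    simp only [Matrix.trace, Matrix.diag, Matrix.mul_apply, Finset.mul_sum, ← mul_assoc]
    rw [Finset.sum_congr rfl fun i _ => Finset.sum_comm, Finset.sum_comm]
    refine Finset.sum_congr rfl fun k _ => ?_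
    rw [Finset.sum_congr rfl fun i _ => Finset.sum_comm, Finset.sum_comm]
  simp only [Finset.sum_add_distrib, e]
  simp only [Matrix.trace, Matrix.diag, Matrix.mul_apply]
  ring

end KBAux

open KBAux

/-- With `K = τ Φ`: `divW W (fun j => K j i) = L φ_i` (`div_grad` for `D i φ`), so by `Ex_div`
`E ∂_j c_i K_{ji} = - E c_i Lφ_i = E (div S_{i·}) Lφ_i = - E S_{ij} ∂_j Lφ_i` (`div_S`); insert
`D_L` for `D i φ`; finally `- E S_{ij} L φ_{ji} = E Gam S_{ij} φ_{ji}` (`green`) and `MD_SS`. -/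
theorem kb {Θ W φ : E n → ℝ} (h : Pot Θ W) (hW : Coer W) (hφ : PG φ) :
    Ex W (fun x => ∑ i, ∑ j, D j (cc Θ φ i) x * (tau Θ x * hess φ x) j i) =
      Ex W (fun x => (tau Θ x * hess φ x * tau Θ x * hess φ x).trace +
        kB (tau Θ x) (hess φ x) (fun k => hess (D k Θ) x) (fun k => hess (D k φ) x)) := by
  have cW := h.sW.continuous
  have p : ∀ i, PG fun x => ∑ j, D j (cc Θ φ i) x * (tau Θ x * hess φ x) j i := fun i =>
    pg_sum _ fun j _ => ((h.pg_cc hφ i).D j).mul ((h.mpg.mul hφ.hess) j i)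
  rw [Ex_sum hW cW _ fun i _ => (p i).cpb,
    Finset.sum_congr rfl fun i _ => step h hW hφ i,
    ← Ex_sum hW cW _ fun i _ => (pg_sum _ fun j _ => pg_all h hφ i j).cpb]
  congr 1
  funext x
  refine Eq.trans (Finset.sum_congr rfl fun i _ => Finset.sum_congr rfl fun j _ => ?_)
    (alg (tau Θ x) (SS Θ φ x) (hess φ x)
      (fun k => dS (tau Θ x) (hess φ x) (hess (D k Θ) x) (hess (D k φ) x))
      (fun k => hess (D k φ) x)
      fun i j => (tau Θ x * hess (D j Θ) x * tau Θ x * hess (D i φ) x).trace)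
  congr 1
  refine Finset.sum_congr rfl fun k _ => Finset.sum_congr rfl fun l _ => ?_
  rw [← h.toLPot.MD_SS hφ.smo, hess_D_apply hφ.smo]
  rfl

end Vale.Agent.P227
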