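import Vale.Agent.P227.Green

/-! The curvature term of the key inequality. -/

namespace Vale.Agent.P227

open scoped ContDiff Matrix RealInnerProductSpace Topology
open MeasureTheory Filter

variable {n : ℕ}

namespace KCAux

variable {Θ W φ : E n → ℝ}

/-- the terms of order zero -/
noncomputable def rest (Θ φ : E n → ℝ) (i j : Fin n) : E n → ℝ := fun x =>
  MM Θ φ x i j * D j (D i Θ) x +
    MM Θ φ x i j * (tau Θ x * hess (D j Θ) x * tau Θ x * hess (D i Θ) x).trace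

theorem pg_rest (h : Pot Θ W) (hφ : PG φ) (i j : Fin n) : PG (rest Θ φ i j) :=
  ((h.mpg_MM hφ i j).mul ((h.mT.pg.D i).D j)).add ((h.mpg_MM hφ i j).mul
    (((h.mpg.mul (h.mT.pg.D j).hess).mul h.mpg).mul (h.mT.pg.D i).hess).trace)

theorem pg_all (h : Pot Θ W) (hφ : PG φ) (i j : Fin n) :
    PG fun x => Gam (tau Θ) (ent (MM Θ φ) i j) (D j (D i Θ)) x + rest Θ φ i j x :=
  ((h.mpg_MM hφ i j).Gam ((h.mT.pg.D i).D j) h.mpg).add (pg_rest h hφ i j)

theorem step (h : Pot Θ W) (hW : Coer W) (hφ : PG φ) (i j : Fin n) :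
    Ex W (fun x => ent (MM Θ φ) i j x * D j (D i W) x) =
      Ex W fun x => Gam (tau Θ) (ent (MM Θ φ) i j) (D j (D i Θ)) x + rest Θ φ i j x := by
  have cW := h.sW.continuous
  have pT := (h.mT.pg.D i).D j
  have e : (fun x => ent (MM Θ φ) i j x * D j (D i W) x) = fun x =>
      rest Θ φ i j x - ent (MM Θ φ) i j x * Lop (tau Θ) (D j (D i Θ)) x := by
    funext x
    rw [h.toLPot.L_hess]
    simp only [rest, ent, Qm, hess_apply, Matrix.of_apply]
    ring
  rw [e, Ex_sub hW cW (pg_rest h hφ i j).cpb ((h.mpg_MM hφ i j).mul (pT.Lop h.mpg)).cpb,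
    h.green hW (h.mpg_MM hφ i j) pT,
    Ex_add hW cW ((h.mpg_MM hφ i j).Gam pT h.mpg).cpb (pg_rest h hφ i j).cpb]
  ring

theorem alg (τ S P : Mat n) (dS Ψ : Fin n → Mat n) (t : Fin n → Fin n → ℝ) :
    ∑ i, ∑ j, ((∑ k, ∑ l, τ k l * dS k i j * Ψ l j i) + (S i j * P j i + S i j * t i j)) =
      (S * P).trace + ((∑ k, ∑ l, τ k l * (dS k * Ψ l).trace) + ∑ i, ∑ j, S i j * t i j) := by
  have e : ∑ i, ∑ j, ∑ k, ∑ l, τ k l * dS k i j * Ψ l j i =
      ∑ k, ∑ l, τ k l * (dS k * Ψ l).trace := by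
    simp only [Matrix.trace, Matrix.diag, Matrix.mul_apply, Finset.mul_sum, ← mul_assoc]
    rw [Finset.sum_congr rfl fun i _ => Finset.sum_comm, Finset.sum_comm]
    refine Finset.sum_congr rfl fun k _ => ?_
    rw [Finset.sum_congr rfl fun i _ => Finset.sum_comm, Finset.sum_comm]
  simp only [Finset.sum_add_distrib, e]
  simp only [Matrix.trace, Matrix.diag, Matrix.mul_apply]
  ring

theorem tr_swap (τ A B : Mat n) : (τ * A * τ * B).trace = (τ * B * τ * A).trace := by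
  rw [Matrix.mul_assoc (τ * A), Matrix.trace_mul_comm, ← Matrix.mul_assoc]

end KCAux

open KCAux

/-- `W_{ij} = h_{ij} - L h_{ij} + Q_{ij}` (`L_hess`), `tr (h M) = tr (τΦτΦ)`,
`- E M_{ji} L h_{ij} = E Gam M_{ji} h_{ij}` (`green`), `MD_MM`. -/
theorem kc {Θ W φ : E n → ℝ} (h : Pot Θ W) (hW : Coer W) (hφ : PG φ) :
    Ex W (fun x => (hess W x * MM Θ φ x).trace) =
      Ex W (fun x => (tau Θ x * hess φ x * tau Θ x * hess φ x).trace +
        kC (tau Θ x) (hess φ x) (fun k => hess (D k Θ) x) (fun k => hess (D k φ) x)) := by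
  have cW := h.sW.continuous
  have p : ∀ i j, PG fun x => ent (MM Θ φ) i j x * D j (D i W) x := fun i j =>
    (h.mpg_MM hφ i j).mul ((h.mW.pg.D i).D j)
  have e0 : (fun x => (hess W x * MM Θ φ x).trace) =
      fun x => ∑ i, ∑ j, ent (MM Θ φ) i j x * D j (D i W) x := by
    funext x
    rw [Matrix.trace_mul_comm]
    rfl
  rw [e0, Ex_sum hW cW _ fun i _ => (pg_sum _ fun j _ => p i j).cpb,
    Finset.sum_congr rfl fun i _ => Ex_sum hW cW _ fun j _ => (p i j).cpb,
    Finset.sum_congr rfl fun i _ => Finset.sum_congr rfl fun j _ => step h hW hφ i j,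
    ← Finset.sum_congr rfl fun i _ => Ex_sum hW cW _ fun j _ => (pg_all h hφ i j).cpb,
    ← Ex_sum hW cW _ fun i _ => (pg_sum _ fun j _ => pg_all h hφ i j).cpb]
  congr 1
  funext x
  have e1 : (tau Θ x * hess φ x * tau Θ x * hess φ x).trace = (MM Θ φ x * hess Θ x).trace := by
    rw [MM, Matrix.mul_assoc _ (tau Θ x) (hess Θ x), h.toLPot.tau_mul, Matrix.mul_one]
  rw [e1]
  refine Eq.trans (Finset.sum_congr rfl fun i _ => Finset.sum_congr rfl fun j _ => ?_)
    (alg (tau Θ x) (MM Θ φ x) (hess Θ x)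
      (fun k => dM (tau Θ x) (hess φ x) (hess (D k Θ) x) (hess (D k φ) x))
      (fun k => hess (D k Θ) x)
      fun i j => (tau Θ x * hess (D i Θ) x * tau Θ x * hess (D j Θ) x).trace)
  rw [rest, tr_swap]
  congr 1
  refine Finset.sum_congr rfl fun k _ => Finset.sum_congr rfl fun l _ => ?_
  rw [← h.toLPot.MD_MM hφ.smo, hess_D_apply h.sT]
  rfl

end Vale.Agent.P227
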