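import Vale.Agent.P227.Kin
import Vale.Agent.P227.BochV

/-! The key inequality. -/

namespace Vale.Agent.P227

open scoped ContDiff Matrix RealInnerProductSpace Topology
open MeasureTheory Filter

variable {n : ℕ}

namespace KeyAux

variable {Θ W φ V : E n → ℝ}

theorem pg_quad {A : E n → Mat n} {u v : Fin n → E n → ℝ} (hA : MPG A) (hu : ∀ i, PG (u i))
    (hv : ∀ i, PG (v i)) : PG fun x => ∑ i, ∑ j, A x i j * u i x * v j x :=
  pg_sum _ fun i _ => pg_sum _ fun j _ => ((hA i j).mul (hu i)).mul (hv j)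

theorem first (h : Pot Θ W) (hW : Coer W) (hφ : PG φ) (hV : PG V) :
    Ex W (fun x => ∑ i, D i V x * cc Θ φ i x) =
      Ex W (fun x => (hess V x * SS Θ φ x).trace) := by
  have pW := h.mW.pg
  have cW := h.sW.continuous
  have e1 : ∀ i, Ex W (fun x => D i V x * cc Θ φ i x) =
      Ex W (fun x => ∑ j, ent (SS Θ φ) i j x * D j (D i V) x) := by
    intro i
    have := Ex_div hW pW (v := fun j => ent (SS Θ φ) i j) (fun j => h.mpg_SS hφ i j) (hV.D i)
    simp only [h.toLPot.div_S hφ.smo, mul_neg] at this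
    rw [Ex_neg] at this
    exact neg_injective this
  rw [Ex_sum hW cW _ fun i _ => ((hV.D i).mul (h.pg_cc hφ i)).cpb]
  simp only [e1]
  rw [← Ex_sum hW cW _ fun i _ =>
    (pg_sum _ fun j _ => (h.mpg_SS hφ i j).mul ((hV.D i).D j)).cpb]
  congr 1
  funext x
  rw [Matrix.trace_mul_comm]
  simp only [Matrix.trace, Matrix.diag, Matrix.mul_apply, ent, hess_apply]

theorem second (h : Pot Θ W) (hW : Coer W) (hφ : PG φ) (hV : PG V) :
    -Ex W (fun x => rad V x * FF Θ φ x) = Ex W (fun x => (hess V x * SS Θ φ x).trace) +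
      Ex W (fun x => ∑ i, ∑ j, hess V x i j * x i * cc Θ φ j x) := by
  have pW := h.mW.pg
  have cW := h.sW.continuous
  have e1 := Ex_div hW pW (h.pg_cc hφ) hV.rad
  simp only [h.toLPot.div_c hφ.smo] at e1
  rw [e1, neg_neg, ← first h hW hφ hV, ← Ex_add hW cW
    (pg_sum _ fun i _ => (hV.D i).mul (h.pg_cc hφ i)).cpb
    (pg_quad hV.hess pg_coord (h.pg_cc hφ)).cpb]
  congr 1
  funext x
  rw [Finset.sum_comm, ← Finset.sum_add_distrib]
  refine Finset.sum_congr rfl fun i _ => ?_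
  rw [D_rad i hV.smo]
  simp only [rad, hess_apply, mul_add, Finset.mul_sum]
  congr 1
  · ring
  · exact Finset.sum_congr rfl fun a _ => by ring

theorem third (h : Pot Θ W) (hW : Coer W) (hV : PG V) :
    Ex W (fun x => (hess V x * tau Θ x).trace) = Ex W (rad V) := by
  have e1 := Ex_add hW h.sW.continuous (hV.Lop h.mpg).cpb hV.rad.cpb
  rw [h.Ex_L hW hV, zero_add] at e1
  rw [← e1]
  congr 1
  funext x
  rw [Lop_eq_trace _ hV.smo, Matrix.trace_mul_comm, sub_add_cancel]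

theorem single (h : Pot Θ W) (hW : Coer W) (hφ : PG φ) (hV : PG V)
    (hp : ∀ x, (hess V x).PosSemidef) (d : ℝ) :
    -2 * Ex W (fun x => d * rad V x * FF Θ φ x) ≤
      Ex W (fun x => d ^ 2 * (rad V x + qf (hess V x) x)) +
        Ex W (fun x => (hess V x * MM Θ φ x).trace +
          ∑ i, ∑ j, hess V x i j * cc Θ φ i x * cc Θ φ j x) := by
  have cW := h.sW.continuous
  have c1 := (hV.hess.mul (h.mpg_SS hφ)).trace.cpb
  have c2 := (pg_quad hV.hess pg_coord (h.pg_cc hφ)).cpb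
  have c3 := (hV.hess.mul h.mpg).trace.cpb
  have c4 := (hV.hess.mul (h.mpg_MM hφ)).trace.cpb
  have c5 := hV.hess.qf_self.cpb
  have c6 := (pg_quad hV.hess (h.pg_cc hφ) (h.pg_cc hφ)).cpb
  have e1 := Ex_mono hW cW (c1.const_mul (2 * d)) ((c3.const_mul (d ^ 2)).add c4) fun x =>
    cs_trace (hp x) (h.toLPot.tau_posDef x).posSemidef (hess_symm hφ.smo x) d
  have e2 := Ex_mono hW cW (c2.const_mul (2 * d)) ((c5.const_mul (d ^ 2)).add c6) fun x =>
    cs_vec (hp x) d x fun j => cc Θ φ j x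
  rw [Ex_add hW cW (c3.const_mul _) c4, Ex_const_mul, Ex_const_mul, third h hW hV] at e1
  rw [Ex_add hW cW (c5.const_mul _) c6, Ex_const_mul, Ex_const_mul] at e2
  have e3 := second h hW hφ hV
  simp only [mul_assoc d]
  rw [Ex_const_mul, Ex_const_mul, Ex_add hW cW hV.rad.cpb c5, Ex_add hW cW c4 c6]
  have e4 : -2 * (d * Ex W fun x => rad V x * FF Θ φ x) =
      2 * d * -Ex W fun x => rad V x * FF Θ φ x := by ring
  rw [e4, e3]
  linarith

end KeyAux

/-- `F = div c` (`div_c`), so `- E f F = E c_i ∂_i f` (`Ex_div`); for each `m`,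
`∂_i rad W_m = W_{m,i} + x_a W_{m,ai}` (`D_rad`) and `E c_i W_{m,i} = E tr (W_m'' S)` (`div_S`,
`Ex_div`). Pointwise `cs_trace`, `cs_vec`; `E tr (W_m'' τ) = E rad W_m` (`Ex_L`);
`∑_m tr (W_m'' M) ≤ tr (W'' M)` (`psd_tPtPt`, `trace_mul_nonneg`); then `kin` and `bochner_vec`. -/
theorem key {Θ W φ : E n → ℝ} (h : Pot Θ W) (hW : Coer W) (hφ : PG φ) {k : ℕ}
    {Wm : Fin k → E n → ℝ} (d : Fin k → ℝ) (hm : ∀ m, PG (Wm m))
    (hp : ∀ m x, (hess (Wm m) x).PosSemidef)
    (hd : ∀ x, (hess W x - ∑ m, hess (Wm m) x).PosSemidef) :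
    -2 * Ex W (fun x => fG Wm d x * FF Θ φ x) ≤
      Ex W (RG Wm d) + Ex W (fun x => FF Θ φ x ^ 2) := by
  have pW := h.mW.pg
  have cW := h.sW.continuous
  have c1 : ∀ {V : E n → ℝ}, PG V → PG fun x => (hess V x * MM Θ φ x).trace := fun hV =>
    (hV.hess.mul (h.mpg_MM hφ)).trace
  have c2 : ∀ {V : E n → ℝ}, PG V →
      PG fun x => ∑ i, ∑ j, hess V x i j * cc Θ φ i x * cc Θ φ j x := fun hV =>
    KeyAux.pg_quad hV.hess (h.pg_cc hφ) (h.pg_cc hφ)
  have e1 : Ex W (fun x => fG Wm d x * FF Θ φ x) =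
      ∑ m, Ex W fun x => d m * rad (Wm m) x * FF Θ φ x := by
    rw [← Ex_sum hW cW _ fun m _ => (((hm m).rad.const_mul (d m)).mul (h.pg_FF hφ)).cpb]
    simp only [fG, Finset.sum_mul]
  have e2 : Ex W (RG Wm d) =
      ∑ m, Ex W fun x => d m ^ 2 * (rad (Wm m) x + qf (hess (Wm m) x) x) :=
    Ex_sum hW cW _ fun m _ => (((hm m).rad.add (hm m).hess.qf_self).const_mul _).cpb
  have e3 := Finset.sum_le_sum fun m (_ : m ∈ Finset.univ) =>
    KeyAux.single h hW hφ (hm m) (hp m) (d m)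
  rw [Finset.sum_add_distrib, ← Finset.mul_sum, ← e1, ← e2,
    ← Ex_sum hW cW _ fun m _ => ((c1 (hm m)).add (c2 (hm m))).cpb] at e3
  have e4 := Ex_mono hW cW (pg_sum Finset.univ fun m _ => (c1 (hm m)).add (c2 (hm m))).cpb
    ((c1 pW).add (c2 pW)).cpb fun x => by
      have a1 := trace_mul_nonneg (hd x)
        (psd_tPtPt (h.toLPot.tau_posDef x).posSemidef (hess_symm hφ.smo x))
      have a2 := sum_psd_nonneg (hd x) fun i => cc Θ φ i x
      rw [sub_mul, Matrix.trace_sub, Finset.sum_mul, Matrix.trace_sum, sub_nonneg] at a1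
      simp only [Matrix.sub_apply, Matrix.sum_apply, sub_mul, Finset.sum_sub_distrib,
        Finset.sum_mul, sub_nonneg] at a2
      rw [Finset.sum_add_distrib]
      refine add_le_add a1 (le_of_eq_of_le ?_ a2)
      rw [Finset.sum_comm]
      exact Finset.sum_congr rfl fun i _ => Finset.sum_comm
  rw [Ex_add hW cW (c1 pW).cpb (c2 pW).cpb] at e4
  have e5 := kin h hW hφ
  have e6 := bochner_vec hW pW (h.pg_cc hφ)
  simp only [h.toLPot.div_c hφ.smo] at e6
  linarith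

end Vale.Agent.P227
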