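import Vale.Agent.P227.KB
import Vale.Agent.P227.KC
import Vale.Agent.P227.Alg

/-! The inequality (K). -/

namespace Vale.Agent.P227

open scoped ContDiff Matrix RealInnerProductSpace Topology
open MeasureTheory Filter

variable {n : ℕ}

namespace KinAux

variable {Θ W φ : E n → ℝ}

theorem pg_kB (h : Pot Θ W) (hφ : PG φ) : PG fun x =>
    kB (tau Θ x) (hess φ x) (fun k => hess (D k Θ) x) (fun k => hess (D k φ) x) := by
  have t := h.mpg
  have P := hφ.hess
  have T := fun k => (h.mT.pg.D k).hess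
  have Ψ := fun k => (hφ.D k).hess
  refine (pg_sum _ fun k _ => pg_sum _ fun l _ => (t k l).mul (MPG.trace (MPG.mul ?_ (Ψ l)))).add
    (pg_sum _ fun i _ => pg_sum _ fun j _ => (((t.mul P).mul t) i j).mul
      (((t.mul (T j)).mul t).mul (Ψ i)).trace)
  exact (((t.mul (Ψ k)).mul t).sub ((((t.mul (T k)).mul t).mul P).mul t)).sub
    ((((t.mul P).mul t).mul (T k)).mul t)

theorem pg_kC (h : Pot Θ W) (hφ : PG φ) : PG fun x =>
    kC (tau Θ x) (hess φ x) (fun k => hess (D k Θ) x) (fun k => hess (D k φ) x) := by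
  have t := h.mpg
  have P := hφ.hess
  have T := fun k => (h.mT.pg.D k).hess
  have Ψ := fun k => (hφ.D k).hess
  refine (pg_sum _ fun k _ => pg_sum _ fun l _ => (t k l).mul (MPG.trace (MPG.mul ?_ (T l)))).add
    (pg_sum _ fun i _ => pg_sum _ fun j _ => (((((t.mul P).mul t).mul P).mul t) i j).mul
      (((t.mul (T i)).mul t).mul (T j)).trace)
  exact (((((((t.mul (Ψ k)).mul t).mul P).mul t).add ((((t.mul P).mul t).mul (Ψ k)).mul t)).sub
    ((((((t.mul (T k)).mul t).mul P).mul t).mul P).mul t)).sub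
    ((((((t.mul P).mul t).mul (T k)).mul t).mul P).mul t)).sub
    ((((((t.mul P).mul t).mul P).mul t).mul (T k)).mul t)

/-- the symmetric factor of the Jacobian of `c` -/
noncomputable def Sg (Θ u : E n → ℝ) (x : E n) : Mat n := Matrix.of fun p j =>
  (∑ q, hess (D j Θ) x p q * ∑ a, tau Θ x q a * D a u x) - D j (D p u) x

theorem Sg_symm (h : LPot Θ W) {u : E n → ℝ} (hu : ContDiff ℝ ∞ u) (x : E n) :
    (Sg Θ u x).IsSymm := by
  refine Matrix.IsSymm.ext fun p j => ?_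
  simp only [Sg, Matrix.of_apply]
  rw [D_comm p j hu]
  congr 1
  exact Finset.sum_congr rfl fun q _ => congrArg (· * _) ((hessD_sym h.sT x).1 p j q)

theorem D_c (h : LPot Θ W) {u : E n → ℝ} (hu : ContDiff ℝ ∞ u) (x : E n) (i j : Fin n) :
    D j (fun y => -∑ a, tau Θ y i a * D a u y) x = (tau Θ x * Sg Θ u x) i j := by
  have d1 : ∀ a, Differentiable ℝ fun y => tau Θ y i a := fun a => smo_diff (h.msmo i a)
  have d2 : ∀ a, Differentiable ℝ (D a u) := fun a => smo_diff (smo_D a hu)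
  have e : ∀ a, D j (fun y => tau Θ y i a) x =
      -(tau Θ x * hess (D j Θ) x * tau Θ x) i a := fun a =>
    congrFun (congrFun (h.MD_tau j x) i) a
  rw [D_neg, D_sum j (F := fun a y => tau Θ y i a * D a u y) _ fun a _ => (d1 a).mul (d2 a)]
  simp only [D_mul j (d1 _) (d2 _), e, Matrix.mul_apply, Sg, Matrix.of_apply, mul_sub,
    Finset.sum_sub_distrib, Finset.sum_add_distrib, neg_mul, Finset.sum_neg_distrib, neg_add,
    neg_neg, Finset.sum_mul, Finset.mul_sum]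
  rw [← sub_eq_add_neg]
  congr 1
  rw [Finset.sum_comm]
  rw [Finset.sum_congr rfl fun q _ => Finset.sum_comm, Finset.sum_comm]
  exact Finset.sum_congr rfl fun p _ => Finset.sum_congr rfl fun q _ =>
    Finset.sum_congr rfl fun a _ => by ring

theorem tr_ineq {τ S P : Mat n} (hτ : τ.PosSemidef) (hS : S.IsSymm) (hP : P.IsSymm) :
    2 * (∑ i, ∑ j, (τ * S) i j * (τ * P) j i) - (τ * P * τ * P).trace ≤
      ∑ i, ∑ j, (τ * S) i j * (τ * S) j i := by
  have h := trace_sq_nonneg hτ (hS.sub hP)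
  have e1 : ∑ i, ∑ j, (τ * S) i j * (τ * P) j i = (τ * S * (τ * P)).trace := rfl
  have e2 : ∑ i, ∑ j, (τ * S) i j * (τ * S) j i = (τ * S * (τ * S)).trace := rfl
  have e3 := Matrix.trace_mul_comm (τ * P) (τ * S)
  rw [e1, e2]
  simp only [Matrix.mul_sub, Matrix.sub_mul, Matrix.trace_sub, Matrix.mul_assoc] at h e3 ⊢
  linarith

end KinAux

open KinAux

/-- Let `Dc = Matrix.of fun i j => D j (cc Θ φ i) x`. Then `Dc = τ * Σ` with `Σ` symmetric
(`Σ_{pj} = ∑_q T_j(p,q) (τ∇u)_q - u_{pj}`), so `0 ≤ tr ((Dc - τΦ)²)` (`trace_sq_nonneg`), i.e.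
`tr Dc² ≥ 2 tr (Dc τΦ) - tr (τΦτΦ)`. Integrate, use `kb`, `alg`, `kc`. -/
theorem kin {Θ W φ : E n → ℝ} (h : Pot Θ W) (hW : Coer W) (hφ : PG φ) :
    Ex W (fun x => (hess W x * MM Θ φ x).trace) ≤
      Ex W (fun x => ∑ i, ∑ j, D j (cc Θ φ i) x * D i (cc Θ φ j) x) := by
  have cW := h.sW.continuous
  have hu := (h.pg_uu hφ).smo
  have pC : PG fun x => (tau Θ x * hess φ x * tau Θ x * hess φ x).trace :=
    (((h.mpg.mul hφ.hess).mul h.mpg).mul hφ.hess).trace
  have pB : PG fun x => ∑ i, ∑ j, D j (cc Θ φ i) x * (tau Θ x * hess φ x) j i :=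
    pg_sum _ fun i _ => pg_sum _ fun j _ => ((h.pg_cc hφ i).D j).mul ((h.mpg.mul hφ.hess) j i)
  have pA : PG fun x => ∑ i, ∑ j, D j (cc Θ φ i) x * D i (cc Θ φ j) x :=
    pg_sum _ fun i _ => pg_sum _ fun j _ => ((h.pg_cc hφ i).D j).mul ((h.pg_cc hφ j).D i)
  have h1 := Ex_mono hW cW ((pB.const_mul 2).sub pC).cpb pA.cpb fun x => by
    have e : ∀ i j, D j (cc Θ φ i) x = (tau Θ x * Sg Θ (uu Θ φ) x) i j := fun i j =>
      D_c h.toLPot hu x i j
    simp only [e]
    exact tr_ineq (h.toLPot.tau_posDef x).posSemidef (Sg_symm h.toLPot hu x) (hess_symm hφ.smo x)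
  have h2 := Ex_mono hW cW (pg_kC h hφ).cpb ((pg_kB h hφ).const_mul 2).cpb fun x =>
    alg (h.toLPot.tau_posDef x).posSemidef (hess_symm hφ.smo x) (hessD_sym h.sT x)
      (hessD_sym hφ.smo x)
  rw [Ex_sub hW cW (pB.const_mul 2).cpb pC.cpb, Ex_const_mul, kb h hW hφ,
    Ex_add hW cW pC.cpb (pg_kB h hφ).cpb] at h1
  rw [Ex_const_mul] at h2
  rw [kc h hW hφ, Ex_add hW cW pC.cpb (pg_kC h hφ).cpb]
  linarith

end Vale.Agent.P227
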