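import Vale.Agent.P227.Pk

/-! The Schauder chain for the linearised equation. -/

namespace Vale.Agent.P227

open scoped ContDiff Matrix RealInnerProductSpace Topology
open MeasureTheory Filter

variable {n : ℕ}

namespace Lap1Aux

/-- the data for `D i θ` -/
theorem data {τ : E n → Mat n} {l K M B : ℝ} {θ : E n → ℝ} {k : ℕ} (hk : k ≤ 2)
    (m3 : MHb 3 K τ) (hθ : Sm θ) (hM : 0 ≤ M) (hA : N2 1 M (Aop τ l θ)) (hB : N2 k B θ)
    (i : Fin n) :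
    Hs k ((n + 1) * M + n ^ 2 * (2 ^ (k + 1) * K * B)) (Aop τ (l + 1) (D i θ)) := by
  have sA : ContDiff ℝ ∞ (Aop τ l θ) := smo_Aop m3.msmo l hθ.smo
  have c1 := ((m3.MD i).of_le hk).contr hB
  have c2 := ((hA.hs_D sA hM i).of_le hk).add c1.hs (smo_D i sA) c1.smo
  rw [D_Aop i m3.msmo l hθ.smo] at c2
  simp only [MD_apply, sub_add_cancel] at c2
  exact c2

end Lap1Aux

/-- Apply `Pk` to `v = D i θ` with data `D i (Aop τ l θ) + ∑ (D i τ) ∂∂θ`.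
Order 0: `halving` on `Q B₃ := ∀ i, N2 0 B₃ (D i θ)`, using `hol_interp` for `∂∂θ` (sup `B`,
gradient `B₃`, small `ε`). Then `n2_succ_of` gives `N2 1`, `Pk 1` gives `N2 2`, `Pk 2` gives `N2 3`
(`N2.hs_D`, `Hs.of_le`). -/
theorem lap1 (n : ℕ) {c K : ℝ} (hc : 0 < c) (hK : 0 < K) : ∃ om : ℝ, 0 < om ∧ ∀ R : ℝ,
    ∃ C : ℝ, 0 < C ∧ ∀ (τ : E n → Mat n) (l : ℝ) (θ : E n → ℝ) (B M : ℝ), Ell c K τ →
      MHb 3 K τ → Far om R τ → -1 ≤ l → Sm θ → 0 ≤ B → 0 ≤ M →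
      (∀ i j x, |D i (D j θ) x| ≤ B) → N2 1 M (Aop τ l θ) → N2 3 (C * (B + M)) θ := by
  obtain ⟨om, hom, h⟩ := Pk n hc hK
  refine ⟨om, hom, fun R => ?_⟩
  obtain ⟨C0, hC0, h0⟩ := h 0 R K
  obtain ⟨C1, hC1, h1⟩ := h 1 R K
  obtain ⟨C2, hC2, h2⟩ := h 2 R K
  have hn : (0 : ℝ) ≤ n := Nat.cast_nonneg n
  obtain ⟨ε, hε, hε1⟩ : ∃ ε : ℝ, 0 < ε ∧ C0 * (n ^ 2 * (2 * K)) * (ε * n) ≤ 1 / 2 := by
    refine ⟨1 / (2 * (C0 * (n ^ 2 * (2 * K)) * n + 1)), by positivity, ?_⟩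
    have a : 0 ≤ C0 * (n ^ 2 * (2 * K)) * n := by positivity
    rw [show C0 * (n ^ 2 * (2 * K)) * (1 / (2 * (C0 * (n ^ 2 * (2 * K)) * n + 1)) * n) =
      (C0 * (n ^ 2 * (2 * K)) * n) / (2 * (C0 * (n ^ 2 * (2 * K)) * n + 1)) by ring,
      div_le_div_iff₀ (by positivity) (by positivity)]
    linarith
  obtain ⟨A0, hA0, eA0⟩ : ∃ A0 : ℝ, 0 ≤ A0 ∧
    A0 = C0 * (1 + (n + 1) + n ^ 2 * (2 * K * (1 + 2 / ε))) := ⟨_, by positivity, rfl⟩
  obtain ⟨A1, hA1, eA1⟩ : ∃ A1 : ℝ, 0 ≤ A1 ∧ A1 = 1 + (n + 1) * (2 * A0) :=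
    ⟨_, by positivity, rfl⟩
  obtain ⟨A2, hA2, eA2⟩ : ∃ A2 : ℝ, 0 ≤ A2 ∧
    A2 = 1 + (n + 1) * (C1 * (1 + (n + 1) + n ^ 2 * (2 ^ (1 + 1) * K * A1))) :=
    ⟨_, by positivity, rfl⟩
  refine ⟨1 + (n + 1) * (C2 * (1 + (n + 1) + n ^ 2 * (2 ^ (2 + 1) * K * A2))), by positivity,
    fun τ l θ B M e m3 f hl hθ hB hM hD hA => ?_⟩
  have m0 : MHb 0 K τ := m3.of_le (by norm_num)
  have hS : 0 ≤ B + M := by positivity
  have up : ∀ (k : ℕ) (Ck A : ℝ), k ≤ 2 → 0 ≤ Ck → 0 ≤ A →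
      (∀ (v : E n → ℝ) (M F : ℝ), Sm v → 0 ≤ M → 0 ≤ F → (∀ i x, |D i v x| ≤ M) →
        Hs k F (Aop τ (l + 1) v) → N2 k (Ck * (M + F)) v) → N2 k (A * (B + M)) θ →
      N2 (k + 1) ((1 + (n + 1) * (Ck * (1 + (n + 1) + n ^ 2 * (2 ^ (k + 1) * K * A)))) *
        (B + M)) θ := by
    intro k Ck A hk hCk hA' hP hN
    have c : ∀ i, N2 k (Ck * (1 + (n + 1) + n ^ 2 * (2 ^ (k + 1) * K * A)) * (B + M))
        (D i θ) := by
      intro i
      refine (hP (D i θ) B _ (hθ.D i) hB (by positivity) (fun j x => hD j i x)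
        (Lap1Aux.data hk m3 hθ hM hA hN i)).mono ?_
      have a1 : 0 ≤ Ck * M := by positivity
      have a2 : 0 ≤ Ck * (n + 1) * B := by positivity
      nlinarith
    refine (n2_succ_of hθ.smo (by positivity) hD c).mono ?_
    nlinarith
  have s0 : ∀ i, N2 0 (2 * (A0 * (B + M))) (D i θ) := by
    obtain ⟨B1, hB1, hN⟩ := hθ.n2 1
    have key := halving (Q := fun b => ∀ i, N2 0 b (D i θ)) (c := A0 * (B + M))
      (fun a b hab ha i => (ha i).mono hab) hB1 (fun i => hN.D i) ?_ (by positivity)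
    · exact fun i => n2_of_forall fun ε hε => key ε hε i
    intro b hb hQ i
    have c1 : N2 0 (B + (ε * (n * b) + 2 * B / ε)) θ := by
      intro p q
      have sm := smo_D p (smo_D q hθ.smo)
      have a : 0 ≤ ε * (n * b) + 2 * B / ε := by positivity
      refine ⟨sm, fun x => (hD p q x).trans (by linarith), ?_⟩
      exact (hol_interp (smo_diff sm) hε hb (hD p q) fun r x => (hQ q).abs_le r p x).mono
        (by linarith)
    refine (h0 τ (l + 1) (D i θ) B _ e m0 m0 f (by linarith) (hθ.D i) hB (by positivity)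
      (fun j x => hD j i x) (Lap1Aux.data (by norm_num) m3 hθ hM hA c1 i)).mono ?_
    have a1 : C0 * (n ^ 2 * (2 * K)) * (ε * n) * b ≤ 1 / 2 * b :=
      mul_le_mul_of_nonneg_right hε1 hb
    have a2 : 0 ≤ C0 * M := by positivity
    have a3 : 0 ≤ C0 * (n + 1) * B := by positivity
    have a4 : 0 ≤ C0 * (n ^ 2 * (2 * K * (1 + 2 / ε))) * M := by positivity
    have a5 : C0 * (B + ((n + 1) * M + n ^ 2 * (2 ^ (0 + 1) * K * (B + (ε * (n * b) + 2 * B / ε)))))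
        = C0 * (n ^ 2 * (2 * K)) * (ε * n) * b + (C0 * B + C0 * (n + 1) * M +
          C0 * (n ^ 2 * (2 * K * (1 + 2 / ε))) * B) := by ring
    rw [a5, eA0]
    nlinarith
  have s1 : N2 1 (A1 * (B + M)) θ := by
    refine (n2_succ_of hθ.smo (by positivity) hD s0).mono ?_
    rw [eA1]
    nlinarith
  have s2 : N2 2 (A2 * (B + M)) θ := by
    rw [eA2]
    exact up 1 C1 A1 (by norm_num) hC1.le hA1 (fun v M F a b c d g =>
      h1 τ (l + 1) v M F e m0 (m3.of_le (by norm_num)) f (by linarith) a b c d g) s1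
  exact up 2 C2 A2 le_rfl hC2.le hA2 (fun v M F a b c d g =>
    h2 τ (l + 1) v M F e m0 (m3.of_le (by norm_num)) f (by linarith) a b c d g) s2

end Vale.Agent.P227
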