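import Vale.Agent.P227.Green

/-! The L2 part of the linear estimate. -/

namespace Vale.Agent.P227

open scoped ContDiff Matrix RealInnerProductSpace Topology
open MeasureTheory Filter

variable {n : ℕ}

/-- With `f = Aop τ l θ`: `E (f - f 0)(-Lθ) = E f (-Lθ) = l E Gam θ θ + E (Lθ)²
≥ E tr (τ θ'' τ θ'')` (`Ex_L`, `green`, `bochner`, `Gam ≥ 0`, `l ≥ -1`), while
`|f - f 0| ≤ n² M |x|²`, `|Lθ| ≤ n² K B + n² B |x|²`; `Ex_bound`, `Ev.lower`, `trace_sq_lower`. -/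
theorem lap2 (n : ℕ) {κ K : ℝ} (hκ : 0 < κ) (hK : 0 < K) : ∃ C : ℝ, 0 < C ∧
    ∀ (Θ W : E n → ℝ) (c l : ℝ) (θ : E n → ℝ) (B M : ℝ), Pot Θ W →
      (∀ x ξ, κ * ‖ξ‖ ^ 2 ≤ qf (hess W x) ξ) → 0 ≤ c → Ell c K (tau Θ) → -1 ≤ l → Sm θ → Ev θ →
      0 ≤ B → 0 ≤ M → (∀ i j x, |D i (D j θ) x| ≤ B) →
      (∀ i j x, |D i (D j (Aop (tau Θ) l θ)) x| ≤ M) →
      ∀ i j, c ^ 2 * Ex W (fun x => D i (D j θ) x ^ 2) ≤ C * M * B * Real.exp (-W 0) := by
  obtain ⟨I, hI, hb⟩ := Ex_bound n 4 (half_pos hκ)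
  have hn : (0 : ℝ) ≤ n := Nat.cast_nonneg n
  refine ⟨(n ^ 2 * (n ^ 2 * (K + 1)) + 1) * I, by positivity,
    fun Θ W c l θ B M hP hW hc hE hl hθ he hB hM hD hA i j => ?_⟩
  have co : Coer W := hP.eW.coer hP.sW hκ hW
  have cW : Continuous W := hP.sW.continuous
  have pθ : PG θ := hθ.pg
  have pL : PG (Lop (tau Θ) θ) := pθ.Lop hP.mpg
  have pA : PG (Aop (tau Θ) l θ) := pθ.Aop hP.mpg l
  have pT : PG fun x => (tau Θ x * hess θ x * tau Θ x * hess θ x).trace :=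
    (((hP.mpg.mul pθ.hess).mul hP.mpg).mul pθ.hess).trace
  have eA : Ev (Aop (tau Θ) l θ) := he.Aop hθ.smo hP.tau_neg l
  have g0 : 0 ≤ Ex W (Gam (tau Θ) θ θ) :=
    Ex_nonneg W fun x => sum_psd_nonneg (hP.toLPot.tau_posDef x).posSemidef fun k => D k θ x
  have e1 : Ex W (fun x => (Aop (tau Θ) l θ x - Aop (tau Θ) l θ 0) * -Lop (tau Θ) θ x) =
      l * Ex W (Gam (tau Θ) θ θ) + Ex W (fun x => Lop (tau Θ) θ x ^ 2) := by
    have a : (fun x => (Aop (tau Θ) l θ x - Aop (tau Θ) l θ 0) * -Lop (tau Θ) θ x) = fun x =>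
        (-l * (θ x * Lop (tau Θ) θ x) + Lop (tau Θ) θ x ^ 2) +
          Aop (tau Θ) l θ 0 * Lop (tau Θ) θ x := by
      funext x
      rw [show Aop (tau Θ) l θ x = l * θ x - Lop (tau Θ) θ x from rfl]
      ring
    rw [a, Ex_add co cW (((pθ.mul pL).cpb.const_mul _).add (pL.cpb.pow 2)) (pL.cpb.const_mul _),
      Ex_add co cW ((pθ.mul pL).cpb.const_mul _) (pL.cpb.pow 2), Ex_const_mul, Ex_const_mul,
      hP.green co pθ pθ]
    have := hP.Ex_L co pθ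
    rw [show (Ex W fun x => Lop (tau Θ) θ x) = 0 from this]
    ring
  have e2 := hP.bochner co pθ
  have e3 : c ^ 2 * Ex W (fun x => D i (D j θ) x ^ 2) ≤
      Ex W fun x => (tau Θ x * hess θ x * tau Θ x * hess θ x).trace := by
    rw [← Ex_const_mul]
    exact Ex_mono co cW ((((pθ.D j).D i).cpb.pow 2).const_mul _) pT.cpb fun x =>
      trace_sq_lower (hE x) hc (hess_symm hθ.smo x) i j
  have e4 := hb W (fun x => (Aop (tau Θ) l θ x - Aop (tau Θ) l θ 0) * -Lop (tau Θ) θ x) (W 0)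
    (n ^ 2 * M * (n ^ 2 * (K + 1) * B)) (by positivity) (hP.eW.lower hP.sW hW) ?_
  · have e5 := (le_abs_self _).trans e4
    have e6 : 0 ≤ (l + 1) * Ex W (Gam (tau Θ) θ θ) := mul_nonneg (by linarith) g0
    have e7 : 0 ≤ I * M * B * Real.exp (-W 0) := by positivity
    nlinarith
  intro x
  have r0 : 0 ≤ ‖x‖ := norm_nonneg x
  have a1 := eA.abs_sub_le pA.smo hA x
  have a2 := he.abs_rad_le hθ.smo hD x
  have a3 : |∑ p, ∑ q, tau Θ x p q * D p (D q θ) x| ≤ n ^ 2 * (K * B) := by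
    calc _ ≤ ∑ p, |∑ q, tau Θ x p q * D p (D q θ) x| := Finset.abs_sum_le_sum_abs _ _
      _ ≤ ∑ _p : Fin n, ∑ _q : Fin n, K * B := by
        refine Finset.sum_le_sum fun p _ => (Finset.abs_sum_le_sum_abs _ _).trans
          (Finset.sum_le_sum fun q _ => ?_)
        rw [abs_mul]
        exact mul_le_mul ((hE x).abs_le hc p q) (hD p q x) (abs_nonneg _) hK.le
      _ = _ := by simp; ring
  have a4 : |Lop (tau Θ) θ x| ≤ n ^ 2 * (K + 1) * B * (1 + ‖x‖) ^ 2 := by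
    have b := (abs_sub _ _).trans (add_le_add a3 a2)
    have b1 : 0 ≤ (n : ℝ) ^ 2 * B := by positivity
    have b2 : 0 ≤ (n : ℝ) ^ 2 * B * K := by positivity
    refine b.trans ?_
    have b3 : ‖x‖ ^ 2 ≤ (1 + ‖x‖) ^ 2 := by nlinarith
    have b4 : 1 ≤ (1 + ‖x‖) ^ 2 := by nlinarith
    nlinarith
  have a5 : |Aop (tau Θ) l θ x - Aop (tau Θ) l θ 0| ≤ n ^ 2 * M * (1 + ‖x‖) ^ 2 :=
    a1.trans (mul_le_mul_of_nonneg_left (by nlinarith) (by positivity))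
  rw [abs_mul, abs_neg]
  refine (mul_le_mul a5 a4 (abs_nonneg _) (by positivity)).trans (le_of_eq ?_)
  ring

end Vale.Agent.P227
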