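import Vale.Agent.P227.Ibp

/-! From L2 and Lipschitz bounds to pointwise bounds on a ball. -/

namespace Vale.Agent.P227

open scoped ContDiff Matrix RealInnerProductSpace Topology
open MeasureTheory Filter

variable {n : ℕ}

/-- If `|g x| > ε L` then `|g| ≥ |g x| / 2` on the ball of radius `ε / 2` about `x`, where
`e^{-W} ≥ e^{-W 0} e^{-K (|R| + ε)²}`. -/
theorem lap3 (n : ℕ) {K ε : ℝ} (hK : 0 ≤ K) (hε : 0 < ε) (R : ℝ) : ∃ C : ℝ, 0 < C ∧
    ∀ (W g : E n → ℝ) (L β : ℝ), (∀ x, W x ≤ W 0 + K * ‖x‖ ^ 2) → 0 ≤ L → 0 ≤ β →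
      (∀ x y, |g x - g y| ≤ L * ‖x - y‖) →
      Integrable (fun x => g x ^ 2 * Real.exp (-W x)) →
      Ex W (fun x => g x ^ 2) ≤ β * Real.exp (-W 0) →
      ∀ x, ‖x‖ ≤ R → |g x| ≤ ε * L + C * Real.sqrt β := by
  set v : ℝ := (volume : Measure (E n)).real (Metric.ball 0 (ε / 2)) with hv
  have hvpos : 0 < v := by
    refine ENNReal.toReal_pos (Metric.measure_ball_pos _ _ (by positivity)).ne' ?_
    exact measure_ball_lt_top.ne
  set A : ℝ := Real.exp (-(K * (|R| + ε) ^ 2)) with hA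
  have hApos : 0 < A := Real.exp_pos _
  have hq : 0 < Real.sqrt (A * v) := Real.sqrt_pos.2 (by positivity)
  refine ⟨2 / Real.sqrt (A * v), by positivity, ?_⟩
  intro W g L β hW hL hβ hg hi hE x hx
  have hC : 0 ≤ 2 / Real.sqrt (A * v) * Real.sqrt β := by positivity
  by_cases hs : |g x| ≤ ε * L
  · linarith
  have hs' : ε * L < |g x| := lt_of_not_ge hs
  have hlow : ∀ y ∈ Metric.ball x (ε / 2),
      g x ^ 2 / 4 * (Real.exp (-W 0) * A) ≤ g y ^ 2 * Real.exp (-W y) := by
    intro y hy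
    rw [Metric.mem_ball, dist_eq_norm] at hy
    have h1 := hg y x
    have h2 : L * ‖y - x‖ ≤ L * (ε / 2) := mul_le_mul_of_nonneg_left hy.le hL
    have h3 : |g x| - |g y| ≤ |g y - g x| := by
      rw [abs_sub_comm]
      exact abs_sub_abs_le_abs_sub _ _
    have h4 : |g x| / 2 ≤ |g y| := by nlinarith
    have h5 : g x ^ 2 / 4 ≤ g y ^ 2 := by
      have h6 : (|g x| / 2) ^ 2 ≤ |g y| ^ 2 := pow_le_pow_left₀ (by positivity) h4 2
      rw [div_pow, sq_abs, sq_abs] at h6
      linarith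
    have h7 : ‖y‖ ≤ |R| + ε := by
      have h8 : ‖y‖ ≤ ‖x‖ + ‖y - x‖ := by
        have := norm_add_le x (y - x)
        simpa using this
      have h9 := le_abs_self R
      linarith
    have h10 : K * ‖y‖ ^ 2 ≤ K * (|R| + ε) ^ 2 :=
      mul_le_mul_of_nonneg_left (pow_le_pow_left₀ (norm_nonneg _) h7 2) hK
    have h11 : Real.exp (-W 0) * A ≤ Real.exp (-W y) := by
      rw [hA, ← Real.exp_add]
      refine Real.exp_le_exp.2 ?_
      have := hW y
      linarith
    exact mul_le_mul h5 h11 (by positivity) (by positivity)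
  have hint := setIntegral_ge_of_const_le_real (μ := (volume : Measure (E n)))
    Metric.isOpen_ball.measurableSet measure_ball_lt_top.ne hlow hi.integrableOn
  have hle := setIntegral_le_integral (s := Metric.ball x (ε / 2)) hi
    (Eventually.of_forall fun y => by positivity)
  rw [Measure.addHaar_real_ball_center, ← hv] at hint
  have hE' : ∫ y, g y ^ 2 * Real.exp (-W y) ≤ β * Real.exp (-W 0) := hE
  have he : 0 < Real.exp (-W 0) := Real.exp_pos _
  have h12 : g x ^ 2 / 4 * (A * v) ≤ β := by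
    refine le_of_mul_le_mul_right ?_ he
    calc g x ^ 2 / 4 * (A * v) * Real.exp (-W 0)
        = g x ^ 2 / 4 * (Real.exp (-W 0) * A) * v := by ring
      _ ≤ β * Real.exp (-W 0) := hint.trans (hle.trans hE')
  have h13 : |g x| * Real.sqrt (A * v) ≤ 2 * Real.sqrt β := by
    refine abs_le_of_sq_le_sq' ?_ (by positivity) |>.2
    rw [mul_pow, mul_pow, sq_abs, Real.sq_sqrt (by positivity), Real.sq_sqrt hβ]
    linarith
  have h14 : |g x| ≤ 2 / Real.sqrt (A * v) * Real.sqrt β := by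
    rw [div_mul_eq_mul_div, le_div_iff₀ hq]
    exact h13
  have h15 : 0 ≤ ε * L := by positivity
  linarith

end Vale.Agent.P227
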