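import Vale.Agent.P227.CalcL
import Vale.Agent.P227.MatA

/-! Maximum principle on the whole space. -/

namespace Vale.Agent.P227

open scoped ContDiff Matrix RealInnerProductSpace Topology
open MeasureTheory Filter

variable {n : ℕ}

namespace MaxPX

theorem exists_max {v : E n → ℝ} {M ε : ℝ} (hv : Continuous v) (hb : ∀ x, v x ≤ M) (hε : 0 < ε) :
    ∃ z, ∀ x, v x - ε * ‖x‖ ^ 2 ≤ v z - ε * ‖z‖ ^ 2 := by
  refine Continuous.exists_forall_ge' (f := fun x : E n => v x - ε * ‖x‖ ^ 2) (by fun_prop) 0 ?_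
  have h : Tendsto (fun x : E n => ε * ‖x‖ ^ 2) (cocompact _) atTop :=
    ((tendsto_pow_atTop two_ne_zero).comp tendsto_norm_cocompact_atTop).const_mul_atTop hε
  filter_upwards [h.eventually_ge_atTop (M - v 0)] with x hx
  have := hb x
  simp only [norm_zero, ne_eq, OfNat.ofNat_ne_zero, not_false_eq_true, zero_pow, mul_zero, sub_zero]
  linarith

theorem Lop_max {τ : E n → Mat n} {w : E n → ℝ} {z : E n} (hτ : (τ z).PosSemidef)
    (hw : ContDiff ℝ ∞ w) (hm : IsLocalMax w z) : Lop τ w z ≤ 0 := by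
  have h1 : rad w z = 0 := by simp [rad, localMax_D hm]
  have h2 := sum_mul_nonpos hτ (hess_symm hw z) (localMax_qf hw hm)
  simp only [hess_apply] at h2
  rw [Lop, h1, sub_zero]
  exact h2

theorem Lop_normsq (τ : E n → Mat n) (x : E n) :
    Lop τ (fun y : E n => ‖y‖ ^ 2) x = 2 * ((τ x).trace - ‖x‖ ^ 2) := by
  have := Lop_radial τ (φ := fun s => s) (φ' := fun _ => 1) (φ'' := fun _ => 0)
    (fun s _ => hasDerivAt_id s) (fun s _ => hasDerivAt_const s 1) x
  simpa using this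

end MaxPX

open MaxPX in
/-- For `ε > 0` the function `v - ε |x|²` has a global maximum point `z`; there
`L v z ≤ ε L|x|² ≤ 2 ε C` (`localMax_D`, `localMax_qf`, `sum_mul_nonpos`, `Lop_radial`). -/
theorem maxp {τ : E n → Mat n} {v : E n → ℝ} {A β C : ℝ} (hτ : ∀ x, (τ x).PosSemidef)
    (hC : ∀ x, (τ x).trace ≤ C) (hv : ContDiff ℝ ∞ v) (hb : ∃ M, ∀ x, v x ≤ M) (hβ : 0 < β)
    (h : ∀ x, v x ≤ A ∨ β * (v x - A) ≤ Lop τ v x) (x : E n) : v x ≤ A := by
  obtain ⟨M, hM⟩ := hb
  have hC0 : 0 ≤ C := (hτ x).trace_nonneg.trans (hC x)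
  have key : ∀ ε : ℝ, 0 < ε → v x ≤ A + ε * (2 * C / β + ‖x‖ ^ 2) := by
    intro ε hε
    obtain ⟨z, hz⟩ := exists_max hv.continuous hM hε
    have hs : ContDiff ℝ ∞ fun y : E n => ε * ‖y‖ ^ 2 := contDiff_const.mul smo_normsq
    have h1 := Lop_max (hτ z) (hv.sub hs) (Eventually.of_forall hz)
    rw [Lop_sub τ hv hs, Lop_const_mul τ ε smo_normsq] at h1
    simp only [Lop_normsq] at h1
    have h2 : v z ≤ A + ε * (2 * C / β) := by
      rcases h z with h3 | h3
      · have : 0 ≤ ε * (2 * C / β) := by positivity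
        linarith
      · have h4 : β * (v z - A) ≤ ε * (2 * C) := by
          have := mul_le_mul_of_nonneg_left (hC z) hε.le
          have := mul_nonneg hε.le (sq_nonneg ‖z‖)
          linarith
        rw [← mul_div_assoc, ← sub_le_iff_le_add', le_div_iff₀ hβ]
        linarith
    have := hz x
    have := mul_nonneg hε.le (sq_nonneg ‖z‖)
    linarith
  refine le_of_forall_pos_le_add fun δ hδ => ?_
  have hK : 0 < 2 * C / β + ‖x‖ ^ 2 + 1 := by positivity
  refine (key _ (div_pos hδ hK)).trans (add_le_add le_rfl ?_)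
  rw [div_mul_eq_mul_div, div_le_iff₀ hK]
  nlinarith

end Vale.Agent.P227
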