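import Vale.Agent.P227.Lap1
import Vale.Agent.P227.Lap2
import Vale.Agent.P227.Lap3
import Vale.Agent.P227.MaxP

/-! The linear a priori estimate. -/

namespace Vale.Agent.P227

open scoped ContDiff Matrix RealInnerProductSpace Topology
open MeasureTheory Filter

variable {n : ℕ}

namespace Lap4X

theorem DD_Aop {τ : E n → Mat n} {θ : E n → ℝ} (hτ : MSmo τ) (l : ℝ) (hθ : ContDiff ℝ ∞ θ)
    (i j : Fin n) (x : E n) : D i (D j (Aop τ l θ)) x =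
      (l + 2) * D i (D j θ) x - Lop τ (D i (D j θ)) x -
        ∑ p, ∑ q, (D i (ent τ p q) x * D p (D q (D j θ)) x +
          (D i (D j (ent τ p q)) x * D p (D q θ) x + D j (ent τ p q) x * D i (D p (D q θ)) x)) := by
  have h1 : ∀ p q, ContDiff ℝ ∞ fun x => D j (ent τ p q) x * D p (D q θ) x := fun p q =>
    (smo_D j (hτ p q)).mul (smo_D p (smo_D q hθ))
  have h2 : ∀ p, ContDiff ℝ ∞ fun x => ∑ q, D j (ent τ p q) x * D p (D q θ) x := fun p =>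
    ContDiff.sum fun q _ => h1 p q
  rw [D_Aop j hτ l hθ, D_sub i (smo_diff (smo_Aop hτ _ (smo_D j hθ)))
    (smo_diff (ContDiff.sum fun p _ => h2 p)), D_Aop i hτ _ (smo_D j hθ),
    D_sum i _ fun p _ => smo_diff (h2 p)]
  have h3 : ∀ p, D i (fun x => ∑ q, D j (ent τ p q) x * D p (D q θ) x) x =
      ∑ q, (D i (D j (ent τ p q)) x * D p (D q θ) x + D j (ent τ p q) x * D i (D p (D q θ)) x) := by
    intro p
    rw [D_sum i _ fun q _ => smo_diff (h1 p q)]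
    refine Finset.sum_congr rfl fun q _ => ?_
    rw [D_mul i (smo_diff (smo_D j (hτ p q))) (smo_diff (smo_D p (smo_D q hθ)))]
  simp only [h3, Aop, Finset.sum_add_distrib]
  ring

theorem far {τ : E n → Mat n} {θ : E n → ℝ} {om R N l : ℝ} (hτ : MSmo τ) (hθ : ContDiff ℝ ∞ θ)
    (hom : 0 ≤ om) (hF : Far2 om R τ) (hN : N2 3 N θ) (i j : Fin n) {x : E n} (hx : R ≤ ‖x‖) :
    |(l + 2) * D i (D j θ) x - Lop τ (D i (D j θ)) x - D i (D j (Aop τ l θ)) x| ≤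
      n ^ 2 * (3 * (om * N)) := by
  rw [DD_Aop hτ l hθ, sub_sub_cancel]
  have h : ∀ p q, |D i (ent τ p q) x * D p (D q (D j θ)) x +
      (D i (D j (ent τ p q)) x * D p (D q θ) x + D j (ent τ p q) x * D i (D p (D q θ)) x)| ≤
        3 * (om * N) := fun p q => by
    have a1 := mul_le_mul (hF x hx p q i i).1 (hN.abs_le3 p q j x) (abs_nonneg _) hom
    have a2 := mul_le_mul (hF x hx p q j i).2 (hN.abs_le p q x) (abs_nonneg _) hom
    have a3 := mul_le_mul (hF x hx p q j i).1 (hN.abs_le3 i p q x) (abs_nonneg _) hom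
    rw [← abs_mul] at a1 a2 a3
    refine (abs_add_le _ _).trans ((add_le_add le_rfl (abs_add_le _ _)).trans ?_)
    linarith
  refine (Finset.abs_sum_le_sum_abs _ _).trans ((Finset.sum_le_sum fun p _ =>
    (Finset.abs_sum_le_sum_abs _ _).trans (Finset.sum_le_sum fun q _ => h p q)).trans_eq ?_)
  simp only [Finset.sum_const, Finset.card_univ, Fintype.card_fin, nsmul_eq_mul]
  ring

theorem amgm {C u a : ℝ} (hC : 0 ≤ C) (hu : 0 ≤ u) (ha : 0 ≤ a) :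
    C * Real.sqrt (u * a) ≤ a / 8 + 2 * (C ^ 2 * u) := by
  rw [← Real.sqrt_sq hC, ← Real.sqrt_mul (sq_nonneg C), Real.sq_sqrt (sq_nonneg C)]
  refine Real.sqrt_le_iff.2 ⟨by positivity, ?_⟩
  nlinarith [sq_nonneg (a / 8 - 2 * (C ^ 2 * u))]

end Lap4X

/-- `om₁`, `C₁` from `lap1`; `om₂ = 1 / (12 n² C₁ + 1)`. `halving` on
`Q B := ∀ i j x, |∂_i∂_j θ x| ≤ B`. Given `Q B`: `N2 3 (C₁ (B + M)) θ`. Near (`‖x‖ ≤ R₂`): `lap3`
with `L = n C₁ (B + M)`, `ε n C₁ ≤ 1/8`, `β = C₂ M B / c²` (`lap2`), and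
`C₃ √β ≤ B/8 + C' M`. Far: two uses of `D_Aop` give
`L θ_ij = (l+2) θ_ij - f_ij - ∑ (τ_i θ_{j··} + τ_j θ_{i··} + τ_{ij} θ_{··})`, the sum is at most
`3 n² om₂ C₁ (B + M) ≤ (B + M)/4`. Apply `maxp` (`β = 1`, `A = B/2 + C'' M`) to `± θ_ij`. -/
theorem lap (n : ℕ) {κ K c K' : ℝ} (hκ : 0 < κ) (hK : 0 < K) (hc : 0 < c) (hK' : 0 < K') :
    ∃ om₁ : ℝ, 0 < om₁ ∧ ∀ R₁ : ℝ, ∃ om₂ : ℝ, 0 < om₂ ∧ ∀ R₂ : ℝ, ∃ C : ℝ, 0 < C ∧
      ∀ Θ W : E n → ℝ, Pot Θ W → Ell κ K (hess W) → Ell c K' (tau Θ) → MHb 3 K' (tau Θ) →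
        Far om₁ R₁ (tau Θ) → Far2 om₂ R₂ (tau Θ) → APri C (tau Θ) := by
  obtain ⟨om₁, hom₁, H1⟩ := lap1 n hc hK'
  refine ⟨om₁, hom₁, fun R₁ => ?_⟩
  obtain ⟨C₁, hC₁, H1⟩ := H1 R₁
  obtain ⟨om₂, hom₂, e₂⟩ : ∃ om₂ : ℝ, 0 < om₂ ∧ (n : ℝ) ^ 2 * (3 * (om₂ * C₁)) ≤ 1 / 4 :=
    ⟨1 / (12 * n ^ 2 * C₁ + 1), by positivity, by
      rw [show (n : ℝ) ^ 2 * (3 * (1 / (12 * n ^ 2 * C₁ + 1) * C₁)) =
        3 * n ^ 2 * C₁ / (12 * n ^ 2 * C₁ + 1) by ring, div_le_iff₀ (by positivity)]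
      linarith⟩
  obtain ⟨ε, hε, e₃⟩ : ∃ ε : ℝ, 0 < ε ∧ ε * (n * C₁) ≤ 1 / 8 :=
    ⟨1 / (8 * (n * C₁) + 1), by positivity, by
      rw [one_div_mul_eq_div, div_le_iff₀ (by positivity)]
      linarith⟩
  refine ⟨om₂, hom₂, fun R₂ => ?_⟩
  obtain ⟨C₂, hC₂, H2⟩ := lap2 n hκ hK'
  obtain ⟨C₃, hC₃, H3⟩ := lap3 n (half_pos hK).le hε R₂
  obtain ⟨u, hu⟩ : ∃ u, u = C₃ ^ 2 * (C₂ / c ^ 2) := ⟨_, rfl⟩
  have hu0 : 0 ≤ u := by rw [hu]; positivity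
  refine ⟨C₁ * (2 * (2 + 2 * u) + 1), by positivity,
    fun Θ W hP hW hτ hH hF₁ hF₂ l θ M hl hM hθ he hA => ?_⟩
  have sθ := hθ.smo
  have hlow := fun x ξ => ((hW x).2 ξ).1
  have hco : Coer W := hP.eW.coer hP.sW hκ hlow
  obtain ⟨B, hB, hB'⟩ := hθ.n2 0
  have key := halving (Q := fun B => ∀ i j x, |D i (D j θ) x| ≤ B) (c := (2 + 2 * u) * M)
    (fun a b hab h i j x => (h i j x).trans hab) hB hB'.abs_le (fun a ha hQ i j => ?_)
    (by positivity)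
  · have h1 := H1 _ l θ (2 * ((2 + 2 * u) * M)) M hτ hH hF₁ hl hθ (by positivity) hM
      (fun i j x => le_of_forall_pos_le_add fun ε hε => key ε hε i j x) hA
    exact h1.mono (le_of_eq (by ring))
  have h3 := H1 _ l θ a M hτ hH hF₁ hl hθ ha hM hQ hA
  have sg := smo_D i (smo_D j sθ)
  have huM : 0 ≤ u * M := by positivity
  have near : ∀ x, ‖x‖ ≤ R₂ → |D i (D j θ) x| ≤ a / 2 + (2 + 2 * u) * M := fun x hx => by
    have h4 := H2 Θ W c l θ a M hP hlow hc.le hτ hl hθ he ha hM hQ hA.abs_le i j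
    have h5 := H3 W (D i (D j θ)) (n * (C₁ * (a + M))) (C₂ / c ^ 2 * M * a)
      (hP.eW.upper hP.sW fun x ξ => ((hW x).2 ξ).2) (by positivity) (by positivity)
      (lip_of_D (smo_diff sg) fun p x => h3.abs_le3 p i j x)
      (integrable_Ex hco hP.sW.continuous ((hθ.DD i j).pg.cpb.pow 2)) (by
        rw [show C₂ / c ^ 2 * M * a * Real.exp (-W 0) = C₂ * M * a * Real.exp (-W 0) / c ^ 2 by
          ring, le_div_iff₀' (by positivity)]
        exact h4) x hx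
    have h6 := Lap4X.amgm hC₃.le (show 0 ≤ C₂ / c ^ 2 * M by positivity) ha
    rw [← mul_assoc (C₃ ^ 2), ← hu] at h6
    have h7 := mul_le_mul_of_nonneg_right e₃ (add_nonneg ha hM)
    nlinarith
  have far : ∀ x, R₂ ≤ ‖x‖ →
      |(l + 2) * D i (D j θ) x - Lop (tau Θ) (D i (D j θ)) x| ≤ a / 2 + (2 + 2 * u) * M := by
    intro x hx
    have h4 := Lap4X.far (l := l) hH.msmo sθ hom₂.le hF₂ h3 i j hx
    have h5 := hA.abs_le i j x
    have h6 := mul_le_mul_of_nonneg_right e₂ (add_nonneg ha hM)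
    have h7 := abs_sub_abs_le_abs_sub ((l + 2) * D i (D j θ) x - Lop (tau Θ) (D i (D j θ)) x)
      (D i (D j (Aop (tau Θ) l θ)) x)
    nlinarith
  have hA0 : 0 ≤ a / 2 + (2 + 2 * u) * M := by positivity
  have mp := fun (v : E n → ℝ) => maxp (v := v) (A := a / 2 + (2 + 2 * u) * M)
    (fun x => (hτ x).psd hc.le) (fun x => trace_le_of_qf fun ξ => ((hτ x).2 ξ).2) (β := 1)
  intro x
  refine abs_le.2 ⟨neg_le.1 (mp (fun y => -D i (D j θ) y) sg.neg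
    ⟨a, fun y => (neg_le_abs _).trans (hQ i j y)⟩ one_pos (fun y => ?_) x),
    mp _ sg ⟨a, fun y => (le_abs_self _).trans (hQ i j y)⟩ one_pos (fun y => ?_) x⟩
  · rcases le_total ‖y‖ R₂ with hy | hy
    · exact Or.inl ((neg_le_abs _).trans (near y hy))
    · refine or_iff_not_imp_left.2 fun h => ?_
      rw [Lop_neg]
      have h4 := (abs_le.1 (far y hy)).1
      nlinarith [mul_nonneg (show 0 ≤ l + 1 by linarith) (hA0.trans (not_le.1 h).le)]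
  · rcases le_total ‖y‖ R₂ with hy | hy
    · exact Or.inl ((le_abs_self _).trans (near y hy))
    · refine or_iff_not_imp_left.2 fun h => ?_
      have h4 := (abs_le.1 (far y hy)).2
      nlinarith [mul_nonneg (show 0 ≤ l + 1 by linarith) (hA0.trans (not_le.1 h).le)]

end Vale.Agent.P227
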