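import Vale.Agent.P227.Gauss0

/-! The Mehler semigroup: linearity, continuity, differentiability. -/

namespace Vale.Agent.P227

open scoped ContDiff Matrix RealInnerProductSpace Topology
open MeasureTheory Filter

variable {n : ℕ}

variable {f g : E n → ℝ} {t : ℝ}

theorem sg_sq (ht : 0 ≤ t) : sg t ^ 2 = 1 - Real.exp (-2 * t) := by
  have h : Real.exp (-2 * t) ≤ 1 := Real.exp_le_one_iff.2 (by linarith)
  exact Real.sq_sqrt (by linarith)
theorem sg_nonneg (t : ℝ) : 0 ≤ sg t := Real.sqrt_nonneg _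
theorem sg_pos (ht : 0 < t) : 0 < sg t := by
  have h : Real.exp (-2 * t) < 1 := Real.exp_lt_one_iff.2 (by linarith)
  exact Real.sqrt_pos.2 (by linarith)
theorem sg_le_one (t : ℝ) : sg t ≤ 1 := by
  have h := Real.exp_pos (-2 * t)
  exact Real.sqrt_le_one.2 (by linarith)
theorem sg_lower (ht : 0 ≤ t) (h1 : t ≤ 1) : Real.sqrt t / 2 ≤ sg t := by
  have h2 : 1 + 2 * t ≤ Real.exp (2 * t) := by linarith [Real.add_one_le_exp (2 * t)]
  have h3 : Real.exp (-2 * t) * Real.exp (2 * t) = 1 := by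
    rw [← Real.exp_add]; simp
  have h4 := Real.exp_pos (-2 * t)
  have h5 : Real.exp (-2 * t) * (1 + 2 * t) ≤ 1 := by nlinarith
  have h6 : t / 4 ≤ 1 - Real.exp (-2 * t) := by
    by_contra hc
    push Not at hc
    nlinarith
  refine Real.le_sqrt_of_sq_le ?_
  rw [div_pow, Real.sq_sqrt ht]
  linarith
theorem continuous_sg : Continuous sg := by
  unfold sg
  fun_prop
theorem OU_zero (g : E n → ℝ) : OU 0 g = g := by
  funext x
  simp [OU, sg, GE_const]
theorem OU_add (t : ℝ) (hf : CPB f) (hg : CPB g) :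
    OU t (fun y => f y + g y) = fun x => OU t f x + OU t g x :=
  funext fun _ => GE_add (hf.affine _ _) (hg.affine _ _)
theorem OU_sub (t : ℝ) (hf : CPB f) (hg : CPB g) :
    OU t (fun y => f y - g y) = fun x => OU t f x - OU t g x :=
  funext fun _ => GE_sub (hf.affine _ _) (hg.affine _ _)
theorem OU_const_mul (t a : ℝ) (f : E n → ℝ) :
    OU t (fun y => a * f y) = fun x => a * OU t f x :=
  funext fun _ => GE_const_mul a _
theorem OU_sum {ι : Type*} (t : ℝ) (s : Finset ι) {F : ι → E n → ℝ} (h : ∀ a ∈ s, CPB (F a)) :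
    OU t (fun y => ∑ a ∈ s, F a y) = fun x => ∑ a ∈ s, OU t (F a) x :=
  funext fun x => GE_sum s (F := fun a z => F a (Real.exp (-t) • x + sg t • z))
    fun a ha => (h a ha).affine _ _
theorem OU_abs_le {M : ℝ} (t : ℝ) (h : ∀ y, |g y| ≤ M) (x : E n) : |OU t g x| ≤ M :=
  (GE_abs_le (cpb_const M) fun _ => h _).trans (GE_const M).le

namespace OU0

theorem one_add_norm_le (y z : E n) {s R : ℝ} (hs0 : 0 ≤ s) (hs : s ≤ 1) (hy : ‖y‖ ≤ R) :
    1 + ‖y + s • z‖ ≤ (1 + R) * (1 + ‖z‖) := by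
  have h1 : ‖y + s • z‖ ≤ ‖y‖ + s * ‖z‖ := by
    refine (norm_add_le _ _).trans ?_
    rw [norm_smul, Real.norm_of_nonneg hs0]
  have h2 := norm_nonneg y
  have h3 := norm_nonneg z
  nlinarith

theorem pow_le (y z : E n) {s R C : ℝ} (m : ℕ) (hC : 0 ≤ C) (hs0 : 0 ≤ s) (hs : s ≤ 1)
    (hy : ‖y‖ ≤ R) : C * (1 + ‖y + s • z‖) ^ m ≤ C * (1 + R) ^ m * (1 + ‖z‖) ^ m := by
  rw [mul_assoc, ← mul_pow]
  exact mul_le_mul_of_nonneg_left
    (pow_le_pow_left₀ (by positivity) (one_add_norm_le y z hs0 hs hy) m) hC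

theorem cpb_pow (m : ℕ) : CPB (fun z : E n => (1 + ‖z‖) ^ m) :=
  ((cpb_const 1).add cpb_norm).pow m

theorem int_gW (hg : CPB g) : Integrable (fun x => g x * Real.exp (-gW x)) :=
  integrable_Ex coer_gW smo_gW.continuous hg

/-- the derivative of the unnormalised Mehler integral -/
theorem hasFDerivAt_num (t : ℝ) (hg : PG g) (x₀ : E n) :
    Integrable (fun z : E n => (Real.exp (-t) * Real.exp (-gW z)) •
        fderiv ℝ g (Real.exp (-t) • x₀ + sg t • z)) ∧
      HasFDerivAt (fun x : E n => ∫ z, g (Real.exp (-t) • x + sg t • z) * Real.exp (-gW z))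
        (∫ z : E n, (Real.exp (-t) * Real.exp (-gW z)) •
          fderiv ℝ g (Real.exp (-t) • x₀ + sg t • z)) x₀ := by
  obtain ⟨C, m, hC, hb⟩ := hg.fderiv_le
  have cW : Continuous (gW : E n → ℝ) := smo_gW.continuous
  have cF : Continuous (fderiv ℝ g) := hg.1.continuous_fderiv (by simp)
  have hm : AEStronglyMeasurable (fun z : E n => (Real.exp (-t) * Real.exp (-gW z)) •
      fderiv ℝ g (Real.exp (-t) • x₀ + sg t • z)) volume :=
    Continuous.aestronglyMeasurable (by fun_prop)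
  have hbi : Integrable (fun z : E n => (Real.exp (-t) * (C * (1 + Real.exp (-t) * (‖x₀‖ + 1)) ^ m)
      * (1 + ‖z‖) ^ m) * Real.exp (-gW z)) := int_gW ((cpb_pow m).const_mul _)
  have hbd : ∀ z : E n, ∀ x ∈ Metric.ball x₀ 1, ‖(Real.exp (-t) * Real.exp (-gW z)) •
      fderiv ℝ g (Real.exp (-t) • x + sg t • z)‖ ≤
      (Real.exp (-t) * (C * (1 + Real.exp (-t) * (‖x₀‖ + 1)) ^ m) * (1 + ‖z‖) ^ m) *
        Real.exp (-gW z) := by
    intro z x hx
    have hx' : ‖x‖ ≤ ‖x₀‖ + 1 := by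
      have h1 : ‖x - x₀‖ < 1 := by simpa [dist_eq_norm] using hx
      have h2 := norm_sub_norm_le x x₀
      linarith
    have hy : ‖Real.exp (-t) • x‖ ≤ Real.exp (-t) * (‖x₀‖ + 1) := by
      rw [norm_smul, Real.norm_of_nonneg (Real.exp_pos _).le]
      exact mul_le_mul_of_nonneg_left hx' (Real.exp_pos _).le
    have h3 := (hb _).trans (pow_le _ z m hC (sg_nonneg t) (sg_le_one t) hy)
    rw [norm_smul, Real.norm_of_nonneg (by positivity)]
    calc _ ≤ Real.exp (-t) * Real.exp (-gW z) *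
          (C * (1 + Real.exp (-t) * (‖x₀‖ + 1)) ^ m * (1 + ‖z‖) ^ m) :=
          mul_le_mul_of_nonneg_left h3 (by positivity)
      _ = _ := by ring
  refine ⟨hbi.mono' hm (ae_of_all _ fun z => hbd z x₀ (Metric.mem_ball_self one_pos)), ?_⟩
  refine hasFDerivAt_integral_of_dominated_of_fderiv_le (𝕜 := ℝ)
    (F := fun (x z : E n) => g (Real.exp (-t) • x + sg t • z) * Real.exp (-gW z))
    (F' := fun (x z : E n) => (Real.exp (-t) * Real.exp (-gW z)) •
      fderiv ℝ g (Real.exp (-t) • x + sg t • z)) (Metric.ball_mem_nhds x₀ one_pos)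
    (Eventually.of_forall fun x => (int_gW (hg.cpb.affine _ _)).1) (int_gW (hg.cpb.affine _ _)) hm
    (ae_of_all _ hbd) hbi (ae_of_all _ fun z x _ => ?_)
  have h1 : HasFDerivAt (fun x : E n => Real.exp (-t) • x + sg t • z)
      (Real.exp (-t) • ContinuousLinearMap.id ℝ (E n)) x :=
    ((hasFDerivAt_id x).const_smul (Real.exp (-t))).add_const _
  have h2 := ((hg.diff _).hasFDerivAt.comp x h1).mul_const (Real.exp (-gW z))
  refine h2.congr_fderiv ?_
  ext v
  simp
  ring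

end OU0

theorem OU_pb (hg : CPB g) : ∃ C : ℝ, ∃ m : ℕ, 0 ≤ C ∧
    ∀ t x, 0 ≤ t → |OU t g x| ≤ C * (1 + ‖x‖) ^ m := by
  obtain ⟨C, m, hC, hb⟩ := hg.2.nonneg
  have h0 : 0 ≤ GE (fun z : E n => (1 + ‖z‖) ^ m) := GE_nonneg fun z => by positivity
  refine ⟨C * GE (fun z : E n => (1 + ‖z‖) ^ m), m, mul_nonneg hC h0, fun t x ht => ?_⟩
  have hy : ‖Real.exp (-t) • x‖ ≤ ‖x‖ := by
    rw [norm_smul, Real.norm_of_nonneg (Real.exp_pos _).le]
    exact mul_le_of_le_one_left (norm_nonneg _) (Real.exp_le_one_iff.2 (by linarith))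
  have h1 := GE_abs_le (f := fun z => g (Real.exp (-t) • x + sg t • z))
    ((OU0.cpb_pow m).const_mul (C * (1 + ‖x‖) ^ m))
    fun z => (hb _).trans (OU0.pow_le _ z m hC (sg_nonneg t) (sg_le_one t) hy)
  rw [GE_const_mul] at h1
  exact h1.trans (le_of_eq (by ring))
/-- joint continuity (`continuousAt_of_dominated`) -/
theorem OU_cont (hg : CPB g) : Continuous (fun p : ℝ × E n => OU p.1 g p.2) := by
  obtain ⟨C, m, hC, hb⟩ := hg.2.nonneg
  have cg := hg.1
  have cs := continuous_sg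
  refine Continuous.div_const (continuous_iff_continuousAt.2 fun p₀ => ?_) _
  have hc : Continuous fun p : ℝ × E n => ‖Real.exp (-p.1) • p.2‖ := by fun_prop
  have hev : ∀ᶠ p : ℝ × E n in 𝓝 p₀, ‖Real.exp (-p.1) • p.2‖ < ‖Real.exp (-p₀.1) • p₀.2‖ + 1 :=
    hc.continuousAt.eventually_lt continuousAt_const (lt_add_one _)
  refine continuousAt_of_dominated
    (F := fun (p : ℝ × E n) (z : E n) => g (Real.exp (-p.1) • p.2 + sg p.1 • z) * Real.exp (-gW z))
    (bound := fun z => (C * (1 + (‖Real.exp (-p₀.1) • p₀.2‖ + 1)) ^ m * (1 + ‖z‖) ^ m) *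
      Real.exp (-gW z))
    (Eventually.of_forall fun p => (OU0.int_gW (hg.affine _ _)).1)
    (hev.mono fun p hp => ae_of_all _ fun z => ?_) (OU0.int_gW ((OU0.cpb_pow m).const_mul _))
    (ae_of_all _ fun z => Continuous.continuousAt (by fun_prop))
  rw [norm_mul, Real.norm_of_nonneg (Real.exp_pos _).le, Real.norm_eq_abs]
  exact mul_le_mul_of_nonneg_right
    ((hb _).trans (OU0.pow_le _ z m hC (sg_nonneg _) (sg_le_one _) hp.le)) (Real.exp_pos _).le
/-- `hasFDerivAt_integral_of_dominated_of_fderiv_le` with `PG.fderiv_le` -/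
theorem OU_diff (t : ℝ) (hg : PG g) : Differentiable ℝ (OU t g) := fun x =>
  ((OU0.hasFDerivAt_num t hg x).2.mul_const (Ex (gW : E n → ℝ) fun _ => 1)⁻¹).differentiableAt
theorem D_OU (t : ℝ) (hg : PG g) (i : Fin n) :
    D i (OU t g) = fun x => Real.exp (-t) * OU t (D i g) x := by
  funext x
  obtain ⟨h1, h2⟩ := OU0.hasFDerivAt_num t hg x
  have h3 : HasFDerivAt (OU t g) _ x := h2.mul_const (Ex (gW : E n → ℝ) fun _ => 1)⁻¹
  show fderiv ℝ (OU t g) x (ev i) = _
  rw [h3.fderiv, smul_apply, ContinuousLinearMap.integral_apply h1]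
  show _ = Real.exp (-t) * ((∫ z, D i g (Real.exp (-t) • x + sg t • z) * Real.exp (-gW z)) / _)
  rw [smul_eq_mul, div_eq_mul_inv, ← mul_assoc, ← integral_const_mul (Real.exp (-t)), mul_comm]
  refine congrArg (fun r : ℝ => r * (Ex (gW : E n → ℝ) fun _ => 1)⁻¹)
    (integral_congr_ae (ae_of_all _ fun z => ?_))
  simp only [smul_apply, smul_eq_mul, D, pd]
  ring

end Vale.Agent.P227
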