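import Vale.Agent.P227.OU0

/-! The Mehler semigroup preserves the function classes. -/

namespace Vale.Agent.P227

open scoped ContDiff Matrix RealInnerProductSpace Topology
open MeasureTheory Filter

variable {n : ℕ}

variable {f g : E n → ℝ} {t : ℝ}

namespace OUa

theorem exp_le (ht : 0 ≤ t) : Real.exp (-t) ≤ 1 := Real.exp_le_one_iff.2 (by linarith)

theorem DD_OU (t : ℝ) (hg : PG g) (i j : Fin n) :
    D i (D j (OU t g)) = fun x => Real.exp (-2 * t) * OU t (D i (D j g)) x := by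
  rw [D_OU t hg, D_const_mul i _ (OU_diff t (hg.D j)), D_OU t (hg.D j)]
  funext x
  rw [← mul_assoc, ← Real.exp_add, show -t + -t = -2 * t by ring]

end OUa

open OUa

/-- `pg_of_closed` with the class of all `c * OU t g`, `PG g` -/
theorem OU_pg (ht : 0 ≤ t) (hg : PG g) : PG (OU t g) := by
  refine pg_of_closed (fun f => ∃ g, PG g ∧ f = OU t g) ?_ ?_ ?_ ⟨g, hg, rfl⟩
  · rintro _ ⟨g, hg, rfl⟩
    exact OU_diff t hg
  · rintro _ ⟨g, hg, rfl⟩
    obtain ⟨C, m, -, h⟩ := OU_pb hg.cpb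
    exact ⟨C, m, fun x => h t x ht⟩
  · rintro _ ⟨g, hg, rfl⟩ i
    exact ⟨_, (hg.D i).const_mul (Real.exp (-t)), by rw [D_OU t hg, OU_const_mul]⟩
theorem OU_hol {M : ℝ} (ht : 0 ≤ t) (hg : CPB g) (h : Hol M g) (hM : 0 ≤ M) :
    Hol M (OU t g) := by
  intro x y
  have e : OU t g x - OU t g y = GE fun z => g (Real.exp (-t) • x + sg t • z) -
      g (Real.exp (-t) • y + sg t • z) := (GE_sub (hg.affine _ _) (hg.affine _ _)).symm
  rw [e]
  refine (GE_abs_le (cpb_const (M * mo ‖x - y‖)) fun z => (h _ _).trans ?_).trans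
    (GE_const _).le
  refine mul_le_mul_of_nonneg_left (mo_mono ?_) hM
  rw [add_sub_add_right_eq_sub, ← smul_sub, norm_smul, Real.norm_of_nonneg (Real.exp_pos _).le]
  exact mul_le_of_le_one_left (norm_nonneg _) (exp_le ht)
theorem OU_hb {k : ℕ} {M : ℝ} (ht : 0 ≤ t) (hg : PG g) (h : Hb k M g) : Hb k M (OU t g) := by
  have h0 : ∀ {g : E n → ℝ} {k : ℕ}, PG g → Hb k M g → H0 M (OU t g) := fun hg h =>
    ⟨(OU_pg ht hg).1, OU_abs_le t h.abs_le, OU_hol ht hg.cpb h.hol h.nonneg⟩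
  induction k generalizing g with
  | zero => exact h0 hg h
  | succ k ih =>
    refine ⟨h0 hg h, fun i => ?_⟩
    rw [D_OU t hg]
    refine ((ih (hg.D i) (h.D i)).const_mul _).mono ?_
    rw [abs_of_pos (Real.exp_pos _)]
    exact mul_le_of_le_one_left h.nonneg (exp_le ht)
theorem OU_n2 {k : ℕ} {M : ℝ} (ht : 0 ≤ t) (hg : PG g) (h : N2 k M g) :
    N2 k (Real.exp (-2 * t) * M) (OU t g) := by
  intro i j
  have h1 := (OU_hb ht ((hg.D j).D i) (h i j)).const_mul (Real.exp (-2 * t))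
  rw [abs_of_pos (Real.exp_pos _)] at h1
  rw [DD_OU t hg]
  exact h1
theorem OU_sm (ht : 0 ≤ t) (hg : Sm g) : Sm (OU t g) :=
  ⟨(OU_pg ht hg.pg).1, fun k => ⟨_, OU_n2 ht hg.pg (hg.2 k).choose_spec⟩⟩
theorem OU_ev (t : ℝ) (hg : Ev g) : Ev (OU t g) := by
  intro x
  refine Eq.trans ?_ (GE_neg_arg fun z => g (Real.exp (-t) • x + sg t • z))
  refine congrArg GE (funext fun z => ?_)
  rw [← hg, smul_neg, smul_neg, neg_add, neg_neg]

end Vale.Agent.P227
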