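import Vale.Agent.P227.S2
import Vale.Agent.P227.Lin

/-! The Hoelder bound for a constant coefficient matrix. -/

namespace Vale.Agent.P227

open scoped ContDiff Matrix RealInnerProductSpace Topology
open MeasureTheory Filter

variable {n : ℕ}

namespace S2BX

theorem entry_le {M : Mat n} {a : ℝ} (h : ∀ z, ‖lin M z‖ ≤ a * ‖z‖) (i j : Fin n) :
    |M i j| ≤ a := by
  have h1 : lin M (ev j) i = M i j := by simp [lin_apply, ev_apply]
  have := (abs_coord_le (lin M (ev j)) i).trans (h _)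
  rwa [h1, norm_ev, mul_one] at this

theorem conj_le {M H : Mat n} {a h : ℝ} (hM : ∀ i j, |M i j| ≤ a) (hH : ∀ i j, |H i j| ≤ h)
    (i j : Fin n) : |(Mᵀ * H * M) i j| ≤ n ^ 2 * a ^ 2 * h := by
  have ha : 0 ≤ a := (abs_nonneg _).trans (hM i j)
  have hh : 0 ≤ h := (abs_nonneg _).trans (hH i j)
  simp only [Matrix.mul_apply, Matrix.transpose_apply, Finset.sum_mul]
  calc _ ≤ ∑ q : Fin n, ∑ p : Fin n, a * h * a := by
        refine (Finset.abs_sum_le_sum_abs _ _).trans (Finset.sum_le_sum fun q _ => ?_)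
        refine (Finset.abs_sum_le_sum_abs _ _).trans (Finset.sum_le_sum fun p _ => ?_)
        rw [abs_mul, abs_mul]
        exact mul_le_mul (mul_le_mul (hM _ _) (hH _ _) (abs_nonneg _) ha) (hM _ _) (abs_nonneg _)
          (by positivity)
    _ = _ := by simp; ring

theorem exists_B {c K' : ℝ} (hc : 0 < c) (hK' : 0 < K') {τ₀ : Mat n} (h : Ell1 c K' τ₀) :
    ∃ B B' : Mat n, B * 1 * Bᵀ = τ₀ ∧ (∀ x, lin B (lin B' x) = x) ∧
      (∀ z, ‖lin B z‖ ≤ √K' * ‖z‖) ∧ ∀ z, ‖lin B' z‖ ≤ (√c)⁻¹ * ‖z‖ := by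
  obtain ⟨B, hs, hB⟩ := exists_sqrt (h.psd hc.le)
  have hd : IsUnit B.det := by
    have := (h.posDef hc).det_pos
    rw [← hB, Matrix.det_mul] at this
    exact isUnit_iff_ne_zero.2 fun h0 => by simp [h0] at this
  have hi : ∀ x, lin B (lin B⁻¹ x) = x := fun x => by
    rw [lin_lin, Matrix.mul_nonsing_inv _ hd, lin_one]
  refine ⟨B, B⁻¹, by rw [Matrix.mul_one, hs.eq, hB], hi, fun z => ?_, fun z => ?_⟩
  · refine le_of_sq_le_sq ?_ (by positivity)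
    rw [normsq_lin hs, hB, mul_pow, Real.sq_sqrt hK'.le]
    exact (h.2 z).2
  · have := (h.2 (lin B⁻¹ z)).1
    rw [← hB, ← normsq_lin hs, hi] at this
    refine le_of_sq_le_sq ?_ (by positivity)
    rw [mul_pow, inv_pow, Real.sq_sqrt hc.le, inv_mul_eq_div, le_div_iff₀ hc]
    linarith

end S2BX

/-- `B` = symmetric square root of `τ₀` (`exists_sqrt`), apply `S2` to `v ∘ lin B` at the points
`lin B⁻¹ x₀`, `lin B⁻¹ x₁` (`Lop_lin`, `hess_lin`, `normsq_lin`, `mo_mul_le`); entries of `B` are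
at most `√K'`, entries of `B⁻¹` at most `1/√c`; `hess v x = B⁻¹ᵀ hess (v ∘ B)(B⁻¹ x) B⁻¹`. -/
theorem S2B (n : ℕ) {c K' : ℝ} (hc : 0 < c) (hK' : 0 < K') : ∃ C : ℝ, 0 < C ∧
    ∀ (τ₀ : Mat n) (v : E n → ℝ) (l T A K : ℝ) (x₀ x₁ : E n), Ell1 c K' τ₀ → PG v →
    -1 ≤ l → 0 < T → T ≤ 1 → 0 ≤ A → 0 ≤ K → ‖x₁ - x₀‖ ^ 2 ≤ c * T →
    (∀ i j x, |D i (D j v) x| ≤ A) →
    (∀ s t : ℝ, 0 ≤ s → s ≤ 1 → 0 ≤ t → t ≤ T → ∀ y,
      |Aop (fun _ => τ₀) l v y - Aop (fun _ => τ₀) l v (Real.exp (-t) • (x₀ + s • (x₁ - x₀)))| ≤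
        K * mo ‖y - Real.exp (-t) • (x₀ + s • (x₁ - x₀))‖) →
      ∀ i j, |D i (D j v) x₁ - D i (D j v) x₀| ≤
        C * (K * Real.sqrt ‖x₁ - x₀‖ + A * ‖x₁ - x₀‖ / Real.sqrt T) := by
  obtain ⟨C₀, hC₀, hS⟩ := S2 n
  have hm : 0 ≤ mo √K' := mo_nonneg (Real.sqrt_nonneg _)
  set a : ℝ := (√c)⁻¹ with ha
  have ha0 : 0 < a := by positivity
  refine ⟨n ^ 2 * a ^ 2 * (C₀ * (mo √K' * √a + n ^ 2 * √K' ^ 2 * a)) + 1, by positivity, ?_⟩
  intro τ₀ v l T A K x₀ x₁ hE hv hl hT hT1 hA hK hx h2 hf i j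
  obtain ⟨B, B', hB, hi, n1, n2⟩ := S2BX.exists_B hc hK' hE
  have hA' : ∀ y, Aop (one n) l (fun y => v (lin B y)) y = Aop (fun _ => τ₀) l v (lin B y) :=
    fun y => by
      unfold Aop
      rw [Lop_lin hv.1 (τ := fun _ => τ₀) (τ' := one n) hB]
  have hρ : ‖lin B' x₁ - lin B' x₀‖ ≤ a * ‖x₁ - x₀‖ := by rw [← map_sub]; exact n2 _
  have key := hS (fun y => v (lin B y)) l T (n ^ 2 * √K' ^ 2 * A) (K * mo √K') (lin B' x₀)
    (lin B' x₁) (hv.lin B) hl hT hT1 (by positivity) (by positivity)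
    (by
      refine (pow_le_pow_left₀ (norm_nonneg _) hρ 2).trans ?_
      rw [mul_pow, ha, inv_pow, Real.sq_sqrt hc.le, inv_mul_eq_div, div_le_iff₀ hc]
      linarith)
    (fun p q y => by
      rw [← hess_apply, hess_lin hv.1]
      exact S2BX.conj_le (S2BX.entry_le n1) (fun p q => h2 p q _) p q)
    (fun s t hs0 hs1 ht0 ht1 y => by
      have e : lin B (Real.exp (-t) • (lin B' x₀ + s • (lin B' x₁ - lin B' x₀))) =
          Real.exp (-t) • (x₀ + s • (x₁ - x₀)) := by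
        simp only [map_smul, map_add, map_sub, hi]
      rw [hA', hA', e]
      refine (hf s t hs0 hs1 ht0 ht1 _).trans ?_
      rw [← e, ← map_sub, mul_assoc]
      exact mul_le_mul_of_nonneg_left ((mo_mono (n1 _)).trans
        (mo_mul_le (Real.sqrt_nonneg _) (norm_nonneg _))) hK)
  have hh : ∀ x, hess v x = B'ᵀ * hess (fun y => v (lin B y)) (lin B' x) * B' := fun x => by
    rw [← hess_lin (smo_lin hv.1 B)]
    simp only [hi]
  have k2 := S2BX.conj_le (S2BX.entry_le n2)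
    (H := hess (fun y => v (lin B y)) (lin B' x₁) - hess (fun y => v (lin B y)) (lin B' x₀))
    (fun p q => key p q) i j
  rw [Matrix.mul_sub, Matrix.sub_mul, ← hh, ← hh] at k2
  refine le_trans k2 ?_
  have k3 : √‖lin B' x₁ - lin B' x₀‖ ≤ √a * √‖x₁ - x₀‖ := by
    rw [← Real.sqrt_mul ha0.le]; exact Real.sqrt_le_sqrt hρ
  have hX : 0 ≤ K * √‖x₁ - x₀‖ := by positivity
  have hY : 0 ≤ A * ‖x₁ - x₀‖ / √T := by positivity
  have k4 : K * mo √K' * √‖lin B' x₁ - lin B' x₀‖ ≤ mo √K' * √a * (K * √‖x₁ - x₀‖) :=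
    (mul_le_mul_of_nonneg_left k3 (by positivity)).trans_eq (by ring)
  have k5 : n ^ 2 * √K' ^ 2 * A * ‖lin B' x₁ - lin B' x₀‖ / √T ≤
      n ^ 2 * √K' ^ 2 * a * (A * ‖x₁ - x₀‖ / √T) :=
    (div_le_div_of_nonneg_right (mul_le_mul_of_nonneg_left hρ (by positivity))
      (Real.sqrt_nonneg _)).trans_eq (by ring)
  have m1 : 0 ≤ mo √K' * √a := by positivity
  have m2 : 0 ≤ n ^ 2 * √K' ^ 2 * a := by positivity
  generalize mo √K' * √a = α at *
  generalize n ^ 2 * √K' ^ 2 * a = β at *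
  generalize K * √‖x₁ - x₀‖ = X at *
  generalize A * ‖x₁ - x₀‖ / √T = Y at *
  calc _ ≤ n ^ 2 * a ^ 2 * (C₀ * ((α + β) * (X + Y))) := by
        refine mul_le_mul_of_nonneg_left (mul_le_mul_of_nonneg_left ?_ hC₀.le) (by positivity)
        nlinarith [mul_nonneg m1 hY, mul_nonneg m2 hX]
    _ ≤ _ := by nlinarith

end Vale.Agent.P227
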