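import Vale.Agent.P227.S1
import Vale.Agent.P227.S2B
import Vale.Agent.P227.HbB
import Vale.Agent.P227.MatA

/-! Schauder estimate, variable coefficients, order zero. -/

namespace Vale.Agent.P227

open scoped ContDiff Matrix RealInnerProductSpace Topology
open MeasureTheory Filter

variable {n : ℕ}

namespace P0Aux

/-- centred modulus of continuity of the frozen operator -/
theorem cen {τ : E n → Mat n} {τ₀ : Mat n} {l K F a B w : ℝ} {v : E n → ℝ} {m : E n}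
    (hτ : MHb 0 K τ) (hF : Hol F (Aop τ l v)) (ha : ∀ i j x, |D i (D j v) x| ≤ a)
    (hB : N2 0 B v) (hw : ∀ p q, |τ₀ p q - τ m p q| ≤ w) (y : E n) :
    |Aop (fun _ => τ₀) l v y - Aop (fun _ => τ₀) l v m| ≤
      (F + (n : ℝ) ^ 2 * (K * a + w * B)) * mo ‖y - m‖ := by
  rw [Aop_change τ (fun _ => τ₀) l v]
  have hmo : 0 ≤ mo ‖y - m‖ := mo_nonneg (norm_nonneg _)
  have h1 := hF y m
  have h2 : ∀ p q, |(τ₀ p q - τ y p q) * D p (D q v) y - (τ₀ p q - τ m p q) * D p (D q v) m| ≤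
      (K * a + w * B) * mo ‖y - m‖ := by
    intro p q
    have e : (τ₀ p q - τ y p q) * D p (D q v) y - (τ₀ p q - τ m p q) * D p (D q v) m =
        -((τ y p q - τ m p q) * D p (D q v) y) +
          (τ₀ p q - τ m p q) * (D p (D q v) y - D p (D q v) m) := by ring
    have h3 : |τ y p q - τ m p q| ≤ K * mo ‖y - m‖ := (hτ p q).hol y m
    have h4 : |D p (D q v) y - D p (D q v) m| ≤ B * mo ‖y - m‖ := (hB p q).hol y m
    have h5 := ha p q y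
    have h6 := hw p q
    rw [e]
    refine (abs_add_le _ _).trans ?_
    rw [abs_neg, abs_mul, abs_mul]
    have h7 : |τ y p q - τ m p q| * |D p (D q v) y| ≤ (K * mo ‖y - m‖) * a :=
      mul_le_mul h3 h5 (abs_nonneg _) ((abs_nonneg _).trans h3)
    have h8 : |τ₀ p q - τ m p q| * |D p (D q v) y - D p (D q v) m| ≤ w * (B * mo ‖y - m‖) :=
      mul_le_mul h6 h4 (abs_nonneg _) ((abs_nonneg _).trans h6)
    nlinarith
  have h3 : |(∑ p, ∑ q, (τ₀ p q - τ y p q) * D p (D q v) y) -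
      ∑ p, ∑ q, (τ₀ p q - τ m p q) * D p (D q v) m| ≤
      (n : ℝ) ^ 2 * ((K * a + w * B) * mo ‖y - m‖) := by
    rw [← Finset.sum_sub_distrib]
    refine (Finset.abs_sum_le_sum_abs _ _).trans ?_
    have h4 : ∀ p ∈ (Finset.univ : Finset (Fin n)),
        |(∑ q, (τ₀ p q - τ y p q) * D p (D q v) y) -
          ∑ q, (τ₀ p q - τ m p q) * D p (D q v) m| ≤ n * ((K * a + w * B) * mo ‖y - m‖) := by
      intro p _
      rw [← Finset.sum_sub_distrib]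
      refine (Finset.abs_sum_le_sum_abs _ _).trans ?_
      refine (Finset.sum_le_sum fun q _ => h2 p q).trans ?_
      simp
    refine (Finset.sum_le_sum h4).trans ?_
    simp only [Finset.sum_const, Finset.card_univ, Fintype.card_fin, nsmul_eq_mul]
    exact le_of_eq (by ring)
  have e : (Aop τ l v y - ∑ p, ∑ q, (τ₀ p q - τ y p q) * D p (D q v) y) -
      (Aop τ l v m - ∑ p, ∑ q, (τ₀ p q - τ m p q) * D p (D q v) m) =
      (Aop τ l v y - Aop τ l v m) - ((∑ p, ∑ q, (τ₀ p q - τ y p q) * D p (D q v) y) -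
      ∑ p, ∑ q, (τ₀ p q - τ m p q) * D p (D q v) m) := by ring
  show |(Aop τ l v y - ∑ p, ∑ q, (τ₀ p q - τ y p q) * D p (D q v) y) -
      (Aop τ l v m - ∑ p, ∑ q, (τ₀ p q - τ m p q) * D p (D q v) m)| ≤ _
  rw [e]
  refine (abs_sub _ _).trans ?_
  nlinarith

theorem centre_near {x₀ x₁ : E n} {s t : ℝ} (hs : 0 ≤ s) (hs1 : s ≤ 1) (ht : 0 ≤ t) :
    ‖x₀ - Real.exp (-t) • (x₀ + s • (x₁ - x₀))‖ ≤ t * ‖x₀‖ + ‖x₁ - x₀‖ := by
  have e : x₀ - Real.exp (-t) • (x₀ + s • (x₁ - x₀)) =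
      (1 - Real.exp (-t)) • x₀ - (Real.exp (-t) * s) • (x₁ - x₀) := by
    module
  have h1 : Real.exp (-t) ≤ 1 := Real.exp_le_one_iff.mpr (by linarith)
  have h2 : 1 - t ≤ Real.exp (-t) := by have := Real.add_one_le_exp (-t); linarith
  have h3 := Real.exp_pos (-t)
  rw [e]
  refine (norm_sub_le _ _).trans ?_
  rw [norm_smul, norm_smul, Real.norm_eq_abs, Real.norm_eq_abs, abs_of_nonneg (by linarith),
    abs_of_nonneg (by positivity)]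
  have h4 : Real.exp (-t) * s ≤ 1 := by nlinarith
  have h5 := norm_nonneg x₀
  have h6 := norm_nonneg (x₁ - x₀)
  nlinarith

theorem centre_far {x₀ x₁ : E n} {s t : ℝ} (hs : 0 ≤ s) (hs1 : s ≤ 1) (ht : t ≤ 1 / 2)
    {ρ : ℝ} (hρ : 0 ≤ ρ) (h0 : 2 * ρ + 1 ≤ ‖x₀‖) (h1 : ‖x₁ - x₀‖ ≤ 1) :
    ρ ≤ ‖Real.exp (-t) • (x₀ + s • (x₁ - x₀))‖ := by
  have h2 : 1 - t ≤ Real.exp (-t) := by have := Real.add_one_le_exp (-t); linarith
  have h3 := Real.exp_pos (-t)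
  rw [norm_smul, Real.norm_eq_abs, abs_of_pos h3]
  have h4 : ‖s • (x₁ - x₀)‖ ≤ 1 := by
    rw [norm_smul, Real.norm_eq_abs, abs_of_nonneg hs]
    have := norm_nonneg (x₁ - x₀)
    nlinarith
  have h5 : ‖x₀‖ ≤ ‖x₀ + s • (x₁ - x₀)‖ + ‖s • (x₁ - x₀)‖ := by
    have := norm_sub_le (x₀ + s • (x₁ - x₀)) (s • (x₁ - x₀))
    simpa using this
  have h6 : 2 * ρ ≤ ‖x₀ + s • (x₁ - x₀)‖ := by linarith
  nlinarith

/-- the Hoelder step -/
theorem holder (n : ℕ) {c K : ℝ} (hc : 0 < c) (hK : 0 < K) : ∃ om : ℝ, 0 < om ∧ ∀ R : ℝ,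
    ∃ C : ℝ, 1 ≤ C ∧ ∀ (τ : E n → Mat n) (l : ℝ) (v : E n → ℝ) (a B F : ℝ), Ell c K τ →
      MHb 0 K τ → Far om R τ → -1 ≤ l → PG v → 0 ≤ a → 0 ≤ B → 0 ≤ F →
      (∀ i j x, |D i (D j v) x| ≤ a) → N2 0 B v → Hol F (Aop τ l v) →
      ∀ i j, Hol (B / 4 + C * (F + a)) (D i (D j v)) := by
  have hc' : 0 < min c 1 := lt_min hc one_pos
  have hK' : 0 < max K 1 := lt_max_of_lt_left hK
  obtain ⟨C₂, hC₂, H2⟩ := S2B n hc' hK'
  have hn2 : (0 : ℝ) ≤ (n : ℝ) ^ 2 := by positivity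
  obtain ⟨om, hom, homC⟩ : ∃ om : ℝ, 0 < om ∧ C₂ * ((n : ℝ) ^ 2 * om) ≤ 1 / 4 := by
    refine ⟨1 / (4 * ((n : ℝ) ^ 2 * C₂) + 1), by positivity, ?_⟩
    have h0 : 0 ≤ (n : ℝ) ^ 2 * C₂ := by positivity
    have e : C₂ * ((n : ℝ) ^ 2 * (1 / (4 * ((n : ℝ) ^ 2 * C₂) + 1))) =
        ((n : ℝ) ^ 2 * C₂) / (4 * ((n : ℝ) ^ 2 * C₂) + 1) := by ring
    rw [e, div_le_iff₀ (by positivity)]
    linarith
  refine ⟨om, hom, fun R => ?_⟩
  obtain ⟨r, hr, Hr⟩ := mo_small (K := K) hom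
  have hR := abs_nonneg R
  obtain ⟨T, hT, hT2, hTr⟩ : ∃ T : ℝ, 0 < T ∧ T ≤ 1 / 2 ∧ T * (2 * |R| + 1) ≤ r / 2 := by
    refine ⟨min (1 / 2) (r / 2 / (2 * |R| + 1)), lt_min (by norm_num) (by positivity),
      min_le_left _ _, ?_⟩
    rw [← le_div_iff₀ (by positivity)]
    exact min_le_right _ _
  obtain ⟨ρ, hρ, hρ1, hρr, hρT⟩ :
      ∃ ρ : ℝ, 0 < ρ ∧ ρ ≤ 1 ∧ ρ ≤ r / 2 ∧ ρ ≤ min c 1 * T := by
    refine ⟨min 1 (min (r / 2) (min c 1 * T)), lt_min one_pos (lt_min (by positivity)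
      (by positivity)), min_le_left _ _, (min_le_right _ _).trans (min_le_left _ _),
      (min_le_right _ _).trans (min_le_right _ _)⟩
  have hsT : 0 < Real.sqrt T := Real.sqrt_pos.mpr hT
  refine ⟨1 + C₂ + C₂ * ((n : ℝ) ^ 2 * K) + C₂ / Real.sqrt T + 2 / ρ, ?_, ?_⟩
  · have : 0 ≤ C₂ * ((n : ℝ) ^ 2 * K) := by positivity
    have : 0 ≤ C₂ / Real.sqrt T := by positivity
    have : 0 ≤ 2 / ρ := by positivity
    linarith
  intro τ l v a B F hE hτ hfar hl hv ha hB hF hsup hN hA i j x₁ x₀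
  have hd := norm_nonneg (x₁ - x₀)
  have hmo : 0 ≤ mo ‖x₁ - x₀‖ := mo_nonneg hd
  have hm1 : ‖x₁ - x₀‖ ≤ mo ‖x₁ - x₀‖ := le_mo
  have hm2 : Real.sqrt ‖x₁ - x₀‖ ≤ mo ‖x₁ - x₀‖ := sqrt_le_mo hd
  have p1 : 0 ≤ C₂ * ((n : ℝ) ^ 2 * K) := by positivity
  have p2 : 0 ≤ C₂ / Real.sqrt T := by positivity
  have p3 : 0 ≤ 2 / ρ := by positivity
  by_cases hρx : ‖x₁ - x₀‖ ≤ ρ
  · -- short range
    have key : ∀ τ₀ : Mat n, Ell1 (min c 1) (max K 1) τ₀ →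
        (∀ s t : ℝ, 0 ≤ s → s ≤ 1 → 0 ≤ t → t ≤ T → ∀ p q,
          |τ₀ p q - τ (Real.exp (-t) • (x₀ + s • (x₁ - x₀))) p q| ≤ om) →
        |D i (D j v) x₁ - D i (D j v) x₀| ≤
          (B / 4 + (1 + C₂ + C₂ * ((n : ℝ) ^ 2 * K) + C₂ / Real.sqrt T + 2 / ρ) * (F + a)) *
            mo ‖x₁ - x₀‖ := by
      intro τ₀ h0 hw
      have hKK : 0 ≤ F + (n : ℝ) ^ 2 * (K * a + om * B) := by positivity
      have h1 := H2 τ₀ v l T a (F + (n : ℝ) ^ 2 * (K * a + om * B)) x₀ x₁ h0 hv hl hT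
        (by linarith) ha hKK (by nlinarith) hsup
        (fun s t hs hs1 ht htT y => cen hτ hA hsup hN (hw s t hs hs1 ht htT) y) i j
      refine h1.trans ?_
      have h2 : (F + (n : ℝ) ^ 2 * (K * a + om * B)) * Real.sqrt ‖x₁ - x₀‖ ≤
          (F + (n : ℝ) ^ 2 * (K * a + om * B)) * mo ‖x₁ - x₀‖ :=
        mul_le_mul_of_nonneg_left hm2 hKK
      have h3 : a * ‖x₁ - x₀‖ / Real.sqrt T ≤ a * mo ‖x₁ - x₀‖ / Real.sqrt T :=
        div_le_div_of_nonneg_right (mul_le_mul_of_nonneg_left hm1 ha) hsT.le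
      have h4 : C₂ * ((F + (n : ℝ) ^ 2 * (K * a + om * B)) * Real.sqrt ‖x₁ - x₀‖ +
          a * ‖x₁ - x₀‖ / Real.sqrt T) ≤
          C₂ * ((F + (n : ℝ) ^ 2 * (K * a + om * B)) * mo ‖x₁ - x₀‖ +
            a * mo ‖x₁ - x₀‖ / Real.sqrt T) :=
        mul_le_mul_of_nonneg_left (add_le_add h2 h3) hC₂.le
      refine h4.trans ?_
      have e : C₂ * ((F + (n : ℝ) ^ 2 * (K * a + om * B)) * mo ‖x₁ - x₀‖ +
            a * mo ‖x₁ - x₀‖ / Real.sqrt T) =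
          (C₂ * ((n : ℝ) ^ 2 * om) * B + C₂ * F + C₂ * ((n : ℝ) ^ 2 * K) * a +
            C₂ / Real.sqrt T * a) * mo ‖x₁ - x₀‖ := by ring
      rw [e]
      refine mul_le_mul_of_nonneg_right ?_ hmo
      have h5 : C₂ * ((n : ℝ) ^ 2 * om) * B ≤ 1 / 4 * B := mul_le_mul_of_nonneg_right homC hB
      have q1 := mul_nonneg p1 hF
      have q2 := mul_nonneg p2 hF
      have q3 := mul_nonneg p3 hF
      have q4 := mul_nonneg p3 ha
      have q5 := mul_nonneg hC₂.le ha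
      nlinarith
    by_cases hx : ‖x₀‖ ≤ 2 * |R| + 1
    · refine key (τ x₀) ((hE x₀).mono (min_le_left _ _) (le_max_left _ _)) ?_
      intro s t hs hs1 ht htT p q
      have h1 : |τ x₀ p q - τ (Real.exp (-t) • (x₀ + s • (x₁ - x₀))) p q| ≤
          K * mo ‖x₀ - Real.exp (-t) • (x₀ + s • (x₁ - x₀))‖ := (hτ p q).hol _ _
      refine h1.trans (Hr _ (norm_nonneg _) ?_)
      have h2 := centre_near (x₀ := x₀) (x₁ := x₁) hs hs1 ht
      have h3 : t * ‖x₀‖ ≤ T * (2 * |R| + 1) := mul_le_mul htT hx (norm_nonneg _) hT.le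
      linarith
    · refine key 1 (ell1_one.mono (min_le_right _ _) (le_max_right _ _)) ?_
      intro s t hs hs1 ht htT p q
      rw [abs_sub_comm]
      refine hfar _ ((le_abs_self R).trans ?_) p q
      exact centre_far hs hs1 (by linarith) hR (le_of_not_ge hx) (by linarith)
  · -- long range
    have h1 : ρ ≤ mo ‖x₁ - x₀‖ := (le_of_not_ge hρx).trans hm1
    have h2 : |D i (D j v) x₁ - D i (D j v) x₀| ≤ 2 * a := by
      have := abs_sub (D i (D j v) x₁) (D i (D j v) x₀)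
      have := hsup i j x₁
      have := hsup i j x₀
      linarith
    have h3 : 2 * a ≤ 2 / ρ * a * mo ‖x₁ - x₀‖ := by
      have e : 2 * a = 2 / ρ * a * ρ := by field_simp
      rw [e]
      exact mul_le_mul_of_nonneg_left h1 (by positivity)
    refine h2.trans (h3.trans (mul_le_mul_of_nonneg_right ?_ hmo))
    have q1 := mul_nonneg p1 hF
    have q2 := mul_nonneg p2 hF
    have q3 := mul_nonneg p3 hF
    have q4 := mul_nonneg p1 ha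
    have q5 := mul_nonneg hC₂.le ha
    have q6 := mul_nonneg hC₂.le hF
    have q7 := mul_nonneg p2 ha
    nlinarith

end P0Aux

/-- WLOG use `c' = min c 1`, `K₁ = max K 1`, so that `S2B` also covers `τ₀ = 1`; let `C₂` be its
constant, `om = 1 / (4 n² C₂ + 1)`. Use `halving` with `Q B := N2 0 B v`. Given `Q B`:
(a) sup: `Aop one l v = Aop τ l v + ∑ (τ - 1) ∂∂v` (`Aop_change`) is `Hol (F + 2 n² (K+1) B)`, so
`S1` gives `a' = C₁ (M / √T₁ + (F + 2 n² (K+1) B) T₁^{1/4})`.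
(b) Hoelder, `ρ = ‖x₁ - x₀‖ ≤ ρ₀`: freeze at `τ₀ = τ x₀` if `‖x₀‖ ≤ R' := 3 (|R| + 1)` (then
`|τ m - τ₀| ≤ K mo (ρ₀ + T₀ (R' + 1)) ≤ om` at all centres `m`, `mo_small`) and at `τ₀ = 1`
otherwise (`‖m‖ ≥ e^{-1} (R' - 1) ≥ R`, `Far`). The centred modulus of `Aop τ₀ l v` is
`F + n² (K a' + om B)`. For `ρ ≥ ρ₀` use `2 a' ≤ 2 a' mo ρ / ρ₀`.
So the Hoelder constant is at most `B/4 + C₃ (F + a')`; choose `T₁` with
`(1 + C₃) C₁ 2 n² (K+1) T₁^{1/4} ≤ 1/4`. -/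
theorem P0 (n : ℕ) {c K : ℝ} (hc : 0 < c) (hK : 0 < K) : ∃ om : ℝ, 0 < om ∧ ∀ R : ℝ,
    ∃ C : ℝ, 0 < C ∧ ∀ (τ : E n → Mat n) (l : ℝ) (v : E n → ℝ) (M F : ℝ), Ell c K τ →
      MHb 0 K τ → Far om R τ → -1 ≤ l → Sm v → 0 ≤ M → 0 ≤ F → (∀ i x, |D i v x| ≤ M) →
      Hol F (Aop τ l v) → N2 0 (C * (M + F)) v := by
  obtain ⟨om, hom, H⟩ := P0Aux.holder n hc hK
  refine ⟨om, hom, fun R => ?_⟩
  obtain ⟨C₃, hC₃, H3⟩ := H R
  obtain ⟨C₁, hC₁, H1⟩ := S1 n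
  have hC₃0 : 0 < C₃ := by linarith
  obtain ⟨q, hq, hq1, hqX⟩ : ∃ q : ℝ, 0 < q ∧ q ≤ 1 ∧
      C₃ * C₁ * ((n : ℝ) ^ 2 * (2 * K + 1)) * q ≤ 1 / 4 := by
    have h0 : 0 ≤ C₃ * C₁ * ((n : ℝ) ^ 2 * (2 * K + 1)) := by positivity
    refine ⟨1 / (4 * (C₃ * C₁ * ((n : ℝ) ^ 2 * (2 * K + 1))) + 1), by positivity, ?_, ?_⟩
    · rw [div_le_one (by positivity)]
      linarith
    · rw [mul_one_div, div_le_iff₀ (by positivity)]
      linarith
  have e1 : Real.sqrt (q ^ 4) = q ^ 2 := by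
    rw [show q ^ 4 = (q ^ 2) ^ 2 by ring]
    exact Real.sqrt_sq (by positivity)
  have e2 : Real.sqrt (q ^ 2) = q := Real.sqrt_sq hq.le
  refine ⟨2 * (C₃ + C₃ * C₁ * (1 / q ^ 2 + 1)), by positivity, ?_⟩
  intro τ l v M F hE hτ hfar hl hv hM hF hD hA
  obtain ⟨B₀, hB₀, hN₀⟩ := hv.n2 0
  have hc0 : 0 ≤ (C₃ + C₃ * C₁ * (1 / q ^ 2 + 1)) * (M + F) := by positivity
  have step : ∀ B, 0 ≤ B → N2 0 B v →
      N2 0 (B / 2 + (C₃ + C₃ * C₁ * (1 / q ^ 2 + 1)) * (M + F)) v := by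
    intro B hB hN
    have hKK : 0 ≤ F + (n : ℝ) ^ 2 * (K * B + (K + 1) * B) := by positivity
    have hone : Hol (F + (n : ℝ) ^ 2 * (K * B + (K + 1) * B)) (Aop (one n) l v) := by
      intro y m
      refine P0Aux.cen (τ₀ := 1) hτ hA hN.abs_le hN (fun p q => ?_) y
      have h1 : |τ m p q| ≤ K := (hτ p q).abs_le m
      have h2 : |(1 : Mat n) p q| ≤ 1 := by
        rw [Matrix.one_apply]
        split_ifs <;> simp
      have := abs_sub ((1 : Mat n) p q) (τ m p q)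
      linarith
    have hs := H1 v l (q ^ 4) M _ hv.pg hl (by positivity) (pow_le_one₀ hq.le hq1) hM hKK hD hone
    rw [e1, e2] at hs
    have ha : 0 ≤ C₁ * (M / q ^ 2 + (F + (n : ℝ) ^ 2 * (K * B + (K + 1) * B)) * q) := by
      positivity
    have hh := H3 τ l v _ B F hE hτ hfar hl hv.pg ha hB hF hs hN hA
    have hb : B / 4 + C₃ * (F + C₁ * (M / q ^ 2 +
        (F + (n : ℝ) ^ 2 * (K * B + (K + 1) * B)) * q)) ≤
        B / 2 + (C₃ + C₃ * C₁ * (1 / q ^ 2 + 1)) * (M + F) := by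
      have e : C₃ * (F + C₁ * (M / q ^ 2 + (F + (n : ℝ) ^ 2 * (K * B + (K + 1) * B)) * q)) =
          C₃ * F + C₃ * C₁ * (1 / q ^ 2) * M + C₃ * C₁ * F * q +
            C₃ * C₁ * ((n : ℝ) ^ 2 * (2 * K + 1)) * q * B := by ring
      have h1 : C₃ * C₁ * ((n : ℝ) ^ 2 * (2 * K + 1)) * q * B ≤ 1 / 4 * B :=
        mul_le_mul_of_nonneg_right hqX hB
      have h2 : C₃ * C₁ * F * q ≤ C₃ * C₁ * F * 1 :=
        mul_le_mul_of_nonneg_left hq1 (by positivity)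
      have h3 : 0 ≤ C₃ * M := by positivity
      have h4 : 0 ≤ C₃ * C₁ * (1 / q ^ 2) * F := by positivity
      have h5 : 0 ≤ C₃ * C₁ * M := by positivity
      rw [e]
      nlinarith
    intro i j
    refine ⟨(hN i j).smo, fun x => (hs i j x).trans (le_trans ?_ hb), (hh i j).mono hb⟩
    have h1 := mul_le_mul_of_nonneg_right hC₃ (add_nonneg hF ha)
    linarith
  have fin := halving (Q := fun B => N2 0 B v) (fun a b hab h => h.mono hab) hB₀ hN₀ step hc0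
  rw [mul_assoc]
  exact n2_of_forall fin

end Vale.Agent.P227
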