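import Vale.Agent.P227.P0

/-! Schauder estimate of order k. -/

namespace Vale.Agent.P227

open scoped ContDiff Matrix RealInnerProductSpace Topology
open MeasureTheory Filter

variable {n : ℕ}

/-- Induction on `k` (same `om` as in `P0`). Step: by the case `k`, `N2 k C(M+F) v`; apply the case
`k` to `D i v` (`Sm.D`), with `l + 1` and data
`Aop τ (l+1) (D i v) = D i (Aop τ l v) + ∑ (D i τ) ∂∂v` (`D_Aop`, `MHb.contr`, `Hb.hs`);
finish with `n2_succ_of`. -/
theorem Pk (n : ℕ) {c K : ℝ} (hc : 0 < c) (hK : 0 < K) : ∃ om : ℝ, 0 < om ∧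
    ∀ (k : ℕ) (R K' : ℝ), ∃ C : ℝ, 0 < C ∧
      ∀ (τ : E n → Mat n) (l : ℝ) (v : E n → ℝ) (M F : ℝ), Ell c K τ → MHb 0 K τ →
        MHb k K' τ → Far om R τ → -1 ≤ l → Sm v → 0 ≤ M → 0 ≤ F → (∀ i x, |D i v x| ≤ M) →
        Hs k F (Aop τ l v) → N2 k (C * (M + F)) v := by
  obtain ⟨om, hom, h0⟩ := P0 n hc hK
  refine ⟨om, hom, fun k R K' => ?_⟩
  induction k with
  | zero =>
    obtain ⟨C, hC, h⟩ := h0 R
    exact ⟨C, hC, fun τ l v M F e m0 _ f hl hv hM hF hD hH => h τ l v M F e m0 f hl hv hM hF hD hH⟩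
  | succ k ih =>
    obtain ⟨C, hC, h⟩ := ih
    have hn : (0 : ℝ) ≤ n := Nat.cast_nonneg n
    obtain ⟨a, ha, ea⟩ : ∃ a : ℝ, 0 ≤ a ∧ a = n ^ 2 * (2 ^ (k + 1) * |K'|) :=
      ⟨_, by positivity, rfl⟩
    refine ⟨C + (n + 1) * (C * (C + 1 + a * C)), by positivity,
      fun τ l v M F e m0 mk f hl hv hM hF hD hH => ?_⟩
    have h1 := h τ l v M F e m0 (mk.of_le (Nat.le_succ k)) f hl hv hM hF hD hH.of_succ
    have hCM : 0 ≤ C * (M + F) := by positivity
    have h2 : ∀ i, N2 k (C * (C + 1 + a * C) * (M + F)) (D i v) := by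
      intro i
      have c1 : Hb k (a * (C * (M + F)))
          (fun x => ∑ p, ∑ q, MD i τ x p q * D p (D q v) x) := by
        refine (((mk.MD i).mono (le_abs_self K')).contr h1).mono (le_of_eq ?_)
        rw [ea]; ring
      have c2 : Hb k (F + a * (C * (M + F))) (Aop τ (l + 1) (D i v)) := by
        have c3 := (hH.2 i).add c1
        rw [D_Aop i mk.msmo l hv.smo] at c3
        simp only [MD_apply, sub_add_cancel] at c3
        exact c3
      refine (h τ (l + 1) (D i v) (C * (M + F)) (F + a * (C * (M + F))) e m0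
        (mk.of_le (Nat.le_succ k)) f (by linarith) (hv.D i) hCM (by positivity)
        (fun j x => h1.abs_le j i x) c2.hs).mono ?_
      have : 0 ≤ C * M := by positivity
      nlinarith
    refine (n2_succ_of hv.smo (by positivity) (fun i j x => h1.abs_le i j x) h2).mono
      (le_of_eq ?_)
    ring

end Vale.Agent.P227
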