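import Vale.Agent.P227.Dyn
import Vale.Agent.P227.Gauss

/-! Schauder estimate for the standard OU operator: sup bound. -/

namespace Vale.Agent.P227

open scoped ContDiff Matrix RealInnerProductSpace Topology
open MeasureTheory Filter

variable {n : ℕ}

namespace S1Aux

theorem sqrt_sqrt_eq {t : ℝ} (ht : 0 ≤ t) : Real.sqrt (Real.sqrt t) = t ^ (1 / 4 : ℝ) := by
  rw [Real.sqrt_eq_rpow, Real.sqrt_eq_rpow, ← Real.rpow_mul ht]
  norm_num

theorem inv_eq {t : ℝ} (ht : 0 < t) :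
    1 / (Real.sqrt t * Real.sqrt (Real.sqrt t)) = t ^ (-(3 / 4) : ℝ) := by
  rw [sqrt_sqrt_eq ht.le, Real.sqrt_eq_rpow, ← Real.rpow_add ht, Real.rpow_neg ht.le, one_div]
  norm_num

theorem sg_bound {t : ℝ} (ht : 0 < t) (h1 : t ≤ 1) :
    1 / (sg t * Real.sqrt (sg t)) ≤ 4 * t ^ (-(3 / 4) : ℝ) := by
  have h2 := sg_lower ht.le h1
  have h3 : 0 < Real.sqrt t := Real.sqrt_pos.mpr ht
  have h4 : 0 < Real.sqrt (Real.sqrt t) := Real.sqrt_pos.mpr h3
  have h5 : Real.sqrt (Real.sqrt t) / 2 ≤ Real.sqrt (sg t) := by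
    apply Real.le_sqrt_of_sq_le
    rw [div_pow, Real.sq_sqrt h3.le]
    linarith
  have h6 : Real.sqrt t / 2 * (Real.sqrt (Real.sqrt t) / 2) ≤ sg t * Real.sqrt (sg t) :=
    mul_le_mul h2 h5 (by positivity) (sg_nonneg t)
  rw [← inv_eq ht]
  refine (one_div_le_one_div_of_le (by positivity) h6).trans (le_of_eq ?_)
  field_simp
  norm_num

theorem int_bound {T : ℝ} (hT : 0 < T) (a : ℝ) :
    ∫ t in (0 : ℝ)..T, a * t ^ (-(3 / 4) : ℝ) = a * (4 * Real.sqrt (Real.sqrt T)) := by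
  rw [intervalIntegral.integral_const_mul, integral_rpow (Or.inl (by norm_num)),
    sqrt_sqrt_eq hT.le, Real.zero_rpow (by norm_num)]
  norm_num
  left
  ring

end S1Aux

/-- `dynkin2` at `x`. First term: `smooth1` applied to `D j v` with `σ = sg T ≥ √T / 2`. Second
term: `smooth2` at the centre `e^{-t} x`, integrand at most `C K t^{-3/4}`; `e^{-(l+2)t} ≤ 1`. -/
theorem S1 (n : ℕ) : ∃ C : ℝ, 0 < C ∧ ∀ (v : E n → ℝ) (l T M K : ℝ), PG v → -1 ≤ l → 0 < T →
    T ≤ 1 → 0 ≤ M → 0 ≤ K → (∀ i x, |D i v x| ≤ M) → Hol K (Aop (one n) l v) →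
      ∀ i j x, |D i (D j v) x| ≤ C * (M / Real.sqrt T + K * Real.sqrt (Real.sqrt T)) := by
  obtain ⟨C₁, hC₁, H1⟩ := smooth1 n
  obtain ⟨C₂, hC₂, H2⟩ := smooth2 n
  refine ⟨2 * C₁ + 16 * C₂, by positivity, ?_⟩
  intro v l T M K hv hl hT hT1 hM hK hD hA i j x
  have hsT : 0 < Real.sqrt T := Real.sqrt_pos.mpr hT
  have hexp : ∀ t : ℝ, 0 ≤ t → |Real.exp (-((l + 2) * t))| ≤ 1 := by
    intro t ht
    rw [abs_of_pos (Real.exp_pos _), Real.exp_le_one_iff]
    nlinarith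
  have hF : PG (Aop (one n) l v) := hv.Aop (mpg_const 1) l
  have h1 : |Real.exp (-((l + 2) * T)) * OU T (D i (D j v)) x| ≤ 2 * C₁ * (M / Real.sqrt T) := by
    have h := H1 (D j v) (Real.exp (-T) • x) (sg T) M i (hv.D j) (sg_pos hT) (hD j)
    have h2 : C₁ * M / sg T ≤ C₁ * M / (Real.sqrt T / 2) :=
      div_le_div_of_nonneg_left (by positivity) (by positivity) (sg_lower hT.le hT1)
    have h3 : C₁ * M / (Real.sqrt T / 2) = 2 * C₁ * (M / Real.sqrt T) := by
      field_simp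
    rw [abs_mul]
    have h4 : |OU T (D i (D j v)) x| ≤ 2 * C₁ * (M / Real.sqrt T) := h.trans (h2.trans h3.le)
    have := mul_le_mul (hexp T hT.le) h4 (abs_nonneg _) zero_le_one
    linarith
  have h2 : |∫ t in (0 : ℝ)..T, Real.exp (-((l + 2) * t)) *
      OU t (D i (D j (Aop (one n) l v))) x| ≤ 16 * C₂ * (K * Real.sqrt (Real.sqrt T)) := by
    have hb : ‖∫ t in (0 : ℝ)..T, Real.exp (-((l + 2) * t)) *
        OU t (D i (D j (Aop (one n) l v))) x‖ ≤
        ∫ t in (0 : ℝ)..T, (4 * (C₂ * K)) * t ^ (-(3 / 4) : ℝ) := by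
      refine intervalIntegral.norm_integral_le_of_norm_le hT.le
        (Eventually.of_forall fun t ht => ?_)
        ((intervalIntegral.intervalIntegrable_rpow' (by norm_num)).const_mul _)
      have h := H2 (Aop (one n) l v) (Real.exp (-t) • x) (sg t) K i j hF (sg_pos ht.1)
        (sg_le_one t) hK (fun y => hA y _)
      have h3 := S1Aux.sg_bound ht.1 (ht.2.trans hT1)
      have h4 : |OU t (D i (D j (Aop (one n) l v))) x| ≤ (4 * (C₂ * K)) * t ^ (-(3 / 4) : ℝ) := by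
        refine h.trans ?_
        rw [div_eq_mul_one_div]
        have := mul_le_mul_of_nonneg_left h3 (show 0 ≤ C₂ * K by positivity)
        linarith
      rw [Real.norm_eq_abs, abs_mul]
      have := mul_le_mul (hexp t ht.1.le) h4 (abs_nonneg _) zero_le_one
      linarith
    rw [S1Aux.int_bound hT, Real.norm_eq_abs] at hb
    linarith
  rw [dynkin2 hv l hT.le i j x]
  refine (abs_add_le _ _).trans ?_
  have h3 : 0 ≤ M / Real.sqrt T := by positivity
  have h4 : 0 ≤ K * Real.sqrt (Real.sqrt T) := by positivity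
  have h5 := mul_nonneg hC₁.le h4
  have h6 := mul_nonneg hC₂.le h3
  nlinarith

end Vale.Agent.P227
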