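import Vale.Agent.P227.Dyn
import Vale.Agent.P227.Gauss

/-! Schauder estimate for the standard OU operator: Hoelder bound. -/

namespace Vale.Agent.P227

open scoped ContDiff Matrix RealInnerProductSpace Topology
open MeasureTheory Filter

variable {n : ℕ}

namespace S2Aux

theorem int_bound {h : ℝ → ℝ} {T q c : ℝ} (hT : 0 < T) (hq : 0 < q) (hc : 0 ≤ c)
    (hb : ∀ t, 0 < t → t ≤ T → |h t| ≤
      c * (q ^ 2 / (√(√t) ^ 3 * (√(√t) + q) ^ 2))) : |∫ t in (0 : ℝ)..T, h t| ≤ 4 * c * q := by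
  have pos : ∀ t : ℝ, 0 < √(√t) + q := fun t => by positivity
  have hc' : Continuous fun t : ℝ => -(4 * c * q ^ 2) / (√(√t) + q) :=
    continuous_const.div (by fun_prop) fun t => (pos t).ne'
  have hd : ∀ t, 0 < t → HasDerivAt (fun t : ℝ => -(4 * c * q ^ 2) / (√(√t) + q))
      (c * (q ^ 2 / (√(√t) ^ 3 * (√(√t) + q) ^ 2))) t := fun t ht => by
    have s1 : 0 < √t := Real.sqrt_pos.2 ht
    have s2 : 0 < √(√t) := Real.sqrt_pos.2 s1
    have := (hasDerivAt_const t (-(4 * c * q ^ 2))).div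
      (((Real.hasDerivAt_sqrt ht.ne').sqrt s1.ne').add_const q) (pos t).ne'
    refine this.congr_deriv ?_
    have e := Real.sq_sqrt s1.le
    have := pos t
    generalize √(√t) = r at *
    rw [← e]
    field_simp
    ring
  have hi : IntervalIntegrable
      (fun t : ℝ => c * (q ^ 2 / (√(√t) ^ 3 * (√(√t) + q) ^ 2))) volume 0 T :=
    intervalIntegral.intervalIntegrable_deriv_of_nonneg hc'.continuousOn
      (fun t ht => hd t (by simpa [hT.le] using ht.1)) fun t _ => by positivity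
  refine (intervalIntegral.norm_integral_le_of_norm_le (f := h) hT.le
    (.of_forall fun t ht => hb t ht.1 ht.2) hi).trans ?_
  rw [intervalIntegral.integral_eq_sub_of_hasDerivAt_of_le hT.le hc'.continuousOn
    (fun t ht => hd t ht.1) hi]
  have h1 : -(4 * c * q ^ 2) / (√(√T) + q) ≤ 0 :=
    div_nonpos_of_nonpos_of_nonneg (neg_nonpos.2 (by positivity)) (pos T).le
  have h2 : -(4 * c * q ^ 2) / (√(√(0 : ℝ)) + q) = -(4 * c * q) := by
    simp only [Real.sqrt_zero, zero_add]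
    field_simp
  rw [h2]
  linarith

theorem comb {x a r q : ℝ} (hr : 0 < r) (hq : 0 < q) (ha : 0 ≤ a) (h1 : x ≤ a / r ^ 3)
    (h2 : x ≤ a * q ^ 2 / r ^ 5) : x ≤ 4 * a * (q ^ 2 / (r ^ 3 * (r + q) ^ 2)) := by
  rcases le_total r q with h | h
  · refine h1.trans ?_
    rw [← mul_div_assoc, div_le_div_iff₀ (by positivity) (by positivity)]
    have : (r + q) ^ 2 ≤ 4 * q ^ 2 := by nlinarith
    have := mul_le_mul_of_nonneg_left this (by positivity : 0 ≤ a * r ^ 3)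
    nlinarith
  · refine h2.trans ?_
    rw [← mul_div_assoc, div_le_div_iff₀ (by positivity) (by positivity)]
    have : (r + q) ^ 2 ≤ 4 * r ^ 2 := by nlinarith
    have := mul_le_mul_of_nonneg_left this (by positivity : 0 ≤ a * q ^ 2 * r ^ 3)
    nlinarith

theorem sg_low {t : ℝ} (ht : 0 < t) (h1 : t ≤ 1) :
    √(√t) ^ 3 / 4 ≤ sg t * √(sg t) ∧ √(√t) ^ 5 / 8 ≤ sg t ^ 2 * √(sg t) := by
  have a := sg_lower ht.le h1
  have e := Real.sq_sqrt (Real.sqrt_nonneg t)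
  have r0 := Real.sqrt_nonneg (√t)
  generalize √(√t) = r at *
  have a' : r ^ 2 / 2 ≤ sg t := by rw [e]; exact a
  have b : r / 2 ≤ √(sg t) := Real.le_sqrt_of_sq_le (by nlinarith)
  have c := mul_le_mul a' b (by positivity) (sg_nonneg t)
  have d := mul_le_mul a' c (by positivity) (sg_nonneg t)
  constructor <;> nlinarith

theorem seg {f : E n → ℝ} (hf : Differentiable ℝ f) (x₀ x₁ : E n) {B : ℝ}
    (h : ∀ s : ℝ, 0 ≤ s → s ≤ 1 → ∀ k, |D k f (x₀ + s • (x₁ - x₀))| ≤ B) :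
    |f x₁ - f x₀| ≤ n * B * ‖x₁ - x₀‖ := by
  have := norm_image_sub_le_of_norm_deriv_le_segment_01' (C := n * B * ‖x₁ - x₀‖)
    (fun s _ => (hasDerivAt_line hf x₀ (x₁ - x₀) s).hasDerivWithinAt) fun s hs => by
      refine (Finset.abs_sum_le_sum_abs _ _).trans ?_
      refine (Finset.sum_le_sum (g := fun _ => ‖x₁ - x₀‖ * B) fun k _ => ?_).trans (le_of_eq ?_)
      · rw [abs_mul]
        exact mul_le_mul (abs_coord_le _ k) (h s hs.1 hs.2.le k) (abs_nonneg _) (norm_nonneg _)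
      · simp only [Finset.sum_const, Finset.card_univ, Fintype.card_fin, nsmul_eq_mul]
        ring
  simpa using this

theorem exp_mul_le {a x B : ℝ} (ha : 0 ≤ a) (h : |x| ≤ B) : |Real.exp (-a) * x| ≤ B := by
  rw [abs_mul, abs_of_pos (Real.exp_pos _)]
  exact (mul_le_of_le_one_left (abs_nonneg _) (Real.exp_le_one_iff.2 (by linarith))).trans h

theorem bdry {C : ℝ} (p : 0 < C) (h : ∀ (g : E n → ℝ) (m : E n) (σ M : ℝ) (i : Fin n),
    PG g → 0 < σ → (∀ y, |g y| ≤ M) → |GE fun z => D i g (m + σ • z)| ≤ C * M / σ)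
    {u : E n → ℝ} (pu : PG u) {A T : ℝ} (hA : 0 ≤ A) (hT : 0 < T) (hT1 : T ≤ 1)
    (hb : ∀ y, |u y| ≤ A) (x y : E n) :
    |OU T u x - OU T u y| ≤ 2 * n * C * (A * ‖x - y‖ / √T) := by
  have sT : 0 < √T := Real.sqrt_pos.2 hT
  refine (lip_of_D (M := 2 * C * A / √T) (OU_diff T pu) (fun k x => ?_) x y).trans
    (le_of_eq (by ring))
  rw [D_OU T pu]
  refine exp_mul_le hT.le ((h u (Real.exp (-T) • x) (sg T) A k pu (sg_pos hT) hb).trans ?_)
  rw [div_le_div_iff₀ (sg_pos hT) sT]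
  have := mul_le_mul_of_nonneg_left (sg_lower hT.le hT1) (by positivity : 0 ≤ C * A)
  linarith

theorem near {C : ℝ} (p : 0 < C) (h : ∀ (F : E n → ℝ) (m : E n) (σ K : ℝ) (i j : Fin n),
    PG F → 0 < σ → σ ≤ 1 → 0 ≤ K → (∀ y, |F y - F m| ≤ K * mo ‖y - m‖) →
      |GE fun z => D i (D j F) (m + σ • z)| ≤ C * K / (σ * √σ))
    {F : E n → ℝ} (pF : PG F) {K t : ℝ} (hK : 0 ≤ K) (ht : 0 < t) (ht1 : t ≤ 1) (x : E n)
    (hF : ∀ y, |F y - F (Real.exp (-t) • x)| ≤ K * mo ‖y - Real.exp (-t) • x‖) (i j : Fin n) :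
    |OU t (D i (D j F)) x| ≤ 4 * C * K / √(√t) ^ 3 := by
  have r0 : 0 < √(√t) := Real.sqrt_pos.2 (Real.sqrt_pos.2 ht)
  have σ0 := sg_pos ht
  have σ1 : 0 < √(sg t) := Real.sqrt_pos.2 σ0
  refine (h F _ _ K i j pF σ0 (sg_le_one t) hK hF).trans ?_
  rw [div_le_div_iff₀ (by positivity) (by positivity)]
  have := mul_le_mul_of_nonneg_left (sg_low ht ht1).1 (by positivity : 0 ≤ C * K)
  linarith

theorem far {C : ℝ} (p : 0 < C) (h : ∀ (F : E n → ℝ) (m : E n) (σ K : ℝ) (i j k : Fin n),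
    PG F → 0 < σ → σ ≤ 1 → 0 ≤ K → (∀ y, |F y - F m| ≤ K * mo ‖y - m‖) →
      |GE fun z => D i (D j (D k F)) (m + σ • z)| ≤ C * K / (σ ^ 2 * √σ))
    {F : E n → ℝ} (pF : PG F) {K t : ℝ} (hK : 0 ≤ K) (ht : 0 < t) (ht1 : t ≤ 1) (x : E n)
    (hF : ∀ y, |F y - F (Real.exp (-t) • x)| ≤ K * mo ‖y - Real.exp (-t) • x‖) (i j k : Fin n) :
    |D k (OU t (D i (D j F))) x| ≤ 8 * C * K / √(√t) ^ 5 := by
  have r0 : 0 < √(√t) := Real.sqrt_pos.2 (Real.sqrt_pos.2 ht)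
  have σ0 := sg_pos ht
  have σ1 : 0 < √(sg t) := Real.sqrt_pos.2 σ0
  rw [D_OU t ((pF.D j).D i)]
  refine exp_mul_le ht.le ((h F _ _ K k i j pF σ0 (sg_le_one t) hK hF).trans ?_)
  rw [div_le_div_iff₀ (by positivity) (by positivity)]
  have := mul_le_mul_of_nonneg_left (sg_low ht ht1).2 (by positivity : 0 ≤ C * K)
  linarith

theorem cont_t {g : E n → ℝ} (pg : PG g) (a : ℝ) (x : E n) :
    Continuous fun t : ℝ => Real.exp (-(a * t)) * OU t g x := by
  have h := (OU_cont pg.cpb).comp (f := fun t : ℝ => (t, x)) (by fun_prop)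
  have h' : Continuous fun t : ℝ => OU t g x := by simpa only [Function.comp_def] using h
  fun_prop

end S2Aux

open S2Aux in
/-- Subtract `dynkin2` at `x₁` and `x₀`, `ρ = ‖x₁ - x₀‖`. Boundary term: `OU T g` has gradient at
most `C A / sg T` (`D_OU`, `smooth1`), use `lip_of_D`. Integral: for `t ≤ ρ²` bound both values by
`smooth2` (centres `s = 0, 1`), giving `∫₀^{ρ²} t^{-3/4} = 4 √ρ`; for `t ≥ ρ²` use the mean value
inequality along the segment (`hasDerivAt_line`, `D_OU`, `smooth3`), giving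
`ρ ∫_{ρ²}^T t^{-5/4} ≤ 4 √ρ`. -/
theorem S2 (n : ℕ) : ∃ C : ℝ, 0 < C ∧ ∀ (v : E n → ℝ) (l T A K : ℝ) (x₀ x₁ : E n), PG v →
    -1 ≤ l → 0 < T → T ≤ 1 → 0 ≤ A → 0 ≤ K → ‖x₁ - x₀‖ ^ 2 ≤ T →
    (∀ i j x, |D i (D j v) x| ≤ A) →
    (∀ s t : ℝ, 0 ≤ s → s ≤ 1 → 0 ≤ t → t ≤ T → ∀ y,
      |Aop (one n) l v y - Aop (one n) l v (Real.exp (-t) • (x₀ + s • (x₁ - x₀)))| ≤
        K * mo ‖y - Real.exp (-t) • (x₀ + s • (x₁ - x₀))‖) →
      ∀ i j, |D i (D j v) x₁ - D i (D j v) x₀| ≤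
        C * (K * Real.sqrt ‖x₁ - x₀‖ + A * ‖x₁ - x₀‖ / Real.sqrt T) := by
  obtain ⟨C1, p1, h1⟩ := smooth1 n
  obtain ⟨C2, p2, h2⟩ := smooth2 n
  obtain ⟨C3, p3, h3⟩ := smooth3 n
  refine ⟨2 * n * C1 + 128 * (C2 + n * C3), by positivity, ?_⟩
  intro v l T A K x₀ x₁ hv hl hT hT1 hA hK _ hb hF i j
  rcases eq_or_ne x₁ x₀ with rfl | hne
  · simp
  have ρ0 : 0 < ‖x₁ - x₀‖ := norm_pos_iff.2 (sub_ne_zero.2 hne)
  have q0 : 0 < √‖x₁ - x₀‖ := Real.sqrt_pos.2 ρ0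
  have pF : PG (Aop (one n) l v) := hv.Aop (mpg_const 1) l
  have pu := (hv.D j).D i
  have pg := (pF.D j).D i
  have dy := dynkin2 hv l hT.le i j
  generalize Aop (one n) l v = F at *
  have cont := fun x => cont_t pg (l + 2) x
  have b1 := exp_mul_le (a := (l + 2) * T) (mul_nonneg (by linarith) hT.le)
    (bdry p1 h1 pu hA hT hT1 (hb i j) x₁ x₀)
  have b2 : |∫ t in (0 : ℝ)..T, (Real.exp (-((l + 2) * t)) * OU t (D i (D j F)) x₁ -
      Real.exp (-((l + 2) * t)) * OU t (D i (D j F)) x₀)| ≤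
      4 * (4 * (8 * (C2 + n * C3) * K)) * √‖x₁ - x₀‖ := by
    refine int_bound hT q0 (by positivity) fun t ht htT => ?_
    have r0 : 0 < √(√t) := Real.sqrt_pos.2 (Real.sqrt_pos.2 ht)
    rw [← mul_sub]
    refine exp_mul_le (mul_nonneg (by linarith) ht.le) (comb r0 q0 (by positivity) ?_ ?_)
    · have k0 := near p2 h2 pF hK ht (htT.trans hT1) _ (hF 0 t le_rfl zero_le_one ht.le htT) i j
      have k1 := near p2 h2 pF hK ht (htT.trans hT1) _ (hF 1 t zero_le_one le_rfl ht.le htT) i j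
      rw [zero_smul, add_zero] at k0
      rw [one_smul, add_sub_cancel] at k1
      refine (abs_sub _ _).trans ((add_le_add k1 k0).trans ?_)
      rw [← add_div]
      refine div_le_div_of_nonneg_right ?_ (by positivity)
      have : 0 ≤ n * C3 * K := by positivity
      linarith
    · refine (seg (OU_diff t pg) x₀ x₁ fun s hs hs1 k =>
        far p3 h3 pF hK ht (htT.trans hT1) _ (hF s t hs hs1 ht.le htT) i j k).trans ?_
      rw [Real.sq_sqrt ρ0.le, ← mul_div_assoc, div_mul_eq_mul_div]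
      refine div_le_div_of_nonneg_right ?_ (by positivity)
      have : 0 ≤ C2 * K * ‖x₁ - x₀‖ := by positivity
      linarith
  rw [intervalIntegral.integral_sub ((cont x₁).intervalIntegrable _ _)
    ((cont x₀).intervalIntegrable _ _)] at b2
  have d1 := dy x₁
  have d0 := dy x₀
  have u1 : 0 ≤ 2 * n * C1 * (K * √‖x₁ - x₀‖) := by positivity
  have u2 : 0 ≤ 128 * (C2 + n * C3) * (A * ‖x₁ - x₀‖ / √T) := by positivity
  rw [mul_sub] at b1
  rw [abs_le] at b1 b2 ⊢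
  constructor <;> linarith [b1.1, b1.2, b2.1, b2.2]

end Vale.Agent.P227
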