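import Vale.Agent.P227.Ident

/-! One Euler step: the new potential. -/

namespace Vale.Agent.P227

open scoped ContDiff Matrix RealInnerProductSpace Topology
open MeasureTheory Filter

variable {n : ℕ}

namespace StepAX

theorem alg {H Φ τ τ' T Ψ : Mat n} {δ : ℝ} (h1 : τ * H = 1) (h2 : (H + δ • Φ) * τ' = 1) :
    δ * (-(τ * T * τ) * Φ + τ * Ψ).trace - (τ' * (T + δ • Ψ)).trace + (τ * T).trace =
      δ ^ 2 * ((τ * Φ * τ' * Ψ).trace - (τ * Φ * τ * Φ * τ' * T).trace) := by
  have e1 : τ = τ' + δ • (τ * Φ * τ') := by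
    calc τ = τ * ((H + δ • Φ) * τ') := by rw [h2, Matrix.mul_one]
      _ = τ' + δ • (τ * Φ * τ') := by
        rw [← Matrix.mul_assoc, Matrix.mul_add, h1, Matrix.add_mul, Matrix.one_mul,
          Matrix.mul_smul, Matrix.smul_mul]
  have e2 : ∀ X : Mat n, (τ * X).trace = (τ' * X).trace + δ * (τ * Φ * τ' * X).trace := by
    intro X
    conv_lhs => rw [e1]
    rw [Matrix.add_mul, Matrix.trace_add, Matrix.smul_mul, Matrix.trace_smul, smul_eq_mul]
  have e3 : (τ * T * τ * Φ).trace =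
      (τ * Φ * τ' * T).trace + δ * (τ * Φ * τ * Φ * τ' * T).trace := by
    have a1 : (τ * T * τ * Φ).trace = (τ * Φ * τ * T).trace := by
      rw [Matrix.mul_assoc (τ * T), Matrix.trace_mul_comm, ← Matrix.mul_assoc]
    have a2 : τ * Φ * τ = τ * Φ * τ' + δ • (τ * Φ * τ * Φ * τ') := by
      conv_lhs => rw [show τ * Φ * τ = τ * Φ * (τ' + δ • (τ * Φ * τ')) by rw [← e1]]
      rw [Matrix.mul_add, Matrix.mul_smul]
      simp only [Matrix.mul_assoc]
    rw [a1]
    conv_lhs => rw [a2]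
    rw [Matrix.add_mul, Matrix.trace_add, Matrix.smul_mul, Matrix.trace_smul, smul_eq_mul]
  rw [Matrix.trace_add, Matrix.neg_mul, Matrix.trace_neg, Matrix.mul_add, Matrix.trace_add,
    Matrix.mul_smul, Matrix.trace_smul, smul_eq_mul, e3, e2 T, e2 Ψ]
  ring

end StepAX

open StepAX in
/-- Put `h' = h + δ Φ`, `τ' = h'⁻¹`, `Er = log det h' - log det h - δ tr (τ Φ)` and
`W' = W + δ Aop τ (-1) θ - Er`. By `D_logdet`, `MD_tau` and `τ' = τ - δ τ Φ τ'`,
`D i Er = δ² (tr (τΦτΦτ' T_i) - tr (τΦτ' Ψ_i))`, `T_i = hess (D i Θ)`, `Ψ_i = hess (D i θ)`; this is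
`Binf`, so `Er` is `Sm` (`sm_of_D`). The `grad` field follows from `D_logdet`, `D_rad`. -/
theorem stepA {Θ W θ : E n → ℝ} {δ c' : ℝ} (h : Pot Θ W) (hθ : Sm θ) (he : Ev θ)
    (hr : Sm (rad θ)) (hc' : 0 < c')
    (hl : ∀ x ξ, c' * ‖ξ‖ ^ 2 ≤ qf (hess Θ x + δ • hess θ x) ξ) :
    ∃ W' : E n → ℝ, Pot (fun x => Θ x + δ * θ x) W' ∧ ∀ i,
      D i (fun x => W' x - W x - δ * Aop (tau Θ) (-1) θ x) = fun x => δ ^ 2 *
        ((tau Θ x * hess θ x * tau (fun y => Θ y + δ * θ y) x * hess (D i θ) x).trace -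
          (tau Θ x * hess θ x * tau Θ x * hess θ x * tau (fun y => Θ y + δ * θ y) x *
            hess (D i Θ) x).trace) := by
  have sT := h.sT
  have sθ := hθ.smo
  have sδ : ContDiff ℝ ∞ fun x => δ * θ x := contDiff_const.mul sθ
  have sT' : ContDiff ℝ ∞ fun x => Θ x + δ * θ x := sT.add sδ
  have mT' : Sm fun x => Θ x + δ * θ x := h.mT.add (hθ.const_mul δ)
  have eT' : Ev fun x => Θ x + δ * θ x := fun x => by simp only [h.eT x, he x]
  have hH : ∀ x, hess (fun y => Θ y + δ * θ y) x = hess Θ x + δ • hess θ x := fun x => by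
    rw [hess_add sT sδ, hess_const_mul δ sθ]
  have hl' : ∀ x ξ, c' * ‖ξ‖ ^ 2 ≤ qf (hess (fun y => Θ y + δ * θ y) x) ξ := fun x ξ => by
    rw [hH]; exact hl x ξ
  have hp : ∀ x, (hess (fun y => Θ y + δ * θ y) x).PosDef := fun x =>
    posDef_of_qf (hess_symm sT' x) hc' (hl' x)
  have hu : ∀ x, IsUnit (hess (fun y => Θ y + δ * θ y) x).det := fun x =>
    (Matrix.isUnit_iff_isUnit_det _).1 (hp x).isUnit
  have hb : MBinf (tau fun y => Θ y + δ * θ y) := by
    refine MBinf.inv mT'.mbinf hu (K' := 1 / c') fun x i j => ?_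
    refine abs_entry_le (psd_isSymm (hp x).inv.posSemidef) (fun ξ => ?_) i j
    rw [abs_of_nonneg (qf_nonneg (hp x).inv.posSemidef ξ)]
    exact qf_inv_upper (hess_symm sT' x) hc' (hl' x) ξ
  have hD : ∀ i, D i (fun y => Θ y + δ * θ y) = fun y => D i Θ y + δ * D i θ y := fun i => by
    rw [D_add i (smo_diff sT) (smo_diff sδ), D_const_mul i δ (smo_diff sθ)]
  have hT : ∀ i x, hess (D i fun y => Θ y + δ * θ y) x = hess (D i Θ) x + δ • hess (D i θ) x :=
    fun i x => by
      rw [hD, hess_add (smo_D i sT) (contDiff_const.mul (smo_D i sθ)),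
        hess_const_mul δ (smo_D i sθ)]
  have s1 := smo_logdet (msmo_hess sT') hp
  have s2 := smo_logdet (msmo_hess sT) h.pos
  have s3 : ContDiff ℝ ∞ fun x => (tau Θ x * hess θ x).trace :=
    (h.toLPot.msmo.mul (msmo_hess sθ)).trace
  have s4 : ContDiff ℝ ∞ fun x => δ * (tau Θ x * hess θ x).trace := contDiff_const.mul s3
  have s5 : ContDiff ℝ ∞ fun x => δ * (rad θ x - θ x) := contDiff_const.mul (hr.smo.sub sθ)
  have d1 : ∀ i, D i (fun x => Real.log (hess (fun y => Θ y + δ * θ y) x).det) = fun x =>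
      (tau (fun y => Θ y + δ * θ y) x * hess (D i fun y => Θ y + δ * θ y) x).trace := fun i => by
    rw [D_logdet i (msmo_hess sT') hp]
    funext x
    rw [MD_hess i sT']
    rfl
  have d2 : ∀ i, D i (fun x => Real.log (hess Θ x).det) = fun x =>
      (tau Θ x * hess (D i Θ) x).trace := fun i => by
    rw [D_logdet i (msmo_hess sT) h.pos]
    funext x
    rw [MD_hess i sT]
    rfl
  have dE : ∀ i, D i (fun x => δ * (tau Θ x * hess θ x).trace -
      Real.log (hess (fun y => Θ y + δ * θ y) x).det + Real.log (hess Θ x).det) = fun x => δ ^ 2 *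
        ((tau Θ x * hess θ x * tau (fun y => Θ y + δ * θ y) x * hess (D i θ) x).trace -
          (tau Θ x * hess θ x * tau Θ x * hess θ x * tau (fun y => Θ y + δ * θ y) x *
            hess (D i Θ) x).trace) := fun i => by
    rw [D_add i (smo_diff (s4.sub s1)) (smo_diff s2), D_sub i (smo_diff s4) (smo_diff s1),
      D_const_mul i δ (smo_diff s3), D_trace i (h.toLPot.msmo.mul (msmo_hess sθ)), d1, d2]
    funext x
    simp only
    rw [MD_mul i h.toLPot.msmo (msmo_hess sθ), h.toLPot.MD_tau, MD_hess i sθ, hT]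
    refine alg (h.toLPot.tau_mul x) ?_
    rw [← hH]
    exact Matrix.mul_nonsing_inv _ (hu x)
  have mE : Sm fun x => δ * (tau Θ x * hess θ x).trace -
      Real.log (hess (fun y => Θ y + δ * θ y) x).det + Real.log (hess Θ x).det := by
    refine sm_of_D ((s4.sub s1).add s2) fun i => ?_
    rw [dE]
    have b1 := h.mbinf.mul hθ.mbinf
    exact ((((b1.mul hb).mul (hθ.D i).mbinf).trace).sub
      ((((b1.mul h.mbinf).mul hθ.mbinf).mul hb).mul (h.mT.D i).mbinf).trace).const_mul _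
  have eA : ∀ x, δ * (rad θ x - θ x) =
      δ * Aop (tau Θ) (-1) θ x + δ * (tau Θ x * hess θ x).trace := fun x => by
    simp only [Aop, Lop_eq_trace _ sθ]
    ring
  refine ⟨fun x => W x + δ * (rad θ x - θ x) - Real.log (hess (fun y => Θ y + δ * θ y) x).det +
    Real.log (hess Θ x).det, ⟨⟨sT', ((h.sW.add s5).sub s1).add s2, hp, fun i x => ?_⟩, mT', ?_,
    eT', fun x => ?_, c', hc', hl'⟩, fun i => ?_⟩
  · rw [D_add i (smo_diff ((h.sW.add s5).sub s1)) (smo_diff s2),
      D_sub i (smo_diff (h.sW.add s5)) (smo_diff s1), D_add i (smo_diff h.sW) (smo_diff s5),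
      D_const_mul i δ (smo_diff (hr.smo.sub sθ)), D_sub i (smo_diff hr.smo) (smo_diff sθ),
      D_rad i sθ, d1, d2]
    have e : ∑ a, x a * hess (fun y => Θ y + δ * θ y) x a i =
        ∑ a, x a * hess Θ x a i + δ * rad (D i θ) x := by
      rw [hH, rad, Finset.mul_sum, ← Finset.sum_add_distrib]
      refine Finset.sum_congr rfl fun a _ => ?_
      rw [Matrix.add_apply, Matrix.smul_apply, smul_eq_mul, hess_apply θ]
      ring
    simp only [h.grad i x]
    rw [e]
    ring
  · have := (h.mW.add ((hθ.Aop hr h.mbinf (-1)).const_mul δ)).add mE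
    refine (congrArg Sm (funext fun x => ?_)).mp this
    rw [eA]
    ring
  · simp only [h.eW x, he x, he.rad sθ x, eT'.hess_neg sT' x, h.eT.hess_neg sT x]
  · rw [← dE]
    refine congrArg (D i) (funext fun x => ?_)
    simp only [eA]
    ring

end Vale.Agent.P227
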