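import Mathlib

/-! The two notions used in the statement of the logarithmic Brunn-Minkowski inequality. -/

namespace Vale.Agent.P227

open scoped RealInnerProductSpace

/-- Support function `h_K(u) = max_{x ∈ K} ⟪x, u⟫`. -/
noncomputable def supp {n : ℕ} (K : Set (EuclideanSpace ℝ (Fin n)))
    (u : EuclideanSpace ℝ (Fin n)) : ℝ :=
  sSup ((fun x => ⟪x, u⟫) '' K)

/-- Wulff body `⋂_{u ∈ S^{n-1}} {x : ⟪x, u⟫ ≤ f u}` (only the values of `f` on the unit sphere
are used). -/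
def wulff {n : ℕ} (f : EuclideanSpace ℝ (Fin n) → ℝ) : Set (EuclideanSpace ℝ (Fin n)) :=
  {x | ∀ u : EuclideanSpace ℝ (Fin n), ‖u‖ = 1 → ⟪x, u⟫ ≤ f u}

end Vale.Agent.P227
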