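import Vale.Agent.P227.Conc

/-! The inequality for finite intersections of strips and a Gaussian weight. -/

namespace Vale.Agent.P227

open scoped ContDiff Matrix RealInnerProductSpace Topology
open MeasureTheory Filter

variable {n : ℕ}

namespace StripX

theorem measurable_strips {k : ℕ} (u : Fin k → E n) (γ : Fin k → ℝ) :
    MeasurableSet (strips u γ) := by
  have : strips u γ = ⋂ m, {x : E n | |⟪u m, x⟫| ≤ γ m} := by
    ext x; simp [strips]
  rw [this]
  exact MeasurableSet.iInter fun m => (isClosed_le (by fun_prop) continuous_const).measurableSet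

theorem lim {k : ℕ} {ε : ℝ} (hε : 0 < ε) (u : Fin k → E n) {γ : Fin k → ℝ} (hγ : ∀ m, 0 < γ m)
    {w : ℝ → ℝ} (hw : RW w) (h1 : ∀ s, |s| ≤ 1 → w s = 0) (h2 : ∀ s, 1 < |s| → 0 < w s) :
    Tendsto (fun j : ℕ => Ex (VR ε (fun m => (γ m)⁻¹ • u m) fun s => j * w s) fun _ => 1) atTop
      (𝓝 (gm ε (strips u γ))) := by
  have hc := hw.smo.continuous
  have habs : ∀ m x, |⟪(γ m)⁻¹ • u m, x⟫| = |⟪u m, x⟫| / γ m := by
    intro m x
    rw [real_inner_smul_left, abs_mul, abs_of_pos (inv_pos.2 (hγ m)), inv_mul_eq_div]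
  unfold gm Ex
  rw [← integral_indicator (measurable_strips u γ)]
  refine tendsto_integral_of_dominated_convergence (fun x => 1 * Real.exp (-(ε * ‖x‖ ^ 2)))
    (fun j => Continuous.aestronglyMeasurable (by unfold VR; fun_prop))
    (integrable_Ex (W := fun x : E n => ε * ‖x‖ ^ 2) ⟨ε, 0, hε, fun x => by simp⟩ (by fun_prop)
      (cpb_const 1)) (fun j => Eventually.of_forall fun x => ?_) (Eventually.of_forall fun x => ?_)
  · rw [one_mul, one_mul, Real.norm_of_nonneg (Real.exp_pos _).le, Real.exp_le_exp, neg_le_neg_iff]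
    exact le_add_of_nonneg_right
      (Finset.sum_nonneg fun m _ => mul_nonneg (Nat.cast_nonneg j) (hw.nonneg _))
  · by_cases hx : x ∈ strips u γ
    · rw [Set.indicator_of_mem hx]
      have : ∀ m, w ⟪(γ m)⁻¹ • u m, x⟫ = 0 := fun m =>
        h1 _ (by rw [habs, div_le_one (hγ m)]; exact hx m)
      simp [VR, this]
    · rw [Set.indicator_of_notMem hx]
      obtain ⟨m, hm⟩ : ∃ m, γ m < |⟪u m, x⟫| := by simpa [strips] using hx
      have hS : 0 < ∑ m, w ⟪(γ m)⁻¹ • u m, x⟫ :=
        Finset.sum_pos' (fun m _ => hw.nonneg _)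
          ⟨m, Finset.mem_univ m, h2 _ (by rw [habs, one_lt_div (hγ m)]; exact hm)⟩
      have := (tendsto_pow_atTop_nhds_zero_of_lt_one (Real.exp_pos _).le
        (Real.exp_lt_one_iff.2 (neg_lt_zero.2 hS))).const_mul (Real.exp (-(ε * ‖x‖ ^ 2)))
      rw [mul_zero] at this
      refine this.congr fun j => ?_
      rw [← Real.exp_nat_mul, ← Real.exp_add, one_mul]
      simp only [VR, ← Finset.mul_sum]
      congr 1
      ring

theorem coef {a b : ℝ} (ha : 0 < a) (hb : 0 < b) (t : ℝ) (v : E n) :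
    Real.exp (-(Real.log (b / a) * t)) • a⁻¹ • v = (a ^ (1 - t) * b ^ t)⁻¹ • v := by
  rw [smul_smul, Real.rpow_def_of_pos ha, Real.rpow_def_of_pos hb, ← Real.exp_add, ← Real.exp_neg,
    Real.log_div hb.ne' ha.ne']
  congr 1
  nth_rw 2 [← Real.exp_log ha]
  rw [← Real.exp_neg, ← Real.exp_add]
  congr 1
  ring

end StripX

/-- `a m = (α m)⁻¹ • u m`, `d m = log (β m / α m)`, profiles `j * w` (`exists_profile`,
`RW.smul`). For each `t`, `ZR ε a d (j w) t → gm ε (strips u (α^(1-t) β^t))` as `j → ∞` by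
dominated convergence; pass to the limit in `conc`. -/
theorem strip {k : ℕ} {ε : ℝ} (hε : 0 < ε) (u : Fin k → E n) {α β : Fin k → ℝ}
    (hα : ∀ m, 0 < α m) (hβ : ∀ m, 0 < β m) {l : ℝ} (h0 : 0 ≤ l) (h1 : l ≤ 1) :
    gm ε (strips u α) ^ (1 - l) * gm ε (strips u β) ^ l ≤
      gm ε (strips u fun m => α m ^ (1 - l) * β m ^ l) := by
  obtain ⟨w, hw, w1, w2⟩ := exists_profile
  have key : ∀ t : ℝ, Tendsto (fun j : ℕ => ZR ε (fun m => (α m)⁻¹ • u m)
      (fun m => Real.log (β m / α m)) (fun s => j * w s) t) atTop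
      (𝓝 (gm ε (strips u fun m => α m ^ (1 - t) * β m ^ t))) := by
    intro t
    have := StripX.lim hε u (γ := fun m => α m ^ (1 - t) * β m ^ t)
      (fun m => mul_pos (Real.rpow_pos_of_pos (hα m) _) (Real.rpow_pos_of_pos (hβ m) _)) hw w1 w2
    simpa only [ZR, StripX.coef (hα _) (hβ _)] using this
  have k0 := key 0
  have k1 := key 1
  simp only [sub_zero, Real.rpow_one, Real.rpow_zero, mul_one] at k0
  simp only [sub_self, Real.rpow_one, Real.rpow_zero, one_mul] at k1
  exact le_of_tendsto_of_tendsto' ((k0.rpow_const (Or.inr (by linarith))).mul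
    (k1.rpow_const (Or.inr h0))) (key l) fun j =>
      conc (hw.smul (Nat.cast_nonneg j)) hε _ _ h0 h1

end Vale.Agent.P227
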