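import Vale.Agent.P227.Key

/-! The variance inequality for a moment potential. -/

namespace Vale.Agent.P227

open scoped ContDiff Matrix RealInnerProductSpace Topology
open MeasureTheory Filter

variable {n : ℕ}

namespace VarAux

variable {Θ W : E n → ℝ}

theorem approx (h : Pot Θ W) (h1 : ASolv (tau Θ) (-1)) (h0 : ASolv (tau Θ) 0) {f : E n → ℝ}
    (hs : Sm f) (he : Ev f) : ∃ K : ℝ, ∀ ε : ℝ, 0 < ε → ∃ (φ ψ : E n → ℝ) (a : ℝ), PG φ ∧ PG ψ ∧
      (∀ x, FF Θ φ x = ψ x + a - f x) ∧ ∀ x, |ψ x| ≤ ε * (n ^ 2 * (K + 2 * ‖x‖ ^ 2)) := by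
  obtain ⟨c, K, hc, hK, hE⟩ := h.ell
  refine ⟨K, fun ε hε => ?_⟩
  obtain ⟨u, u1, u2, -, u4⟩ := h0 (fun x => -f x) hs.neg (fun x => congrArg Neg.neg (he x)) ε hε
  obtain ⟨φ, p1, p2, -, p4⟩ := h1 (fun x => -u x) u1.neg (fun x => congrArg Neg.neg (u2 x)) ε hε
  set r₁ : E n → ℝ := fun x => Aop (tau Θ) 0 u x - -f x with hr₁
  set r₂ : E n → ℝ := fun x => Aop (tau Θ) (-1) φ x - -u x with hr₂
  have g1 : PG r₁ := (u1.pg.Aop h.mpg 0).sub hs.pg.neg
  have g2 : PG r₂ := (p1.pg.Aop h.mpg (-1)).sub u1.pg.neg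
  have e1 : Ev r₁ := fun x => by
    simp only [hr₁]
    rw [u2.Aop u1.smo h.tau_neg 0 x, he x]
  have e2 : Ev r₂ := fun x => by
    simp only [hr₂]
    rw [p2.Aop p1.smo h.tau_neg (-1) x, u2 x]
  refine ⟨φ, fun x => (r₁ x - r₁ 0) + Lop (tau Θ) r₂ x, r₁ 0, p1.pg,
    (g1.sub (pg_const _)).add (g2.Lop h.mpg), fun x => ?_, fun x => ?_⟩
  · have a1 : uu Θ φ = fun x => u x - r₂ x := by
      funext y
      simp only [uu, hr₂, Aop]
      ring
    rw [FF, a1, Lop_sub _ u1.smo g2.smo]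
    simp only [hr₁, Aop]
    ring
  · have a1 := e1.abs_sub_le g1.smo u4.abs_le x
    have a2 := e2.abs_rad_le g2.smo p4.abs_le x
    have a3 : |∑ i, ∑ j, tau Θ x i j * D i (D j r₂) x| ≤ n ^ 2 * (K * ε) := by
      refine (Finset.abs_sum_le_sum_abs _ _).trans ?_
      have : ∀ i ∈ Finset.univ, |∑ j, tau Θ x i j * D i (D j r₂) x| ≤ n * (K * ε) := by
        intro i _
        refine (Finset.abs_sum_le_sum_abs _ _).trans ?_
        have : ∀ j ∈ Finset.univ, |tau Θ x i j * D i (D j r₂) x| ≤ K * ε := fun j _ => by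
          rw [abs_mul]
          exact mul_le_mul ((hE x).abs_le hc.le i j) (p4.abs_le i j x) (abs_nonneg _) hK.le
        simpa using Finset.sum_le_card_nsmul _ _ _ this
      have := Finset.sum_le_card_nsmul _ _ _ this
      simp only [Finset.card_univ, Fintype.card_fin, nsmul_eq_mul] at this
      linarith
    have a4 := abs_add_le (r₁ x - r₁ 0) (Lop (tau Θ) r₂ x)
    have a5 := abs_sub (∑ i, ∑ j, tau Θ x i j * D i (D j r₂) x) (rad r₂ x)
    have a6 : Lop (tau Θ) r₂ x = (∑ i, ∑ j, tau Θ x i j * D i (D j r₂) x) - rad r₂ x := rfl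
    rw [← a6] at a5
    linarith

end VarAux

/-- For `ε > 0`: `u₁` from `ASolv 0` with data `-f`, `φ` from `ASolv (-1)` with data `-u₁`;
`r₁ = Aop τ 0 u₁ + f`, `r₂ = Aop τ (-1) φ + u₁` are even with `N2 1 ε`, and
`FF = - f + r₁ + L r₂`, `E FF = 0`. With `g = f - mean`, `ρ = FF + g` is the centred version of
`ψ = r₁ - r₁ 0 + L r₂`, `|ψ| ≤ C ε (1 + |x|²)` (`Ev.abs_sub_le`, `Ev.abs_rad_le`), so
`E ρ² ≤ E ψ² ≤ C' ε²`. In `key`, `E f FF = E g FF`, and the cross terms `E g ρ` cancel: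
`E g² ≤ E R + E ρ²`. Let `ε → 0`. -/
theorem var_pot {Θ W : E n → ℝ} (h : Pot Θ W) (hW : Coer W) (h1 : ASolv (tau Θ) (-1))
    (h0 : ASolv (tau Θ) 0) {k : ℕ} {Wm : Fin k → E n → ℝ} (d : Fin k → ℝ) (hm : ∀ m, PG (Wm m))
    (hp : ∀ m x, (hess (Wm m) x).PosSemidef)
    (hd : ∀ x, (hess W x - ∑ m, hess (Wm m) x).PosSemidef)
    (hs : Sm (fG Wm d)) (he : Ev (fG Wm d)) : VarIneq W (fG Wm d) (RG Wm d) := by
  have cW := h.sW.continuous
  obtain ⟨K, hK⟩ := VarAux.approx h h1 h0 hs he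
  set f := fG Wm d with hf
  have hZ := Ex_one_pos hW cW
  set Z := Ex W (fun _ => 1) with hZ'
  have cb : CPB fun x : E n => ((n : ℝ) ^ 2 * (K + 2 * ‖x‖ ^ 2)) ^ 2 :=
    ((((cpb_const K).add ((cpb_norm.pow 2).const_mul 2)).const_mul _).pow 2)
  set I := Ex W fun x : E n => ((n : ℝ) ^ 2 * (K + 2 * ‖x‖ ^ 2)) ^ 2 with hI
  have main : ∀ ε : ℝ, 0 < ε → Z * Ex W (fun x => f x ^ 2) - Ex W f ^ 2 ≤
      Z * Ex W (RG Wm d) + ε ^ 2 * (Z * I) := by
    intro ε hε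
    obtain ⟨φ, ψ, a, p1, p2, p3, p4⟩ := hK ε hε
    have cf := hs.pg.cpb
    have cF := (h.pg_FF p1).cpb
    have cψ := p2.cpb
    have k1 := key h hW p1 d hm hp hd
    have k2 : Ex W (FF Θ φ) = 0 := by
      have := Ex_neg W (Lop (tau Θ) (uu Θ φ))
      rw [h.Ex_L hW (h.pg_uu p1), neg_zero] at this
      exact this
    have k3 : Ex W (FF Θ φ) = Ex W ψ + a * Z - Ex W f := by
      rw [funext p3, Ex_sub hW cW (cψ.add (cpb_const a)) cf, Ex_add hW cW cψ (cpb_const a),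
        Ex_const]
    have k4 : Ex W (fun x => FF Θ φ x ^ 2) + 2 * Ex W (fun x => f x * FF Θ φ x) +
        Ex W (fun x => f x ^ 2) = Ex W (fun x => ψ x ^ 2) + 2 * a * Ex W ψ + a ^ 2 * Z := by
      rw [← Ex_const_mul, ← Ex_add hW cW (cF.pow 2) ((cf.mul cF).const_mul 2),
        ← Ex_add hW cW ((cF.pow 2).add ((cf.mul cF).const_mul 2)) (cf.pow 2), ← Ex_const,
        ← Ex_const_mul, ← Ex_add hW cW (cψ.pow 2) (cψ.const_mul _),
        ← Ex_add hW cW ((cψ.pow 2).add (cψ.const_mul _)) (cpb_const _)]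
      congr 1
      funext x
      rw [p3]
      ring
    have k5 : Ex W (fun x => ψ x ^ 2) ≤ ε ^ 2 * I := by
      rw [hI, ← Ex_const_mul]
      refine Ex_mono hW cW (cψ.pow 2) (cb.const_mul _) fun x => ?_
      rw [← mul_pow, ← sq_abs (ψ x)]
      exact pow_le_pow_left₀ (abs_nonneg _) (p4 x) 2
    have k6 : Ex W f = Ex W ψ + a * Z := by linarith
    have k7 : Ex W (fun x => f x ^ 2) ≤ Ex W (RG Wm d) + ε ^ 2 * I + 2 * a * Ex W ψ + a ^ 2 * Z := by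
      linarith
    have k8 := mul_le_mul_of_nonneg_left k7 hZ.le
    rw [k6]
    nlinarith [sq_nonneg (Ex W ψ)]
  have lim : Tendsto (fun ε : ℝ => Z * Ex W (RG Wm d) + ε ^ 2 * (Z * I)) (𝓝[>] 0)
      (𝓝 (Z * Ex W (RG Wm d))) := by
    have : Continuous fun ε : ℝ => Z * Ex W (RG Wm d) + ε ^ 2 * (Z * I) := by fun_prop
    simpa using (this.tendsto 0).mono_left (nhdsWithin_le_nhds (s := Set.Ioi 0))
  exact ge_of_tendsto lim (eventually_mem_nhdsWithin.mono main)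

end Vale.Agent.P227
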